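import Crest.Agent.R302.Fst
import Crest.Agent.R309.Square
import Crest.Agent.R309.Lor

/-!
# R302/BL: a discrete Brascamp-Lieb inequality, and log-concavity in the terminals (TASK)

For an energy `Φ` on count vectors and any `top`, let `μ c = if c ≤ top then exp (- Φ c) else 0`.  In the link of `τ ≤ top` let `w = μ τ`, `x a = η a * μ (τ + dl a) / w`.
If `τ + dl a ≤ top` and `τ + dl b ≤ top`, `a ≠ b`, then `τ + dl a + dl b ≤ top` and `μ (τ + a + b) * w = μ (τ + a) μ (τ + b) exp (- dd Φ τ a b)`; on the diagonal `≤` holds; if `τ + dl a ≰ top` everything with `a` vanishes.  So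
`∑ η a η b μ (τ + a + b) ≤ w (∑ x a)² - w ∑ x a x b (1 - exp (- dd Φ τ a b))`  (`link_le`).  With `lor_of_le` this gives a `Model`.
-/

set_option autoImplicit false
set_option linter.unusedSectionVars false

namespace Crest.Agent.R302

open Finset Crest.Agent.R309

variable {U T : Type} [Fintype U] [DecidableEq U] [Fintype T] [DecidableEq T]

section link

variable {E : Type} [Fintype E] [DecidableEq E]

open Classical in
/-- the truncated Gibbs weight -/
noncomputable def blMu (Φ : (E → ℤ) → ℝ) (top c : E → ℤ) : ℝ :=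
  if c ≤ top then Real.exp (- Φ c) else 0

theorem blMu_pos (Φ : (E → ℤ) → ℝ) {top c : E → ℤ} (h : c ≤ top) :
    blMu Φ top c = Real.exp (- Φ c) := by
  unfold blMu
  rw [if_pos h]

theorem blMu_zero (Φ : (E → ℤ) → ℝ) {top c : E → ℤ} (h : ¬ c ≤ top) : blMu Φ top c = 0 := by
  unfold blMu
  rw [if_neg h]

theorem blMu_nonneg (Φ : (E → ℤ) → ℝ) (top c : E → ℤ) : 0 ≤ blMu Φ top c := by
  by_cases h : c ≤ top
  · rw [blMu_pos Φ h]; exact (Real.exp_pos _).le
  · rw [blMu_zero Φ h]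

theorem link_le (Φ : (E → ℤ) → ℝ) (top τ : E → ℤ) (η : E → ℝ) :
    ∑ a, ∑ b, η a * η b * blMu Φ top (τ + dl a + dl b) ≤
      (∑ a, η a * (blMu Φ top (τ + dl a) * Real.exp (Φ τ / 2))) ^ 2 -
        ∑ a, ∑ b, η a * (blMu Φ top (τ + dl a) * Real.exp (Φ τ / 2)) *
          (η b * (blMu Φ top (τ + dl b) * Real.exp (Φ τ / 2))) * (1 - Real.exp (- dd Φ τ a b)) := by
  rw [sq, sum_mul_sum, ← sum_sub_distrib]
  refine sum_le_sum fun a _ => ?_
  rw [← sum_sub_distrib]
  refine sum_le_sum fun b _ => ?_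
  have hle : ∀ (c : E → ℤ) (a : E), c + dl a ≤ top → c ≤ top := fun c a h x =>
    le_trans (by simpa using dl_nonneg a x) (h x)
  have e0 : ∀ p q : ℝ, p - p * (1 - q) = p * q := fun p q => by ring
  rw [e0]
  by_cases hab : τ + dl a + dl b ≤ top
  · have ha : τ + dl a ≤ top := hle _ _ hab
    have hb : τ + dl b ≤ top := hle _ a (by rwa [add_right_comm])
    refine le_of_eq ?_
    rw [blMu_pos Φ hab, blMu_pos Φ ha, blMu_pos Φ hb]
    have : Real.exp (- Φ (τ + dl a + dl b)) =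
        Real.exp (- Φ (τ + dl a)) * Real.exp (Φ τ / 2) *
          (Real.exp (- Φ (τ + dl b)) * Real.exp (Φ τ / 2)) * Real.exp (- dd Φ τ a b) := by
      simp only [← Real.exp_add, dd]
      congr 1
      ring
    rw [this]
    ring
  · rw [blMu_zero Φ hab, mul_zero]
    by_cases e : a = b
    · subst e
      exact mul_nonneg (mul_self_nonneg _) (Real.exp_pos _).le
    · have : ¬ τ + dl a ≤ top ∨ ¬ τ + dl b ≤ top := by
        by_contra hc
        push Not at hc
        apply hab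
        intro x
        by_cases hx : x = a
        · subst hx
          have := hc.1 x
          simpa [dl_ne e] using this
        · have := hc.2 x
          simpa [dl_ne hx] using this
      rcases this with h | h
      · simp [blMu_zero Φ h]
      · simp [blMu_zero Φ h]

/-- the truncated Gibbs weight as a model -/
noncomputable def blModel (Φ : (E → ℤ) → ℝ)
    (H : ∀ (c : E → ℤ) (x : E → ℝ), 0 ≤ ∑ a, ∑ b, x a * x b * (1 - Real.exp (- dd Φ c a b)))
    (top : E → ℤ) : Model E where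
  μ := blMu Φ top
  top := top
  pos c hc := by rw [blMu_pos Φ hc]; exact Real.exp_pos _
  zero c hc := blMu_zero Φ hc
  lor τ y η hy ho := by
    refine lor_of_le (fun a b => blMu Φ top (τ + dl a + dl b))
      (fun a b => by rw [add_right_comm])
      (fun a => blMu Φ top (τ + dl a) * Real.exp (Φ τ / 2)) (fun η => ?_) y ?_
      (blMu_nonneg _ _ _) η ho
    · exact (link_le Φ top τ η).trans (sub_le_self _ (H τ _))
    · rw [blMu_pos Φ hy]
      exact (mul_pos (Real.exp_pos _) (Real.exp_pos _)).ne'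

end link

/-- the top vector of a box -/
def blTop (lo hi : U → ℤ) (tt : T → ℤ) : El U T → ℤ
  | Sum.inl (u, true) => hi u
  | Sum.inl (u, false) => - lo u
  | Sum.inr t => tt t

theorem blTop_le {lo hi : U → ℤ} {tt : T → ℤ} {c : El U T → ℤ} (hX : ∀ u, c (eX u) ≤ hi u)
    (hY : ∀ u, c (eY u) ≤ - lo u) (hT : ∀ t, c (Sum.inr t) ≤ tt t) : c ≤ blTop lo hi tt := by
  intro a
  rcases a with ⟨v, _ | _⟩ | t
  · exact hY v
  · exact hX v
  · exact hT t

theorem blModel_bx (Φ : (El U T → ℤ) → ℝ)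
    (H : ∀ (c : El U T → ℤ) (x : El U T → ℝ),
      0 ≤ ∑ a, ∑ b, x a * x b * (1 - Real.exp (- dd Φ c a b)))
    (lo hi : U → ℤ) (tt : T → ℤ) :
    (blModel Φ H (blTop lo hi tt)).lo = lo ∧ (blModel Φ H (blTop lo hi tt)).hi = hi := by
  constructor
  · funext u
    exact neg_neg (lo u)
  · rfl

theorem bl_df (F : Forest U) (φ : (U → ℤ) → ℝ) (σ : U → ℤ) (u : U) :
    F.df (fun v => φ (σ - dl v) - φ σ) u = φ (σ - dl u) - φ (σ - dl u + F.ed u) := by
  unfold Forest.df
  cases hu : F.par u with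
  | none => rw [F.ed_root hu, sub_add_cancel, Option.elim_none, sub_zero]
  | some p =>
    rw [F.ed_par hu, sub_add_sub_cancel, Option.elim_some]
    ring

/-- Take `top (eX u) = hi u`, `top (eY u) = - lo u`, `top (inr t) = 0`, `w σ = exp (- Φ (diag σ))`, `c` the mean of `φ` (the box may be empty), `m σ = w σ (φ σ - c)`, `V = ∑ w (φ - c)²`.  Take `Fn` from `solve` (`S = univ`, `c₀ = 0`, `boxS_univ`).
For `σ` in the box put `x σ u = grad Fn σ (eY u) * μ (diag σ + eY u) / w σ`, `X = sumD (x σ)`.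
* `V = ∑ φ m = ∑_u ene μ 0 box u Fn φ` (`green`) `= ∑_σ w σ ∑_u x σ u (φ (σ - dl u) - φ σ)` (`sum_shift`) `= ∑_σ w σ ∑_u X u (φ (σ - dl u) - φ (σ - dl u + ed u))` (`abel` for `ψ u = φ (σ - dl u) - φ σ`).
* `0 ≤ ∑_σ Q_σ (grad, grad)` (`squares`, `W = 1`) `≤ ∑_σ (m σ ^ 2 / w σ - w σ ∑_u X u ^ 2 / β u)`, so `∑_σ w ∑ X² / β ≤ V`.
* `X Δ ≤ (X² / β + β Δ²) / 2` gives `V ≤ V / 2 + R / 2`. -/
theorem bl (Φ : (El U T → ℤ) → ℝ) (F : Forest U) (β : U → ℝ) (hβ : ∀ u, 0 < β u)
    (H : ∀ (c : El U T → ℤ) (x : El U T → ℝ), ∑ u, F.sumD (fun v => x (eY v)) u ^ 2 / β u ≤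
      ∑ a, ∑ b, x a * x b * (1 - Real.exp (- dd Φ c a b)))
    (lo hi : U → ℤ) (φ : (U → ℤ) → ℝ) :
    ∃ c : ℝ, ∑ σ ∈ box lo hi, Real.exp (- Φ (diag σ)) * (φ σ - c) ^ 2 ≤
      ∑ σ ∈ box lo hi, Real.exp (- Φ (diag σ)) *
        ∑ u, β u * (φ (σ - dl u) - φ (σ - dl u + F.ed u)) ^ 2 := by
  have H0 : ∀ (c : El U T → ℤ) (x : El U T → ℝ),
      0 ≤ ∑ a, ∑ b, x a * x b * (1 - Real.exp (- dd Φ c a b)) := fun c x =>
    le_trans (sum_nonneg fun u _ => div_nonneg (sq_nonneg _) (hβ u).le) (H c x)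
  rcases (box lo hi).eq_empty_or_nonempty with he | hne
  · exact ⟨0, by rw [he, sum_empty, sum_empty]⟩
  set w : (U → ℤ) → ℝ := fun σ => Real.exp (- Φ (diag σ)) with hw
  have hZ : 0 < ∑ σ ∈ box lo hi, w σ := sum_pos (fun _ _ => Real.exp_pos _) hne
  set c : ℝ := (∑ σ ∈ box lo hi, w σ * φ σ) / ∑ σ ∈ box lo hi, w σ with hc
  refine ⟨c, ?_⟩
  set M := blModel Φ H0 (blTop lo hi (0 : T → ℤ)) with hM
  obtain ⟨hlo, hhi⟩ : M.lo = lo ∧ M.hi = hi := blModel_bx Φ H0 lo hi 0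
  have hbx : M.bx univ 0 = box lo hi := by rw [Model.bx, hlo, hhi, boxS_univ]
  have hμ : M.μ = blMu Φ (blTop lo hi 0) := rfl
  have hoff : Off (T := T) (univ : Finset U) 0 := fun _ _ => ⟨rfl, rfl⟩
  have hvan : Van lo hi univ M.μ := by
    have := M.van univ
    rwa [hlo, hhi] at this
  have hm : ∑ σ ∈ box lo hi, w σ * (φ σ - c) = 0 := by
    simp only [mul_sub, sum_sub_distrib, ← sum_mul]
    rw [hc, mul_div_cancel₀ _ hZ.ne', sub_self]
  obtain ⟨Fn, hF⟩ := solve M univ 0 hoff (fun I hI => by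
      rw [hbx, mem_box] at hI
      rw [zero_add]
      exact blTop_le (fun u => (hI u).2) (fun u => neg_le_neg (hI u).1) (fun t => le_rfl))
    (fun σ => w σ * (φ σ - c)) (by rw [hbx]; exact hm)
  rw [hbx] at hF
  simp only [zero_add] at hF
  set V : ℝ := ∑ σ ∈ box lo hi, w σ * (φ σ - c) ^ 2 with hV
  set y : (U → ℤ) → El U T → ℝ := fun σ a =>
    grad univ Fn σ a * (M.μ (diag σ + dl a) * Real.exp (Φ (diag σ) / 2)) with hy
  set X : (U → ℤ) → U → ℝ := fun σ u => F.sumD (fun v => y σ (eY v)) u with hX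
  set s : (U → ℤ) → ℝ := fun σ => Real.exp (- (Φ (diag σ) / 2)) with hs
  have hss : ∀ σ, s σ ^ 2 = w σ := fun σ => by
    rw [hs, hw, sq, ← Real.exp_add]
    congr 1
    ring
  have hse : ∀ σ, s σ * Real.exp (Φ (diag σ) / 2) = 1 := fun σ => by
    rw [hs, ← Real.exp_add, neg_add_cancel, Real.exp_zero]
  -- the variance as a Dirichlet form
  have h1 : V = ∑ σ ∈ box lo hi, s σ * ∑ u, X σ u * (φ (σ - dl u) - φ (σ - dl u + F.ed u)) := by
    have e1 : V = ∑ σ ∈ box lo hi, φ σ * (w σ * (φ σ - c)) := by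
      have : ∀ σ, w σ * (φ σ - c) ^ 2 = φ σ * (w σ * (φ σ - c)) - c * (w σ * (φ σ - c)) :=
        fun σ => by ring
      rw [hV]
      simp only [this, sum_sub_distrib, ← mul_sum]
      rw [hm, mul_zero, sub_zero]
    have e2 := green (Subset.refl univ) (0 : U → ℤ) hvan hoff Fn φ
    rw [boxS_univ] at e2
    simp only [zero_add] at e2
    have e3 : V = ∑ u, ene M.μ 0 (box lo hi) u Fn φ := by
      rw [e1, ← neg_neg (∑ u, ene M.μ 0 (box lo hi) u Fn φ), ← e2, ← sum_neg_distrib]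
      refine sum_congr rfl fun σ hσ => ?_
      rw [eq_neg_of_add_eq_zero_left (hF σ hσ)]
      ring
    have e4 : ∀ u, ene M.μ 0 (box lo hi) u Fn φ =
        ∑ σ ∈ box lo hi, s σ * (y σ (eY u) * (φ (σ - dl u) - φ σ)) := by
      intro u
      have e5 : ∀ σ, s σ * (y σ (eY u) * (φ (σ - dl u) - φ σ)) =
          M.μ (diag σ + dl (eY u)) * ((Fn (σ - dl u) - Fn σ) * (φ (σ - dl u) - φ σ)) := by
        intro σ
        simp only [hy, grad_Y, mem_univ, if_true]
        linear_combination (M.μ (diag σ + dl (eY u)) * ((Fn (σ - dl u) - Fn σ) *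
          (φ (σ - dl u) - φ σ))) * hse σ
      simp only [e5, ene, zero_add]
      rw [← boxS_univ lo hi 0]
      refine sum_shift (mem_univ u) _ _ (fun I _ h => ?_) (fun I _ h => ?_) (fun I _ _ => ?_)
      · rw [hvan u (mem_univ u) _ (Or.inl ?_), zero_mul]
        simp only [Pi.add_apply, diag_X, dl_self]
        omega
      · rw [hvan u (mem_univ u) _ (Or.inr ?_), zero_mul]
        simp only [Pi.add_apply, diag_Y, dl_self]
        omega
      · rw [diag_add_dl, sub_add_cancel, add_sub_cancel_right]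
        ring
    rw [e3]
    simp only [e4]
    rw [sum_comm]
    refine sum_congr rfl fun σ _ => ?_
    rw [← mul_sum, F.abel (fun v => y σ (eY v)) (fun v => φ (σ - dl v) - φ σ)]
    simp only [bl_df, hX]
  -- the second-order estimate
  have h2 : ∑ σ ∈ box lo hi, ∑ u, X σ u ^ 2 / β u ≤ V := by
    have e1 := squares (Subset.refl univ) (0 : U → ℤ) M.nonneg hvan hoff (fun _ => 1)
      (fun _ _ => zero_le_one) (fun _ _ _ => rfl) Fn
    rw [boxS_univ] at e1
    simp only [zero_add, one_mul] at e1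
    have e2 : ∀ σ ∈ box lo hi, ∑ a, ∑ b, grad univ Fn σ a * grad univ Fn σ b *
        M.μ (diag σ + dl a + dl b) ≤ w σ * (φ σ - c) ^ 2 - ∑ u, X σ u ^ 2 / β u := by
      intro σ hσ
      refine (link_le Φ (blTop lo hi 0) (diag σ) (grad univ Fn σ)).trans ?_
      refine sub_le_sub (le_of_eq ?_) (H (diag σ) (y σ))
      rw [← hμ]
      simp only [← mul_assoc, ← sum_mul]
      rw [← neg_eq_of_add_eq_zero_right (hF σ hσ), ← hss]
      linear_combination (s σ ^ 2 * (φ σ - c) ^ 2 * (s σ * Real.exp (Φ (diag σ) / 2) + 1)) * hse σ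
    have e3 := e1.trans (sum_le_sum e2)
    rw [sum_sub_distrib] at e3
    linarith
  have h3 : V ≤ (∑ σ ∈ box lo hi, ∑ u, X σ u ^ 2 / β u) / 2 +
      (∑ σ ∈ box lo hi, w σ * ∑ u, β u * (φ (σ - dl u) - φ (σ - dl u + F.ed u)) ^ 2) / 2 := by
    rw [h1, sum_div, sum_div, ← sum_add_distrib]
    refine sum_le_sum fun σ _ => ?_
    rw [mul_sum, mul_sum, sum_div, sum_div, ← sum_add_distrib]
    refine sum_le_sum fun u _ => ?_
    rw [← hss]
    generalize φ (σ - dl u) - φ (σ - dl u + F.ed u) = Δ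
    have hb := hβ u
    have : X σ u ^ 2 / β u / 2 + s σ ^ 2 * (β u * Δ ^ 2) / 2 - s σ * (X σ u * Δ) =
        (X σ u - β u * (s σ * Δ)) ^ 2 / (2 * β u) := by
      field_simp
      ring
    have h5 : 0 ≤ (X σ u - β u * (s σ * Δ)) ^ 2 / (2 * β u) := by positivity
    linarith
  linarith

/-- `marg_lc` with `top (inr t) = c₀ (inr t) + 2`, `S = univ` -/
theorem term_lc (Φ : (El U T → ℤ) → ℝ)
    (H : ∀ (c : El U T → ℤ) (x : El U T → ℝ),
      0 ≤ ∑ a, ∑ b, x a * x b * (1 - Real.exp (- dd Φ c a b)))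
    (lo hi : U → ℤ) (c₀ : El U T → ℤ) (hc : ∀ u, c₀ (eX u) = 0 ∧ c₀ (eY u) = 0) (a b : T) :
    (∑ σ ∈ box lo hi, Real.exp (- Φ (c₀ + diag σ + dl (Sum.inr a) + dl (Sum.inr a)))) *
        (∑ σ ∈ box lo hi, Real.exp (- Φ (c₀ + diag σ + dl (Sum.inr b) + dl (Sum.inr b)))) ≤
      (∑ σ ∈ box lo hi, Real.exp (- Φ (c₀ + diag σ + dl (Sum.inr a) + dl (Sum.inr b)))) ^ 2 := by
  set M := blModel Φ H (blTop lo hi fun t => c₀ (Sum.inr t) + 2) with hM
  obtain ⟨hlo, hhi⟩ : M.lo = lo ∧ M.hi = hi := blModel_bx Φ H lo hi _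
  have hbx : M.bx univ 0 = box lo hi := by rw [Model.bx, hlo, hhi, boxS_univ]
  have hoff : ∀ t : T, Off (univ : Finset U) (dl (Sum.inr t : El U T)) := fun t u _ =>
    ⟨dl_ne Sum.inl_ne_inr, dl_ne Sum.inl_ne_inr⟩
  have hle : ∀ σ ∈ box lo hi, ∀ s t : T,
      c₀ + diag σ + dl (Sum.inr s) + dl (Sum.inr t) ≤ M.top := by
    intro σ hσ s t
    rw [mem_box] at hσ
    refine blTop_le (fun u => ?_) (fun u => ?_) (fun r => ?_)
    · simp only [Pi.add_apply, (hc u).1, diag_X, (hoff _ u (mem_univ u)).1]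
      have := (hσ u).2
      omega
    · simp only [Pi.add_apply, (hc u).2, diag_Y, (hoff _ u (mem_univ u)).2]
      have := (hσ u).1
      omega
    · simp only [Pi.add_apply, diag_T, dl_apply]
      split_ifs <;> omega
  have key := marg_lc M univ 0 (c₀ := c₀) (fun u _ => hc u) (Sum.inr a) (Sum.inr b) (hoff a)
    (hoff b) (fun I hI => by
      rw [hbx] at hI
      exact fun x => le_trans (by simpa using dl_nonneg (Sum.inr b : El U T) x) (hle I hI b b x))
  rw [hbx] at key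
  have e : ∀ s t : T, ∑ σ ∈ box lo hi, M.μ (c₀ + diag σ + dl (Sum.inr s) + dl (Sum.inr t)) =
      ∑ σ ∈ box lo hi, Real.exp (- Φ (c₀ + diag σ + dl (Sum.inr s) + dl (Sum.inr t))) :=
    fun s t => sum_congr rfl fun σ hσ => blMu_pos Φ (hle σ hσ s t)
  rwa [e, e, e] at key

end Crest.Agent.R302
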