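import Crest.Agent.R302.Ene

/-!
# R302/Lip: the energy changes little inside neighbouring blocks (TASK)
-/

set_option autoImplicit false
set_option linter.unusedSectionVars false

namespace Crest.Agent.R302

open Finset Crest.Agent.R309

namespace Sys

variable {U E : Type} [Fintype U] [DecidableEq U] [Fintype E] [DecidableEq E] {S : Sys U E}

/-- `y` and `y'` are close -/
def Near (S : Sys U E) (y y' : U → ℤ) : Prop :=
  ∀ u, |y u| ≤ 2 * (S.G : ℤ) ^ 95 * S.s u ∧ |y' u| ≤ 2 * (S.G : ℤ) ^ 95 * S.s u ∧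
    |y u - y' u| ≤ 2 * S.s u ∧ (S.F.par u = none → y u = y' u)

theorem Near.symm {y y' : U → ℤ} (h : S.Near y y') : S.Near y' y := fun u =>
  ⟨(h u).2.1, (h u).1, by rw [abs_sub_comm]; exact (h u).2.2.1, fun hu => ((h u).2.2.2 hu).symm⟩

theorem lip_sum {ι : Type} [Fintype ι] {G : ℕ} (hG : 0 < G) (hc : Fintype.card ι ≤ G) {a : ι → ℝ}
    {c : ℝ} (hc0 : 0 ≤ c) (h : ∀ i, a i ≤ c / G) : ∑ i, a i ≤ c := by
  have hG' : (0 : ℝ) < G := by exact_mod_cast hG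
  have h1 := sum_le_card_nsmul univ a _ fun i _ => h i
  rw [nsmul_eq_mul, card_univ] at h1
  have h2 : (Fintype.card ι : ℝ) ≤ G := by exact_mod_cast hc
  calc ∑ i, a i ≤ G * (c / G) := h1.trans (by gcongr)
    _ = c := by field_simp

theorem lip_sum_sub {ι : Type} [Fintype ι] {G : ℕ} (hG : 0 < G) (hc : Fintype.card ι ≤ G)
    {a b : ι → ℝ} {c : ℝ} (hc0 : 0 ≤ c) (h : ∀ i, |a i - b i| ≤ c / G) :
    |∑ i, a i - ∑ i, b i| ≤ c := by
  rw [← sum_sub_distrib]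
  exact (abs_sum_le_sum_abs _ _).trans (lip_sum hG hc hc0 h)

theorem lip_small {G : ℝ} (hG : 1048576 ≤ G) {k : ℕ} (hk : 2 ≤ k) : 4 / G ^ k ≤ 1 / 16 / G := by
  have h0 : 0 < G := by linarith
  have h1 : G ^ 2 ≤ G ^ k := pow_le_pow_right₀ (by linarith) hk
  rw [div_le_div_iff₀ (by positivity) h0]
  nlinarith

theorem lip_sq {a b A D : ℝ} (ha : |a| ≤ A) (hb : |b| ≤ A) (hd : |a - b| ≤ D) :
    |a ^ 2 - b ^ 2| ≤ 2 * A * D := by
  rw [sq_sub_sq, abs_mul]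
  exact mul_le_mul ((abs_add_le a b).trans (by linarith)) hd (abs_nonneg _)
    (by linarith [abs_nonneg a])

theorem Good.lip_G (h : S.Good) : 0 < S.G := lt_of_lt_of_le (by norm_num) h.G_ge

theorem Good.lip_nu (h : S.Good) {y y' : U → ℤ} (hy : S.Near y y') :
    |(S.nu (S.pt y) : ℝ) / S.Dn - (S.nu (S.pt y') : ℝ) / S.Dn| ≤ 1 / 16 := by
  have hG := h.G_geR
  have hG0 : (0 : ℝ) < S.G := by linarith
  have hD := h.ene_Dn
  have h1 := S.F.nu_lip (f := S.f) S.lam (S.pt y) (S.pt y')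
  have h2 : S.pt y - S.pt y' = S.F.unD (y - y') := by
    rw [S.F.unD_sub, pt, pt, add_sub_add_left_eq_sub]
  rw [h2, S.F.sumD_unD] at h1
  have h3 : |(S.nu (S.pt y) : ℝ) - S.nu (S.pt y')| ≤ ∑ u, (S.lam u : ℝ) * |(y u : ℝ) - y' u| := by
    exact_mod_cast h1
  rw [← sub_div, abs_div, abs_of_pos hD]
  refine (div_le_div_of_nonneg_right h3 hD.le).trans ?_
  rw [sum_div]
  refine lip_sum h.lip_G h.cardU (by norm_num) fun u => ?_
  by_cases hu : S.F.par u = none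
  · rw [(hy u).2.2.2 hu, sub_self, abs_zero, mul_zero, zero_div]
    positivity
  · have h4 : |(y u : ℝ) - y' u| ≤ 2 * S.s u := by exact_mod_cast (hy u).2.2.1
    have h5 : (S.s u : ℝ) * (S.G : ℝ) ^ 72 = S.wd u := by exact_mod_cast h.s_mul u
    have h6 : (S.s u : ℝ) ≠ 0 := by exact_mod_cast (h.s_pos u).ne'
    refine le_trans ?_ (lip_small hG (k := 54) (by norm_num))
    rw [lam, if_neg hu]
    push_cast
    rw [h.ene_cu, ← h5]
    calc (S.G : ℝ) ^ 18 * (S.Dn / (S.s u * (S.G : ℝ) ^ 72)) * |(y u : ℝ) - y' u| / S.Dn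
        ≤ (S.G : ℝ) ^ 18 * (S.Dn / (S.s u * (S.G : ℝ) ^ 72)) * (4 * S.s u) / S.Dn := by
          gcongr
          have : (0 : ℝ) ≤ S.s u := Nat.cast_nonneg _
          linarith
      _ = _ := by field_simp

theorem Good.lip_z (h : S.Good) {e : E} {t : U → ℤ} {c : ℝ} (hc : 0 ≤ c)
    (ht : ∀ u, |(t u : ℝ)| ≤ c * S.s u) :
    |((∑ u, t u * S.z (S.F.ed u) e : ℤ) : ℝ)| ≤ c * S.wd (S.pc e) / (S.G : ℝ) ^ 71 := by
  have hG := h.G_geR
  have hG0 : (0 : ℝ) < S.G := by linarith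
  push_cast
  refine (abs_sum_le_sum_abs _ _).trans (lip_sum h.lip_G h.cardU (by positivity) fun u => ?_)
  by_cases hz : S.z (S.F.ed u) e = 0
  · rw [hz, Int.cast_zero, mul_zero, abs_zero]
    positivity
  · have h1 : S.wd u ≤ S.wd (S.pc e) := by
      rcases h.z_ed_ne hz with h2 | h2
      · rw [h.wd_root u h2]
        exact h.wd_ge _
      · exact h2.2
    have h2 : (S.s u : ℝ) * (S.G : ℝ) ^ 72 ≤ S.wd (S.pc e) := by
      rw [← h.s_mul u] at h1
      exact_mod_cast h1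
    have h3 : |(S.z (S.F.ed u) e : ℝ)| ≤ 1 := by exact_mod_cast S.abs_z_ed u e
    rw [abs_mul, div_div, ← pow_succ, mul_div_assoc]
    refine (mul_le_of_le_one_right (abs_nonneg _) h3).trans ((ht u).trans ?_)
    gcongr
    rwa [le_div_iff₀ (by positivity)]

theorem Good.lip_Amain (h : S.Good) {y y' : U → ℤ} (hy : S.Near y y') :
    |S.Amain (S.pt y) - S.Amain (S.pt y')| ≤ 1 / 4 := by
  have hG := h.G_geR
  have hG0 : (0 : ℝ) < S.G := by linarith
  have k1 : ∀ u, |(y u : ℝ)| ≤ 2 * (S.G : ℝ) ^ 95 * S.s u := fun u => by exact_mod_cast (hy u).1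
  have k2 : ∀ u, |(y' u : ℝ)| ≤ 2 * (S.G : ℝ) ^ 95 * S.s u := fun u => by exact_mod_cast (hy u).2.1
  have k3 : ∀ u, |(y u : ℝ) - y' u| ≤ 2 * S.s u := fun u => by exact_mod_cast (hy u).2.2.1
  have h1 := h.lip_nu hy
  have h2 : |∑ u, (y u : ℝ) ^ 2 / (2 * (S.G : ℝ) ^ 31 * (S.wd u : ℝ) ^ 2) -
      ∑ u, (y' u : ℝ) ^ 2 / (2 * (S.G : ℝ) ^ 31 * (S.wd u : ℝ) ^ 2)| ≤ 1 / 16 := by
    refine lip_sum_sub h.lip_G h.cardU (by norm_num) fun u => ?_
    have h5 : (S.s u : ℝ) * (S.G : ℝ) ^ 72 = S.wd u := by exact_mod_cast h.s_mul u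
    have h6 : (0 : ℝ) < S.s u := by exact_mod_cast h.s_pos u
    rw [← sub_div, abs_div, ← h5, abs_of_pos (a := 2 * _ * _) (by positivity)]
    refine (div_le_div_of_nonneg_right (lip_sq (k1 u) (k2 u) (k3 u)) (by positivity)).trans
      (le_trans (le_of_eq ?_) (lip_small hG (k := 80) (by norm_num)))
    field_simp
    ring
  have h3 : |(∑ e, if S.F'.par e = none then 0 else
      (S.G : ℝ) ^ 44 * (S.z (S.pt y) e : ℝ) ^ 2 / (2 * (S.wd (S.pc e) : ℝ) ^ 2)) -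
      ∑ e, if S.F'.par e = none then 0 else
      (S.G : ℝ) ^ 44 * (S.z (S.pt y') e : ℝ) ^ 2 / (2 * (S.wd (S.pc e) : ℝ) ^ 2)| ≤ 1 / 16 := by
    refine lip_sum_sub h.lip_G h.cardE (by norm_num) fun e => ?_
    split_ifs
    · rw [sub_self, abs_zero]
      positivity
    have hw := h.ene_wd (S.pc e)
    have z1 := h.lip_z (e := e) (by positivity) k1
    have z2 := h.lip_z (e := e) (by positivity) k2
    have z3 := h.lip_z (e := e) (t := fun u => y u - y' u) zero_le_two fun u => by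
      push_cast
      exact k3 u
    simp only [sub_mul, sum_sub_distrib] at z3
    rw [← h.z_pt] at z1 z2
    rw [← h.z_pt, ← h.z_pt, Int.cast_sub] at z3
    rw [← sub_div, ← mul_sub, abs_div, abs_mul, abs_of_pos (a := 2 * _) (by positivity),
      abs_of_pos (a := (S.G : ℝ) ^ 44) (by positivity)]
    refine (div_le_div_of_nonneg_right (mul_le_mul_of_nonneg_left (lip_sq z1 z2 z3) (by positivity))
      (by positivity)).trans (le_trans (le_of_eq ?_) (lip_small hG (k := 3) (by norm_num)))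
    field_simp
    ring
  rw [Amain, Amain, S.y_pt, S.y_pt]
  rw [abs_le] at h1 h2 h3 ⊢
  constructor <;> linarith [h1.1, h1.2, h2.1, h2.2, h3.1, h3.2]

/-- Use `Er_eq`; the root terms agree (`z_root_congr`), `κ ≤ 2`, and `|Amain - Amain'| ≤ 1 / 4`:
`nu` changes by at most `∑ lam u * 2 s u ≤ G * 2 G ^ 18 Dn / G ^ 72` (`nu_lip`; only non-roots move); `|y² - y'²| ≤ 8 G ^ 95 s²`; for `e` not a root, by `z_pt` and `z_ed_ne` (roots have the least width),
`|z|, |z'| ≤ 2 G ^ 24 wd (pc e)` and `|z - z'| ≤ 2 wd (pc e) / G ^ 71`, so each of these terms changes by at most `4 / G ^ 3`. -/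
theorem Good.Er_lip (h : S.Good) (φ : E → ℤ) {y y' : U → ℤ} (hy : S.Near y y') :
    |S.Er φ (S.pt y) - S.Er φ (S.pt y')| ≤ 1 / 2 := by
  rw [h.Er_eq, h.Er_eq, sum_congr rfl fun e he => by
    rw [h.z_root_congr (fun C hC => (hy C).2.2.2 hC) (S.F'.mem_roots.1 he)],
    add_sub_add_right_eq_sub, ← mul_sub, abs_mul]
  have h1 := h.lip_Amain hy
  obtain ⟨k1, k2⟩ := h.kap
  rw [abs_of_nonneg (by linarith)]
  calc _ ≤ 2 * (1 / 4 : ℝ) := mul_le_mul k2 h1 (abs_nonneg _) zero_le_two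
    _ = _ := by norm_num

theorem Good.En_lip (h : S.Good) (φ : E → ℤ) {y y' : U → ℤ} (hy : S.Near y y') :
    S.ell * S.En φ (S.pt y) ≤ S.ell * S.En φ (S.pt y') + 1 := by
  have h1 := abs_le.1 (h.Er_lip φ hy)
  have h2 := h.En_Er φ (S.pt y)
  have h3 := h.En_Er φ (S.pt y')
  have h4 := h.ene_ell
  linarith [h1.2, h2.1, h3.2]

theorem Good.En_lip' (h : S.Good) (φ : E → ℤ) {y y' : U → ℤ} (hy : S.Near y y') :
    S.En φ (S.pt y) ≤ S.En φ (S.pt y') + S.L := by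
  have h1 := h.En_lip φ hy
  have h2 := h.kap.1
  have h3 : (S.En φ (S.pt y) : ℝ) ≤ S.En φ (S.pt y') + S.L :=
    le_of_mul_le_mul_left (by linarith) h.ell_pos
  exact_mod_cast h3

theorem Good.qEn_le (h : S.Good) (φ : E → ℤ) {y y' : U → ℤ} (hy : S.Near y y') :
    S.q ^ S.En φ (S.pt y) ≤ 3 * S.q ^ S.En φ (S.pt y') := by
  have h1 := h.En_lip φ hy.symm
  rw [h.q_zpow, h.q_zpow]
  calc Real.exp (- (S.ell * S.En φ (S.pt y)))
      ≤ Real.exp (1 + - (S.ell * S.En φ (S.pt y'))) := Real.exp_le_exp.2 (by linarith)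
    _ ≤ _ := by
      rw [Real.exp_add]
      gcongr
      linarith [Real.exp_one_lt_d9]

theorem Good.lip_two (h : S.Good) (u : U) : 1 ≤ (S.s u : ℤ) ∧ 2 ≤ (S.G : ℤ) ^ 95 * S.s u := by
  have h1 : 1 ≤ (S.s u : ℤ) := by exact_mod_cast h.s_pos u
  have hG : (1048576 : ℤ) ≤ S.G := by exact_mod_cast h.G_ge
  have h2 : (S.G : ℤ) ≤ (S.G : ℤ) ^ 95 := le_self_pow₀ (by linarith) (by norm_num)
  exact ⟨h1, by nlinarith⟩

theorem Good.lip_abs (h : S.Good) {y : U → ℤ} (hy : y ∈ S.fbx) (u : U) {d : ℤ} (hd : |d| ≤ 1) :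
    |y u + d| ≤ 2 * (S.G : ℤ) ^ 95 * S.s u := by
  have h1 := mem_fbx.1 hy u
  have h2 := (h.lip_two u).2
  rw [abs_le] at hd
  rw [mul_assoc, abs_le]
  omega

theorem lip_dl (C u : U) : |dl C u| ≤ 1 := by
  rw [dl_apply]
  split_ifs <;> simp

/-- `Ent_cases`; `pt y + dl C = pt (y + dl C)` for a root `C` -/
theorem Good.piF_le (h : S.Good) (φ : E → ℤ) {y y' : U → ℤ} (hy : y ∈ S.fbx) (hy' : y' ∈ S.fbx)
    (hd : ∀ u, |y u - y' u| ≤ 2 * S.s u ∧ (S.F.par u = none → y u = y' u)) :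
    S.piF φ y ≤ 3 * S.piF φ y' := by
  have hq := h.piF_pos φ y'
  unfold piF at hq ⊢
  rcases S.Ent_cases φ (S.pt y) with h1 | ⟨-, h1⟩ | ⟨C, hC, -, h1⟩ <;> rw [h1]
  · linarith [h.q_anti (S.Ent_le_NL φ (S.pt y'))]
  · have hn : S.Near y y' := fun u =>
      ⟨by simpa using h.lip_abs hy u (d := 0) (by simp),
        by simpa using h.lip_abs hy' u (d := 0) (by simp), hd u⟩
    linarith [h.qEn_le φ hn, h.q_anti (S.Ent_le_En φ (S.pt y'))]
  · have hn : S.Near (y + dl C) (y' + dl C) := fun u =>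
      ⟨h.lip_abs hy u (lip_dl C u), h.lip_abs hy' u (lip_dl C u),
        by simpa using (hd u).1, fun hu => by simp [(hd u).2 hu]⟩
    have h2 := h.qEn_le φ hn
    rw [S.pt_add_dl, S.pt_add_dl, S.F.ed_root hC] at h2
    linarith [h.q_anti (S.Ent_le_root φ (S.pt y') hC)]

theorem Good.piC_cmp (h : S.Good) (φ : E → ℤ) {a o : U → ℤ} (ha : a ∈ S.cbox) (ho : o ∈ S.obox) :
    S.piC φ a ≤ 3 * S.piF φ (fun u => S.cor a u + o u) ∧
      S.piF φ (fun u => S.cor a u + o u) ≤ 3 * S.piC φ a := by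
  have h1 : ∀ u, |o u| ≤ 2 * S.s u ∧ (S.F.par u = none → o u = 0) := fun u => by
    have h2 : 0 ≤ o u ∧ o u ≤ (S.s u : ℤ) - 1 := mem_box.1 ho u
    refine ⟨by rw [abs_le]; omega, fun hu => ?_⟩
    rw [h.s_root hu] at h2
    omega
  rw [piC_eq]
  exact ⟨h.piF_le φ (h.cor_mem' ha) (h.cor_mem ha ho) fun u =>
      ⟨by simpa using (h1 u).1, fun hu => by simp [(h1 u).2 hu]⟩,
    h.piF_le φ (h.cor_mem ha ho) (h.cor_mem' ha) fun u =>
      ⟨by simpa using (h1 u).1, fun hu => by simp [(h1 u).2 hu]⟩⟩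

/-- the hypothesis of `wcoarsen` -/
theorem Good.cmp (h : S.Good) (φ : E → ℤ) {y a : U → ℤ} (hy : y ∈ S.fbx) (ha : a ∈ S.cbox)
    (hd : ∀ u, |(y u - S.loF u) / S.s u - a u| ≤ 1 ∧ (S.s u = 1 → a u = y u - S.loF u)) :
    S.piF φ y ≤ 3 * S.piC φ a ∧ S.piC φ a ≤ 3 * S.piF φ y := by
  have h1 : ∀ u, |y u - S.cor a u| ≤ 2 * S.s u ∧ (S.F.par u = none → y u = S.cor a u) := fun u => by
    have hs := (h.lip_two u).1
    obtain ⟨h2, h3⟩ := hd u
    refine ⟨?_, fun hu => ?_⟩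
    · have h4 := Int.emod_add_mul_ediv (y u - S.loF u) (S.s u)
      have h5 := Int.emod_nonneg (y u - S.loF u) (b := S.s u) (by omega)
      have h6 := Int.emod_lt_of_pos (y u - S.loF u) (b := S.s u) (by omega)
      rw [abs_le] at h2 ⊢
      rw [cor]
      constructor <;> nlinarith [h2.1, h2.2]
    · rw [cor, h3 (h.s_root hu), h.s_root hu]
      simp
  rw [piC_eq]
  exact ⟨h.piF_le φ hy (h.cor_mem' ha) h1, h.piF_le φ (h.cor_mem' ha) hy fun u =>
    ⟨by rw [abs_sub_comm]; exact (h1 u).1, fun hu => ((h1 u).2 hu).symm⟩⟩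

/-- A good configuration with one unit removed: let `C` be the root above `u`; `y (σ - dl u + dl C)` differs from `y σ` by `-1` at the non-root ancestors of `u` (`sumD_dl`). -/
theorem Good.qEn_le_piF (h : S.Good) {φ : E → ℤ} (hφ : S.Adm φ) {σ : U → ℤ} (hσ : S.Gd φ σ) (u : U) :
    S.y (σ - dl u) ∈ S.fbx ∧ S.q ^ S.En φ σ ≤ 3 * S.piF φ (S.y (σ - dl u)) := by
  obtain ⟨C, hC, hA, hC'⟩ := S.F.exists_root u
  have e : ∀ r, S.y (σ - dl u) r = S.y σ r - if S.F.A u r = true then 1 else 0 := fun r => by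
    rw [y, y, sub_right_comm, S.F.sumD_sub, S.F.sumD_dl]
  have hm : S.y (σ - dl u) ∈ S.fbx := mem_fbx.2 fun r => by
    have h1 := h.y_of_gd hφ hσ r
    have h2 := (h.lip_two r).2
    have h3 := le_abs_self (S.y σ r)
    have h4 := neg_abs_le (S.y σ r)
    rw [e]
    split_ifs <;> omega
  refine ⟨hm, ?_⟩
  have hn : S.Near (S.y σ) (S.y (σ - dl u) + dl C) := fun r => by
    refine ⟨by simpa using h.lip_abs (h.fbx_of_gd hφ hσ) r (d := 0) (by simp),
      h.lip_abs hm r (lip_dl C r), ?_, fun hr => ?_⟩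
    · have h1 := (h.lip_two r).1
      rw [Pi.add_apply, e, dl_apply, abs_le]
      split_ifs <;> omega
    · rw [Pi.add_apply, e, dl_apply]
      by_cases h1 : r = C
      · rw [if_pos h1, if_pos (h1 ▸ hA), sub_add_cancel]
      · rw [if_neg h1, if_neg fun h2 => h1 (hC' r hr h2), sub_zero, add_zero]
  have h2 := h.qEn_le φ hn
  rw [S.pt_y, S.pt_add_dl, S.F.ed_root hC] at h2
  unfold piF
  linarith [h.q_anti (S.Ent_le_root φ (S.pt (S.y (σ - dl u))) hC)]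

end Sys

end Crest.Agent.R302
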