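import Crest.Agent.R302.Ene

/-!
# R302/Tail: the total weight of the configurations of high energy (TASK)
-/

set_option autoImplicit false
set_option linter.unusedSectionVars false

namespace Crest.Agent.R302

open Finset Crest.Agent.R309

/-- `t² / V² ≥ 2 |t| / V - 1`, and the geometric series `∑_{j ≥ 1} exp (- 2 j / V) ≤ V / 2` -/
theorem sum_gauss_le (T : Finset ℤ) {V : ℝ} (hV : 0 < V) :
    ∑ t ∈ T, Real.exp (- ((t : ℝ) ^ 2 / V ^ 2)) ≤ 3 * (1 + V) := by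
  set r := Real.exp (-(2 / V)) with hr
  have hr0 : 0 < r := Real.exp_pos _
  have h2V : 0 < 2 / V := by positivity
  have hr1 : r < 1 := Real.exp_lt_one_iff.2 (by linarith)
  have hrV : r * (V + 2) ≤ V := by
    have h1 := mul_le_mul_of_nonneg_left (Real.add_one_le_exp (2 / V)) hr0.le
    rw [hr, ← Real.exp_add, neg_add_cancel, Real.exp_zero, ← hr] at h1
    have h2 := mul_le_mul_of_nonneg_right h1 hV.le
    have h3 : r * (2 / V + 1) * V = r * (V + 2) := by field_simp; ring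
    linarith
  have hg := hasSum_geometric_of_lt_one hr0.le hr1
  have hs : HasSum (fun t : ℤ => r ^ t.natAbs) ((1 - r)⁻¹ + r * (1 - r)⁻¹) := by
    refine HasSum.of_nat_of_neg_add_one (by simpa using hg) ?_
    have e : ∀ n : ℕ, (-((n : ℤ) + 1)).natAbs = n + 1 := fun n => by omega
    simpa only [e, pow_succ'] using hg.mul_left r
  have h1 := sum_le_hasSum T (fun t _ => (pow_pos hr0 _).le) hs
  have h2 : (1 - r)⁻¹ + r * (1 - r)⁻¹ ≤ 1 + V := by
    rw [← one_add_mul, ← div_eq_mul_inv, div_le_iff₀ (sub_pos.2 hr1)]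
    linarith
  have h3 : ∀ t ∈ T, Real.exp (- ((t : ℝ) ^ 2 / V ^ 2)) ≤ 3 * r ^ t.natAbs := fun t _ => by
    have h4 : Real.exp 1 ≤ 3 := Real.exp_one_lt_d9.le.trans (by norm_num)
    refine le_trans ?_ (mul_le_mul_of_nonneg_right h4 (pow_pos hr0 _).le)
    rw [hr, ← Real.exp_nat_mul, ← Real.exp_add, Real.exp_le_exp, Nat.cast_natAbs, Int.cast_abs,
      ← sq_abs (t : ℝ), ← div_pow]
    have h5 : |(t : ℝ)| * -(2 / V) = -(2 * (|(t : ℝ)| / V)) := by ring
    rw [h5]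
    nlinarith [sq_nonneg (|(t : ℝ)| / V - 1)]
  refine (sum_le_sum h3).trans ?_
  rw [← mul_sum]
  linarith

namespace Sys

variable {U E : Type} [Fintype U] [DecidableEq U] [Fintype E] [DecidableEq E] {S : Sys U E}
  {φ : E → ℤ}

open Classical in
/-- Let `A = ∑ y² / (2 G ^ 31 wd²)`, `N = G ^ 3`, `N' = 2 G ^ 13 ≥ N + G ^ 13`.  If `σ` is not good then `Er ≥ max N (A - G ^ 13) ≥ N - 1 + A / N'`.  The map `σ ↦ y σ` is injective (`pt_y`), so the sum is at most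
`exp (1 - N) ∏_u ∑_t exp (- t² / V u²)`, `V u = 2 G ^ 22 wd u` (bound the image by a product of finite sets, `Finset.prod_univ_sum`); each factor is `≤ 3 (1 + V u) ≤ G ^ 95 s u`, and `(G ^ 95) ^ G ≤ exp (G²)`. -/
theorem Good.tail (h : S.Good) (hφ : S.Adm φ) (B : Finset (U → ℤ)) :
    ∑ σ ∈ B.filter (fun σ => ¬ S.Gd φ σ), Real.exp (- S.Er φ σ) ≤
      Real.exp (- (S.G : ℝ) ^ 3 / 2) * S.vol := by
  have hG := h.G_geR
  have hG0 : (0 : ℝ) < S.G := by linarith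
  set V : U → ℝ := fun u => 2 * (S.G : ℝ) ^ 22 * S.wd u with hV
  have hV0 : ∀ u, 0 < V u := fun u => by have := h.ene_wd u; positivity
  set g : U → ℤ → ℝ := fun u t => Real.exp (- ((t : ℝ) ^ 2 / V u ^ 2)) with hg
  have h1 : ∀ σ ∈ B.filter (fun σ => ¬ S.Gd φ σ), Real.exp (- S.Er φ σ) ≤
      Real.exp (1 - (S.G : ℝ) ^ 3) * ∏ u, g u (S.y σ u) := fun σ hσ => by
    have h2 := h.le_Er_of_not_gd (mem_filter.1 hσ).2
    have h3 := h.Er_ge hφ σ
    have h4 := h.y_le_Amain σ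
    have h5 : ∑ u, (S.y σ u : ℝ) ^ 2 / (2 * (S.G : ℝ) ^ 31 * (S.wd u : ℝ) ^ 2) =
        2 * (S.G : ℝ) ^ 13 * ∑ u, (S.y σ u : ℝ) ^ 2 / V u ^ 2 := by
      rw [mul_sum]
      refine sum_congr rfl fun u _ => ?_
      have := h.ene_wd u
      simp only [hV]
      field_simp
    rw [h5] at h4
    simp only [hg]
    rw [← Real.exp_sum, ← Real.exp_add, Real.exp_le_exp, sum_neg_distrib]
    generalize ∑ u, (S.y σ u : ℝ) ^ 2 / V u ^ 2 = a at h4 ⊢
    rcases le_total a 1 with ha | ha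
    · linarith
    · have h6 : (S.G : ℝ) ^ 3 ≤ (S.G : ℝ) ^ 13 := pow_le_pow_right₀ (by linarith) (by norm_num)
      have h7 : (1 : ℝ) ≤ (S.G : ℝ) ^ 13 := one_le_pow₀ (by linarith)
      nlinarith [mul_nonneg (sub_nonneg.2 ha) (show (0 : ℝ) ≤ 2 * (S.G : ℝ) ^ 13 - 1 by linarith)]
  refine (sum_le_sum h1).trans ?_
  rw [← mul_sum]
  have h2 : ∑ σ ∈ B.filter (fun σ => ¬ S.Gd φ σ), ∏ u, g u (S.y σ u) ≤
      ∏ u, ∑ t ∈ B.image (fun σ => S.y σ u), g u t := by
    rw [prod_univ_sum, ← sum_image (g := S.y) (f := fun y => ∏ u, g u (y u))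
      fun σ _ σ' _ e => by rw [← S.pt_y σ, e, S.pt_y]]
    refine sum_le_sum_of_subset_of_nonneg (fun y hy => ?_)
      fun _ _ _ => prod_nonneg fun _ _ => (Real.exp_pos _).le
    obtain ⟨σ, hσ, rfl⟩ := mem_image.1 hy
    exact Fintype.mem_piFinset.2 fun u => mem_image.2 ⟨σ, (mem_filter.1 hσ).1, rfl⟩
  have h3 : ∀ u, ∑ t ∈ B.image (fun σ => S.y σ u), g u t ≤ Real.exp S.G * S.s u := fun u => by
    refine (sum_gauss_le _ (hV0 u)).trans ?_
    have h4 : (S.wd u : ℝ) = S.s u * (S.G : ℝ) ^ 72 := by exact_mod_cast (h.s_mul u).symm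
    have h5 : (1 : ℝ) ≤ S.s u := by exact_mod_cast h.s_pos u
    have h6 : (S.G : ℝ) ^ 95 ≤ 2 ^ S.G := by exact_mod_cast h.pow_le (k := 95) (by norm_num)
    have h7 : (2 : ℝ) ^ S.G ≤ Real.exp S.G := by
      rw [← Real.exp_one_pow]
      exact pow_le_pow_left₀ (by norm_num) (by linarith [Real.add_one_le_exp 1]) _
    have h8 : V u = 2 * ((S.G : ℝ) ^ 94 * S.s u) := by simp only [hV, h4]; ring
    have h9 : (1 : ℝ) ≤ (S.G : ℝ) ^ 94 * S.s u :=
      one_le_mul_of_one_le_of_one_le (one_le_pow₀ (by linarith)) h5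
    have h10 := mul_le_mul_of_nonneg_right (h6.trans h7) (zero_le_one.trans h5)
    have h11 : (S.G : ℝ) ^ 95 * S.s u = S.G * ((S.G : ℝ) ^ 94 * S.s u) := by ring
    have h12 := mul_le_mul_of_nonneg_right hG (zero_le_one.trans h9)
    linarith
  have h4 : ∏ u, ∑ t ∈ B.image (fun σ => S.y σ u), g u t ≤
      Real.exp ((S.G : ℝ) ^ 2) * S.vol := by
    refine (prod_le_prod (fun u _ => sum_nonneg fun _ _ => (Real.exp_pos _).le)
      fun u _ => h3 u).trans ?_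
    rw [prod_mul_distrib, prod_const, card_univ, vol, Nat.cast_prod]
    refine mul_le_mul_of_nonneg_right ?_ (prod_nonneg fun _ _ => Nat.cast_nonneg _)
    have h5 : (Fintype.card U : ℝ) ≤ S.G := by exact_mod_cast h.cardU
    rw [← Real.exp_nat_mul, Real.exp_le_exp, sq]
    exact mul_le_mul_of_nonneg_right h5 hG0.le
  refine (mul_le_mul_of_nonneg_left (h2.trans h4) (Real.exp_pos _).le).trans ?_
  rw [← mul_assoc, ← Real.exp_add]
  refine mul_le_mul_of_nonneg_right (Real.exp_le_exp.2 ?_) (Nat.cast_nonneg _)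
  nlinarith [sq_nonneg (S.G : ℝ)]

end Sys

end Crest.Agent.R302
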