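import Crest.Agent.R302.Marg
import Crest.Agent.R302.BL
import Crest.Agent.R302.Tail
import Crest.Agent.R302.Lip
import Crest.Agent.R309.Tails

/-!
# R302/Root: with good fields the root sums vanish with good probability (TASK)
-/

set_option autoImplicit false
set_option linter.unusedSectionVars false

namespace Crest.Agent.R302

open Finset Crest.Agent.R309

theorem root_abs (A : ℤ → ℝ) (hA : ∀ j, 0 < A j) (hlc : ∀ j, A (j - 1) * A (j + 1) ≤ A j ^ 2) :
    ∃ ε : ℤ, (ε = 1 ∨ ε = -1) ∧ ∀ j : ℕ, A (ε * j) ≤ A 0 := by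
  have key : ∀ ε : ℤ, (ε = 1 ∨ ε = -1) → A ε ≤ A 0 → ∀ j : ℕ, A (ε * j) ≤ A 0 := fun ε hε h j => by
    simpa using tails_pow (fun i : ℕ => A (ε * i)) (fun i => hA _) (fun i => by
      have := hlc (ε * (i + 1))
      push_cast
      rcases hε with rfl | rfl
      · convert this using 3 <;> ring
      · rw [mul_comm]; convert this using 3 <;> ring) 1 zero_le_one (by simpa using h) j
  rcases le_or_gt (A 1) (A 0) with h | h
  · exact ⟨1, Or.inl rfl, key 1 (Or.inl rfl) h⟩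
  · refine ⟨-1, Or.inr rfl, key (-1) (Or.inr rfl) (le_of_mul_le_mul_right ?_ (hA 0))⟩
    have h1 := hlc 0
    rw [zero_sub, zero_add] at h1
    linarith [mul_le_mul_of_nonneg_left h.le (hA (-1)).le]

theorem root_inj {α β : Type} {s : Finset α} {t : Finset β} (f : α → β) (hf : Function.Injective f)
    {g : α → ℝ} {G : β → ℝ} (hG : ∀ b, 0 ≤ G b) (h : ∀ a ∈ s, f a ∈ t ∧ g a ≤ G (f a)) :
    ∑ a ∈ s, g a ≤ ∑ b ∈ t, G b := by
  classical
  refine (sum_le_sum fun a ha => (h a ha).2).trans ?_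
  rw [← sum_image hf.injOn]
  exact sum_le_sum_of_subset_of_nonneg (image_subset_iff.2 fun a ha => (h a ha).1) fun b _ _ => hG b

/-- first moment from geometric tails -/
theorem root_geom {α : Type} (s : Finset α) (μ : α → ℝ) (n : α → ℕ) {r W : ℝ} (hr : 0 ≤ r)
    (hr' : r ≤ 1 / 4) (hW : 0 ≤ W)
    (h : ∀ j, j ≠ 0 → ∑ a ∈ s.filter (fun a => n a = j), μ a ≤ r ^ j * W) :
    ∑ a ∈ s, μ a * n a ≤ 2 * r * W := by
  rw [← sum_fiberwise_of_maps_to (t := s.image n) fun a ha => mem_image_of_mem n ha]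
  have h1 := sum_le_hasSum (s.image n) (fun j _ => by positivity)
    (hasSum_coe_mul_geometric_of_norm_lt_one (r := r) (by rw [Real.norm_of_nonneg hr]; linarith))
  have h2 : r / (1 - r) ^ 2 ≤ 2 * r := by
    rw [div_le_iff₀ (pow_pos (by linarith) 2)]
    nlinarith [mul_le_mul_of_nonneg_left (show 1 / 2 ≤ (1 - r) ^ 2 by nlinarith) hr]
  refine le_trans ?_ (mul_le_mul_of_nonneg_right (h1.trans h2) hW)
  rw [sum_mul]
  refine sum_le_sum fun j _ => ?_
  rw [sum_congr rfl fun a ha => by rw [(mem_filter.1 ha).2], ← sum_mul, mul_comm, mul_assoc]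
  rcases eq_or_ne j 0 with rfl | hj
  · simp
  · exact mul_le_mul_of_nonneg_left (h j hj) j.cast_nonneg

namespace Sys

variable {U E : Type} [Fintype U] [DecidableEq U] [Fintype E] [DecidableEq E] {S : Sys U E}
  {φ : E → ℤ}

/-- the energy with shifted absolute values -/
noncomputable def rootE (S : Sys U E) (φ : E → ℤ) (σ : U → ℤ) (t : E → ℤ) : ℝ :=
  S.ell * ((S.L : ℝ) * ((2 * (S.G : ℤ) ^ 31 * S.Dn * S.nu σ + S.num2 σ t : ℤ) : ℝ) / S.den +
    S.fld φ σ)

theorem root_Phi (S : Sys U E) (φ : E → ℤ) {σ : U → ℤ} {t : E → ℤ} {c : El U (Option E) → ℤ}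
    (hX : ∀ u, c (eX u) = σ u) (hY : ∀ u, c (eY u) = - σ u) (hT : ∀ e, c (Sum.inr (some e)) = t e) :
    S.Phi φ c = S.rootE φ σ t := by
  simp only [Phi, rootE, hX, hY, hT, neg_neg]

theorem root_Phi' (S : Sys U E) (φ : E → ℤ) (σ : U → ℤ) (Q : E) (i : ℤ) (a b : Option E) (j : ℤ)
    (hj : ∀ e, i * dl Q e + dl a (some e) + dl b (some e) = j * dl Q e) :
    S.Phi φ (i • dl (Sum.inr (some Q)) + diag σ + dl (Sum.inr a) + dl (Sum.inr b)) =
      S.rootE φ σ (j • dl Q) :=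
  S.root_Phi φ (fun u => by simp [dl_apply]) (fun u => by simp [dl_apply]) fun e => by
    rw [Pi.smul_apply, smul_eq_mul, ← hj]; simp [dl_apply]

theorem rootE_zero (S : Sys U E) (φ : E → ℤ) (σ : U → ℤ) : S.rootE φ σ 0 = S.Er φ σ := by
  rw [rootE, Er, num]

theorem Good.rootE_eq (h : S.Good) (φ : E → ℤ) {Q : E} (hQ : S.F'.par Q = none) (σ : U → ℤ) :
    S.rootE φ σ (S.z σ Q • dl Q) = S.Er φ σ - S.ell * S.L * (4 * S.g * |(S.z σ Q : ℝ)|) := by
  have h1 : S.num2 σ (S.z σ Q • dl Q) =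
      S.num2 σ 0 - (S.G : ℤ) ^ 31 * (S.Dn : ℤ) ^ 2 * (8 * S.g * |S.z σ Q|) := by
    rw [eq_sub_iff_add_eq', ← eq_sub_iff_add_eq, num2, num2, add_sub_add_left_eq_sub,
      ← sum_sub_distrib, sum_eq_single Q (fun e _ he => by simp [dl_ne he]) (by simp)]
    simp only [hQ, if_true, Pi.zero_apply, sub_zero, Pi.smul_apply, dl_self, smul_eq_mul, mul_one,
      sub_self, abs_zero]
    ring
  have h2 := h.ene_Dn
  have h3 := h.G_geR
  rw [rootE, h1, Er, num, den]
  push_cast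
  field_simp
  ring

theorem Good.root_tiny (h : S.Good) {k : ℕ} (hk : k ≤ 32768) :
    16 * (S.G : ℝ) ^ k * Real.exp (- (S.G : ℝ) ^ 3 / 2) ≤ 1 := by
  refine le_trans ?_ (h.tiny hk)
  have h1 : (4 : ℝ) ^ 2 ≤ 4 ^ (S.G + 1) :=
    pow_le_pow_right₀ (by norm_num) (by have := h.G_ge; omega)
  have h2 : (0 : ℝ) ≤ (S.G : ℝ) ^ 3 := by positivity
  rw [mul_comm 16]
  exact mul_le_mul (mul_le_mul_of_nonneg_left (by linarith) (by positivity))
    (Real.exp_le_exp.2 (by linarith)) (by positivity) (by positivity)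

theorem Good.root_r (h : S.Good) : Real.exp (- (4 * S.g)) ≤ 1 / (S.G : ℝ) ^ 5 := by
  have h1 : (2 : ℝ) ^ 5 ≤ Real.exp 4 := by
    have := pow_le_pow_left₀ (by norm_num) Real.exp_one_gt_d9.le 4
    rw [← Real.exp_nat_mul] at this
    norm_num at this ⊢
    linarith
  have h2 : (S.G : ℝ) = 2 ^ S.g := by exact_mod_cast h.par_G
  rw [Real.exp_neg, one_div, mul_comm, Real.exp_nat_mul, h2, ← pow_mul, mul_comm, pow_mul]
  gcongr

/-- `A j = ∑_{σ ∈ big} exp (- Phi (j • dl (inr (some Q)) + diag σ))` is positive and log-concave (`term_lc` with `a = none`, on which `Phi` does not depend, `b = some Q`, `c₀ = (j - 1) • dl (inr (some Q))`; `margin` gives `H`).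
As in `R309.Lam.abs_tail`: `A 1 ≤ A 0` or `A (-1) ≤ A 0`, and then `A (ε j) ≤ A 0` for all `j` (`tails_pow` with `r = 1`).  On `{z σ Q = s}`, `Phi (s • … + diag σ) = Er φ σ - κ 4 g |s|`, `κ ≥ 1`. -/
theorem Good.root_tail (h : S.Good) (φ : E → ℤ) {Q : E} (hQ : S.F'.par Q = none) :
    ∃ ε : ℤ, (ε = 1 ∨ ε = -1) ∧ ∀ j : ℕ,
      ∑ σ ∈ S.big.filter (fun σ => S.z σ Q = ε * j), Real.exp (- S.Er φ σ) ≤
        Real.exp (- (4 * S.g * j)) * ∑ σ ∈ S.big, Real.exp (- S.Er φ σ) := by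
  obtain ⟨ε, hε, H⟩ := root_abs (fun j => ∑ σ ∈ S.big, Real.exp (- S.rootE φ σ (j • dl Q)))
    (fun j => sum_pos (fun _ _ => Real.exp_pos _) ⟨_, h.pt_mem_big (h.cor_mem' h.a0_mem)⟩)
    fun j => by
      have := term_lc (S.Phi φ) (fun c x => le_trans (by positivity) (h.margin φ c x))
        (fun _ => - 2 ^ (2 * S.G)) (fun _ => 2 ^ (2 * S.G)) ((j - 1) • dl (Sum.inr (some Q)))
        (fun u => by simp [dl_apply]) none (some Q)
      simp only [fun σ => S.root_Phi' φ σ Q (j - 1) none none (j - 1) fun e => by simp [dl_apply],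
        fun σ => S.root_Phi' φ σ Q (j - 1) (some Q) (some Q) (j + 1) fun e => by
          by_cases he : e = Q <;> simp [he, dl_apply],
        fun σ => S.root_Phi' φ σ Q (j - 1) none (some Q) j fun e => by
          by_cases he : e = Q <;> simp [he, dl_apply]] at this
      exact this
  refine ⟨ε, hε, fun j => le_trans ?_
    (mul_le_mul_of_nonneg_left ((H j).trans_eq (by simp only [zero_smul, rootE_zero])) (Real.exp_pos _).le)⟩
  refine le_trans ?_ (mul_le_mul_of_nonneg_left (sum_le_sum_of_subset_of_nonneg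
    (filter_subset (fun σ => S.z σ Q = ε * j) _) fun _ _ _ => (Real.exp_pos _).le)
    (Real.exp_pos _).le)
  rw [mul_sum]
  refine sum_le_sum fun σ hσ => ?_
  have h1 : |(S.z σ Q : ℝ)| = j := by
    rw [(mem_filter.1 hσ).2]; rcases hε with rfl | rfl <;> simp
  rw [← (mem_filter.1 hσ).2, h.rootE_eq φ hQ, h1, ← Real.exp_add, Real.exp_le_exp]
  linarith [mul_le_mul_of_nonneg_right h.kap.1 (show (0 : ℝ) ≤ 4 * S.g * j by positivity)]

/-- good part: `μ σ ≤ piF (y σ)`, `fbx_of_gd`, `sum_fbx`, `piC_cmp`; bad part: `tail`, `one_le_ZC` -/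
theorem Good.big_le (h : S.Good) (hφ : S.Adm φ) :
    ∑ σ ∈ S.big, Real.exp (- S.Er φ σ) ≤ 4 * S.vol * S.ZC φ := by
  classical
  rw [← sum_filter_add_sum_filter_not S.big (S.Gd φ)]
  have h1 : ∑ σ ∈ S.big.filter (S.Gd φ), Real.exp (- S.Er φ σ) ≤ ∑ y ∈ S.fbx, S.piF φ y :=
    root_inj S.y (Function.LeftInverse.injective S.pt_y) (fun y => (h.piF_pos φ y).le)
      fun σ hσ => ⟨h.fbx_of_gd hφ (mem_filter.1 hσ).2, (h.exp_le_q φ σ).1.trans (by
        rw [piF, pt_y]; exact h.q_anti (S.Ent_le_En φ σ))⟩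
  have h2 : ∑ y ∈ S.fbx, S.piF φ y ≤ S.vol * (3 * S.ZC φ) := by
    rw [h.sum_fbx, ZC, mul_sum, mul_sum]
    refine sum_le_sum fun a ha => (sum_le_card_nsmul _ _ _ fun o ho => (h.piC_cmp φ ha ho).2).trans ?_
    rw [card_obox, nsmul_eq_mul]
  have h3 := h.tail hφ S.big
  have h4 : Real.exp (- (S.G : ℝ) ^ 3 / 2) ≤ S.ZC φ :=
    (Real.exp_le_one_iff.2 (by have : (0 : ℝ) ≤ (S.G : ℝ) ^ 3 := by positivity
                               linarith)).trans (h.one_le_ZC φ)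
  have h5 := mul_le_mul_of_nonneg_right h4 (S.vol.cast_nonneg (α := ℝ))
  linarith [h1.trans h2, h3.trans h5]

/-- The level and `z · Q` do not depend on the offsets (`s_root`, `level_pt`, `z_root_congr`).  So `vol ∑_a piC (ε stat)⁺ ≤ 3 ∑_{y ∈ fbx, level 0} piF y (ε z)⁺` and there `piF y ≤ 2 μ + exp (- G³)` (`q_Ent_level`), `pt y ∈ big`,
`|z| ≤ G ^ 96`.  With `r = exp (- 4 g) ≤ G ^ (-5)`, `∑_j j r ^ j ≤ 2 r`; the total is `≤ (48 / G ^ 5 + tiny) vol ZC`.  Finally `|t| = 2 (ε t)⁺ - ε t`. -/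
theorem Good.abs_stat_le (h : S.Good) (hφ : S.Adm φ) {Q : E} (hm : |S.mean φ Q| ≤ 1 / (S.G : ℝ) ^ 3) :
    ∑ a ∈ S.cbox, S.piC φ a * |(S.stat a Q : ℝ)| ≤ 2 / (S.G : ℝ) ^ 3 * S.ZC φ := by
  have hZ := h.one_le_ZC φ
  have hG := h.G_geR
  by_cases hQ : S.F'.par Q = none
  swap
  · simp only [stat, hQ, false_and, if_false, Int.cast_zero, abs_zero, mul_zero, sum_const_zero]
    positivity
  obtain ⟨ε, hε, H⟩ := h.root_tail φ hQ
  have hr := h.root_r
  have hG2 : 192 ≤ (S.G : ℝ) ^ 2 := by nlinarith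
  have hG3 : 1 ≤ (S.G : ℝ) ^ 3 := one_le_pow₀ (by linarith)
  have hr' : 1 / (S.G : ℝ) ^ 5 ≤ 1 / 192 * (1 / (S.G : ℝ) ^ 3) := by
    rw [show 5 = 2 + 3 from rfl, pow_add, ← one_div_mul_one_div]; gcongr
  have hG4 : 1 / (S.G : ℝ) ^ 3 ≤ 1 := by rw [div_le_one (by positivity)]; exact hG3
  have hv : (0 : ℝ) < S.vol := by exact_mod_cast h.vol_pos
  have h1 := root_geom S.big (fun σ => Real.exp (- S.Er φ σ)) (fun σ => (ε * S.z σ Q).toNat)
    (r := Real.exp (- (4 * S.g))) (Real.exp_pos _).le (by linarith)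
    (sum_nonneg fun _ _ => (Real.exp_pos _).le) fun j hj => by
      rw [← Real.exp_nat_mul, mul_neg, mul_comm (j : ℝ)]
      refine le_trans (le_of_eq (sum_congr (filter_congr fun σ _ => ?_) fun _ _ => rfl)) (H j)
      rcases hε with rfl | rfl <;> omega
  have h2 := h1.trans (mul_le_mul (mul_le_mul_of_nonneg_left (hr.trans hr') zero_le_two)
    (h.big_le hφ) (sum_nonneg fun _ _ => (Real.exp_pos _).le) (by positivity))
  have h3 : ∑ y ∈ S.fbx, Real.exp (- S.Er φ (S.pt y)) * (ε * S.z (S.pt y) Q).toNat ≤ _ :=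
    (root_inj S.pt (Function.LeftInverse.injective S.y_pt) (fun _ => by positivity)
      fun y hy => ⟨h.pt_mem_big hy, le_rfl⟩).trans h2
  have h4 : S.vol * ∑ a ∈ S.cbox, S.piC φ a * (ε * S.stat a Q).toNat ≤
      ∑ y ∈ S.fbx, 3 * (2 * (Real.exp (- S.Er φ (S.pt y)) * (ε * S.z (S.pt y) Q).toNat) +
        Real.exp (- (S.G : ℝ) ^ 3) * (S.G : ℝ) ^ 96) := by
    rw [h.sum_fbx, mul_sum]
    refine sum_le_sum fun a ha => le_trans ?_
      (card_nsmul_le_sum _ _ (S.piC φ a * ((ε * S.stat a Q).toNat : ℝ)) fun o ho => ?_)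
    · rw [card_obox, nsmul_eq_mul]
    have e : ∀ C, S.F.par C = none → S.cor a C + o C = S.cor a C := fun C hC => by
      have := mem_box.1 ho C
      rw [h.s_root hC, Pi.zero_apply] at this
      omega
    by_cases h0 : ∑ u, S.pt (S.cor a) u = 0
    swap
    · simp only [stat, h0, and_false, if_false, mul_zero, Int.toNat_zero, Nat.cast_zero]
      positivity
    have h0' : ∑ u, S.pt (fun u => S.cor a u + o u) u = 0 := by
      rw [← h0, h.level_pt, h.level_pt]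
      exact sum_congr rfl fun C hC => e C (S.F.mem_roots.1 hC)
    have k1 := (h.q_Ent_level hφ h0').2.trans (add_le_add_left (h.exp_le_q φ _).2 _)
    have k2 := h.abs_z_root (h.cor_mem ha ho) hQ
    rw [stat, if_pos ⟨hQ, h0⟩, ← h.z_root_congr e hQ]
    generalize S.z (S.pt fun u => S.cor a u + o u) Q = t at k2 ⊢
    have k3 : ((ε * t).toNat : ℝ) ≤ (S.G : ℝ) ^ 96 := by
      have : ((ε * t).toNat : ℤ) ≤ |t| := by
        rcases hε with rfl | rfl <;> cases abs_cases t <;> omega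
      exact_mod_cast this.trans k2
    have k4 := mul_le_mul_of_nonneg_right ((h.piC_cmp φ ha ho).1.trans
      (mul_le_mul_of_nonneg_left k1 zero_le_three)) ((ε * t).toNat.cast_nonneg (α := ℝ))
    linarith [mul_le_mul_of_nonneg_left k3 (Real.exp_pos (- (S.G : ℝ) ^ 3)).le]
  rw [← mul_sum, sum_add_distrib, ← mul_sum, sum_const, h.card_fbx, nsmul_eq_mul] at h4
  have h5 : 16 * ((S.G : ℝ) ^ 96 * Real.exp (- (S.G : ℝ) ^ 3 / 2)) ≤ 1 / (S.G : ℝ) ^ 3 * S.ZC φ := by
    refine le_trans ?_ (le_mul_of_one_le_right (by positivity) hZ)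
    rw [le_div_iff₀ (by positivity)]
    exact (h.root_tiny (k := 99) (by norm_num)).trans_eq' (by ring)
  have h6 := mul_le_mul_of_nonneg_left h.junk (show 0 ≤ (S.G : ℝ) ^ 96 by positivity)
  have h7 : ∑ a ∈ S.cbox, S.piC φ a * (ε * S.stat a Q).toNat ≤ 1 / 2 * (1 / (S.G : ℝ) ^ 3 * S.ZC φ) := by
    refine le_of_mul_le_mul_left ?_ hv
    have := mul_le_mul_of_nonneg_left h5 hv.le
    have := mul_le_mul_of_nonneg_left h6 hv.le
    have := mul_nonneg hv.le (show 0 ≤ 1 / (S.G : ℝ) ^ 3 * S.ZC φ by positivity)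
    push_cast at h4
    linarith
  have h8 : ∑ a ∈ S.cbox, S.piC φ a * |(S.stat a Q : ℝ)| =
      2 * ∑ a ∈ S.cbox, S.piC φ a * (ε * S.stat a Q).toNat - ε * S.mean φ Q * S.ZC φ := by
    rw [mean, mul_assoc, div_mul_cancel₀ _ (by positivity), mul_sum, mul_sum, ← sum_sub_distrib]
    refine sum_congr rfl fun a _ => ?_
    have : |S.stat a Q| = 2 * (ε * S.stat a Q).toNat - ε * S.stat a Q := by
      rcases hε with rfl | rfl <;> cases abs_cases (S.stat a Q) <;> omega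
    rw [← Int.cast_abs, this]
    push_cast
    ring
  have h9 : - (ε * S.mean φ Q) ≤ 1 / (S.G : ℝ) ^ 3 := by
    have := abs_le.1 hm
    rcases hε with rfl | rfl <;> push_cast <;> linarith
  have := mul_le_mul_of_nonneg_right h9 (zero_le_one.trans hZ)
  rw [h8, show 2 / (S.G : ℝ) ^ 3 = 2 * (1 / (S.G : ℝ) ^ 3) by ring]
  linarith

/-- `Ent_cases` for `σ = pt (cor a)`: truncated (`junk`), good (level `0`), or `σ + dl C = pt (cor (a + dl C))` good, where `a + dl C ∈ cbox` has level `0` and `piC a ≤ piC (a + dl C)` -/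
theorem Good.ZC_le_level (h : S.Good) (hφ : S.Adm φ) :
    S.ZC φ ≤ (S.G + 1) * ∑ a ∈ S.cbox.filter (fun a => ∑ u, S.pt (S.cor a) u = 0), S.piC φ a +
      Real.exp (- (S.G : ℝ) ^ 3 / 2) := by
  classical
  obtain ⟨T, hT⟩ : ∃ T, T = S.cbox.filter (fun a => ∑ u, S.pt (S.cor a) u = 0) := ⟨_, rfl⟩
  have hp := fun a => (h.piC_pos φ a).le
  have h0 : ∀ a, 0 ≤ if a ∈ T then S.piC φ a else 0 := fun a => by split_ifs; exacts [hp a, le_rfl]
  have h1 : ∀ a ∈ S.cbox, S.piC φ a ≤ Real.exp (- (S.G : ℝ) ^ 3) + (if a ∈ T then S.piC φ a else 0) +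
      ∑ C ∈ S.F.roots, if a + dl C ∈ T then S.piC φ (a + dl C) else 0 := fun a ha => by
    have k0 := sum_nonneg (s := S.F.roots) fun C _ => h0 (a + dl C)
    have k1 := Real.exp_pos (- (S.G : ℝ) ^ 3)
    rcases S.Ent_cases φ (S.pt (S.cor a)) with e | ⟨g, -⟩ | ⟨C, hC, g, e⟩
    · have : S.piC φ a ≤ _ := (congrArg (S.q ^ ·) e).trans_le h.q_NL
      linarith [h0 a]
    · rw [if_pos (hT ▸ mem_filter.2 ⟨ha, h.level_of_gd hφ g⟩)]
      linarith
    · have e1 : S.pt (S.cor a) + dl C = S.pt (S.cor (a + dl C)) := by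
        refine (congrArg _ (S.F.ed_root hC).symm).trans
          ((S.pt_add_dl _ C).symm.trans (congrArg _ (funext fun u => ?_)))
        by_cases hu : u = C
        · subst hu; simp [cor, h.s_root hC, add_assoc]
        · simp [cor, dl_ne hu]
      rw [e1] at g e
      have k2 : a + dl C ∈ T := hT ▸ mem_filter.2 ⟨mem_box.2 fun u => by
        have k3 := mem_box.1 ha u
        by_cases hu : u = C
        · subst hu
          have k4 := (mem_fbx.1 (h.fbx_of_gd hφ g) u).2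
          simp only [y_pt, cor, loF, h.s_root hC, M, Pi.zero_apply, Pi.add_apply, dl_self] at *
          push_cast at *
          omega
        · simpa [dl_ne hu] using k3, h.level_of_gd hφ g⟩
      have k5 := single_le_sum (f := fun C => if a + dl C ∈ T then S.piC φ (a + dl C) else 0)
        (fun C _ => h0 (a + dl C)) (S.F.mem_roots.2 hC)
      rw [if_pos k2] at k5
      have : S.piC φ a ≤ S.piC φ (a + dl C) :=
        (congrArg (S.q ^ ·) e).trans_le (h.q_anti (S.Ent_le_En φ _))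
      linarith [h0 a]
  have h2 : ∀ v, ∑ a ∈ S.cbox, (if a + v ∈ T then S.piC φ (a + v) else 0) ≤ ∑ a ∈ T, S.piC φ a :=
    fun v => by
      rw [← sum_filter]
      exact root_inj (· + v) (add_left_injective v) hp fun a ha => ⟨(mem_filter.1 ha).2, le_rfl⟩
  have h3 := sum_le_sum h1
  rw [sum_add_distrib, sum_add_distrib, sum_comm, sum_const, nsmul_eq_mul] at h3
  have h4 := sum_le_card_nsmul S.F.roots _ _ fun C _ => h2 (dl C)
  have h5 : (S.F.roots.card : ℝ) ≤ S.G := by exact_mod_cast (card_le_univ _).trans h.cardU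
  have h6 := mul_le_mul_of_nonneg_right h5 (sum_nonneg (s := T) fun a _ => hp a)
  have h7 := h2 0
  simp only [add_zero] at h7
  rw [nsmul_eq_mul] at h4
  rw [← hT, ZC]
  linarith [h.junk]

/-- a block of level `0` outside `Z00` has `|stat a Q| ≥ 1` for some root `Q` -/
theorem Good.ZC_le_Z00 (h : S.Good) (hφ : S.Adm φ) (hm : ∀ e, |S.mean φ e| ≤ 1 / (S.G : ℝ) ^ 3) :
    S.ZC φ ≤ 2 * S.G * S.Z00 φ := by
  classical
  have hZ := h.one_le_ZC φ
  have hG := h.G_geR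
  have hp := fun a => (h.piC_pos φ a).le
  have h1 : ∑ a ∈ S.cbox.filter (fun a => ∑ u, S.pt (S.cor a) u = 0), S.piC φ a ≤
      S.Z00 φ + ∑ Q, ∑ a ∈ S.cbox, S.piC φ a * |(S.stat a Q : ℝ)| := by
    rw [sum_comm, Z00, sum_filter, sum_filter, ← sum_add_distrib]
    refine sum_le_sum fun a _ => ?_
    have k0 : ∀ Q ∈ univ, 0 ≤ S.piC φ a * |(S.stat a Q : ℝ)| := fun Q _ =>
      mul_nonneg (hp a) (abs_nonneg _)
    have k1 := sum_nonneg k0
    split_ifs with h0 h1 h1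
    · linarith
    · push Not at h1
      obtain ⟨Q, hQ, h1⟩ := h1
      refine le_trans ?_ ((single_le_sum k0 (mem_univ Q)).trans_eq (zero_add _).symm)
      refine le_mul_of_one_le_right (hp a) ?_
      rw [stat, if_pos ⟨S.F'.mem_roots.1 hQ, h0⟩]
      exact_mod_cast Int.one_le_abs h1
    · linarith [hp a]
    · linarith
  have h2 := sum_le_card_nsmul univ _ _ fun Q _ => h.abs_stat_le hφ (hm Q)
  have h3 : (Fintype.card E : ℝ) ≤ S.G := by exact_mod_cast h.cardE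
  rw [card_univ, nsmul_eq_mul] at h2
  have h4 := (h1.trans (add_le_add_right (h2.trans
    (mul_le_mul_of_nonneg_right h3 (by positivity))) _))
  have h5 := (h.ZC_le_level hφ).trans
    (add_le_add_left (mul_le_mul_of_nonneg_left h4 (by positivity)) _)
  have h6 := h.root_tiny (k := 0) (by norm_num)
  have h7 : ((S.G : ℝ) + 1) * (S.G * (2 / (S.G : ℝ) ^ 3)) ≤ 1 / 16 := by
    rw [← mul_div_assoc, ← mul_div_assoc, div_le_iff₀ (by positivity)]
    nlinarith [mul_le_mul_of_nonneg_right hG (show (0 : ℝ) ≤ S.G ^ 2 by positivity)]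
  have h8 := mul_le_mul_of_nonneg_right h7 (zero_le_one.trans hZ)
  have h9 : 0 ≤ S.Z00 φ := sum_nonneg fun a _ => hp a
  linarith [mul_le_mul_of_nonneg_right hG h9]

end Sys

end Crest.Agent.R302
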