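import Crest.Agent.R302.Cyc

/-!
# R302/Star: small capacities are rare, and a slightly larger polytope has few more points (TASK)
-/

set_option autoImplicit false
set_option linter.unusedSectionVars false

namespace Crest.Agent.R302

open Finset Crest.Agent.R309

variable {U E : Type} [Fintype U] [DecidableEq U] [Fintype E] [DecidableEq E]
  {f : Finset U → ℤ} {pr : U → E}

private theorem star_mono {x y : U → ℤ} {u v : U} {t t' : ℤ} (h : CapGe f x u v t)
    (h' : ∀ A, t ≤ slack f x A → t' ≤ slack f y A) : CapGe f y u v t' :=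
  fun A h1 h2 => h' A (h A h1 h2)

private theorem star_window {G : ℕ} (hG : Fintype.card U ≤ G) (x : U → ℤ) {Δ : ℤ} (hΔ : 0 ≤ Δ) :
    ∃ i : ℕ, i ≤ G ^ 2 ∧ ∀ u v, CapGe f x u v (2 * i * Δ) → CapGe f x u v ((2 * i + 2) * Δ) := by
  by_contra hn
  push Not at hn
  have h1 : ∀ i : ℕ, ∃ p : U × U, i ≤ G ^ 2 →
      CapGe f x p.1 p.2 (2 * i * Δ) ∧ ¬ CapGe f x p.1 p.2 ((2 * i + 2) * Δ) := by
    intro i
    obtain ⟨u, v, h⟩ := hn (min i (G ^ 2)) (min_le_right _ _)
    refine ⟨(u, v), fun hi => ?_⟩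
    rwa [min_eq_left hi] at h
  choose p hp using h1
  have h2 : ∀ i j, i < j → j ≤ G ^ 2 → p i ≠ p j := by
    intro i j hij hj e
    refine (hp i (by omega)).2 (star_mono (e ▸ (hp j hj).1) fun A hA => le_trans ?_ hA)
    have : (i : ℤ) + 1 ≤ j := by exact_mod_cast hij
    exact mul_le_mul_of_nonneg_right (by omega) hΔ
  have h3 : (range (G ^ 2 + 1)).card ≤ (univ : Finset (U × U)).card := by
    refine card_le_card_of_injOn p (fun _ _ => mem_univ _) fun i hi j hj e => ?_
    have hi' := mem_range.1 (mem_coe.1 hi)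
    have hj' := mem_range.1 (mem_coe.1 hj)
    rcases lt_trichotomy i j with h | h | h
    · exact absurd e (h2 i j h (by omega))
    · exact h
    · exact absurd e.symm (h2 j i h (by omega))
  rw [card_range, card_univ, Fintype.card_prod] at h3
  have := Nat.mul_le_mul hG hG
  rw [sq] at h3
  omega

private theorem star_num {G s i : ℤ} (h32 : 32 ≤ G) (hs : 0 < s) (hi : i ≤ G ^ 2) :
    s + G ^ 3 * ((2 * i + 1) * (G ^ 3 * (4 * G * (G ^ 2 + 1) * s))) ≤ G ^ 12 * s := by
  have h0 : 0 < G := by omega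
  have h1 : 1 ≤ G ^ 2 := one_le_pow₀ (by omega)
  have h2 : 1 ≤ G ^ 11 := one_le_pow₀ (by omega)
  have h3 : G ^ 3 * ((2 * i + 1) * (G ^ 3 * (4 * G * (G ^ 2 + 1) * s))) ≤
      G ^ 3 * ((3 * G ^ 2) * (G ^ 3 * (4 * G * (2 * G ^ 2) * s))) := by
    gcongr <;> omega
  have h4 : G ^ 3 * ((3 * G ^ 2) * (G ^ 3 * (4 * G * (2 * G ^ 2) * s))) = 24 * (G ^ 11 * s) := by
    ring
  have h5 : s ≤ G ^ 11 * s := le_mul_of_one_le_left hs.le h2
  have h6 : 32 * (G ^ 11 * s) ≤ G * (G ^ 11 * s) := by gcongr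
  have h7 : G * (G ^ 11 * s) = G ^ 12 * s := by ring
  omega

private theorem star_key (hf : Nice f) {G : ℕ} (hG : Fintype.card U ≤ G) (h32 : 32 ≤ G)
    {x0 : U → ℤ} (h0 : InK f pr x0) (a b : U) {s W : ℤ} (hs0 : 0 < s) (hW : CapGe f x0 a b W)
    (hs : (G : ℤ) ^ 12 * s ≤ W) (D : (U → U → Prop) → U → ℤ) (hD : ∀ T, DirSpec T pr G (D T))
    {J Δ : ℤ} (hJ : J = 4 * G * (G ^ 2 + 1) * s) (hΔ : Δ = G ^ 3 * J) {x : U → ℤ}
    (hx : InK f pr x) (hbad : ¬ CapGe f x a b s) :
    ∃ i : ℕ, i ≤ G ^ 2 ∧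
      (∃ A, slack f x A < s ∧ ∑ u ∈ A, D (Mv f x ((2 * i + 1) * Δ)) u ≤ -1) ∧
      ∀ j : ℤ, 0 ≤ j → j ≤ J → InK f pr (x + j • D (Mv f x ((2 * i + 1) * Δ))) ∧
        Mv f (x + j • D (Mv f x ((2 * i + 1) * Δ))) ((2 * i + 1) * Δ) =
          Mv f x ((2 * i + 1) * Δ) := by
  have hG0 : (32 : ℤ) ≤ G := by exact_mod_cast h32
  have hJ0 : 0 ≤ J := by rw [hJ]; positivity
  have hΔ0 : 0 ≤ Δ := by rw [hΔ]; positivity
  obtain ⟨i, hi, hw⟩ := star_window (f := f) hG x hΔ0
  have hiΔ : 0 ≤ (i : ℤ) * Δ := by positivity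
  have hd := hD (Mv f x ((2 * i + 1) * Δ))
  refine ⟨i, hi, ?_, fun j hj0 hj => ?_⟩
  · unfold CapGe at hbad
    push Not at hbad
    obtain ⟨A, ha, hb, hA⟩ := hbad
    refine ⟨A, hA, ?_⟩
    have hsΔ : s ≤ Δ := by
      rw [hΔ, hJ, ← mul_assoc]
      refine le_mul_of_one_le_left hs0.le ?_
      have : 0 < (G : ℤ) ^ 3 * (4 * G * (G ^ 2 + 1)) := by positivity
      omega
    have hcl : Clo (Mv f x ((2 * i + 1) * Δ)) A := clo_of_slack_lt (by linarith)
    by_contra hn
    have h1 := lemX hf hx h0 (τ := (2 * i + 1) * Δ) (by linarith) A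
      fun u v h2 h3 h4 h5 => hn (hd.lv A hcl u v h2 h3 h4 h5)
    have h2 := hW A ha hb
    have h3 := star_num (i := i) hG0 hs0 (by exact_mod_cast hi)
    rw [← hJ, ← hΔ] at h3
    have h4 : (Fintype.card U : ℤ) ^ 3 * ((2 * i + 1) * Δ) ≤ (G : ℤ) ^ 3 * ((2 * i + 1) * Δ) := by
      gcongr
    omega
  · have hj' : (G : ℤ) ^ 3 * j ≤ Δ := by rw [hΔ]; gcongr
    refine ⟨inK_move hx hd hj0 (by linarith), ?_⟩
    have hsl : ∀ A, |slack f (x + j • D (Mv f x ((2 * i + 1) * Δ))) A - slack f x A| ≤ Δ := by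
      intro A
      rw [slack_move, sub_sub_cancel_left, abs_neg, abs_mul, abs_of_nonneg hj0, mul_comm]
      exact (mul_le_mul_of_nonneg_right (hd.bd A) hj0).trans hj'
    funext u v
    refine propext ⟨fun h => ?_, fun h => ?_⟩
    · refine star_mono (hw v u (star_mono h fun A hA => ?_)) fun A hA => by linarith
      have := abs_le.1 (hsl A)
      linarith
    · refine star_mono (hw v u (star_mono h fun A hA => by linarith)) fun A hA => ?_
      have := abs_le.1 (hsl A)
      linarith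

open Classical in
/-- Let `s ≥ 1` (for `s ≤ 0` the set is empty), `J = 4 G (G² + 1) s`, `Δ = G³ J`, `τ i = (2 i + 1) Δ`, `i ≤ G²`, and choose `d T` with `DirSpec T pr G (d T)` for every relation `T`.
Let `x` be bad, `A ∋ a`, `∌ b` with `slack x A < s`.  Each ordered pair `(v, u)` spoils at most one window `i` (`CapGe x v u (2 i Δ)` but not `CapGe x v u ((2 i + 2) Δ)`), so some window `i = i x` is clean.
For `1 ≤ j ≤ J` put `y = x + j • d (Mv f x (τ i))`; `y ∈ K` (`inK_move`), all slacks move by at most `Δ`, hence `Mv f y (τ i) = Mv f x (τ i)`.  Also `d A ≤ -1`: `A` is closed (`clo_of_slack_lt`)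
and `W ≤ slack x0 A`, `s + G³ τ i ≤ G ^ 12 s ≤ W` contradict `lemX` unless a move on a cycle leaves `A`.
Consider the map `(x, j) ↦ (y, i)`.  If `(x, j)`, `(x', j')` have the same image then the directions agree, `x' = x - (j' - j) • d`; if `j ≤ j'` then `0 ≤ slack x' A = slack x A + (j' - j) d A`
gives `j' - j < s`.  So `(x, j) ↦ (y, i, j % s)` is injective, `#bad * J ≤ #K * (G² + 1) * s`. -/
theorem star (hf : Nice f) {G : ℕ} (hG : Fintype.card U ≤ G) (h32 : 32 ≤ G) {x0 : U → ℤ}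
    (h0 : InK f pr x0) (a b : U) (s W : ℤ) (hW : CapGe f x0 a b W) (hs : (G : ℤ) ^ 12 * s ≤ W) :
    4 * G * ((KK f pr).filter fun x => ¬ CapGe f x a b s).card ≤ (KK f pr).card := by
  rcases le_or_gt s 0 with hs0 | hs0
  · rw [filter_false_of_mem]
    · simp
    · intro x hx hn
      refine hn fun A _ _ => hs0.trans ?_
      have := (mem_KK.1 hx).1 A
      unfold slack; omega
  obtain ⟨σ, rfl⟩ := Int.eq_ofNat_of_zero_le hs0.le
  have hσ : 0 < σ := by exact_mod_cast hs0
  choose D hD using fun T : U → U → Prop => exists_dirSpec T pr hG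
  obtain ⟨J, hJ⟩ : ∃ J : ℕ, J = 4 * G * (G ^ 2 + 1) * σ := ⟨_, rfl⟩
  obtain ⟨Δ, hΔ⟩ : ∃ Δ : ℤ, Δ = G ^ 3 * (J : ℤ) := ⟨_, rfl⟩
  set B := (KK f pr).filter fun x => ¬ CapGe f x a b σ with hB
  have key : ∀ x, ∃ i : ℕ, x ∈ B → i ≤ G ^ 2 ∧
      (∃ A, slack f x A < σ ∧ ∑ u ∈ A, D (Mv f x ((2 * i + 1) * Δ)) u ≤ -1) ∧
      ∀ j : ℤ, 0 ≤ j → j ≤ J → InK f pr (x + j • D (Mv f x ((2 * i + 1) * Δ))) ∧
        Mv f (x + j • D (Mv f x ((2 * i + 1) * Δ))) ((2 * i + 1) * Δ) =
          Mv f x ((2 * i + 1) * Δ) := by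
    intro x
    by_cases hx : x ∈ B
    · obtain ⟨i, hi⟩ := star_key hf hG h32 h0 a b hs0 hW hs D hD (J := J)
        (by rw [hJ]; push_cast; ring) hΔ (mem_KK.1 (mem_filter.1 hx).1) (mem_filter.1 hx).2
      exact ⟨i, fun _ => hi⟩
    · exact ⟨0, fun h => absurd h hx⟩
  choose I hI using key
  let φ : (U → ℤ) × ℕ → (U → ℤ) × ℕ × ℕ := fun q =>
    (q.1 + (q.2 : ℤ) • D (Mv f q.1 ((2 * I q.1 + 1) * Δ)), I q.1, q.2 % σ)
  have hinj : ∀ q ∈ B ×ˢ range J, ∀ q' ∈ B ×ˢ range J, φ q = φ q' → q.2 ≤ q'.2 → q = q' := by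
    rintro ⟨x, j⟩ hq ⟨x', j'⟩ hq' e hle
    obtain ⟨hx, hj⟩ := mem_product.1 hq
    obtain ⟨hx', hj'⟩ := mem_product.1 hq'
    simp only [φ, Prod.mk.injEq] at e hx hj hx' hj' hle
    obtain ⟨e1, e2, e3⟩ := e
    obtain ⟨-, ⟨A, hA, hA'⟩, h1⟩ := hI x hx
    have h2 := (h1 j (Int.natCast_nonneg _) (by exact_mod_cast (mem_range.1 hj).le)).2
    have h3 := ((hI x' hx').2.2 j' (Int.natCast_nonneg _)
      (by exact_mod_cast (mem_range.1 hj').le)).2
    rw [← e2] at h3 e1
    rw [← e1, h2] at h3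
    rw [← h3] at e1
    have h4 : x' = x + ((j : ℤ) - j') • D (Mv f x ((2 * I x + 1) * Δ)) := by
      rw [sub_smul, ← add_sub_assoc, e1, add_sub_cancel_right]
    have h5 := (mem_KK.1 (mem_filter.1 hx').1).1 A
    have h6 := slack_move f x (D (Mv f x ((2 * I x + 1) * Δ))) ((j : ℤ) - j') A
    rw [← h4] at h6
    have h7 : ((j' : ℤ) - j) * ∑ u ∈ A, D (Mv f x ((2 * I x + 1) * Δ)) u ≤ ((j' : ℤ) - j) * -1 :=
      mul_le_mul_of_nonneg_left hA' (by omega)
    have h8 : 0 ≤ slack f x' A := by unfold slack; omega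
    have h9 : j' - j < σ := by
      have : (j' : ℤ) - j < σ := by linarith
      omega
    have h10 : j = j' := by
      have := Nat.eq_zero_of_dvd_of_lt ((Nat.modEq_iff_dvd' hle).1 e3) h9
      omega
    subst h10
    rw [h4]; simp
  have hc : (B ×ˢ range J).card ≤ (KK f pr ×ˢ range (G ^ 2 + 1) ×ˢ range σ).card := by
    refine card_le_card_of_injOn φ (fun q hq => ?_) fun q hq q' hq' e => ?_
    · obtain ⟨hx, hj⟩ := mem_product.1 (mem_coe.1 hq)
      obtain ⟨h1, -, h2⟩ := hI _ hx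
      exact mem_coe.2 (mem_product.2 ⟨mem_KK.2 (h2 _ (Int.natCast_nonneg _)
        (by exact_mod_cast (mem_range.1 hj).le)).1, mem_product.2
          ⟨mem_range.2 (Nat.lt_succ_of_le h1), mem_range.2 (Nat.mod_lt _ hσ)⟩⟩)
    · rcases le_total q.2 q'.2 with h | h
      · exact hinj q hq q' hq' e h
      · exact (hinj q' hq' q hq e.symm h).symm
  simp only [card_product, card_range] at hc
  refine Nat.le_of_mul_le_mul_right (c := (G ^ 2 + 1) * σ) ?_ (by positivity)
  calc 4 * G * B.card * ((G ^ 2 + 1) * σ) = B.card * J := by rw [hJ]; ring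
    _ ≤ _ := hc

/-- `f` plus the cut functions of the edges `i ∈ S` -/
def addCut {ι : Type} (f : Finset U → ℤ) (S : Finset ι) (a b : ι → U) (h : ι → ℕ) (A : Finset U) : ℤ :=
  f A + ∑ i ∈ S, if (a i ∈ A ↔ b i ∈ A) then 0 else (h i : ℤ)

private theorem star_le {ι : Type} (f : Finset U → ℤ) (S : Finset ι) (a b : ι → U) (h : ι → ℕ)
    (A : Finset U) : f A ≤ addCut f S a b h A :=
  le_add_of_nonneg_right (sum_nonneg fun i _ => by split_ifs <;> simp)

private theorem star_insert {ι : Type} [DecidableEq ι] (f : Finset U → ℤ) {S : Finset ι} {i : ι}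
    (hi : i ∉ S) (a b : ι → U) (h : ι → ℕ) (A : Finset U) :
    addCut f (insert i S) a b h A =
      addCut f S a b h A + if (a i ∈ A ↔ b i ∈ A) then 0 else (h i : ℤ) := by
  unfold addCut
  rw [sum_insert hi]; ring

private theorem star_nice {ι : Type} [DecidableEq ι] (hf : Nice f) (S : Finset ι) (a b : ι → U)
    (h : ι → ℕ) : Nice (addCut f S a b h) := by
  refine ⟨?_, by simp [addCut, hf.emp], by simp [addCut, hf.top]⟩
  induction S using Finset.induction_on with
  | empty => intro A B; simpa [addCut] using hf.sub A B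
  | insert i S hi ih =>
    have := ih.add (submod_cut (a i) (b i) (Int.natCast_nonneg (h i)))
    intro A B
    simp only [star_insert f hi]
    exact this A B

private theorem star_step {ι : Type} [DecidableEq ι] (hf : Nice f) {G : ℕ}
    (hG : Fintype.card U ≤ G) (h32 : 32 ≤ G) {x0 : U → ℤ} (h0 : InK f pr x0) {S : Finset ι} {i : ι}
    (hi : i ∉ S) (a b : ι → U) (h : ι → ℕ)
    (hW : ∀ A, ¬ (a i ∈ A ↔ b i ∈ A) → (G : ℤ) ^ 12 * h i ≤ slack f x0 A) :
    2 * G * (KK (addCut f (insert i S) a b h) pr).card ≤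
      2 * G * (KK (addCut f S a b h) pr).card + (KK (addCut f (insert i S) a b h) pr).card := by
  classical
  set f' := addCut f (insert i S) a b h with hf'
  have hn : Nice f' := star_nice hf _ a b h
  have h0' : InK f' pr x0 := ⟨fun A => (h0.1 A).trans (star_le f _ a b h A), h0.2⟩
  have hsl : ∀ A, slack f x0 A ≤ slack f' x0 A := fun A =>
    sub_le_sub_right (star_le f _ a b h A) _
  have h1 := star hn hG h32 h0' (a i) (b i) (h i) _
    (fun A ha hb => (hW A (by simp [ha, hb])).trans (hsl A)) le_rfl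
  have h2 := star hn hG h32 h0' (b i) (a i) (h i) _
    (fun A ha hb => (hW A (by simp [ha, hb])).trans (hsl A)) le_rfl
  have h3 : KK f' pr ⊆ KK (addCut f S a b h) pr ∪
      (((KK f' pr).filter fun x => ¬ CapGe f' x (a i) (b i) (h i)) ∪
        (KK f' pr).filter fun x => ¬ CapGe f' x (b i) (a i) (h i)) := by
    intro x hx
    have hx' := mem_KK.1 hx
    by_cases hb : Below (addCut f S a b h) x
    · exact mem_union_left _ (mem_KK.2 ⟨hb, hx'.2⟩)
    · unfold Below at hb
      push Not at hb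
      obtain ⟨A, hA⟩ := hb
      have h4 := hx'.1 A
      have h5 : f' A = _ := star_insert f hi a b h A
      refine mem_union_right _ ?_
      by_cases ha : a i ∈ A <;> by_cases hb : b i ∈ A
      · simp only [ha, hb, if_true] at h5; omega
      · refine mem_union_left _ (mem_filter.2 ⟨hx, fun hc => ?_⟩)
        have := hc A ha hb
        simp only [ha, hb, iff_false, not_true, if_false] at h5
        unfold slack at this; omega
      · refine mem_union_right _ (mem_filter.2 ⟨hx, fun hc => ?_⟩)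
        have := hc A hb ha
        simp only [ha, hb, iff_true, if_false] at h5
        unfold slack at this; omega
      · simp only [ha, hb, if_true] at h5; omega
  have h4 := (card_le_card h3).trans ((card_union_le _ _).trans
    (Nat.add_le_add_left (card_union_le _ _) _))
  have h5 := Nat.mul_le_mul_left (4 * G) h4
  rw [mul_add, mul_add] at h5
  nlinarith

/-- Add the edges one at a time (induction on `S`, statement `(2 G - 1) ^ card S * #K_S ≤ (2 G) ^ card S * #K`).  `f_S` is `Nice` (`submod_cut`), `x0 ∈ K_S`.  A point `x` of `K_(S+i)` outside `K_S` violates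
a set `A` that cuts the edge `i`, so its slack for `f_(S+i)` is `< h i`; by `star` for `f_(S+i)` and the pairs `(a i, b i)`, `(b i, a i)` these are at most a fraction `1 / (2 G)` of `K_(S+i)`.
Finally `(1 - 1 / (2 G)) ^ G ≥ 1 / 2` (Bernoulli). -/
theorem plus {ι : Type} [DecidableEq ι] (hf : Nice f) {G : ℕ} (hG : Fintype.card U ≤ G) (h32 : 32 ≤ G)
    {x0 : U → ℤ} (h0 : InK f pr x0) (S : Finset ι) (hS : S.card ≤ G) (a b : ι → U) (h : ι → ℕ)
    (hW : ∀ i ∈ S, ∀ A, ¬ (a i ∈ A ↔ b i ∈ A) → (G : ℤ) ^ 12 * h i ≤ slack f x0 A) :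
    (KK (addCut f S a b h) pr).card ≤ 2 * (KK f pr).card := by
  have key : ∀ T : Finset ι, T ⊆ S →
      (2 * G - T.card : ℤ) * (KK (addCut f T a b h) pr).card ≤ 2 * G * (KK f pr).card := by
    intro T
    induction T using Finset.induction_on with
    | empty =>
      intro _
      have : addCut f (∅ : Finset ι) a b h = f := by funext A; simp [addCut]
      rw [this]; simp
    | insert i T hi ih =>
      intro hT
      have h1 := ih ((subset_insert _ _).trans hT)
      have h2 := star_step hf hG h32 h0 hi a b h (hW i (hT (mem_insert_self _ _)))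
      have h3 : T.card ≤ G := (card_le_card ((subset_insert _ _).trans hT)).trans hS
      rw [card_insert_of_notMem hi]
      zify at h2 h3 h32
      push_cast
      have h4 := Int.natCast_nonneg (KK (addCut f (insert i T) a b h) pr).card
      have h5 := Int.natCast_nonneg T.card
      have h6 := mul_le_mul_of_nonneg_left h2 (show (0 : ℤ) ≤ 2 * G - T.card by omega)
      have h7 := mul_le_mul_of_nonneg_left h1 (show (0 : ℤ) ≤ 2 * G by omega)
      have h8 := mul_nonneg h4 h5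
      refine le_of_mul_le_mul_left (a := 2 * (G : ℤ)) ?_ (by omega)
      linarith
  have h1 := key S subset_rfl
  zify at hS h32 ⊢
  have h2 : (G : ℤ) * (KK (addCut f S a b h) pr).card ≤
      (2 * G - S.card : ℤ) * (KK (addCut f S a b h) pr).card :=
    mul_le_mul_of_nonneg_right (by omega) (Int.natCast_nonneg _)
  refine le_of_mul_le_mul_left (a := (G : ℤ)) ?_ (by omega)
  linarith

end Crest.Agent.R302
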