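import Crest.Agent.R302.OutM
import Crest.Agent.R302.Root
import Crest.Agent.R302.Star

/-!
# R302/Acc: the acceptance probability (TASK)
-/

set_option autoImplicit false
set_option linter.unusedSectionVars false

namespace Crest.Agent.R302

open Finset Crest.Agent.R309

namespace Sys

variable {U E : Type} [Fintype U] [DecidableEq U] [Fintype E] [DecidableEq E] {S : Sys U E}
  {φ : E → ℤ} {σ : U → ℤ}

/-- the slightly larger function -/
def fplus (S : Sys U E) : Finset U → ℤ :=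
  addCut S.f (univ.filter fun u => S.F.par u ≠ none) id (fun u => (S.F.par u).getD u)
    fun u => S.wd u / S.G ^ 14

theorem Good.acc_div (h : S.Good) (u : U) {k : ℕ} (hk : k ≤ 72) :
    ((S.wd u / S.G ^ k : ℕ) : ℝ) = S.wd u / (S.G : ℝ) ^ k := by
  have hG := h.G_ge
  rw [Nat.cast_div _ (by positivity), Nat.cast_pow]
  rw [← h.s_mul u]
  exact (Nat.pow_dvd_pow _ hk).mul_left _

theorem Good.acc_A (h : S.Good) (hσ : S.Gd φ σ) (h0 : ∀ e ∈ S.F'.roots, S.z σ e = 0) :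
    S.Amain σ ≤ 2 * (S.G : ℝ) ^ 3 :=
  (h.Er_ge_of_roots φ h0).trans (h.Er_le_of_gd hσ)

/-- `plus`, `sep` -/
theorem Good.card_fplus (h : S.Good) : (KK S.fplus S.pr).card ≤ 2 * (KK S.f S.pr).card := by
  have hG := h.G_ge
  refine plus h.nice h.cardU (by omega) h.x0 _ ((card_le_univ _).trans h.cardU) _ _ _
    fun u hu A hA => ?_
  obtain ⟨p, hp⟩ := Option.ne_none_iff_exists'.1 (mem_filter.1 hu).2
  refine le_trans ?_ (h.sep u p hp A (by simpa [hp] using hA))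
  have h1 : S.G ^ 12 * (S.wd u / S.G ^ 14) ≤ S.wd u :=
    (Nat.mul_le_mul_right _ (Nat.pow_le_pow_right (by omega) (by norm_num))).trans
      (Nat.mul_div_le _ _)
  exact_mod_cast h1

/-- `Amain ≤ Er ≤ 2 G³` (`Er_ge_of_roots`); `|z| > wd / G ^ 20` (an exact quotient) would give `G ^ 4 / 2 < 2 G³` -/
theorem Good.z_mem_of_gd (h : S.Good) (hσ : S.Gd φ σ) (h0 : ∀ e ∈ S.F'.roots, S.z σ e = 0) :
    S.z σ ∈ S.zbox := by
  refine mem_box.2 fun e => abs_le.1 ?_
  by_cases he : S.F'.par e = none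
  · simp [h0 e (by simpa using he)]
  have hG := h.G_geR
  have hw := h.ene_wd (S.pc e)
  have h1 := (h.z_le_Amain σ he).trans (h.acc_A hσ h0)
  rw [div_le_iff₀ (by positivity)] at h1
  have h2 : |(S.z σ e : ℝ)| ≤ S.wd (S.pc e) / (S.G : ℝ) ^ 20 := by
    refine abs_le_of_sq_le_sq ?_ (by positivity)
    rw [div_pow, le_div_iff₀ (by positivity)]
    refine le_of_mul_le_mul_left (a := (S.G : ℝ) ^ 4) ?_ (by positivity)
    calc _ = (S.G : ℝ) ^ 44 * (S.z σ e : ℝ) ^ 2 := by ring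
      _ ≤ _ := h1
      _ = 4 * ((S.G : ℝ) ^ 3 * (S.wd (S.pc e) : ℝ) ^ 2) := by ring
      _ ≤ S.G * ((S.G : ℝ) ^ 3 * (S.wd (S.pc e) : ℝ) ^ 2) := by gcongr; linarith
      _ = _ := by ring
  rw [← h.acc_div _ (by norm_num)] at h2
  rw [gz, if_neg he]
  generalize S.wd (S.pc e) / S.G ^ 20 = N at h2 ⊢
  exact_mod_cast h2

theorem Good.acc_diff (h : S.Good) (hz : S.z σ ∈ S.zbox) (A : Finset U) (W : ℕ)
    (hW : ∀ v p, S.F.par v = some p → ¬ (v ∈ A ↔ p ∈ A) → S.wd v ≤ W) :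
    ∑ u ∈ A, S.out σ u ≤ ∑ u ∈ A, σ u + S.G * ((W / S.G ^ 20 : ℕ) : ℤ) := by
  have e1 : ∑ u ∈ A, S.out σ u = ∑ u ∈ A, σ u + ∑ e, - (S.z σ e * ∑ u ∈ A, S.pe e u) := by
    simp only [out, Pi.sub_apply, Finset.sum_apply, Pi.smul_apply, smul_eq_mul, sum_sub_distrib,
      mul_sum, sum_neg_distrib]
    rw [sum_comm, sub_eq_add_neg]
  have key : ∀ e ∈ univ, - (S.z σ e * ∑ u ∈ A, S.pe e u) ≤ ((W / S.G ^ 20 : ℕ) : ℤ) := by
    intro e _
    have h0 : (0 : ℤ) ≤ ((W / S.G ^ 20 : ℕ) : ℤ) := Int.natCast_nonneg _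
    cases he : S.F'.par e with
    | none => simpa [pe, he] using h0
    | some e' =>
      obtain ⟨p, hp, -⟩ := h.pc_spec e e' he
      have h1 := mem_box.1 hz e
      simp only [gz, he, reduceCtorEq, if_false] at h1
      simp only [pe, he, reduceCtorEq, if_false, Pi.smul_apply, smul_eq_mul, ← mul_sum]
      rw [Forest.sum_ed, Forest.df, hp, Option.elim_some]
      by_cases hc : S.pc e ∈ A ↔ p ∈ A
      · simpa [chi, hc] using h0
      · have h2 : ((S.wd (S.pc e) / S.G ^ 20 : ℕ) : ℤ) ≤ ((W / S.G ^ 20 : ℕ) : ℤ) := by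
          exact_mod_cast Nat.div_le_div_right (hW _ p hp hc)
        simp only [chi]
        split_ifs <;> omega
  have h1 := sum_le_card_nsmul _ _ _ key
  rw [card_univ, nsmul_eq_mul] at h1
  have h2 : (Fintype.card E : ℤ) ≤ S.G := by exact_mod_cast h.cardE
  have h3 := mul_le_mul_of_nonneg_right h2 (Int.natCast_nonneg (W / S.G ^ 20))
  linarith

/-- Let `x = out σ`, `PZ x` by `z_out`.  Suppose `x A > fplus A`.  If no edge of `F` is cut by `A`, then `σ A = x A` (`sum_ed`) and `nu_ge_set` with `t = G ^ 14 Dn` gives `nu / Dn ≥ G ^ 14`.  Otherwise let `u` be a cut edge of largest width;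
`|(σ - x) A| ≤ G wd u / G ^ 20 ≤ (wd u / G ^ 14) / 2`, so `σ A - f A ≥ wd u / (2 G ^ 14)`, and `t = lam u` (the least value of `lam` on the cut edges, `≤ G ^ 14 Dn`) gives `nu / Dn ≥ G ^ 4 / 2`.  Both contradict `Amain ≤ 2 G³`. -/
theorem Good.out_mem_of_gd (h : S.Good) (hσ : S.Gd φ σ) (h0 : ∀ e ∈ S.F'.roots, S.z σ e = 0) :
    InK S.fplus S.pr (S.out σ) := by
  refine ⟨fun A => ?_, (S.z_eq_zero_iff _).1 (funext fun e => ?_)⟩
  swap
  · rw [h.z_out]
    split_ifs with he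
    · exact h0 e (by simpa using he)
    · rfl
  have hG := h.G_geR
  have hD := h.ene_Dn
  have hz := h.z_mem_of_gd hσ h0
  have hnu := (h.nu_le_Amain σ).trans (h.acc_A hσ h0)
  rw [div_le_iff₀ hD] at hnu
  have hG3 : (0 : ℝ) < (S.G : ℝ) ^ 3 * S.Dn := by positivity
  have hdf : ∀ v p, S.F.par v = some p → S.F.df (chi A) v ≠ 0 → ¬ (v ∈ A ↔ p ∈ A) := by
    intro v p hp hne hc
    simp [Forest.df, hp, chi, hc] at hne
  by_contra hlt
  rw [not_le, fplus, addCut] at hlt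
  have hnn : ∀ i ∈ univ.filter (fun u => S.F.par u ≠ none), (0 : ℤ) ≤
      if (id i ∈ A ↔ (S.F.par i).getD i ∈ A) then 0 else ((S.wd i / S.G ^ 14 : ℕ) : ℤ) :=
    fun i _ => by split_ifs <;> positivity
  rcases (univ.filter fun v => ∃ p, S.F.par v = some p ∧ ¬ (v ∈ A ↔ p ∈ A)).eq_empty_or_nonempty
    with hT | hT
  · rw [filter_eq_empty_iff] at hT
    have h1 := h.acc_diff hz A 0 fun v p hp hc => absurd ⟨p, hp, hc⟩ (hT (mem_univ v))
    have h2 := S.F.nu_ge_set S.lam h.nice σ A (t := (S.G : ℤ) ^ 14 * S.Dn) (by positivity)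
      fun v hv => by
        cases hp : S.F.par v with
        | none => simp [lam, hp]
        | some p => exact absurd ⟨p, hp, hdf v p hp hv⟩ (hT (mem_univ v))
    have h3 := sum_nonneg hnn
    rw [Nat.zero_div, Nat.cast_zero, mul_zero, add_zero] at h1
    have h4 : (S.G : ℤ) ^ 14 * S.Dn ≤ S.nu σ :=
      (le_mul_of_one_le_right (by positivity) (by omega)).trans h2
    have h5 : (S.G : ℝ) ^ 14 * S.Dn ≤ S.nu σ := by exact_mod_cast h4
    have h6 : (S.G : ℝ) ^ 4 * S.Dn ≤ (S.G : ℝ) ^ 14 * S.Dn := by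
      gcongr
      · linarith
      · norm_num
    nlinarith
  · obtain ⟨u, hu, hmax⟩ := exists_max_image _ S.wd hT
    obtain ⟨p, hp, hc⟩ := (mem_filter.1 hu).2
    have h1 := h.acc_diff hz A (S.wd u) fun v p' hp' hc' =>
      hmax v (mem_filter.2 ⟨mem_univ _, p', hp', hc'⟩)
    have hw := h.ene_wd u
    have h2 := S.F.nu_ge_set S.lam h.nice σ A (t := (S.G : ℤ) ^ 18 * S.cu u) (by positivity)
      fun v hv => by
        have b0 : (S.G : ℝ) ^ 18 * S.cu u ≤ S.lam v := by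
          rw [h.ene_cu]
          cases hp' : S.F.par v with
          | none =>
            have b1 : (S.G : ℝ) ^ 72 ≤ S.wd u := by exact_mod_cast h.wd_ge u
            have b2 : (S.G : ℝ) ^ 4 ≤ (S.G : ℝ) ^ 72 := pow_le_pow_right₀ (by linarith) (by norm_num)
            simp only [lam, hp', if_true, Nat.cast_mul, Nat.cast_pow]
            calc _ ≤ (S.G : ℝ) ^ 18 * (S.Dn / (S.G : ℝ) ^ 4) := by gcongr; linarith
              _ = _ := by field_simp
          | some p' =>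
            have b1 : (S.wd v : ℝ) ≤ S.wd u := by
              exact_mod_cast hmax v (mem_filter.2 ⟨mem_univ _, p', hp', hdf v p' hp' hv⟩)
            have b2 := h.ene_wd v
            simp only [lam, hp', reduceCtorEq, if_false, Nat.cast_mul, Nat.cast_pow, h.ene_cu]
            gcongr
        exact_mod_cast b0
    have h3 := single_le_sum hnn (mem_filter.2 ⟨mem_univ u, by simp [hp]⟩)
    rw [hp, Option.getD_some, id, if_neg hc] at h3
    have h4 : ((S.wd u / S.G ^ 14 : ℕ) : ℤ) - S.G * ((S.wd u / S.G ^ 20 : ℕ) : ℤ) ≤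
      ∑ u ∈ A, σ u - S.f A := by linarith
    have h5 := (mul_le_mul_of_nonneg_left h4 (by positivity)).trans h2
    have h6 : (S.G : ℝ) ^ 18 * S.cu u * (((S.wd u / S.G ^ 14 : ℕ) : ℝ) -
      S.G * ((S.wd u / S.G ^ 20 : ℕ) : ℝ)) ≤ S.nu σ := by exact_mod_cast h5
    rw [h.acc_div u (by norm_num), h.acc_div u (by norm_num), h.ene_cu] at h6
    have h7 : (S.G : ℝ) ^ 18 * (S.Dn / S.wd u) * (S.wd u / (S.G : ℝ) ^ 14 -
        S.G * (S.wd u / (S.G : ℝ) ^ 20)) = S.G * ((S.G : ℝ) ^ 3 * S.Dn) - S.Dn / S.G := by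
      field_simp
    have h8 : (S.Dn : ℝ) / S.G ≤ (S.G : ℝ) ^ 3 * S.Dn :=
      (div_le_self hD.le (by linarith)).trans
        (le_mul_of_one_le_left hD.le (one_le_pow₀ (by linarith)))
    nlinarith

theorem Good.Ez_le_En (h : S.Good) (φ : E → ℤ) (h0 : ∀ e ∈ S.F'.roots, S.z σ e = 0) :
    S.Ez (S.z σ) ≤ S.En φ σ := by
  rw [En, fld, sum_eq_zero fun e he => by rw [h0 e he, mul_zero], add_zero, Ez]
  refine Int.ediv_le_ediv (by exact_mod_cast h.den_pos) (mul_le_mul_of_nonneg_left ?_ (by positivity))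
  have h1 := h.nu_nonneg σ
  refine le_add_of_nonneg_of_le (by positivity) (le_add_of_nonneg_of_le
    (sum_nonneg fun _ _ => sq_nonneg _) (sum_le_sum fun e _ => ?_))
  split_ifs
  · positivity
  · rfl

theorem Good.acc_good (h : S.Good) (φ : E → ℤ) (T : Finset (U → ℤ))
    (hT : ∀ y ∈ T, S.Gd φ (S.pt y) ∧ ∀ e ∈ S.F'.roots, S.z (S.pt y) e = 0) :
    ∑ y ∈ T, S.q ^ S.En φ (S.pt y) ≤ 110 * (KK S.f S.pr).card * S.SZ := by
  have hq := h.q_pos
  have h1 : ∀ t, S.q ^ S.Ez t ≤ 55 * S.q ^ (2 * S.L + S.Ez t : ℤ) := fun t => by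
    have b1 : Real.exp 4 ≤ 55 := by
      have := Real.exp_one_pow 4
      push_cast at this
      rw [← this]
      exact (pow_le_pow_left₀ (Real.exp_pos _).le Real.exp_one_lt_d9.le 4).trans (by norm_num)
    refine le_trans ?_ (mul_le_mul_of_nonneg_right b1 (zpow_pos hq _).le)
    rw [h.q_zpow, h.q_zpow, ← Real.exp_add, Real.exp_le_exp]
    push_cast
    linarith [h.kap.2]
  have h2 : ∑ y ∈ T, S.q ^ S.En φ (S.pt y) ≤
      ∑ p ∈ KK S.fplus S.pr ×ˢ S.zbox, 55 * S.q ^ (2 * S.L + S.Ez p.2 : ℤ) := by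
    refine le_trans (sum_le_sum fun y hy => (h.q_anti (h.Ez_le_En φ (hT y hy).2)).trans (h1 _)) ?_
    rw [← sum_image (g := fun y => (S.out (S.pt y), S.z (S.pt y)))
      (f := fun p => 55 * S.q ^ (2 * S.L + S.Ez p.2 : ℤ))]
    · refine sum_le_sum_of_subset_of_nonneg (image_subset_iff.2 fun y hy => mem_product.2
        ⟨mem_KK.2 (h.out_mem_of_gd (hT y hy).1 (hT y hy).2),
          h.z_mem_of_gd (hT y hy).1 (hT y hy).2⟩) fun _ _ _ => by positivity
    · intro y _ y' _ e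
      obtain ⟨e1, e2⟩ := Prod.mk.inj e
      rw [← S.y_pt y, ← S.lift_out (S.pt y), e1, e2, lift_out, y_pt]
  rw [sum_product] at h2
  simp only [sum_const, nsmul_eq_mul, ← mul_sum] at h2
  have h3 : ((KK S.fplus S.pr).card : ℝ) ≤ 2 * (KK S.f S.pr).card := by exact_mod_cast h.card_fplus
  have h4 : 0 ≤ S.SZ := sum_nonneg fun _ _ => by positivity
  calc _ ≤ (KK S.fplus S.pr).card * (55 * S.SZ) := h2
    _ ≤ 2 * (KK S.f S.pr).card * (55 * S.SZ) := by gcongr
    _ = _ := by ring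

/-- `vol Z00 ≤ 3 ∑_{y ∈ fbx, root sums zero} piF y` (`sum_fbx`, `piC_cmp`, `z_root_congr`); these have level `0` (`sum_z_roots`), so `piF y ≤ q ^ En` if good and `= q ^ NL` if not (`Ent_level`).
The map `σ ↦ (out σ, z σ)` is injective (`lift_out`) from the good ones into `KK fplus × zbox`, `q ^ En ≤ q ^ Ez = q ^ (2 L + Ez) exp (2 κ)`, `exp 4 ≤ 55`. -/
theorem Good.Z00_le (h : S.Good) (hφ : S.Adm φ) :
    S.vol * S.Z00 φ ≤ 400 * (KK S.f S.pr).card * S.SZ +
      3 * Real.exp (- (S.G : ℝ) ^ 3 / 2) * S.vol := by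
  classical
  have hq := h.q_pos
  have h1 : S.vol * S.Z00 φ ≤ 3 * ∑ y ∈ S.fbx,
      if ∀ e ∈ S.F'.roots, S.z (S.pt y) e = 0 then S.piF φ y else 0 := by
    rw [h.sum_fbx, Z00, sum_filter, mul_sum, mul_sum]
    refine sum_le_sum fun a ha => ?_
    rw [← S.card_obox, ← nsmul_eq_mul, mul_sum]
    refine card_nsmul_le_sum _ _ _ fun o ho => ?_
    have e : ∀ e ∈ S.F'.roots, S.z (S.pt fun u => S.cor a u + o u) e = S.z (S.pt (S.cor a)) e :=
      fun e he => h.z_root_congr (fun C hC => by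
        have := mem_box.1 ho C
        rw [h.s_root hC] at this
        simp only [Pi.zero_apply] at this
        omega) (by simpa using he)
    by_cases h0 : ∀ e ∈ S.F'.roots, S.z (S.pt (S.cor a)) e = 0
    · rw [if_pos h0, if_pos fun e' he => (e e' he).trans (h0 e' he)]
      exact (h.piC_cmp φ ha ho).1
    · rw [if_neg h0, if_neg fun H => h0 fun e' he => (e e' he).symm.trans (H e' he), mul_zero]
  have h2 : ∀ y ∈ S.fbx, (if ∀ e ∈ S.F'.roots, S.z (S.pt y) e = 0 then S.piF φ y else 0) ≤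
      (if S.Gd φ (S.pt y) ∧ ∀ e ∈ S.F'.roots, S.z (S.pt y) e = 0 then S.q ^ S.En φ (S.pt y)
        else 0) + Real.exp (- (S.G : ℝ) ^ 3) := by
    intro y _
    by_cases h0 : ∀ e ∈ S.F'.roots, S.z (S.pt y) e = 0
    · have hl : ∑ u, S.pt y u = 0 := by rw [← S.sum_z_roots, sum_eq_zero h0]
      rw [if_pos h0]
      by_cases hg : S.Gd φ (S.pt y)
      · rw [if_pos ⟨hg, h0⟩]
        exact (h.q_Ent_level hφ hl).2
      · rw [if_neg fun H => hg H.1, zero_add, piF, h.Ent_level hφ hl, min_eq_left (not_lt.1 hg)]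
        exact h.q_NL
    · rw [if_neg h0, if_neg fun H => h0 H.2]
      positivity
  have h3 := sum_le_sum h2
  rw [sum_add_distrib, ← sum_filter, ← sum_filter, sum_const, nsmul_eq_mul, h.card_fbx] at h3
  have h4 := h.acc_good φ (S.fbx.filter fun y => S.Gd φ (S.pt y) ∧
    ∀ e ∈ S.F'.roots, S.z (S.pt y) e = 0) fun y hy => (mem_filter.1 hy).2
  have h5 := mul_le_mul_of_nonneg_right h.junk (Nat.cast_nonneg (α := ℝ) S.vol)
  have h6 : 0 ≤ (KK S.f S.pr).card * S.SZ :=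
    mul_nonneg (Nat.cast_nonneg _) (sum_nonneg fun _ _ => by positivity)
  rw [← sum_filter] at h1
  push_cast at h3
  nlinarith

/-- `ZC_le_Z00`, `Z00_le`, `one_le_ZC`, `tiny` -/
theorem Good.acc (h : S.Good) (hφ : S.Adm φ) (hm : ∀ e, |S.mean φ e| ≤ 1 / (S.G : ℝ) ^ 3) :
    1 / (S.G : ℝ) ^ 2 ≤ S.cst φ * (KK S.f S.pr).card := by
  have hG := h.G_geR
  have hq := h.q_pos
  have h1 := h.ZC_le_Z00 hφ hm
  have h2 := h.Z00_le hφ
  have h3 := h.one_le_ZC φ
  have h4 := h.tiny (k := 1) (by norm_num)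
  have hv : (0 : ℝ) < S.vol := by exact_mod_cast h.vol_pos
  have h5 : S.G * 12 * Real.exp (- (S.G : ℝ) ^ 3 / 2) ≤ 1 := by
    refine le_trans ?_ h4
    rw [pow_one]
    have b1 : (4 : ℝ) ^ 2 ≤ 4 ^ (S.G + 1) :=
      pow_le_pow_right₀ (by norm_num) (by have := h.G_ge; omega)
    have b2 : (0 : ℝ) ≤ (S.G : ℝ) ^ 3 := by positivity
    exact mul_le_mul (by gcongr; linarith) (Real.exp_le_exp.2 (by linarith)) (Real.exp_pos _).le
      (by positivity)
  have h6 : 0 ≤ (KK S.f S.pr).card * S.SZ :=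
    mul_nonneg (Nat.cast_nonneg _) (sum_nonneg fun _ _ => by positivity)
  have h7 := mul_le_mul_of_nonneg_right h1 hv.le
  have h8 := mul_le_mul_of_nonneg_left h2 (by positivity : (0 : ℝ) ≤ 2 * S.G)
  have h9 := mul_le_mul_of_nonneg_right h5 hv.le
  have h10 := mul_le_mul_of_nonneg_right h3 hv.le
  have h11 : 1600 * S.G * ((KK S.f S.pr).card * S.SZ) ≤
      S.G * S.G * ((KK S.f S.pr).card * S.SZ) := by gcongr; linarith
  rw [cst, div_mul_eq_mul_div, div_le_div_iff₀ (by positivity) (by positivity)]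
  linarith

end Sys

end Crest.Agent.R302
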