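import Crest.Agent.R309.Tape

/-!
# R302/Opt: polynomial time with an oracle, by table replay (TASK)

`OPT F` : the function `F O a` is computed in polynomial time (in `sz a`) with the oracle `O`.  The witness is a
polynomial-time function `S` of a finite table of known answers and the input: on a table consistent with `O` it
returns the value, or a query that is not yet in the table and belongs to a short list `L` (depending on `O, a` only).
Every table `t` is consistent with the oracle `tabO t`, so the size bounds in `Sim` apply to `S` on all inputs.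
-/

set_option autoImplicit false

namespace Crest.Agent.R302

open Crest.Agent.Lib.PT Crest.Agent.R309

/-- queries: which oracle, and the indicator of a set -/
abbrev Qy : Type := Bool × List Bool
/-- oracles -/
abbrev Orc : Type := Qy → ℕ
/-- tables of answers -/
abbrev Tab : Type := List (Qy × ℕ)

/-- the table agrees with the oracle -/
def Cons (O : Orc) (t : Tab) : Prop := ∀ q v, t.lookup q = some v → v = O q

/-- the oracle read off a table -/
def tabO (t : Tab) : Orc := fun q => (t.lookup q).getD 0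

theorem cons_tabO (t : Tab) : Cons (tabO t) t := fun q v h => by simp [tabO, h]

section defs

variable {α β : Type} [Enc α] [Enc β]

/-- `S` simulates `F` by replay -/
def Sim (F : Orc → α → β) (S : Tab × α → Qy ⊕ β) (N : α → ℕ) : Prop :=
  ∀ O a, sz (F O a) ≤ N a ∧ ∃ L : List Qy, sz L ≤ N a ∧ ∀ t, Cons O t →
    S (t, a) = Sum.inr (F O a) ∨ ∃ q ∈ L, t.lookup q = none ∧ S (t, a) = Sum.inl q

/-- polynomial time with an oracle -/
def OPT (F : Orc → α → β) : Prop := ∃ S N, PT S ∧ PB N ∧ Sim F S N

/-- `x` if it is small, else `d` -/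
def clamp (B : ℕ) (x d : α) : α := if sz x ≤ B then x else d

/-- iteration with a size clamp -/
def iterC (B : ℕ) (f : α → α) (n : ℕ) (s : α) : α := (fun x => clamp B (f x) x)^[n] s

theorem iterC_eq {B : ℕ} {f : α → α} {n : ℕ} {s : α} (h : ∀ k < n, sz (f^[k + 1] s) ≤ B) :
    iterC B f n s = f^[n] s := by
  unfold iterC
  induction n with
  | zero => rfl
  | succ n ih =>
    rw [Function.iterate_succ_apply', ih fun k hk => h k (by omega), clamp,
      ← Function.iterate_succ_apply' f n s, if_pos (h n (by omega))]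

theorem sz_iterC (B : ℕ) (f : α → α) (n : ℕ) (s : α) : sz (iterC B f n s) ≤ B + sz s := by
  unfold iterC
  induction n with
  | zero => simp
  | succ n ih =>
    rw [Function.iterate_succ_apply', clamp]
    split_ifs <;> omega

@[fun_prop] theorem sz_pt {x : α → β} (hx : PT x) : PT fun a => sz (x a) :=
  hx.toBits.length.of_eq fun _ => length_toBits _

@[fun_prop] theorem clamp_pt {B : α → ℕ} {x d : α → β} (hB : PT B) (hx : PT x) (hd : PT d) :
    PT fun a => clamp (B a) (x a) (d a) := by
  unfold clamp; fun_prop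

end defs

namespace OPT

variable {α β γ σ : Type} [Enc α] [Enc β] [Enc γ] [Enc σ]

theorem of_eq {F G : Orc → α → β} (h : OPT G) (e : ∀ O a, G O a = F O a) : OPT F := by
  have : G = F := funext fun O => funext fun a => e O a
  rwa [← this]

/-- `S (t, a) = inr (f a)`, `L = []` -/
theorem pure {f : α → β} (hf : PT f) : OPT fun (_ : Orc) a => f a :=
  ⟨fun p => Sum.inr (f p.2), fun a => sz (f a), (hf.comp PT.id.snd).inr, PB.sz hf,
    fun _ a => ⟨le_rfl, [], by simpa using one_le_sz (f a), fun _ _ => Or.inl rfl⟩⟩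

/-- `S (t, q, b) = (t.lookup q).elim (inl q) (fun v => inr (min v b))`, `L = [q]` (`sz_nat_le_of_le`) -/
theorem ask : OPT fun O (p : Qy × ℕ) => min (O p.1) p.2 := by
  refine ⟨fun x : Tab × Qy × ℕ => (x.1.lookup x.2.1).elim (Sum.inl x.2.1)
    (fun v => Sum.inr (min v x.2.2)), fun p => 2 * sz p, by fun_prop,
    (PB.const 2).mul PB.sz_self, fun O p => ⟨?_, [p.1], ?_, fun t ht => ?_⟩⟩
  · have h1 := sz_nat_le_of_le (min_le_right (O p.1) p.2)
    have h2 := sz_prod p
    dsimp only
    omega
  · have h1 := one_le_sz p.2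
    have h2 := sz_prod p
    simp only [sz_cons, sz_nil]
    omega
  · cases h : t.lookup p.1 with
    | none => exact Or.inr ⟨p.1, List.mem_singleton_self _, h, by simp only [h, Option.elim]⟩
    | some v =>
      left
      have := ht _ _ h
      simp only [h, Option.elim, this]

/-- `S (t, a) = (S_f (t, a)).elim inl (fun b => S_g (t, b))`, `L = L_f ++ L_g (O, f O a)`,
`N a = N_f a + c * N_f a ^ k` where `N_g b ≤ c * sz b ^ k` -/
theorem comp {g : Orc → β → γ} {f : Orc → α → β} (hg : OPT g) (hf : OPT f) :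
    OPT fun O a => g O (f O a) := by
  obtain ⟨Sg, Ng, hSg, ⟨c, k, hNg⟩, hg⟩ := hg
  obtain ⟨Sf, Nf, hSf, hNf, hf⟩ := hf
  refine ⟨fun x => Sum.elim Sum.inl (fun b => Sg (x.1, b)) (Sf x), fun a => Nf a + c * Nf a ^ k,
    PT.sum_elim (f := fun _ q => Sum.inl q) (g := fun (x : Tab × α) b => Sg (x.1, b)) hSf
      (by fun_prop) (hSg.comp (by fun_prop)), by fun_prop, fun O a => ?_⟩
  obtain ⟨h1, L, hL, h2⟩ := hf O a
  obtain ⟨h3, L', hL', h4⟩ := hg O (f O a)
  have h5 : Ng (f O a) ≤ c * Nf a ^ k :=
    (hNg _).trans (Nat.mul_le_mul_left c (Nat.pow_le_pow_left h1 k))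
  refine ⟨by dsimp only; omega, L ++ L', ?_, fun t ht => ?_⟩
  · have := sz_append L L'
    dsimp only
    omega
  · rcases h2 t ht with h | ⟨q, hq, h6, h⟩
    · rcases h4 t ht with h' | ⟨q, hq, h6, h'⟩
      · left; simp only [h, Sum.elim_inr, h']
      · exact Or.inr ⟨q, List.mem_append_right _ hq, h6, by simp only [h, Sum.elim_inr, h']⟩
    · exact Or.inr ⟨q, List.mem_append_left _ hq, h6, by simp only [h, Sum.elim_inl]⟩

theorem pair {f : Orc → α → β} {g : Orc → α → γ} (hf : OPT f) (hg : OPT g) :
    OPT fun O a => (f O a, g O a) := by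
  obtain ⟨Sg, Ng, hSg, hNg, hg⟩ := hg
  obtain ⟨Sf, Nf, hSf, hNf, hf⟩ := hf
  refine ⟨fun x => Sum.elim Sum.inl
      (fun b => Sum.elim Sum.inl (fun c => Sum.inr (b, c)) (Sg x)) (Sf x),
    fun a => Nf a + Ng a + 1,
    PT.sum_elim (f := fun _ q => Sum.inl q)
      (g := fun (x : Tab × α) b => Sum.elim Sum.inl (fun c => Sum.inr (b, c)) (Sg x)) hSf
      (by fun_prop)
      (PT.sum_elim (f := fun _ q => Sum.inl q)
        (g := fun (x : (Tab × α) × β) c => Sum.inr (x.2, c)) (hSg.comp PT.id.fst)
        (by fun_prop) (by fun_prop)), by fun_prop, fun O a => ?_⟩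
  obtain ⟨h1, L, hL, h2⟩ := hf O a
  obtain ⟨h3, L', hL', h4⟩ := hg O a
  refine ⟨by simp only [sz_mk]; omega, L ++ L', ?_, fun t ht => ?_⟩
  · have := sz_append L L'
    dsimp only
    omega
  · rcases h2 t ht with h | ⟨q, hq, h6, h⟩
    · rcases h4 t ht with h' | ⟨q, hq, h6, h'⟩
      · left; simp only [h, Sum.elim_inr, h']
      · exact Or.inr ⟨q, List.mem_append_right _ hq, h6,
          by simp only [h, Sum.elim_inr, h', Sum.elim_inl]⟩
    · exact Or.inr ⟨q, List.mem_append_left _ hq, h6, by simp only [h, Sum.elim_inl]⟩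

/-- The values are polynomially bounded, uniformly in the oracle. -/
theorem size {f : Orc → α → β} (hf : OPT f) : ∃ N, PB N ∧ ∀ O a, sz (f O a) ≤ N a := by
  obtain ⟨_, N, -, h, hs⟩ := hf
  exact ⟨N, h, fun O a => (hs O a).1⟩

theorem post {g : β → γ} {f : Orc → α → β} (hg : PT g) (hf : OPT f) : OPT fun O a => g (f O a) :=
  (pure hg).comp hf

theorem pre {g : Orc → β → γ} {f : α → β} (hg : OPT g) (hf : PT f) : OPT fun O a => g O (f a) :=
  hg.comp (pure hf)

/-- a polynomial-time continuation that also sees the input -/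
theorem cont {f : Orc → α → β} {g : α → β → γ} (hf : OPT f) (hg : PT fun p : α × β => g p.1 p.2) :
    OPT fun O a => g a (f O a) :=
  post hg ((pure PT.id).pair hf)

theorem cont₂ {δ : Type} [Enc δ] {f : Orc → α → β} {f' : Orc → α → γ} {g : α → β → γ → δ} (hf : OPT f)
    (hf' : OPT f') (hg : PT fun p : α × β × γ => g p.1 p.2.1 p.2.2) :
    OPT fun O a => g a (f O a) (f' O a) :=
  post hg ((pure PT.id).pair (hf.pair hf'))

/-- an oracle continuation that also sees the input -/
theorem bind {f : Orc → α → β} {g : Orc → α → β → γ} (hf : OPT f)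
    (hg : OPT fun O (p : α × β) => g O p.1 p.2) : OPT fun O a => g O a (f O a) :=
  hg.comp ((pure PT.id).pair hf)

theorem ite {p : α → Prop} [DecidablePred p] {f g : Orc → α → β} (hp : PT p) (hf : OPT f)
    (hg : OPT g) : OPT fun O a => if p a then f O a else g O a :=
  cont₂ (g := fun a x y => if p a then x else y) hf hg
    (PT.ite (hp.comp PT.id.fst) (by fun_prop) (by fun_prop))

/-- the fold over a list and from a state that do not depend on the oracle -/
theorem opt_foldl_core {l : α → List β} {s : α → σ} {f : Orc → α → σ → β → σ} (hl : PT l)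
    (hs : PT s) (hf : OPT fun O (p : α × σ × β) => f O p.1 p.2.1 p.2.2) {B : α → ℕ} (hB : PB B)
    (hsz : ∀ O a pre, pre <+: l a → sz (pre.foldl (f O a) (s a)) ≤ B a) :
    OPT fun O a => (l a).foldl (f O a) (s a) := by
  obtain ⟨Sf, Nf, hSf, ⟨c, k, hNf⟩, hf⟩ := hf
  let step : Tab × α → Qy ⊕ σ → β → Qy ⊕ σ := fun x y b =>
    Sum.elim Sum.inl (fun z => Sf (x.1, x.2, z, b)) y
  let M : α → ℕ := fun a => c * (sz a + B a + sz (l a) + 2) ^ k
  have hM : PB M := (PB.const c).mul
    ((((PB.sz_self.add hB).add (PB.sz hl)).add (PB.const 2)).pow k)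
  have key : ∀ O a (pre : List β), pre <+: l a → ∃ L : List Qy, sz L ≤ pre.length * M a + 1 ∧
      ∀ t, Cons O t →
        pre.foldl (step (t, a)) (Sum.inr (s a)) = Sum.inr (pre.foldl (f O a) (s a)) ∨
        ∃ q ∈ L, t.lookup q = none ∧ pre.foldl (step (t, a)) (Sum.inr (s a)) = Sum.inl q := by
    intro O a pre
    induction pre using List.reverseRecOn with
    | nil => exact fun _ => ⟨[], by simp, fun _ _ => Or.inl rfl⟩
    | append_singleton pre b ih =>
      intro hp
      have hp' : pre <+: l a := (List.prefix_append pre [b]).trans hp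
      have hb : sz b ≤ sz (l a) := sz_le_of_mem (hp.subset (by simp))
      obtain ⟨L, hL, h2⟩ := ih hp'
      obtain ⟨-, L', hL', h4⟩ := hf O (a, pre.foldl (f O a) (s a), b)
      have h5 : Nf (a, pre.foldl (f O a) (s a), b) ≤ M a := by
        refine (hNf _).trans (Nat.mul_le_mul_left c (Nat.pow_le_pow_left ?_ k))
        have := hsz O a pre hp'
        simp only [sz_mk]
        omega
      refine ⟨L ++ L', ?_, fun t ht => ?_⟩
      · have := sz_append L L'
        rw [List.length_append, List.length_singleton, Nat.succ_mul]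
        omega
      · simp only [List.foldl_append, List.foldl_cons, List.foldl_nil]
        rcases h2 t ht with h | ⟨q, hq, h6, h⟩
        · rcases h4 t ht with h' | ⟨q, hq, h6, h'⟩
          · left; simp only [h, step, Sum.elim_inr, h']
          · exact Or.inr ⟨q, List.mem_append_right _ hq, h6,
              by simp only [h, step, Sum.elim_inr, h']⟩
        · exact Or.inr ⟨q, List.mem_append_left _ hq, h6, by simp only [h, step, Sum.elim_inl]⟩
  have hN : PB fun a => B a + (l a).length * M a + 4 :=
    (hB.add ((PB.length hl).mul hM)).add (PB.const 4)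
  refine ⟨fun x => (l x.2).foldl (step x) (Sum.inr (s x.2)),
    fun a => B a + (l a).length * M a + 4, ?_, hN, fun O a => ?_⟩
  · refine PT.foldl_of_prefix (hl.comp PT.id.snd) (hs.comp PT.id.snd).inr ?_
      (hN.comp PT.id.snd) fun x pre hp => ?_
    · exact PT.sum_elim (f := fun _ q => Sum.inl q)
        (g := fun (p : (Tab × α) × (Qy ⊕ σ) × β) z => Sf (p.1.1, p.1.2, z, p.2.2))
        PT.id.snd.fst (by fun_prop) (hSf.comp (by fun_prop))
    · obtain ⟨t, a⟩ := x
      obtain ⟨L, hL, h2⟩ := key (tabO t) a pre hp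
      have h3 := Nat.mul_le_mul_right (M a) hp.length_le
      rcases h2 t (cons_tabO t) with h | ⟨q, hq, -, h⟩
      · have := hsz (tabO t) a pre hp
        dsimp only at h ⊢
        rw [h, sz_inr]
        omega
      · have := sz_le_of_mem hq
        dsimp only at h h3 ⊢
        rw [h, sz_inl]
        omega
  · obtain ⟨L, hL, h2⟩ := key O a (l a) (List.prefix_refl _)
    have := hsz O a (l a) (List.prefix_refl _)
    exact ⟨by dsimp only; omega, L, by dsimp only; omega, h2⟩

theorem opt_sz_foldl_clamp (B : ℕ) (f : σ → β → σ) (s : σ) (l : List β) :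
    sz (l.foldl (fun c b => clamp B (f c b) c) s) ≤ B + sz s := by
  induction l using List.reverseRecOn with
  | nil => simp
  | append_singleton l b ih =>
    rw [List.foldl_append, List.foldl_cons, List.foldl_nil, clamp]
    split_ifs <;> omega

omit [Enc β] in
theorem opt_foldl_clamp {B : ℕ} {f : σ → β → σ} {s : σ} {l : List β}
    (h : ∀ pre, pre <+: l → sz (pre.foldl f s) ≤ B) :
    l.foldl (fun c b => clamp B (f c b) c) s = l.foldl f s := by
  induction l using List.reverseRecOn with
  | nil => rfl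
  | append_singleton l b ih =>
    have h1 := h _ (List.prefix_refl _)
    rw [List.foldl_append, List.foldl_cons, List.foldl_nil] at h1
    rw [List.foldl_append, List.foldl_append, List.foldl_cons, List.foldl_nil, List.foldl_cons,
      List.foldl_nil, ih fun pre hp => h pre (hp.trans (List.prefix_append l [b])), clamp, if_pos h1]

theorem opt_foldl {l : Orc → α → List β} {s : Orc → α → σ} {f : Orc → α → σ → β → σ} (hl : OPT l)
    (hs : OPT s) (hf : OPT fun O (p : α × σ × β) => f O p.1 p.2.1 p.2.2) {B : α → ℕ} (hB : PB B)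
    (hsz : ∀ O a pre, pre <+: l O a → sz (pre.foldl (f O a) (s O a)) ≤ B a) :
    OPT fun O a => (l O a).foldl (f O a) (s O a) := by
  obtain ⟨c, k, hB⟩ := hB
  have hB' : PT fun a : α => c * sz a ^ k :=
    (PT.const c).nat_mul ((sz_pt PT.id).nat_pow (PT.const k) (PB.const k))
  have h1 : OPT fun O (p : (α × List β × σ) × σ × β) =>
      clamp (c * sz p.1.1 ^ k) (f O p.1.1 p.2.1 p.2.2) p.2.1 :=
    cont (g := fun (p : (α × List β × σ) × σ × β) y => clamp (c * sz p.1.1 ^ k) y p.2.1)
      (hf.pre (f := fun p : (α × List β × σ) × σ × β => (p.1.1, p.2.1, p.2.2)) (by fun_prop))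
      (clamp_pt (hB'.comp PT.id.fst.fst.fst) PT.id.snd PT.id.fst.snd.fst)
  have h2 := opt_foldl_core (α := α × List β × σ) (l := fun x => x.2.1) (s := fun x => x.2.2)
    (f := fun O x z b => clamp (c * sz x.1 ^ k) (f O x.1 z b) z) PT.id.snd.fst PT.id.snd.snd h1
    (B := fun x => c * sz x.1 ^ k + sz x.2.2)
    (((PB.const c).mul ((PB.sz PT.id.fst).pow k)).add (PB.sz PT.id.snd.snd))
    (fun O x pre _ => opt_sz_foldl_clamp _ _ _ _)
  refine of_eq (h2.comp ((pure PT.id).pair (hl.pair hs))) fun O a => ?_
  exact opt_foldl_clamp fun pre hp => (hsz O a pre hp).trans (hB a)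

omit [Enc β] [Enc γ] in
theorem opt_foldl_snoc (f : β → γ) (l : List β) :
    l.foldl (fun c b => c ++ [f b]) [] = l.map f := by
  induction l using List.reverseRecOn with
  | nil => rfl
  | append_singleton l b ih => simp only [List.foldl_append, ih, List.foldl_cons, List.foldl_nil,
      List.map_append, List.map_cons, List.map_nil]

/-- First the case of a polynomial-time list (domain `α × List β`, then `bind`):
`S (t, a, l) = let r := l.map (S_f (t, a, ·)); (r.findSome? getLeft?).elim (inr (r.filterMap getRight?)) inl`,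
`L` = the concatenation of the lists `L_f (O, a, b)`, `b ∈ l`. -/
theorem map {l : Orc → α → List β} {f : Orc → α → β → γ} (hl : OPT l)
    (hf : OPT fun O (p : α × β) => f O p.1 p.2) : OPT fun O a => (l O a).map (f O a) := by
  obtain ⟨Nl, hNl, h1⟩ := hl.size
  obtain ⟨Nf, ⟨c, k, hNf⟩, h2⟩ := hf.size
  have h3 : OPT fun O (p : α × List γ × β) => p.2.1 ++ [f O p.1 p.2.2] :=
    cont (g := fun (p : α × List γ × β) y => p.2.1 ++ [y])
      (hf.pre (f := fun p : α × List γ × β => (p.1, p.2.2)) (by fun_prop)) (by fun_prop)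
  refine of_eq (opt_foldl (f := fun O a z b => z ++ [f O a b]) hl (pure (PT.const [])) h3
    (B := fun a => Nl a * (c * (sz a + Nl a + 1) ^ k + 1) + 1)
    ((hNl.mul (((PB.const c).mul (((PB.sz_self.add hNl).add (PB.const 1)).pow k)).add
      (PB.const 1))).add (PB.const 1)) fun O a pre hp => ?_) fun O a => opt_foldl_snoc _ _
  rw [opt_foldl_snoc]
  refine (sz_list_le (B := c * (sz a + Nl a + 1) ^ k) fun y hy => ?_).trans ?_
  · obtain ⟨b, hb, rfl⟩ := List.mem_map.1 hy
    refine ((h2 O (a, b)).trans (hNf _)).trans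
      (Nat.mul_le_mul_left c (Nat.pow_le_pow_left ?_ k))
    have := sz_le_of_mem (hp.subset hb)
    have := h1 O a
    simp only [sz_mk]
    omega
  · refine Nat.add_le_add_right (Nat.mul_le_mul_right _ ?_) 1
    have := hp.length_le
    have := length_le_sz (l O a)
    have := h1 O a
    rw [List.length_map]
    omega

/-- `S (t, a)`: compute `l` and `s` (stop at a missing query), then fold
`x ↦ x.elim inl (fun c => S_f (t, a, c, b))` starting from `inr s`.  On a table consistent with `O` every intermediate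
value is `inr` of the true partial fold or `inl q` with `q` in one of the lists `L_f (O, a, partial fold, b)`; take
`O = tabO t` for the size bound needed by `PT.foldl_of_prefix` (work on the subtype of the triples
`(t, a, l, s)` with `l = l (tabO t) a`, `s = s (tabO t) a`, or clamp). -/
theorem foldl {l : Orc → α → List β} {s : Orc → α → σ} {f : Orc → α → σ → β → σ} (hl : OPT l)
    (hs : OPT s) (hf : OPT fun O (p : α × σ × β) => f O p.1 p.2.1 p.2.2) {B : α → ℕ} (hB : PB B)
    (hsz : ∀ O a pre, pre <+: l O a → sz (pre.foldl (f O a) (s O a)) ≤ B a) :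
    OPT fun O a => (l O a).foldl (f O a) (s O a) :=
  opt_foldl hl hs hf hB hsz

/-- fold over `List.replicate (n a) ()` or `List.range (n a)` -/
theorem iterate {n : α → ℕ} {s : Orc → α → σ} {f : Orc → α → σ → σ} (hn : PT n) (hb : PB n)
    (hs : OPT s) (hf : OPT fun O (p : α × σ) => f O p.1 p.2) {B : α → ℕ} (hB : PB B)
    (hsz : ∀ O a k, k ≤ n a → sz ((f O a)^[k] (s O a)) ≤ B a) :
    OPT fun O a => (f O a)^[n a] (s O a) := by
  refine of_eq (foldl (l := fun _ a => List.replicate (n a) ()) (f := fun O a c _ => f O a c)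
    (pure (hn.replicate hb (PT.const ()))) hs
    (hf.pre (f := fun p : α × σ × Unit => (p.1, p.2.1)) (by fun_prop)) hB fun O a pre hp => ?_)
    fun O a => PT.foldl_replicate _ _ _
  have h1 : pre = List.replicate pre.length () := List.eq_replicate_iff.2 ⟨rfl, fun _ _ => rfl⟩
  have h2 := hp.length_le
  rw [List.length_replicate] at h2
  rw [h1, PT.foldl_replicate]
  exact hsz O a _ h2

/-- `iterate`, `sz_iterC`, `size` -/
theorem iterC {n B : α → ℕ} {s : Orc → α → σ} {f : Orc → α → σ → σ} (hn : PT n) (hb : PB n)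
    (hB : PT B) (hB' : PB B) (hs : OPT s) (hf : OPT fun O (p : α × σ) => f O p.1 p.2) :
    OPT fun O a => iterC (B a) (f O a) (n a) (s O a) := by
  obtain ⟨N, hN, h1⟩ := hs.size
  exact iterate (f := fun O a x => clamp (B a) (f O a x) x) hn hb hs
    (cont (g := fun (p : α × σ) y => clamp (B p.1) y p.2) hf
      (clamp_pt (hB.comp PT.id.fst.fst) PT.id.snd PT.id.fst.snd)) (hB'.add hN)
    fun O a k _ => (sz_iterC (B a) (f O a) k (s O a)).trans (Nat.add_le_add_left (h1 O a) _)

/-- `R309.iter` with an invariant (compare `iter_pt`, `iter_inv'`; a prefix of `chunks ρ t l` is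
`chunks ρ k l` with `k ≤ t`) -/
theorem iter {f : Orc → α → σ → List Bool → σ} {ρ t : α → ℕ} {s : Orc → α → σ} {l : α → List Bool}
    (hf : OPT fun O (p : α × σ × List Bool) => f O p.1 p.2.1 p.2.2) (hρ : PT ρ) (ht : PT t)
    (hb : PB t) (hs : OPT s) (hl : PT l) (J : Orc → α → ℕ → σ → Prop)
    (h0 : ∀ O a, J O a 0 (s O a)) (hJ : ∀ O a k c ω, J O a k c → J O a (k + 1) (f O a c ω))
    {B : α → ℕ} (hB : PB B) (hsz : ∀ O a k c, k ≤ t a → J O a k c → sz c ≤ B a) :
    OPT fun O a => iter (f O a) (ρ a) (t a) (s O a) (l a) := by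
  refine foldl (l := fun _ a => chunks (ρ a) (t a) (l a)) (pure (PT.chunks hρ ht hb hl)) hs hf hB
    fun O a pre hp => ?_
  have h1 : ∀ m : List (List Bool), J O a m.length (m.foldl (f O a) (s O a)) := by
    intro m
    induction m using List.reverseRecOn with
    | nil => exact h0 O a
    | append_singleton m b ih =>
      rw [List.foldl_append, List.length_append]
      exact hJ O a _ _ b ih
  refine hsz O a _ _ ?_ (h1 pre)
  simpa using hp.length_le

end OPT

/-- `alg` is a polynomial-time procedure that calls a subroutine -/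
def HOPT {ι ο β γ : Type} [Enc ι] [Enc ο] [Enc β] [Enc γ] (alg : (ι → ο) → β → γ) : Prop :=
  ∀ (α : Type) [Enc α] (h : Orc → α → ι → ο), (OPT fun O (p : α × ι) => h O p.1 p.2) →
    OPT fun O (p : α × β) => alg (h O p.1) p.2

theorem HOPT.app {ι ο β γ α : Type} [Enc ι] [Enc ο] [Enc β] [Enc γ] [Enc α]
    {alg : (ι → ο) → β → γ} (H : HOPT alg) {h : Orc → α → ι → ο}
    (hh : OPT fun O (p : α × ι) => h O p.1 p.2) {b : Orc → α → β} (hb : OPT b) :
    OPT fun O a => alg (h O a) (b O a) :=
  OPT.bind (g := fun O a x => alg (h O a) x) hb (H α h hh)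

/-- calling the subroutine on a computed argument -/
theorem OPT.call {ι ο α γ : Type} [Enc ι] [Enc ο] [Enc α] [Enc γ] {h : Orc → α → ι → ο}
    (hh : OPT fun O (p : α × ι) => h O p.1 p.2) {e : γ → α} {q : γ → ι} (he : PT e) (hq : PT q) :
    OPT fun O c => h O (e c) (q c) :=
  hh.pre (f := fun c => (e c, q c)) (he.pair hq)

end Crest.Agent.R302
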