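import Crest.Agent.R309.Model
import Crest.Agent.R302.Opt

/-!
# R302/Bas: basic definitions (finished file)

Submodular functions, slack, the set `KK f pr` that is counted, rooted forests, the Lovász extension and its restricted
conjugate, and the dictionary between lists and functions on `Fin m`.
-/

set_option autoImplicit false
set_option linter.unusedSectionVars false

namespace Crest.Agent.R302

open Finset Crest.Agent.Lib.PT Crest.Agent.R309

section sub

variable {U E : Type} [Fintype U] [DecidableEq U] [Fintype E] [DecidableEq E]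

/-- submodular set functions -/
def Submod (f : Finset U → ℤ) : Prop := ∀ A B, f (A ∪ B) + f (A ∩ B) ≤ f A + f B

/-- submodular, and zero at both ends -/
structure Nice (f : Finset U → ℤ) : Prop where
  sub : Submod f
  emp : f ∅ = 0
  top : f univ = 0

/-- `x (A) ≤ f A` for all `A` -/
def Below (f : Finset U → ℤ) (x : U → ℤ) : Prop := ∀ A, ∑ u ∈ A, x u ≤ f A

/-- `f A - x (A)` -/
def slack (f : Finset U → ℤ) (x : U → ℤ) (A : Finset U) : ℤ := f A - ∑ u ∈ A, x u

/-- one can move `t` units from `b` to `a` -/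
def CapGe (f : Finset U → ℤ) (x : U → ℤ) (a b : U) (t : ℤ) : Prop :=
  ∀ A, a ∈ A → b ∉ A → t ≤ slack f x A

/-- the sums over the fibres of `pr` vanish -/
def PZ (pr : U → E) (x : U → ℤ) : Prop := ∀ e, ∑ u ∈ univ.filter (fun u => pr u = e), x u = 0

/-- membership in the set that is counted -/
def InK (f : Finset U → ℤ) (pr : U → E) (x : U → ℤ) : Prop := Below f x ∧ PZ pr x

open Classical in
/-- the set that is counted (`mem_KK`) -/
noncomputable def KK (f : Finset U → ℤ) (pr : U → E) : Finset (U → ℤ) :=
  (box (fun u => - f (univ.erase u)) (fun u => f {u})).filter (InK f pr)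

theorem PZ.sum {pr : U → E} {x : U → ℤ} (h : PZ pr x) : ∑ u, x u = 0 := by
  rw [← sum_fiberwise univ pr x]
  exact sum_eq_zero fun e _ => h e

theorem mem_KK {f : Finset U → ℤ} {pr : U → E} {x : U → ℤ} : x ∈ KK f pr ↔ InK f pr x := by
  classical
  unfold KK
  rw [mem_filter, and_iff_right_iff_imp]
  rintro ⟨h1, h2⟩
  refine mem_box.2 fun u => ⟨?_, by simpa using h1 {u}⟩
  have h3 := h1 (univ.erase u)
  have h4 := h2.sum
  rw [← add_sum_erase _ _ (mem_univ u)] at h4
  omega

/-- the indicator vector of a set -/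
def chi (A : Finset U) : U → ℤ := fun u => if u ∈ A then 1 else 0

/-- the inner product -/
def dot (p x : U → ℤ) : ℤ := ∑ u, p u * x u

/-- the greedy vertex of the order given by the ranks `ρ` -/
def gre (f : Finset U → ℤ) (ρ : U → ℕ) (u : U) : ℤ :=
  f (univ.filter fun v => ρ v ≤ ρ u) - f (univ.filter fun v => ρ v < ρ u)

/-- `T u v`: a unit can be moved from `u` to `v`.  No such move enters `A`. -/
def Clo (T : U → U → Prop) (A : Finset U) : Prop := ∀ u v, T u v → v ∈ A → u ∈ A

/-- reachability along moves and inside the fibres of `pr` -/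
def Reach (T : U → U → Prop) (pr : U → E) : U → U → Prop :=
  Relation.ReflTransGen fun u v => T u v ∨ pr u = pr v

/-- `d` is a sum of cycles that covers all moves lying on cycles -/
structure DirSpec (T : U → U → Prop) (pr : U → E) (G : ℕ) (d : U → ℤ) : Prop where
  pz : PZ pr d
  bd : ∀ A : Finset U, |∑ u ∈ A, d u| ≤ (G : ℤ) ^ 3
  cl : ∀ A, Clo T A → ∑ u ∈ A, d u ≤ 0
  lv : ∀ A, Clo T A → ∀ u v, T u v → u ∈ A → v ∉ A → Reach T pr v u → ∑ w ∈ A, d w ≤ -1

/-- The Lovász extension `∑_t f {p ≥ t}` (for `f ∅ = f univ = 0`). -/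
noncomputable def lov (f : Finset U → ℤ) (p : U → ℤ) : ℤ :=
  ∑ t ∈ Icc (- ∑ u, |p u|) (∑ u, |p u|), f (univ.filter fun u => t ≤ p u)

/-- translation submodularity (`L♮`-convexity) on all of `ℤ^U` -/
def TSub (γ : (U → ℤ) → ℤ) : Prop :=
  ∀ (p q : U → ℤ) (α : ℤ), 0 ≤ α →
    γ (fun u => min (p u) (q u + α)) + γ (fun u => max (p u - α) (q u)) ≤ γ p + γ q

/-- the mixed second difference -/
def dd {V R : Type} [DecidableEq V] [AddCommGroup R] (Φ : (V → ℤ) → R) (c : V → ℤ) (a b : V) : R :=
  Φ (c + dl a + dl b) + Φ c - Φ (c + dl a) - Φ (c + dl b)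

end sub

/-- Rooted forests: `par` is the parent, `A v r` says that `r` is an ancestor of `v` (or `v` itself). -/
structure Forest (U : Type) where
  /-- the parent -/
  par : U → Option U
  /-- ancestors -/
  A : U → U → Bool
  step : ∀ v r, A v r = true ↔ r = v ∨ ∃ p, par v = some p ∧ A p r = true
  acyc : ∀ v p, par v = some p → A p v = false

namespace Forest

variable {U : Type} [Fintype U] [DecidableEq U] (F : Forest U)

/-- the descendants of `r` -/
def D (r : U) : Finset U := univ.filter fun v => F.A v r = true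

/-- sums over descendants -/
def sumD {R : Type} [AddCommMonoid R] (x : U → R) (r : U) : R := ∑ v ∈ F.D r, x v

/-- `e_u - e_(par u)`, and `e_u` at a root -/
def ed (u : U) : U → ℤ := dl u - (F.par u).elim 0 dl

/-- the inverse of `sumD` -/
def unD (y : U → ℤ) : U → ℤ := ∑ u, y u • F.ed u

/-- `p u - p (par u)`, and `p u` at a root -/
def df {R : Type} [AddCommGroup R] (p : U → R) (u : U) : R := p u - (F.par u).elim 0 p

/-- the roots -/
def roots : Finset U := univ.filter fun u => F.par u = none

/-- the price vectors with `|df p u| ≤ lam u` (`mem_PP`) -/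
noncomputable def PP (lam : U → ℕ) : Finset (U → ℤ) :=
  (box (fun _ => - ∑ u, (lam u : ℤ)) (fun _ => ∑ u, (lam u : ℤ))).filter
    fun p => ∀ u, |F.df p u| ≤ lam u

theorem zero_mem_PP (lam : U → ℕ) : (0 : U → ℤ) ∈ F.PP lam := by
  unfold PP
  refine mem_filter.2 ⟨mem_box.2 fun u => ?_, fun u => ?_⟩
  · have : (0 : ℤ) ≤ ∑ u, (lam u : ℤ) := sum_nonneg fun _ _ => Int.natCast_nonneg _
    simp [this]
  · unfold df
    cases F.par u <;> simp

/-- the conjugate of the Lovász extension over bounded price vectors -/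
noncomputable def nu (f : Finset U → ℤ) (lam : U → ℕ) (σ : U → ℤ) : ℤ :=
  (F.PP lam).sup' ⟨0, F.zero_mem_PP lam⟩ fun p => dot p σ - lov f p

end Forest

section lists

/-- a list as a vector -/
def vec (m : ℕ) (l : List ℤ) : Fin m → ℤ := fun i => l.getD i.val 0

/-- a list of bits as a set -/
def sOf (m : ℕ) (l : List Bool) : Finset (Fin m) :=
  univ.filter fun j : Fin m => l.getD j.val false = true

/-- the subroutine `h` computes the set function `f` -/
def Calls {m : ℕ} (h : List Bool → ℤ) (f : Finset (Fin m) → ℤ) : Prop := ∀ l, h l = f (sOf m l)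

/-- the list `pl` is the table of `pr` -/
def IsPr {m : ℕ} (pl : List ℕ) (pr : Fin m → Fin m) : Prop :=
  pl.length = m ∧ ∀ u : Fin m, pl.getD u.val 0 = (pr u).val

/-- the lists `par`, `an` describe the forest `F` -/
structure FRep {m : ℕ} (F : Forest (Fin m)) (par : List (Option ℕ)) (an : List (List ℕ)) : Prop where
  par : ∀ v : Fin m, par.getD v.val none = (F.par v).map Fin.val
  an : ∀ v r : Fin m, F.A v r = true ↔ r.val ∈ an.getD v.val []

variable {m : ℕ}

@[simp] theorem mem_sOf {l : List Bool} {j : Fin m} : j ∈ sOf m l ↔ l.getD j.val false = true := by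
  simp [sOf]

theorem getD_map_range {β : Type} (g : ℕ → β) (d : β) {i : ℕ} (h : i < m) :
    ((List.range m).map g).getD i d = g i := by
  simp [List.getD_eq_getElem?_getD, h]

@[simp] theorem vec_map_range (g : ℕ → ℤ) (i : Fin m) : vec m ((List.range m).map g) i = g i.val :=
  getD_map_range g 0 i.2

theorem mem_sOf_map_range (g : ℕ → Bool) (i : Fin m) :
    i ∈ sOf m ((List.range m).map g) ↔ g i.val = true := by
  rw [mem_sOf, getD_map_range g false i.2]

theorem sum_range_vec (g : ℕ → ℤ) : ∑ i ∈ range m, g i = ∑ i : Fin m, g i.val :=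
  Finset.sum_range g

theorem exists_sOf (A : Finset (Fin m)) : ∃ l : List Bool, l.length = m ∧ sOf m l = A :=
  ⟨List.ofFn fun i => decide (i ∈ A), by simp, by
    ext i; simp [List.getD_eq_getElem?_getD]⟩

theorem vec_ofFn (x : Fin m → ℤ) : vec m (List.ofFn x) = x := by
  funext i; simp [vec, List.getD_eq_getElem?_getD]

theorem eq_of_vec {l l' : List ℤ} (h : l.length = m) (h' : l'.length = m) (e : vec m l = vec m l') :
    l = l' := by
  refine List.ext_getElem (h.trans h'.symm) fun i h1 h2 => ?_
  have := congrFun e ⟨i, h ▸ h1⟩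
  simpa [vec, List.getD_eq_getElem?_getD, h1, h2] using this

end lists

end Crest.Agent.R302
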