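import Crest.Agent.R302.Sub

/-!
# R302/Lov: the Lovász extension (TASK)
-/

set_option autoImplicit false
set_option linter.unusedSectionVars false

namespace Crest.Agent.R302

open Finset Crest.Agent.R309

variable {U : Type} [Fintype U] [DecidableEq U] {f : Finset U → ℤ}

private theorem lov_aux (hf : Nice f) (p : U → ℤ) {a b a' b' : ℤ} (h : ∀ u, a ≤ p u ∧ p u ≤ b)
    (ha : a' ≤ a) (hb : b ≤ b') :
    ∑ t ∈ Icc a b, f (univ.filter fun u => t ≤ p u) =
      ∑ t ∈ Icc a' b', f (univ.filter fun u => t ≤ p u) := by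
  refine sum_subset (Icc_subset_Icc ha hb) fun t _ ht => ?_
  rw [mem_Icc, not_and_or] at ht
  rcases ht with ht | ht
  · rw [filter_true_of_mem fun u _ => by have := h u; omega, hf.top]
  · rw [filter_false_of_mem fun u _ => by have := h u; omega, hf.emp]

private theorem lov_bd (p : U → ℤ) (u : U) : - ∑ u, |p u| ≤ p u ∧ p u ≤ ∑ u, |p u| :=
  abs_le.1 (single_le_sum (f := fun u => |p u|) (fun _ _ => abs_nonneg _) (mem_univ u))

private theorem lov_bd2 (p q : U → ℤ) :
    ∃ a b : ℤ, (∀ u, a ≤ p u ∧ p u ≤ b) ∧ ∀ u, a ≤ q u ∧ q u ≤ b :=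
  ⟨min (- ∑ u, |p u|) (- ∑ u, |q u|), max (∑ u, |p u|) (∑ u, |q u|),
    fun u => by have := lov_bd p u; omega, fun u => by have := lov_bd q u; omega⟩

private theorem lov_dot {x : U → ℤ} (h0 : ∑ u, x u = 0) (p : U → ℤ) {a b : ℤ}
    (h : ∀ u, a ≤ p u ∧ p u ≤ b) :
    dot p x = ∑ t ∈ Icc a b, ∑ u ∈ univ.filter (fun u => t ≤ p u), x u := by
  simp_rw [sum_filter]
  rw [sum_comm]
  have h1 : ∀ u, ∑ t ∈ Icc a b, (if t ≤ p u then x u else 0) = p u * x u + (1 - a) * x u := by
    intro u
    have h2 := h u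
    have h3 : (Icc a b).filter (fun t => t ≤ p u) = Icc a (p u) := by
      ext t; simp only [mem_filter, mem_Icc]; omega
    rw [← sum_filter, h3, sum_const, Int.card_Icc, nsmul_eq_mul, Int.toNat_of_nonneg (by omega)]
    ring
  simp_rw [h1]
  rw [sum_add_distrib, ← mul_sum, h0, mul_zero, add_zero, dot]

private theorem lov_gre_sum (hf : Nice f) {ρ : U → ℕ} (hρ : Function.Injective ρ) :
    ∑ u, gre f ρ u = 0 := by
  have h := gre_prefix hρ f (∑ u, ρ u + 1)
  rw [filter_true_of_mem fun u _ => Nat.lt_succ_of_le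
    (single_le_sum (f := ρ) (fun _ _ => Nat.zero_le _) (mem_univ u)), hf.top, hf.emp] at h
  simpa using h

private theorem lov_cvx {x y z w : ℤ} (l : ℤ) (h : x + y = z + w) (h1 : min z w ≤ x)
    (h2 : x ≤ max z w) :
    max 0 (|x| - l) + max 0 (|y| - l) ≤ max 0 (|z| - l) + max 0 (|w| - l) := by
  simp only [abs_eq_max_neg]
  omega

/-- any interval containing the values of `p` can be used: the terms with `t ≤ min p` or `t > max p` vanish -/
theorem lov_eq (hf : Nice f) (p : U → ℤ) {a b : ℤ} (h : ∀ u, a ≤ p u ∧ p u ≤ b) :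
    lov f p = ∑ t ∈ Icc a b, f (univ.filter fun u => t ≤ p u) := by
  rw [lov, lov_aux hf p (lov_bd p) (min_le_left _ a) (le_max_left _ b),
    lov_aux hf p h (min_le_right (- ∑ u, |p u|) a) (le_max_right (∑ u, |p u|) b)]

theorem lov_zero (hf : Nice f) : lov f 0 = 0 := by
  rw [lov_eq hf 0 (a := 0) (b := 0) (by simp)]
  simp [hf.top]

theorem lov_add_const (hf : Nice f) (p : U → ℤ) (c : ℤ) : lov f (fun u => p u + c) = lov f p := by
  obtain ⟨a, b, h, -⟩ := lov_bd2 p p
  rw [lov_eq hf p h, lov_eq hf (fun u => p u + c) (a := a + c) (b := b + c)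
    (fun u => by have := h u; omega), ← map_add_right_Icc, sum_map]
  simp

/-- `{t ≤ max p q} = {t ≤ p} ∪ {t ≤ q}` -/
theorem lov_lattice (hf : Nice f) (p q : U → ℤ) :
    lov f (fun u => min (p u) (q u)) + lov f (fun u => max (p u) (q u)) ≤ lov f p + lov f q := by
  obtain ⟨a, b, h, h'⟩ := lov_bd2 p q
  rw [lov_eq hf p h, lov_eq hf q h',
    lov_eq hf _ (a := a) (b := b) (fun u => by have := h u; have := h' u; omega),
    lov_eq hf (fun u => max (p u) (q u)) (a := a) (b := b)
      (fun u => by have := h u; have := h' u; omega), ← sum_add_distrib, ← sum_add_distrib]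
  refine sum_le_sum fun t _ => ?_
  have h1 := hf.sub (univ.filter fun u => t ≤ p u) (univ.filter fun u => t ≤ q u)
  rw [← filter_or, ← filter_and] at h1
  simp only [le_min_iff, le_max_iff]
  omega

/-- `lov_lattice` for `p` and `q + α`, and `lov_add_const` -/
theorem lov_tsub (hf : Nice f) : TSub (lov f) := by
  intro p q α _
  have h := lov_lattice hf p fun u => q u + α
  have e : (fun u => max (p u - α) (q u)) = fun u => max (p u) (q u + α) + -α := by
    funext u; omega
  rw [lov_add_const hf q α] at h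
  rw [e, lov_add_const hf (fun u => max (p u) (q u + α))]
  exact h

theorem lov_chi (hf : Nice f) (A : Finset U) {t : ℤ} (ht : 0 ≤ t) :
    lov f (fun u => t * chi A u) = t * f A := by
  rw [lov_eq hf _ (a := 0) (b := t) (fun u => by unfold chi; split_ifs <;> omega)]
  have e : Icc 0 t = insert 0 (Icc 1 t) := by
    ext s; simp only [mem_insert, mem_Icc]; omega
  rw [e, sum_insert (by simp), filter_true_of_mem fun u _ => by unfold chi; split_ifs <;> omega,
    hf.top, zero_add, sum_congr rfl (g := fun _ => f A), sum_const, Int.card_Icc, nsmul_eq_mul,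
    Int.toNat_of_nonneg (by omega)]
  · ring
  · intro s hs
    rw [mem_Icc] at hs
    congr 1
    ext u
    simp only [mem_filter, mem_univ, true_and, chi]
    split_ifs with hu
    · simp only [hu, iff_true]; omega
    · simp only [hu, iff_false]; omega

theorem lov_const (hf : Nice f) (c : ℤ) : lov f (fun _ => c) = 0 := by
  rw [lov_eq hf _ (a := c) (b := c) (by simp)]
  simp [hf.top]

/-- layer cake: `p u = a + #{t ∈ (a, b] | t ≤ p u}` -/
theorem dot_le_lov (hf : Nice f) {x : U → ℤ} (hx : Below f x) (h0 : ∑ u, x u = 0) (p : U → ℤ) :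
    dot p x ≤ lov f p := by
  rw [lov_dot h0 p (lov_bd p), lov]
  exact sum_le_sum fun t _ => hx _

/-- If `ρ` lists the elements by decreasing `p`, each level set is an initial segment (`gre_prefix`), so the layer-cake
inequality is an equality for the greedy vertex. -/
theorem lov_gre (hf : Nice f) (p : U → ℤ) {ρ : U → ℕ} (hρ : Function.Injective ρ)
    (hp : ∀ u v, ρ u ≤ ρ v → p v ≤ p u) : lov f p = dot p (gre f ρ) := by
  rw [lov_dot (lov_gre_sum hf hρ) p (lov_bd p), lov]
  refine sum_congr rfl fun t _ => ?_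
  have key : ∃ k, (univ.filter fun u => t ≤ p u) = univ.filter fun u => ρ u < k := by
    rcases (univ.filter fun u => t ≤ p u).eq_empty_or_nonempty with h | h
    · exact ⟨0, by rw [h]; simp⟩
    · obtain ⟨w, hw, hw'⟩ := exists_max_image _ ρ h
      refine ⟨ρ w + 1, ?_⟩
      ext v
      simp only [mem_filter, mem_univ, true_and] at hw hw' ⊢
      exact ⟨fun hv => Nat.lt_succ_of_le (hw' v hv),
        fun hv => hw.trans (hp v w (Nat.le_of_lt_succ hv))⟩
  obtain ⟨k, hk⟩ := key
  rw [hk, gre_prefix hρ, hf.emp, sub_zero]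

/-- The formula used by the algorithm (`lov_gre` with `ρ u` = the number of `v` before `u`). -/
theorem lov_formula {m : ℕ} {f : Finset (Fin m) → ℤ} (hf : Nice f) (p : Fin m → ℤ) :
    lov f p = ∑ u, p u * (f (univ.filter fun v => p u < p v ∨ (p v = p u ∧ v ≤ u)) -
      f (univ.filter fun v => p u < p v ∨ (p v = p u ∧ v < u))) := by
  let ρ : Fin m → ℕ := fun u => (univ.filter fun v => p u < p v ∨ (p v = p u ∧ v < u)).card
  have h1 : ∀ u v, (p u < p v ∨ (p v = p u ∧ v < u)) → ρ v < ρ u := by
    intro u v h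
    refine card_lt_card ⟨fun w hw => ?_, fun hs => ?_⟩
    · simp only [mem_filter, mem_univ, true_and] at hw ⊢
      omega
    · have := hs (mem_filter.2 ⟨mem_univ v, h⟩)
      simp at this
  have h2 : ∀ u v, ρ v < ρ u ↔ (p u < p v ∨ (p v = p u ∧ v < u)) := by
    intro u v
    refine ⟨fun h => ?_, h1 u v⟩
    by_contra hn
    rcases eq_or_ne u v with rfl | hne
    · exact lt_irrefl _ h
    · have := h1 v u (by omega)
      omega
  have h3 : ∀ u v, ρ v ≤ ρ u ↔ (p u < p v ∨ (p v = p u ∧ v ≤ u)) := by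
    intro u v
    rw [← not_lt, h2]
    omega
  have hinj : Function.Injective ρ := by
    intro u v h
    have h4 := (h3 u v).1 h.ge
    have h5 := (h3 v u).1 h.le
    omega
  rw [lov_gre hf p hinj fun u v h => by have := (h3 v u).1 h; omega]
  simp only [dot, gre, h2, h3]

theorem abs_lov_le (hf : Nice f) {B C : ℤ} (hB : ∀ A, |f A| ≤ B) {p : U → ℤ} (hC : 0 ≤ C)
    (hp : ∀ u, |p u| ≤ C) : |lov f p| ≤ (2 * C + 1) * B := by
  rw [lov_eq hf p (a := -C) (b := C) fun u => abs_le.1 (hp u)]
  refine (abs_sum_le_sum_abs _ _).trans ((sum_le_sum fun t _ => hB _).trans ?_)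
  rw [sum_const, Int.card_Icc, nsmul_eq_mul, Int.toNat_of_nonneg (by omega)]
  exact le_of_eq (by ring)

/-- there is a base (a greedy vertex) -/
theorem exists_base (hf : Nice f) : ∃ x, Below f x ∧ ∑ u, x u = 0 := by
  have hρ : Function.Injective fun u => ((Fintype.equivFin U u : Fin _) : ℕ) :=
    Fin.val_injective.comp (Fintype.equivFin U).injective
  refine ⟨gre f _, fun A => ?_, lov_gre_sum hf hρ⟩
  have := gre_below hf.sub hρ A
  rwa [hf.emp, sub_zero] at this

theorem TSub.add {γ γ' : (U → ℤ) → ℤ} (h : TSub γ) (h' : TSub γ') : TSub fun p => γ p + γ' p := by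
  intro p q α hα
  have h1 := h p q α hα
  have h2 := h' p q α hα
  simp only []
  omega

/-- `min (p, q + α) + max (p - α, q) = p + q` -/
theorem tsub_dot (x : U → ℤ) : TSub fun p => - dot p x := by
  intro p q α hα
  have : dot (fun u => min (p u) (q u + α)) x + dot (fun u => max (p u - α) (q u)) x =
      dot p x + dot q x := by
    simp only [dot, ← sum_add_distrib, ← add_mul]
    exact sum_congr rfl fun u _ => by congr 1; omega
  simp only []
  omega

/-- a convex penalty of a difference of two coordinates -/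
theorem tsub_pen2 (a b : U) {M : ℤ} (hM : 0 ≤ M) (l : ℤ) :
    TSub fun p => M * max 0 (|p a - p b| - l) := by
  intro p q α hα
  simp only [← mul_add]
  exact mul_le_mul_of_nonneg_left (lov_cvx l (by omega) (by omega) (by omega)) hM

/-- a convex penalty of one coordinate -/
theorem tsub_pen1 (a : U) {M : ℤ} (hM : 0 ≤ M) (l : ℤ) : TSub fun p => M * max 0 (|p a| - l) := by
  intro p q α hα
  simp only [← mul_add]
  exact mul_le_mul_of_nonneg_left (lov_cvx l (by omega) (by omega) (by omega)) hM

theorem tsub_sum {ι : Type} (s : Finset ι) {γ : ι → (U → ℤ) → ℤ} (h : ∀ i ∈ s, TSub (γ i)) :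
    TSub fun p => ∑ i ∈ s, γ i p := by
  intro p q α hα
  simp only [← sum_add_distrib]
  exact sum_le_sum fun i hi => h i hi p q α hα

/-- `α = 0`; for `s < 0` unions and intersections are exchanged -/
theorem TSub.submod {γ : (U → ℤ) → ℤ} (h : TSub γ) (p : U → ℤ) (s : ℤ) :
    Submod fun A => γ fun u => p u + s * chi A u := by
  intro A B
  have h1 := h (fun u => p u + s * chi A u) (fun u => p u + s * chi B u) 0 le_rfl
  simp only [add_zero, sub_zero] at h1
  rcases le_total 0 s with hs | hs
  · have e1 : (fun u => min (p u + s * chi A u) (p u + s * chi B u)) =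
        fun u => p u + s * chi (A ∩ B) u := by
      funext u
      by_cases ha : u ∈ A <;> by_cases hb : u ∈ B <;> simp [chi, ha, hb, hs]
    have e2 : (fun u => max (p u + s * chi A u) (p u + s * chi B u)) =
        fun u => p u + s * chi (A ∪ B) u := by
      funext u
      by_cases ha : u ∈ A <;> by_cases hb : u ∈ B <;> simp [chi, ha, hb, hs]
    rw [e1, e2] at h1
    simp only []
    omega
  · have e1 : (fun u => min (p u + s * chi A u) (p u + s * chi B u)) =
        fun u => p u + s * chi (A ∪ B) u := by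
      funext u
      by_cases ha : u ∈ A <;> by_cases hb : u ∈ B <;> simp [chi, ha, hb, hs]
    have e2 : (fun u => max (p u + s * chi A u) (p u + s * chi B u)) =
        fun u => p u + s * chi (A ∩ B) u := by
      funext u
      by_cases ha : u ∈ A <;> by_cases hb : u ∈ B <;> simp [chi, ha, hb, hs]
    rw [e1, e2] at h1
    exact h1

end Crest.Agent.R302
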