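import Crest.Agent.R302.Sfm
import Crest.Agent.R302.Lov

/-!
# R302/Tools: subroutines built on submodular minimisation (TASK)

How to prove `HOPT alg`: `intro α _ h hh`; the goal is an `OPT` statement on `α × β`.  A call of the subroutine is `OPT.call hh`; a call of another
algorithm `H : HOPT alg'` with a new subroutine is `H.app (h := fun O c i => …) (proof that the new subroutine is OPT on (context × query)) (argument)`.
Build sets as `(List.range m).map g` (`mem_sOf_map_range`), so that they depend on a list `l` only through `l.getD i false`, `i < m`.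
-/

set_option autoImplicit false

namespace Crest.Agent.R302

open Finset Crest.Agent.Lib.PT Crest.Agent.R309

/-- the sum of the entries of `x` at the positions `< m` selected by `l` -/
def tlSum (m : ℕ) (l : List Bool) (x : List ℤ) : ℤ :=
  ((List.range m).map fun i => if l.getD i false = true then x.getD i 0 else 0).sum

theorem tl_sum_range (m : ℕ) (g : ℕ → ℤ) : ((List.range m).map g).sum = ∑ i : Fin m, g i.val := by
  rw [← sum_range_vec]
  rfl

theorem tlSum_eq (m : ℕ) (l : List Bool) (x : List ℤ) :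
    tlSum m l x = ∑ u ∈ sOf m l, vec m x u := by
  rw [tlSum, tl_sum_range, sOf, sum_filter]
  rfl

@[fun_prop] theorem tlSum_pt {α : Type} [Enc α] {m : α → ℕ} {l : α → List Bool} {x : α → List ℤ}
    (hm : PT m) (hb : PB m) (hl : PT l) (hx : PT x) : PT fun a => tlSum (m a) (l a) (x a) := by
  unfold tlSum
  refine PT.int_sum (PT.map (hm.range hb) ?_)
  exact PT.ite (PT.eq_true (by fun_prop)) (by fun_prop) (by fun_prop)

theorem tl_abs_sum_le {m K : ℕ} {x : Fin m → ℤ} (hx : ∀ u, |x u| ≤ 2 ^ K) (A : Finset (Fin m)) :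
    |∑ u ∈ A, x u| ≤ m * 2 ^ K := by
  refine (abs_sum_le_sum_abs _ _).trans ((sum_le_sum fun u _ => hx u).trans ?_)
  rw [sum_const, nsmul_eq_mul]
  have h : (A.card : ℤ) ≤ m := by
    have := card_le_univ A
    rw [Fintype.card_fin] at this
    exact_mod_cast this
  exact mul_le_mul_of_nonneg_right h (by positivity)

theorem tl_succ_le (m K : ℕ) : ((m : ℤ) + 1) * 2 ^ K ≤ 2 ^ (K + m) := by
  rw [pow_add, mul_comm]
  refine mul_le_mul_of_nonneg_left ?_ (by positivity)
  have : m + 1 ≤ 2 ^ m := Nat.lt_two_pow_self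
  exact_mod_cast this

theorem tl_abs_slack_le {m K : ℕ} {f : Finset (Fin m) → ℤ} {x : Fin m → ℤ}
    (hf : ∀ A, |f A| ≤ 2 ^ K) (hx : ∀ u, |x u| ≤ 2 ^ K) (A : Finset (Fin m)) :
    |slack f x A| ≤ 2 ^ (K + m) := by
  have h1 := abs_le.1 (hf A)
  have h2 := abs_le.1 (tl_abs_sum_le hx A)
  have h3 := tl_succ_le m K
  rw [add_mul, one_mul] at h3
  unfold slack
  rw [abs_le]
  constructor <;> linarith [h1.1, h1.2, h2.1, h2.2]

/-- the minimum value: call `h` on the minimiser -/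
theorem exists_minv : ∃ alg : (List Bool → ℤ) → Un × Un → ℤ, HOPT alg ∧
    ∀ (m K : ℕ) (f : Finset (Fin m) → ℤ) (h : List Bool → ℤ), Calls h f → Submod f →
      (∀ A, |f A| ≤ 2 ^ K) →
      (∃ A, alg h (⟨m⟩, ⟨K⟩) = f A) ∧ ∀ B, alg h (⟨m⟩, ⟨K⟩) ≤ f B := by
  obtain ⟨sfm, H, hs⟩ := exists_sfm
  refine ⟨fun h p => h (sfm h p), fun α _ h hh => ?_, fun m K f h hc hf hb => ?_⟩
  · exact OPT.bind (g := fun O (p : α × Un × Un) l => h O p.1 l) (H α h hh)
      (OPT.call hh (e := fun c : (α × Un × Un) × List Bool => c.1.1) (q := fun c => c.2)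
        (by fun_prop) (by fun_prop))
  · exact ⟨⟨_, hc _⟩, fun B => (hc _).trans_le (hs m K f h hc hf hb B)⟩

/-- membership: minimise the slack, which is bounded by `(m + 1) 2 ^ K ≤ 2 ^ (K + m)` -/
theorem exists_mem : ∃ alg : (List Bool → ℤ) → Un × Un × List ℤ → Bool, HOPT alg ∧
    ∀ (m K : ℕ) (f : Finset (Fin m) → ℤ) (h : List Bool → ℤ) (x : List ℤ), Calls h f → Submod f →
      (∀ A, |f A| ≤ 2 ^ K) → (∀ u, |vec m x u| ≤ 2 ^ K) →
      (alg h (⟨m⟩, ⟨K⟩, x) = true ↔ Below f (vec m x)) := by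
  obtain ⟨mv, H, hs⟩ := exists_minv
  refine ⟨fun h p => decide (0 ≤ mv (fun l => h l - tlSum p.1.n l p.2.2)
    (p.1, ⟨p.2.1.n + p.1.n⟩)), fun α _ h hh => ?_, fun m K f h x hc hf hb hx => ?_⟩
  · refine OPT.post (g := fun z : ℤ => decide (0 ≤ z)) (by fun_prop) ?_
    refine H.app (h := fun O (c : α × Un × Un × List ℤ) l => h O c.1 l - tlSum c.2.1.n l c.2.2.2)
      ?_ (OPT.pure (by fun_prop))
    exact OPT.cont (g := fun (c : (α × Un × Un × List ℤ) × List Bool) z =>
        z - tlSum c.1.2.1.n c.2 c.1.2.2.2)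
      (OPT.call hh (e := fun c : (α × Un × Un × List ℤ) × List Bool => c.1.1) (q := fun c => c.2)
        (by fun_prop) (by fun_prop)) (by fun_prop)
  · obtain ⟨⟨A, hA⟩, h2⟩ := hs m (K + m) (slack f (vec m x)) (fun l => h l - tlSum m l x)
      (fun l => by beta_reduce; rw [hc l, tlSum_eq]; rfl) (hf.slack _) (tl_abs_slack_le hb hx)
    rw [decide_eq_true_iff]
    refine ⟨fun h0 B => ?_, fun h0 => ?_⟩
    · have := h0.trans (h2 B)
      unfold slack at this
      omega
    · have := h0 A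
      change 0 ≤ mv (fun l => h l - tlSum m l x) (⟨m⟩, ⟨K + m⟩)
      rw [hA]
      unfold slack
      omega

/-- the list of the set `(insert a A).erase b` -/
def tlIns (m a b : ℕ) (l : List Bool) : List Bool :=
  (List.range m).map fun i => decide ((i = a ∨ l.getD i false = true) ∧ ¬ i = b)

theorem sOf_tlIns {m : ℕ} (a b : Fin m) (l : List Bool) :
    sOf m (tlIns m a.val b.val l) = (insert a (sOf m l)).erase b := by
  ext i
  rw [tlIns, mem_sOf_map_range, decide_eq_true_iff, mem_erase, mem_insert, mem_sOf, Fin.val_inj,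
    Fin.val_inj]
  tauto

@[fun_prop] theorem tlIns_pt {α : Type} [Enc α] {m a b : α → ℕ} {l : α → List Bool}
    (hm : PT m) (hb : PB m) (ha : PT a) (hb' : PT b) (hl : PT l) :
    PT fun c => tlIns (m c) (a c) (b c) (l c) := by
  unfold tlIns
  refine PT.map (hm.range hb) (PT.decide ?_)
  have h1 : PT fun p : α × ℕ => (l p.1).getD p.2 false = true := PT.eq_true (by fun_prop)
  fun_prop

/-- exchange capacities: minimise `A ↦ slack ((insert a A).erase b)` -/
theorem exists_cap : ∃ alg : (List Bool → ℤ) → Un × Un × List ℤ × ℕ × ℕ → ℤ, HOPT alg ∧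
    ∀ (m K : ℕ) (f : Finset (Fin m) → ℤ) (h : List Bool → ℤ) (x : List ℤ) (a b : Fin m),
      Calls h f → Submod f → (∀ A, |f A| ≤ 2 ^ K) → (∀ u, |vec m x u| ≤ 2 ^ K) → a ≠ b →
      ∀ t, t ≤ alg h (⟨m⟩, ⟨K⟩, x, a.val, b.val) ↔ CapGe f (vec m x) a b t := by
  obtain ⟨mv, H, hs⟩ := exists_minv
  refine ⟨fun h p => mv (fun l => h (tlIns p.1.n p.2.2.2.1 p.2.2.2.2 l) -
      tlSum p.1.n (tlIns p.1.n p.2.2.2.1 p.2.2.2.2 l) p.2.2.1) (p.1, ⟨p.2.1.n + p.1.n⟩),
    fun α _ h hh => ?_, fun m K f h x a b hc hf hb hx hab t => ?_⟩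
  · refine H.app (h := fun O (c : α × Un × Un × List ℤ × ℕ × ℕ) l =>
      h O c.1 (tlIns c.2.1.n c.2.2.2.2.1 c.2.2.2.2.2 l) -
        tlSum c.2.1.n (tlIns c.2.1.n c.2.2.2.2.1 c.2.2.2.2.2 l) c.2.2.2.1)
      ?_ (OPT.pure (by fun_prop))
    exact OPT.cont (g := fun (c : (α × Un × Un × List ℤ × ℕ × ℕ) × List Bool) z =>
        z - tlSum c.1.2.1.n (tlIns c.1.2.1.n c.1.2.2.2.2.1 c.1.2.2.2.2.2 c.2) c.1.2.2.2.1)
      (OPT.call hh (e := fun c : (α × Un × Un × List ℤ × ℕ × ℕ) × List Bool => c.1.1)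
        (q := fun c => tlIns c.1.2.1.n c.1.2.2.2.2.1 c.1.2.2.2.2.2 c.2)
        (by fun_prop) (by fun_prop)) (by fun_prop)
  · obtain ⟨⟨A, hA⟩, h2⟩ := hs m (K + m) (fun A => slack f (vec m x) ((insert a A).erase b))
      (fun l => h (tlIns m a.val b.val l) - tlSum m (tlIns m a.val b.val l) x)
      (fun l => by beta_reduce; rw [hc, tlSum_eq, sOf_tlIns]; rfl)
      ((hf.slack _).comp (fun A => (insert a A).erase b)
        (fun A B => by ext i; simp only [mem_erase, mem_insert, mem_union]; tauto)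
        (fun A B => by ext i; simp only [mem_erase, mem_insert, mem_inter]; tauto))
      (fun A => tl_abs_slack_le hb hx _)
    change t ≤ mv (fun l => h (tlIns m a.val b.val l) - tlSum m (tlIns m a.val b.val l) x)
      (⟨m⟩, ⟨K + m⟩) ↔ _
    refine ⟨fun h0 B ha hb' => ?_, fun h0 => ?_⟩
    · have := h0.trans (h2 B)
      rwa [insert_eq_of_mem ha, erase_eq_of_notMem hb'] at this
    · rw [hA]
      exact h0 _ (mem_erase.2 ⟨hab, mem_insert_self _ _⟩) (notMem_erase _ _)

/-- the list of the difference of two sets -/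
def tlDif (m : ℕ) (l l' : List Bool) : List Bool :=
  (List.range m).map fun i => decide (l.getD i false = true ∧ ¬ l'.getD i false = true)

theorem sOf_tlDif (m : ℕ) (l l' : List Bool) : sOf m (tlDif m l l') = sOf m l \ sOf m l' := by
  ext i
  rw [tlDif, mem_sOf_map_range, decide_eq_true_iff, mem_sdiff, mem_sOf, mem_sOf]

@[fun_prop] theorem tlDif_pt {α : Type} [Enc α] {m : α → ℕ} {l l' : α → List Bool}
    (hm : PT m) (hb : PB m) (hl : PT l) (hl' : PT l') :
    PT fun c => tlDif (m c) (l c) (l' c) := by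
  unfold tlDif
  refine PT.map (hm.range hb) (PT.decide ?_)
  have h1 : PT fun p : α × ℕ => (l p.1).getD p.2 false = true := PT.eq_true (by fun_prop)
  have h2 : PT fun p : α × ℕ => (l' p.1).getD p.2 false = true := PT.eq_true (by fun_prop)
  fun_prop

theorem tl_box_eq {m : ℕ} (lo hi : Fin m → ℤ) (A X : Finset (Fin m)) :
    ∑ u ∈ A \ X, hi u - ∑ u ∈ X \ A, lo u =
      ∑ u ∈ X, (if u ∈ A then - hi u else - lo u) + ∑ u ∈ A, hi u := by
  have h1 := sum_sdiff (s₁ := A ∩ X) (s₂ := A) (f := hi) inter_subset_left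
  rw [sdiff_inter_self_left] at h1
  rw [sum_ite, filter_mem_eq_inter, sum_neg_distrib, sum_neg_distrib, inter_comm X A,
    show X.filter (fun u => u ∉ A) = X \ A by ext u; simp]
  omega

/-- the function `fbox` -/
theorem exists_fbox : ∃ alg : (List Bool → ℤ) → Un × Un × List ℤ × List ℤ × List Bool → ℤ, HOPT alg ∧
    ∀ (m K : ℕ) (r : Finset (Fin m) → ℤ) (h : List Bool → ℤ) (lo hi : List ℤ), Calls h r →
      Submod r → (∀ A, |r A| ≤ 2 ^ K) → (∀ u, |vec m lo u| ≤ 2 ^ K ∧ |vec m hi u| ≤ 2 ^ K) →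
      Calls (fun l => alg h (⟨m⟩, ⟨K⟩, lo, hi, l)) (fbox r (vec m lo) (vec m hi)) := by
  obtain ⟨mv, H, hs⟩ := exists_minv
  refine ⟨fun h p => mv (fun l => h l + tlSum p.1.n (tlDif p.1.n p.2.2.2.2 l) p.2.2.2.1 -
      tlSum p.1.n (tlDif p.1.n l p.2.2.2.2) p.2.2.1) (p.1, ⟨p.2.1.n + p.1.n + 1⟩),
    fun α _ h hh => ?_, fun m K r h lo hi hc hf hb hx l => ?_⟩
  · refine H.app (h := fun O (c : α × Un × Un × List ℤ × List ℤ × List Bool) l =>
      h O c.1 l + tlSum c.2.1.n (tlDif c.2.1.n c.2.2.2.2.2 l) c.2.2.2.2.1 -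
        tlSum c.2.1.n (tlDif c.2.1.n l c.2.2.2.2.2) c.2.2.2.1)
      ?_ (OPT.pure (by fun_prop))
    exact OPT.cont (g := fun (c : (α × Un × Un × List ℤ × List ℤ × List Bool) × List Bool) z =>
        z + tlSum c.1.2.1.n (tlDif c.1.2.1.n c.1.2.2.2.2.2 c.2) c.1.2.2.2.2.1 -
          tlSum c.1.2.1.n (tlDif c.1.2.1.n c.2 c.1.2.2.2.2.2) c.1.2.2.2.1)
      (OPT.call hh (e := fun c : (α × Un × Un × List ℤ × List ℤ × List Bool) × List Bool => c.1.1)
        (q := fun c => c.2) (by fun_prop) (by fun_prop)) (by fun_prop)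
  · obtain ⟨⟨A, hA⟩, h2⟩ := hs m (K + m + 1)
      (fun X => r X + ∑ u ∈ sOf m l \ X, vec m hi u - ∑ u ∈ X \ sOf m l, vec m lo u)
      (fun l' => h l' + tlSum m (tlDif m l l') hi - tlSum m (tlDif m l' l) lo)
      (fun l' => by beta_reduce; rw [hc, tlSum_eq, tlSum_eq, sOf_tlDif, sOf_tlDif])
      (by
        have := hf.add (submod_sum (fun u => if u ∈ sOf m l then - vec m hi u else - vec m lo u)
          (∑ u ∈ sOf m l, vec m hi u))
        simpa only [add_sub_assoc, tl_box_eq] using this)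
      (fun X => by
        have h1 := abs_le.1 (hb X)
        have h2 := abs_le.1 (tl_abs_sum_le (fun u => (hx u).2) (sOf m l \ X))
        have h3 := abs_le.1 (tl_abs_sum_le (fun u => (hx u).1) (X \ sOf m l))
        have h4 := tl_succ_le m K
        have h5 : (0 : ℤ) ≤ 2 ^ K := by positivity
        rw [add_mul, one_mul] at h4
        rw [abs_le, pow_succ]
        constructor <;> linarith [h1.1, h1.2, h2.1, h2.2, h3.1, h3.2])
    change mv (fun l' => h l' + tlSum m (tlDif m l l') hi - tlSum m (tlDif m l' l) lo)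
      (⟨m⟩, ⟨K + m + 1⟩) = _
    refine le_antisymm (le_inf' _ _ fun X _ => h2 X) ?_
    rw [hA]
    exact inf'_le _ (mem_univ A)

/-- the initial segments of the order by decreasing `p` -/
def tlSeg (m : ℕ) (p : List ℤ) (u k : ℕ) : List Bool :=
  (List.range m).map fun v => decide (p.getD u 0 < p.getD v 0 ∨ (p.getD v 0 = p.getD u 0 ∧ v < k))

@[fun_prop] theorem tlSeg_pt {α : Type} [Enc α] {m u k : α → ℕ} {p : α → List ℤ}
    (hm : PT m) (hb : PB m) (hp : PT p) (hu : PT u) (hk : PT k) :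
    PT fun c => tlSeg (m c) (p c) (u c) (k c) := by
  unfold tlSeg
  refine PT.map (hm.range hb) (PT.decide ?_)
  fun_prop

theorem mem_tlSeg {m : ℕ} (p : List ℤ) (u v : Fin m) (k : ℕ) :
    v ∈ sOf m (tlSeg m p u.val k) ↔ vec m p u < vec m p v ∨ (vec m p v = vec m p u ∧ v.val < k) := by
  rw [tlSeg, mem_sOf_map_range, decide_eq_true_iff]
  rfl

/-- the Lovász extension (`lov_formula`, `OPT.map`) -/
theorem exists_lov : ∃ alg : (List Bool → ℤ) → Un × List ℤ → ℤ, HOPT alg ∧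
    ∀ (m : ℕ) (f : Finset (Fin m) → ℤ) (h : List Bool → ℤ) (p : List ℤ), Calls h f → Nice f →
      alg h (⟨m⟩, p) = lov f (vec m p) := by
  refine ⟨fun h q => ((List.range q.1.n).map fun u => q.2.getD u 0 *
      (h (tlSeg q.1.n q.2 u (u + 1)) - h (tlSeg q.1.n q.2 u u))).sum,
    fun α _ h hh => ?_, fun m f h p hc hf => ?_⟩
  · refine OPT.post (g := fun l : List ℤ => l.sum) (by fun_prop) ?_
    refine OPT.map (l := fun _ (c : α × Un × List ℤ) => List.range c.2.1.n)
      (f := fun O c u => c.2.2.getD u 0 *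
        (h O c.1 (tlSeg c.2.1.n c.2.2 u (u + 1)) - h O c.1 (tlSeg c.2.1.n c.2.2 u u)))
      (OPT.pure (by fun_prop)) ?_
    exact OPT.cont₂ (g := fun (c : (α × Un × List ℤ) × ℕ) y z => c.1.2.2.getD c.2 0 * (y - z))
      (OPT.call hh (e := fun c : (α × Un × List ℤ) × ℕ => c.1.1)
        (q := fun c => tlSeg c.1.2.1.n c.1.2.2 c.2 (c.2 + 1)) (by fun_prop) (by fun_prop))
      (OPT.call hh (e := fun c : (α × Un × List ℤ) × ℕ => c.1.1)
        (q := fun c => tlSeg c.1.2.1.n c.1.2.2 c.2 c.2) (by fun_prop) (by fun_prop))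
      (by fun_prop)
  · rw [lov_formula hf]
    change ((List.range m).map fun u => p.getD u 0 *
      (h (tlSeg m p u (u + 1)) - h (tlSeg m p u u))).sum = _
    rw [tl_sum_range]
    refine sum_congr rfl fun u _ => ?_
    rw [hc, hc]
    congr 3
    · ext v
      rw [mem_tlSeg, mem_filter, Nat.lt_succ_iff, Fin.val_fin_le]
      simp
    · ext v
      rw [mem_tlSeg, mem_filter, Fin.val_fin_lt]
      simp

end Crest.Agent.R302
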