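import Crest.Agent.R302.Dir
import Crest.Agent.R302.Tools

/-!
# R302/Centre: a balanced centre (TASK)

Let `μ = G³`, `s k = (4 μ) ^ k`, `τ k = 2 μ s k`, `c₀ = (G³ + 1) 2 μ`.  For `k = G + 1, G, …, 0` replace `x` by `x + s k • d`, where `d` is the direction of the graph `Mv f x (τ k)`
(adjacency matrix by `exists_cap` with `K = G`; on the diagonal `Mv` is true).  `x` stays in `K` (`inK_move`), so `|x u| ≤ 2 ^ G` (`abs_sum_le_of_below`; clamp for the size bound on all inputs).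
Invariant after the scale `k`: for all `A` and `k ≤ j ≤ G + 1`, if some `y ∈ K` has `slack y A > c₀ s j` then `2 slack x A ≥ s j + s k` (`centre_step`).
At the end, for `y ∈ K` and `A`: `slack y A ≤ 2 ^ (G + 1) ≤ c₀ s (G + 1)`; if `slack y A ≤ c₀` done; else take the largest `j` with `slack y A > c₀ s j`, `j ≤ G`, so
`slack y A ≤ c₀ 4 μ s j ≤ 8 c₀ μ slack x A` and `8 c₀ μ = 16 G⁶ (G³ + 1) ≤ G ^ 10`.
-/

set_option autoImplicit false

namespace Crest.Agent.R302

open Finset Crest.Agent.Lib.PT Crest.Agent.R309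

/-- One scale.  For `j > k` the slack drops by at most `μ s`, and `4 μ s - 2 μ s ≥ s`.  For `j = k`: if `A` is not closed its slack is `≥ 2 μ s` before and `≥ μ s ≥ s` after the move;
if it is closed the slack does not drop; if moreover it is `< s` then `slack y A > slack x A + m³ τ`, so by `lemX` a move on a cycle leaves `A` and `d A ≤ -1`. -/
theorem centre_step {U E : Type} [Fintype U] [DecidableEq U] [Fintype E] [DecidableEq E]
    {f : Finset U → ℤ} {pr : U → E} {x d : U → ℤ} {G : ℕ} (hf : Nice f) (hG : Fintype.card U ≤ G)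
    (h1 : 1 ≤ G) (hx : InK f pr x) {s : ℤ} (hs : 0 ≤ s)
    (hd : DirSpec (Mv f x (2 * (G : ℤ) ^ 3 * s)) pr G d) (A : Finset U) :
    slack f x A - (G : ℤ) ^ 3 * s ≤ slack f (x + s • d) A ∧
      ∀ y, InK f pr y → ((G : ℤ) ^ 3 + 1) * (2 * (G : ℤ) ^ 3 * s) < slack f y A →
        s ≤ slack f (x + s • d) A := by
  have hG1 : (1 : ℤ) ≤ (G : ℤ) ^ 3 := one_le_pow₀ (by exact_mod_cast h1)
  have hb := abs_le.1 (hd.bd A)
  have h0 : 0 ≤ slack f x A := by
    have := hx.1 A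
    unfold slack
    omega
  have hsG : s ≤ (G : ℤ) ^ 3 * s := le_mul_of_one_le_left hs hG1
  have hdA : s * ∑ u ∈ A, d u ≤ (G : ℤ) ^ 3 * s := by
    rw [mul_comm ((G : ℤ) ^ 3)]
    exact mul_le_mul_of_nonneg_left hb.2 hs
  rw [slack_move]
  refine ⟨by linarith, fun y hy hlt => ?_⟩
  by_cases hc : slack f x A < 2 * (G : ℤ) ^ 3 * s
  · have hcl := clo_of_slack_lt hc
    by_cases hm : ∀ u v, Mv f x (2 * (G : ℤ) ^ 3 * s) u v → u ∈ A → v ∉ A →
        ¬ Reach (Mv f x (2 * (G : ℤ) ^ 3 * s)) pr v u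
    · have h2 := lemX hf hx hy (by linarith) A hm
      have h3 : (Fintype.card U : ℤ) ^ 3 * (2 * (G : ℤ) ^ 3 * s) ≤
          (G : ℤ) ^ 3 * (2 * (G : ℤ) ^ 3 * s) :=
        mul_le_mul_of_nonneg_right
          (pow_le_pow_left₀ (Int.natCast_nonneg _) (by exact_mod_cast hG) 3) (by linarith)
      exfalso
      linarith
    · push Not at hm
      obtain ⟨u, v, a1, a2, a3, a4⟩ := hm
      have h2 := mul_le_mul_of_nonneg_left (hd.lv A hcl u v a1 a2 a3 a4) hs
      linarith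
  · linarith

section abs

variable {U E : Type} [Fintype U] [DecidableEq U] [Fintype E] [DecidableEq E]

/-- the invariant after the scale `k` -/
def centre_Inv (f : Finset U → ℤ) (pr : U → E) (G k : ℕ) (x : U → ℤ) : Prop :=
  InK f pr x ∧ ∀ A j, k ≤ j → j ≤ G + 1 → ∀ y, InK f pr y →
    ((G : ℤ) ^ 3 + 1) * (2 * (G : ℤ) ^ 3 * (4 * (G : ℤ) ^ 3) ^ j) < slack f y A →
      (4 * (G : ℤ) ^ 3) ^ j + (4 * (G : ℤ) ^ 3) ^ k ≤ 2 * slack f x A

theorem centre_inv_step {f : Finset U → ℤ} {pr : U → E} {x d : U → ℤ} {G k : ℕ} (hf : Nice f)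
    (hG : Fintype.card U ≤ G) (h1 : 1 ≤ G) (hx : centre_Inv f pr G (k + 1) x)
    (hd : DirSpec (Mv f x (2 * (G : ℤ) ^ 3 * (4 * (G : ℤ) ^ 3) ^ k)) pr G d) :
    centre_Inv f pr G k (x + (4 * (G : ℤ) ^ 3) ^ k • d) := by
  have hG1 : (1 : ℤ) ≤ (G : ℤ) ^ 3 := one_le_pow₀ (by exact_mod_cast h1)
  have hs : (0 : ℤ) ≤ (4 * (G : ℤ) ^ 3) ^ k := by positivity
  have hsG := le_mul_of_one_le_left hs hG1
  refine ⟨inK_move hx.1 hd hs (by linarith), fun A j hj hj' y hy hlt => ?_⟩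
  obtain ⟨a1, a2⟩ := centre_step hf hG h1 hx.1 hs hd A
  rcases hj.eq_or_lt with rfl | hj
  · have := a2 y hy hlt
    linarith
  · have := hx.2 A j hj hj' y hy hlt
    rw [pow_succ _ k] at this
    linarith

theorem centre_inv_final {f : Finset U → ℤ} {pr : U → E} {x : U → ℤ} {G : ℕ} (h32 : 32 ≤ G)
    (hB : ∀ A, |f A| ≤ 2 ^ G) (hx : centre_Inv f pr G 0 x) {y : U → ℤ} (hy : InK f pr y)
    (A : Finset U) : slack f y A ≤ (G : ℤ) ^ 10 * (slack f x A + 1) := by
  have hG : (32 : ℤ) ≤ G := by exact_mod_cast h32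
  have hG1 : (1 : ℤ) ≤ (G : ℤ) ^ 3 := one_le_pow₀ (by linarith)
  have h0 : 0 ≤ slack f x A := by
    have := hx.1.1 A
    unfold slack
    omega
  have hc : 16 * ((G : ℤ) ^ 3) ^ 2 * ((G : ℤ) ^ 3 + 1) ≤ (G : ℤ) ^ 10 := by
    have h1 : 32 * (G : ℤ) ^ 9 ≤ (G : ℤ) ^ 10 := by
      rw [pow_succ' _ 9]
      exact mul_le_mul_of_nonneg_right hG (by positivity)
    have h2 : (G : ℤ) ^ 6 ≤ (G : ℤ) ^ 9 := pow_le_pow_right₀ (by linarith) (by norm_num)
    nlinarith
  have key : ∀ j, j ≤ G + 1 →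
      slack f y A ≤ ((G : ℤ) ^ 3 + 1) * (2 * (G : ℤ) ^ 3 * (4 * (G : ℤ) ^ 3) ^ j) →
      slack f y A ≤ (G : ℤ) ^ 10 * (slack f x A + 1) := by
    intro j
    induction j with
    | zero =>
      intro _ h
      have h1 : (G : ℤ) ^ 10 ≤ (G : ℤ) ^ 10 * (slack f x A + 1) :=
        le_mul_of_one_le_right (by positivity) (by linarith)
      rw [pow_zero, mul_one] at h
      have h2 : ((G : ℤ) ^ 3 + 1) * (2 * (G : ℤ) ^ 3) ≤
          16 * ((G : ℤ) ^ 3) ^ 2 * ((G : ℤ) ^ 3 + 1) := by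
        generalize (G : ℤ) ^ 3 = μ at hG1
        nlinarith [mul_nonneg (by linarith : 0 ≤ μ + 1) (by nlinarith : 0 ≤ 16 * μ ^ 2 - 2 * μ)]
      linarith
    | succ j ih =>
      intro hj h
      by_cases h1 : slack f y A ≤
          ((G : ℤ) ^ 3 + 1) * (2 * (G : ℤ) ^ 3 * (4 * (G : ℤ) ^ 3) ^ j)
      · exact ih (by omega) h1
      · have h2 := hx.2 A j (Nat.zero_le _) (by omega) y hy (not_le.1 h1)
        rw [pow_zero] at h2
        have h3 : ((G : ℤ) ^ 3 + 1) * (2 * (G : ℤ) ^ 3 * (4 * (G : ℤ) ^ 3) ^ (j + 1)) =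
            8 * ((G : ℤ) ^ 3) ^ 2 * ((G : ℤ) ^ 3 + 1) * (4 * (G : ℤ) ^ 3) ^ j := by ring
        have h4 : 8 * ((G : ℤ) ^ 3) ^ 2 * ((G : ℤ) ^ 3 + 1) * (4 * (G : ℤ) ^ 3) ^ j ≤
            8 * ((G : ℤ) ^ 3) ^ 2 * ((G : ℤ) ^ 3 + 1) * (2 * slack f x A) :=
          mul_le_mul_of_nonneg_left (by linarith) (by positivity)
        have h5 := mul_le_mul_of_nonneg_right hc h0
        have h6 : (0 : ℤ) ≤ (G : ℤ) ^ 10 := by positivity
        linarith
  refine key (G + 1) le_rfl ?_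
  have h1 := abs_le.1 (abs_sum_le_of_below hy.1 hy.2.sum hB A)
  have h2 := abs_le.1 (hB A)
  have h3 : (2 : ℤ) ^ (G + 1) ≤ (4 * (G : ℤ) ^ 3) ^ (G + 1) :=
    pow_le_pow_left₀ (by norm_num) (by linarith) _
  have h4 : (4 * (G : ℤ) ^ 3) ^ (G + 1) ≤
      ((G : ℤ) ^ 3 + 1) * (2 * (G : ℤ) ^ 3 * (4 * (G : ℤ) ^ 3) ^ (G + 1)) := by
    rw [← mul_assoc]
    exact le_mul_of_one_le_left (by positivity) (by nlinarith)
  rw [pow_succ] at h3
  unfold slack
  linarith

end abs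

/-- adjacency matrix of the moves of capacity at least `τ` -/
def centre_adj (cap : Un × Un × List ℤ × ℕ × ℕ → ℤ) (m G : ℕ) (x : List ℤ) (τ : ℤ) :
    List (List Bool) :=
  (List.range m).map fun u => (List.range m).map fun v =>
    decide (u = v ∨ τ ≤ cap (⟨m⟩, ⟨G⟩, x, v, u))

/-- the clamped move -/
def centre_mv (m G : ℕ) (x d : List ℤ) (s : ℤ) : List ℤ :=
  (List.range m).map fun i => max (-2 ^ G) (min (2 ^ G) (x.getD i 0 + s * d.getD i 0))

/-- one scale -/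
def centre_one (cap : Un × Un × List ℤ × ℕ × ℕ → ℤ) (dir : List ℕ × List (List Bool) → List ℤ)
    (G : ℕ) (pl : List ℕ) (x : List ℤ) (i : ℕ) : List ℤ :=
  centre_mv pl.length G x
    (dir (pl, centre_adj cap pl.length G x (2 * (G : ℤ) ^ 3 * (4 * (G : ℤ) ^ 3) ^ (G + 1 - i))))
    ((4 * (G : ℤ) ^ 3) ^ (G + 1 - i))

theorem centre_sz_mv (m G : ℕ) (x d : List ℤ) (s : ℤ) :
    sz (centre_mv m G x d s) ≤ m * (4 * (G + 1) + 5 + 1) + 1 := by
  have h := sz_list_le (l := centre_mv m G x d s) (B := 4 * (G + 1) + 5) fun a ha => by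
    obtain ⟨i, -, rfl⟩ := List.mem_map.1 ha
    refine sz_int_le_of_lt ?_
    have h1 : (0 : ℤ) < 2 ^ G := by positivity
    have h2 : ((2 ^ (G + 1) : ℕ) : ℤ) = 2 * 2 ^ G := by
      push_cast
      ring
    omega
  simpa [centre_mv] using h

theorem centre_adj_opt {C : Type} [Enc C] {cap : Orc → C → Un × Un × List ℤ × ℕ × ℕ → ℤ}
    (hc : OPT fun O (p : C × Un × Un × List ℤ × ℕ × ℕ) => cap O p.1 p.2) {m G : C → Un}
    {x : C → List ℤ} {τ : C → ℤ} (hm : PT m) (hG : PT G) (hx : PT x) (hτ : PT τ) :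
    OPT fun O c => centre_adj (cap O c) (m c).n (G c).n (x c) (τ c) := by
  have h1 : OPT fun O (c : (C × ℕ) × ℕ) => cap O c.1.1 (m c.1.1, G c.1.1, x c.1.1, c.2, c.1.2) :=
    OPT.call hc (e := fun c : (C × ℕ) × ℕ => c.1.1)
      (q := fun c => (m c.1.1, G c.1.1, x c.1.1, c.2, c.1.2)) (by fun_prop) (by fun_prop)
  have h2 : OPT fun O (c : (C × ℕ) × ℕ) =>
      decide (c.1.2 = c.2 ∨ τ c.1.1 ≤ cap O c.1.1 (m c.1.1, G c.1.1, x c.1.1, c.2, c.1.2)) :=
    h1.cont (g := fun c z => decide (c.1.2 = c.2 ∨ τ c.1.1 ≤ z)) (by fun_prop)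
  exact OPT.map (l := fun _ c => List.range (m c).n) (OPT.pure (by fun_prop))
    (OPT.map (l := fun _ (c : C × ℕ) => List.range (m c.1).n) (OPT.pure (by fun_prop)) h2)

theorem centre_mv_pt {C : Type} [Enc C] {m G : C → Un} {x d : C → List ℤ} {s : C → ℤ} (hm : PT m)
    (hG : PT G) (hx : PT x) (hd : PT d) (hs : PT s) :
    PT fun c => centre_mv (m c).n (G c).n (x c) (d c) (s c) := by
  unfold centre_mv
  fun_prop

theorem centre_one_opt {C : Type} [Enc C] {cap : Orc → C → Un × Un × List ℤ × ℕ × ℕ → ℤ}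
    (hc : OPT fun O (p : C × Un × Un × List ℤ × ℕ × ℕ) => cap O p.1 p.2)
    {dir : List ℕ × List (List Bool) → List ℤ} (Hd : PT dir) {G : C → Un} {pl : C → List ℕ}
    {x : C → List ℤ} {i : C → ℕ} (hG : PT G) (hp : PT pl) (hx : PT x) (hi : PT i) :
    OPT fun O c => centre_one (cap O c) dir (G c).n (pl c) (x c) (i c) := by
  have hs : PT fun c => (4 * ((G c).n : ℤ) ^ 3) ^ ((G c).n + 1 - i c) :=
    PT.int_pow (by fun_prop) (by fun_prop) (by fun_prop)
  have hτ : PT fun c => 2 * ((G c).n : ℤ) ^ 3 * (4 * ((G c).n : ℤ) ^ 3) ^ ((G c).n + 1 - i c) :=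
    PT.int_mul (by fun_prop) hs
  have hm : PT fun c => (⟨(pl c).length⟩ : Un) := hp.un_length
  exact (centre_adj_opt hc hm hG hx hτ).cont
    (g := fun c adj => centre_mv (pl c).length (G c).n (x c) (dir (pl c, adj))
      ((4 * ((G c).n : ℤ) ^ 3) ^ ((G c).n + 1 - i c)))
    (centre_mv_pt (hm.comp PT.id.fst) (hG.comp PT.id.fst) (hx.comp PT.id.fst)
      (Hd.comp ((hp.comp PT.id.fst).pair PT.id.snd)) (hs.comp PT.id.fst))

theorem centre_fold_opt {C : Type} [Enc C] {cap : Orc → C → Un × Un × List ℤ × ℕ × ℕ → ℤ}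
    (hc : OPT fun O (p : C × Un × Un × List ℤ × ℕ × ℕ) => cap O p.1 p.2)
    {dir : List ℕ × List (List Bool) → List ℤ} (Hd : PT dir) {G : C → Un} {pl : C → List ℕ}
    {x : C → List ℤ} (hG : PT G) (hp : PT pl) (hx : PT x) :
    OPT fun O c => (List.range ((G c).n + 2)).foldl (centre_one (cap O c) dir (G c).n (pl c))
      (x c) := by
  have h1 : PT fun c => List.range ((G c).n + 2) := by fun_prop
  have h2 : OPT fun O (p : (C × List ℤ × ℕ) × Un × Un × List ℤ × ℕ × ℕ) => cap O p.1.1 p.2 :=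
    hc.pre (f := fun p : (C × List ℤ × ℕ) × Un × Un × List ℤ × ℕ × ℕ => (p.1.1, p.2))
      (by fun_prop)
  have h3 : OPT fun O (p : C × List ℤ × ℕ) =>
      centre_one (cap O p.1) dir (G p.1).n (pl p.1) p.2.1 p.2.2 :=
    centre_one_opt (C := C × List ℤ × ℕ) (cap := fun O c => cap O c.1) h2 Hd
      (G := fun c => G c.1) (pl := fun c => pl c.1) (x := fun c => c.2.1) (i := fun c => c.2.2)
      (by fun_prop) (by fun_prop) (by fun_prop) (by fun_prop)
  have h4 : PB fun c => sz (x c) + ((pl c).length * (4 * ((G c).n + 1) + 5 + 1) + 1) := by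
    fun_prop
  refine OPT.foldl (l := fun _ c => List.range ((G c).n + 2)) (s := fun _ c => x c)
    (f := fun O c => centre_one (cap O c) dir (G c).n (pl c)) (OPT.pure h1) (OPT.pure hx) h3 h4
    fun O p pre _ => ?_
  induction pre using List.reverseRecOn with
  | nil => simp
  | append_singleton l b _ =>
    rw [List.foldl_append, List.foldl_cons, List.foldl_nil]
    exact (centre_sz_mv _ _ _ _ _).trans (Nat.le_add_left _ _)

theorem centre_hopt {cap : (List Bool → ℤ) → Un × Un × List ℤ × ℕ × ℕ → ℤ} (Hc : HOPT cap)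
    {dir : List ℕ × List (List Bool) → List ℤ} (Hd : PT dir) :
    HOPT fun (h : List Bool → ℤ) (p : Un × List ℕ × List ℤ) =>
      (List.range (p.1.n + 2)).foldl (centre_one (cap h) dir p.1.n p.2.1) p.2.2 := by
  intro α _ h hh
  have h2 : OPT fun O (p : (α × Un × List ℕ × List ℤ) × Un × Un × List ℤ × ℕ × ℕ) =>
      cap (h O p.1.1) p.2 :=
    (Hc α h hh).pre (f := fun p : (α × Un × List ℕ × List ℤ) × Un × Un × List ℤ × ℕ × ℕ =>
      (p.1.1, p.2)) (by fun_prop)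
  exact centre_fold_opt (C := α × Un × List ℕ × List ℤ) (cap := fun O c => cap (h O c.1)) h2 Hd
    (G := fun c => c.2.1) (pl := fun c => c.2.2.1) (x := fun c => c.2.2.2)
    (by fun_prop) (by fun_prop) (by fun_prop)

theorem exists_centre : ∃ alg : (List Bool → ℤ) → Un × List ℕ × List ℤ → List ℤ, HOPT alg ∧
    ∀ (m G : ℕ) (f : Finset (Fin m) → ℤ) (pr : Fin m → Fin m) (h : List Bool → ℤ) (pl : List ℕ)
      (x1 : List ℤ), Calls h f → IsPr pl pr → Nice f → (∀ A, |f A| ≤ 2 ^ G) → m ≤ G → 32 ≤ G →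
      InK f pr (vec m x1) →
      InK f pr (vec m (alg h (⟨G⟩, pl, x1))) ∧ ∀ y, InK f pr y → ∀ A,
        slack f y A ≤ (G : ℤ) ^ 10 * (slack f (vec m (alg h (⟨G⟩, pl, x1))) A + 1) := by
  obtain ⟨cap, Hc, hc⟩ := exists_cap
  obtain ⟨dir, Hd, hd⟩ := exists_dir
  refine ⟨_, centre_hopt Hc Hd, fun m G f pr h pl x1 hh hp hf hB hm h32 hx => ?_⟩
  have hbd : ∀ x : Fin m → ℤ, InK f pr x → ∀ u, |x u| ≤ 2 ^ G := fun x hx u => by
    simpa using abs_sum_le_of_below hx.1 hx.2.sum hB {u}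
  have key : ∀ i, i ≤ G + 2 → centre_Inv f pr G (G + 2 - i)
      (vec m ((List.range i).foldl (centre_one (cap h) dir G pl) x1)) := by
    intro i
    induction i with
    | zero => exact fun _ => ⟨hx, fun A j h1 h2 => by omega⟩
    | succ i ih =>
      intro hi
      have h1 := ih (by omega)
      rw [List.range_succ, List.foldl_append, List.foldl_cons, List.foldl_nil]
      generalize (List.range i).foldl (centre_one (cap h) dir G pl) x1 = x at h1
      have e1 : G + 2 - i = G + 1 - i + 1 := by omega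
      have e2 : G + 2 - (i + 1) = G + 1 - i := by omega
      rw [e1] at h1
      rw [e2, centre_one, hp.1]
      generalize G + 1 - i = k at h1
      have h2 := hd m G pr pl
        (centre_adj (cap h) m G x (2 * (G : ℤ) ^ 3 * (4 * (G : ℤ) ^ 3) ^ k)) hp hm
      have e3 : (fun u v : Fin m => ((centre_adj (cap h) m G x
          (2 * (G : ℤ) ^ 3 * (4 * (G : ℤ) ^ 3) ^ k)).getD u.val []).getD v.val false = true) =
          Mv f (vec m x) (2 * (G : ℤ) ^ 3 * (4 * (G : ℤ) ^ 3) ^ k) := by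
        funext u v
        rw [centre_adj, getD_map_range _ _ u.2, getD_map_range _ _ v.2, decide_eq_true_eq]
        refine propext ?_
        by_cases huv : v = u
        · subst huv
          exact ⟨fun _ A h1 h2 => absurd h1 h2, fun _ => Or.inl rfl⟩
        · rw [hc m G f h x v u hh hf.sub hB (hbd _ h1.1) huv]
          exact ⟨fun h => h.resolve_left fun h' => huv (Fin.ext h'.symm), Or.inr⟩
      rw [e3] at h2
      have h3 := centre_inv_step hf (by simpa using hm) (by omega) h1 h2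
      convert h3 using 1
      funext u
      have h4 := abs_le.1 (hbd _ h3.1 u)
      rw [centre_mv, vec_map_range]
      simp only [Pi.add_apply, Pi.smul_apply, smul_eq_mul, vec] at h4 ⊢
      rw [min_eq_right h4.2, max_eq_right h4.1]
  have h1 := key (G + 2) le_rfl
  rw [Nat.sub_self] at h1
  exact ⟨h1.1, fun y hy A => centre_inv_final h32 hB h1 hy A⟩

end Crest.Agent.R302
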