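import Crest.Agent.R302.Fst
import Crest.Agent.R309.Prim

/-!
# R302/FTree: maximum spanning forests (TASK, short: a wrapper of `R309.exists_tree`)

Apply `exists_tree` to the instance `(arcs, List.replicate m 0)` (the third component of an arc is ignored there) with the weights `arcs.map (·.2.2)`.
The parent of `v` is the other end of the cell `pc v` (it differs from `v` since `v ∉ an o` but `o ∈ an o`); define `Forest.A v r = decide (r.val ∈ an.getD v [])`.
-/

set_option autoImplicit false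

namespace Crest.Agent.R302

open Finset Crest.Agent.Lib.PT Crest.Agent.R309

/-- the other end of the cell `e` -/
def ftOth (arcs : List (ℕ × ℕ × ℕ)) (v e : ℕ) : ℕ :=
  if (arcs.getD e (0, 0, 0)).1 = v then (arcs.getD e (0, 0, 0)).2.1 else (arcs.getD e (0, 0, 0)).1

private theorem ft_w (arcs : List (ℕ × ℕ × ℕ)) (e : ℕ) :
    (arcs.map fun a => a.2.2).getD e 0 = (arcs.getD e (0, 0, 0)).2.2 := by
  simp only [List.getD_eq_getElem?_getD, List.getElem?_map]
  cases arcs[e]? <;> rfl

private theorem ft_pc (pc : List (Option ℕ)) (v : ℕ) :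
    (pc.map fun o => o.getD 0).getD v 0 = (pc.getD v none).getD 0 := by
  simp only [List.getD_eq_getElem?_getD, List.getElem?_map]
  cases pc[v]? <;> rfl

theorem exists_forest :
    ∃ alg : Un × List (ℕ × ℕ × ℕ) × ℕ → List (Option ℕ) × List (List ℕ) × List ℕ, PT alg ∧
    ∀ (m : ℕ) (arcs : List (ℕ × ℕ × ℕ)) (L : ℕ), (∀ e ∈ arcs, e.1 < m ∧ e.2.1 < m) →
      ∃ F : Forest (Fin m), FRep F (alg (⟨m⟩, arcs, L)).1 (alg (⟨m⟩, arcs, L)).2.1 ∧
        (∀ v p, F.par v = some p → (alg (⟨m⟩, arcs, L)).2.2.getD v.val 0 < arcs.length ∧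
          ∀ e, e = arcs.getD ((alg (⟨m⟩, arcs, L)).2.2.getD v.val 0) (0, 0, 0) → L ≤ e.2.2 ∧
            ((e.1 = v.val ∧ e.2.1 = p.val) ∨ (e.1 = p.val ∧ e.2.1 = v.val))) ∧
        ∀ (a b : Fin m) (w : ℕ), (a.val, b.val, w) ∈ arcs → L ≤ w → ∀ r,
          ¬ (F.A a r = true ↔ F.A b r = true) → F.par r ≠ none ∧
            w ≤ (arcs.getD ((alg (⟨m⟩, arcs, L)).2.2.getD r.val 0) (0, 0, 0)).2.2 := by
  obtain ⟨tr, hpt, hsp⟩ := exists_tree
  let T : Un × List (ℕ × ℕ × ℕ) × ℕ → List (Option ℕ) × List (List ℕ) := fun a =>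
    tr ((a.2.1, List.replicate a.1.n 0), a.2.1.map (fun e => e.2.2), a.2.2)
  have hT : PT T := hpt.comp (by fun_prop)
  refine ⟨fun a => ((List.range a.1.n).map fun v => ((T a).1.getD v none).map (ftOth a.2.1 v),
    (T a).2, (T a).1.map fun o => o.getD 0), ?_, fun m arcs L harcs => ?_⟩
  · unfold ftOth
    fun_prop
  have hnv : Inst.nv (arcs, List.replicate m 0) = m := by simp [Inst.nv]
  have hWF : Inst.WF (arcs, List.replicate m 0) := by
    intro u hu
    rw [hnv]
    refine harcs _ ?_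
    have hu' : u < arcs.length := hu
    simp [List.getD_eq_getElem?_getD, hu']
  have S : TreeSpec (arcs, List.replicate m 0) (arcs.map fun e => e.2.2) L
      (T (⟨m⟩, arcs, L)).1 (T (⟨m⟩, arcs, L)).2 := hsp _ _ _ hWF
  simp only []
  generalize (T (⟨m⟩, arcs, L)).1 = pc at S ⊢
  generalize (T (⟨m⟩, arcs, L)).2 = an at S ⊢
  have hpar : ∀ v : Fin m, ∀ e, pc.getD v.val none = some e → e < arcs.length ∧
      L ≤ (arcs.getD e (0, 0, 0)).2.2 ∧ ftOth arcs v e < m ∧
      (((arcs.getD e (0, 0, 0)).1 = v ∧ (arcs.getD e (0, 0, 0)).2.1 = ftOth arcs v e) ∨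
        ((arcs.getD e (0, 0, 0)).1 = ftOth arcs v e ∧ (arcs.getD e (0, 0, 0)).2.1 = v)) ∧
      v.val ∉ an.getD (ftOth arcs v e) [] ∧
      ∀ r, r ∈ an.getD v [] ↔ r = v ∨ r ∈ an.getD (ftOth arcs v e) [] := by
    intro v e he
    obtain ⟨h1, h2, o, h3, h4, h5⟩ := S.par v (hnv.symm ▸ v.2) e he
    rw [ft_w] at h2
    obtain ⟨w1, w2⟩ := hWF e h1
    have ho : o < Inst.nv (arcs, List.replicate m 0) := by
      rcases h3 with ⟨-, h3⟩ | ⟨-, h3⟩
      · exact h3 ▸ w2
      · exact h3 ▸ w1
    have hov : o ≠ v := by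
      rintro rfl
      exact h4 (S.refl _ ho)
    have h3' : ((arcs.getD e (0, 0, 0)).1 = v ∧ (arcs.getD e (0, 0, 0)).2.1 = o) ∨
        ((arcs.getD e (0, 0, 0)).2.1 = v ∧ (arcs.getD e (0, 0, 0)).1 = o) := h3
    have e1 : ftOth arcs v e = o := by
      unfold ftOth
      rcases h3' with ⟨a1, a2⟩ | ⟨a1, a2⟩
      · rw [if_pos a1, a2]
      · rw [if_neg (a2 ▸ hov), a2]
    rw [e1]
    exact ⟨h1, h2, hnv ▸ ho, h3'.imp id And.symm, h4, h5⟩
  let par : Fin m → Option (Fin m) := fun v => (pc.getD v.val none).map fun e =>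
    if h : ftOth arcs v e < m then ⟨_, h⟩ else v
  have hpar' : ∀ v p : Fin m, par v = some p ↔
      ∃ e, pc.getD v.val none = some e ∧ ftOth arcs v e = p.val := by
    intro v p
    simp only [par, Option.map_eq_some_iff]
    refine exists_congr fun e => and_congr_right fun he => ?_
    rw [dif_pos (hpar v e he).2.2.1, Fin.ext_iff]
  let F : Forest (Fin m) :=
    { par := par
      A := fun v r => decide (r.val ∈ an.getD v.val [])
      step := by
        intro v r
        simp only [decide_eq_true_eq, hpar']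
        cases he : pc.getD v.val none with
        | none =>
          constructor
          · exact fun h => Or.inl (Fin.ext (S.root v (hnv.symm ▸ v.2) he r h))
          · rintro (rfl | ⟨p, ⟨e, h, -⟩, -⟩)
            · exact S.refl _ (hnv.symm ▸ r.2)
            · exact absurd h (by simp)
        | some e =>
          obtain ⟨-, -, h3, -, -, h6⟩ := hpar v e he
          rw [h6, Fin.ext_iff]
          refine or_congr_right ⟨fun h => ⟨⟨_, h3⟩, ⟨e, rfl, rfl⟩, h⟩, ?_⟩
          rintro ⟨p, ⟨e', h, h'⟩, h''⟩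
          obtain rfl := Option.some.inj h
          exact h' ▸ h''
      acyc := by
        intro v p hp
        obtain ⟨e, he, h'⟩ := (hpar' v p).1 hp
        have := (hpar v e he).2.2.2.2.1
        rw [h'] at this
        simpa using this }
  refine ⟨F, ⟨fun v => ?_, fun v r => by simp [F]⟩, fun v p hp => ?_,
    fun a b w hab hL r hr => ?_⟩
  · rw [getD_map_range _ _ v.2]
    show _ = (par v).map Fin.val
    simp only [par]
    cases he : pc.getD v.val none with
    | none => rfl
    | some e => simp only [Option.map_some, dif_pos (hpar v e he).2.2.1]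
  · obtain ⟨e, he, h'⟩ := (hpar' v p).1 hp
    obtain ⟨h1, h2, -, h4, -, -⟩ := hpar v e he
    rw [ft_pc, he, Option.getD_some]
    refine ⟨h1, ?_⟩
    rintro _ rfl
    rw [h'] at h4
    exact ⟨h2, h4⟩
  · obtain ⟨u, hu, hu'⟩ := List.getElem_of_mem hab
    have hg : arcs.getD u (0, 0, 0) = (a.val, b.val, w) := by
      simp [List.getD_eq_getElem?_getD, hu, hu']
    have hp : Inst.p (arcs, List.replicate m 0) u = a.val := congrArg (fun x => x.1) hg
    have hq : Inst.q (arcs, List.replicate m 0) u = b.val := congrArg (fun x => x.2.1) hg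
    obtain ⟨e, he, hw⟩ := S.cut u hu (by rw [ft_w, hg]; exact hL) r.val
      (by rw [hp, hq]; simpa [F] using hr)
    rw [ft_w, ft_w, hg] at hw
    rw [ft_pc, he, Option.getD_some]
    refine ⟨?_, hw⟩
    show par r ≠ none
    simp only [par, he, Option.map_some]
    exact Option.some_ne_none _

end Crest.Agent.R302
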