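import Crest.Agent.R302.Dat
import Crest.Agent.R302.Centre
import Crest.Agent.R302.FTree

/-!
# R302/Build: preprocessing (TASK)

`m = pl.length`.  `x0` from `exists_centre`.  For `a ≠ b` let `w a b = min (cap a b) (cap b a) ≥ 0` (`exists_cap`, `K = G`) and `pw w = if w = 0 then 0 else 2 ^ log 2 w`, so `pw w ≤ w`, `w < 2 pw w` for `w > 0`, and `2 ^ j ≤ w → 2 ^ j ≤ pw w`.
`F` from `exists_forest` for the arcs `(a, b, pw (w a b))`, `a ≠ b`, and `L = T = G ^ 72` (a power of two, `≤ 2 ^ G`); `wd v = T` at roots, else the weight of the arc `pc v`.  `w a b ≤ slack {a} ≤ 2 ^ (G + 1)`.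
`sep`: a set separating `u` from its parent has slack `≥ w ≥ wd u`.  `range`: for `a ∈ D r`, `b ∉ D r` we have `w a b < 2 wd r` (if `w ≥ T` use the cut property, else `w < T ≤ wd r`), so some set separating `a, b` has slack `< 2 wd r` at `x0`
and `≤ 2 G ^ 10 wd r` at any `x ∈ K`; apply `range_le`.
`F'` from `exists_forest` for the arcs with index `u < m`: `(pr u, pr (par u), wd u)` if `u` is not a root, else `(pr u, pr u, 0)`, and `L = 1`; the index of the arc is the witness `pc e` (put `S.pc e = e` at roots of `F'`).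
-/

set_option autoImplicit false

namespace Crest.Agent.R302

open Finset Crest.Agent.Lib.PT Crest.Agent.R309

/-- rounding down to a power of two -/
def bdPw (z : ℤ) : ℕ := if z.toNat = 0 then 0 else 2 ^ Nat.log 2 z.toNat

theorem bdPw_pow (z : ℤ) : bdPw z = 0 ∨ ∃ j, bdPw z = 2 ^ j := by
  unfold bdPw
  split_ifs
  · exact Or.inl rfl
  · exact Or.inr ⟨_, rfl⟩

theorem bdPw_le {z : ℤ} (hz : 0 ≤ z) : (bdPw z : ℤ) ≤ z := by
  unfold bdPw
  split_ifs with h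
  · simpa using hz
  · have := Nat.pow_log_le_self 2 h
    omega

theorem bdPw_lt (z : ℤ) {w : ℕ} (hw : 1 ≤ w) (h : bdPw z ≤ w) : z + 1 ≤ 2 * w := by
  unfold bdPw at h
  split_ifs at h with h0
  · omega
  · have := Nat.lt_pow_succ_log_self (b := 2) (by norm_num) z.toNat
    rw [pow_succ] at this
    omega

@[fun_prop] theorem bdPw_pt {α : Type} [Enc α] {z : α → ℤ} (hz : PT z) : PT fun a => bdPw (z a) := by
  unfold bdPw
  fun_prop

/-- the weight of a pair -/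
def bdW (cap : Un × Un × List ℤ × ℕ × ℕ → ℤ) (m G : ℕ) (x : List ℤ) (a b : ℕ) : ℕ :=
  if a = b then 0 else bdPw (min (cap (⟨m⟩, ⟨G⟩, x, a, b)) (cap (⟨m⟩, ⟨G⟩, x, b, a)))

/-- the arcs of the first forest -/
def bdArcs (cap : Un × Un × List ℤ × ℕ × ℕ → ℤ) (m G : ℕ) (x : List ℤ) : List (ℕ × ℕ × ℕ) :=
  ((List.range m).map fun a => (List.range m).map fun b => (a, b, bdW cap m G x a b)).flatten

theorem mem_bdArcs {cap : Un × Un × List ℤ × ℕ × ℕ → ℤ} {m G : ℕ} {x : List ℤ} {e : ℕ × ℕ × ℕ} :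
    e ∈ bdArcs cap m G x ↔ ∃ a < m, ∃ b < m, e = (a, b, bdW cap m G x a b) := by
  simp only [bdArcs, List.mem_flatten, List.mem_map, List.mem_range]
  constructor
  · rintro ⟨_, ⟨a, ha, rfl⟩, h⟩
    obtain ⟨b, hb, rfl⟩ := List.mem_map.1 h
    exact ⟨a, ha, b, List.mem_range.1 hb, rfl⟩
  · rintro ⟨a, ha, b, hb, rfl⟩
    exact ⟨_, ⟨a, ha, rfl⟩, List.mem_map.2 ⟨b, List.mem_range.2 hb, rfl⟩⟩

theorem bdArcs_opt {C : Type} [Enc C] {cap : Orc → C → Un × Un × List ℤ × ℕ × ℕ → ℤ}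
    (hc : OPT fun O (p : C × Un × Un × List ℤ × ℕ × ℕ) => cap O p.1 p.2) {m G : C → Un}
    {x : C → List ℤ} (hm : PT m) (hG : PT G) (hx : PT x) :
    OPT fun O c => bdArcs (cap O c) (m c).n (G c).n (x c) := by
  have h1 : OPT fun O (c : (C × ℕ) × ℕ) => cap O c.1.1 (m c.1.1, G c.1.1, x c.1.1, c.1.2, c.2) :=
    OPT.call hc (e := fun c : (C × ℕ) × ℕ => c.1.1)
      (q := fun c => (m c.1.1, G c.1.1, x c.1.1, c.1.2, c.2)) (by fun_prop) (by fun_prop)
  have h2 : OPT fun O (c : (C × ℕ) × ℕ) => cap O c.1.1 (m c.1.1, G c.1.1, x c.1.1, c.2, c.1.2) :=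
    OPT.call hc (e := fun c : (C × ℕ) × ℕ => c.1.1)
      (q := fun c => (m c.1.1, G c.1.1, x c.1.1, c.2, c.1.2)) (by fun_prop) (by fun_prop)
  have h3 : OPT fun O (c : (C × ℕ) × ℕ) =>
      (c.1.2, c.2, bdW (cap O c.1.1) (m c.1.1).n (G c.1.1).n (x c.1.1) c.1.2 c.2) :=
    h1.cont₂ h2 (g := fun c y z => (c.1.2, c.2, if c.1.2 = c.2 then 0 else bdPw (min y z)))
      (by fun_prop)
  exact OPT.post (g := fun l : List (List (ℕ × ℕ × ℕ)) => l.flatten) (by fun_prop)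
    (OPT.map (l := fun _ c => List.range (m c).n) (OPT.pure (by fun_prop))
      (OPT.map (l := fun _ (c : C × ℕ) => List.range (m c.1).n) (OPT.pure (by fun_prop)) h3))

/-- the widths -/
def bdWd (m T : ℕ) (arcs : List (ℕ × ℕ × ℕ)) (par : List (Option ℕ)) (pc : List ℕ) : List ℕ :=
  (List.range m).map fun v =>
    if par.getD v none = none then T else (arcs.getD (pc.getD v 0) (0, 0, 0)).2.2

/-- the arcs of the second forest -/
def bdArcs' (pl : List ℕ) (par : List (Option ℕ)) (wd : List ℕ) : List (ℕ × ℕ × ℕ) :=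
  (List.range pl.length).map fun u => (pl.getD u 0, pl.getD ((par.getD u none).getD u) 0,
    if par.getD u none = none then 0 else wd.getD u 0)

/-- the output, given both forests -/
def bdOut (G : Un) (pl : List ℕ) (x0 : List ℤ) (r : List (Option ℕ) × List (List ℕ) × List ℕ)
    (wd : List ℕ) (r' : List (Option ℕ) × List (List ℕ) × List ℕ) : Dat :=
  ⟨G.n, pl, x0, r.1, r.2.1, wd, r'.1, r'.2.1, r'.2.2⟩

/-- the part of the algorithm that does not call the subroutine -/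
def bdFin (fo : Un × List (ℕ × ℕ × ℕ) × ℕ → List (Option ℕ) × List (List ℕ) × List ℕ) (G : Un)
    (pl : List ℕ) (x0 : List ℤ) (arcs : List (ℕ × ℕ × ℕ)) : Dat :=
  let r := fo (⟨pl.length⟩, arcs, G.n ^ 72)
  let wd := bdWd pl.length (G.n ^ 72) arcs r.1 r.2.2
  bdOut G pl x0 r wd (fo (⟨pl.length⟩, bdArcs' pl r.1 wd, 1))

theorem bdFin_pt {α : Type} [Enc α]
    {fo : Un × List (ℕ × ℕ × ℕ) × ℕ → List (Option ℕ) × List (List ℕ) × List ℕ} (hfo : PT fo)
    {G : α → Un} {pl : α → List ℕ} {x0 : α → List ℤ} {arcs : α → List (ℕ × ℕ × ℕ)} (hG : PT G)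
    (hp : PT pl) (hx : PT x0) (ha : PT arcs) : PT fun a => bdFin fo (G a) (pl a) (x0 a) (arcs a) := by
  have hT : PT fun a => (G a).n ^ 72 := by fun_prop
  have hr : PT fun a => fo (⟨(pl a).length⟩, arcs a, (G a).n ^ 72) :=
    hfo.comp (hp.un_length.pair (ha.pair hT))
  unfold bdFin
  simp only []
  generalize hr' : (fun a => fo (⟨(pl a).length⟩, arcs a, (G a).n ^ 72)) = r at hr
  have e1 : ∀ a, fo (⟨(pl a).length⟩, arcs a, (G a).n ^ 72) = r a := fun a => congrFun hr' a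
  simp only [e1]
  have h1 := hr.fst
  have h2 := hr.snd.snd
  have hw : PT fun a => bdWd (pl a).length ((G a).n ^ 72) (arcs a) (r a).1 (r a).2.2 := by
    unfold bdWd
    fun_prop
  generalize hw' : (fun a => bdWd (pl a).length ((G a).n ^ 72) (arcs a) (r a).1 (r a).2.2) = w at hw
  have e2 : ∀ a, bdWd (pl a).length ((G a).n ^ 72) (arcs a) (r a).1 (r a).2.2 = w a :=
    fun a => congrFun hw' a
  simp only [e2]
  have ha' : PT fun a => bdArcs' (pl a) (r a).1 (w a) := by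
    unfold bdArcs'
    fun_prop
  have hr' : PT fun a => fo (⟨(pl a).length⟩, bdArcs' (pl a) (r a).1 (w a), 1) :=
    hfo.comp (hp.un_length.pair (ha'.pair (PT.const 1)))
  exact Dat.mk_pt hG hp hx h1 hr.snd.fst hw hr'.fst hr'.snd.fst hr'.snd.snd

theorem bd_pow {m G : ℕ} {f : Finset (Fin m) → ℤ} (h : Fits G f) :
    32 ≤ G ∧ G ^ 72 ≤ 2 ^ G ∧ G ^ 72 = 2 ^ (Nat.log 2 G * 72) := by
  have key : ∀ n : ℕ, 72 * (20 + n) ≤ 2 ^ (20 + n) := by
    intro n
    induction n with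
    | zero => norm_num
    | succ n ih => rw [← add_assoc, pow_succ]; omega
  obtain ⟨n, hn⟩ := Nat.exists_eq_add_of_le h.big
  have h1 := key n
  rw [← hn, ← h.pow] at h1
  have h2 : G ^ 72 = 2 ^ (Nat.log 2 G * 72) := by rw [pow_mul, ← h.pow]
  refine ⟨by omega, ?_, h2⟩
  rw [h2]
  exact Nat.pow_le_pow_right (by norm_num) (by omega)

/-- The properties of the first forest. -/
theorem bd_first {m G : ℕ} {f : Finset (Fin m) → ℤ} {pr : Fin m → Fin m} (h : Fits G f)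
    {x0 : Fin m → ℤ} (hx : InK f pr x0)
    (hb : ∀ y, InK f pr y → ∀ A, slack f y A ≤ (G : ℤ) ^ 10 * (slack f x0 A + 1))
    {W : Fin m → Fin m → ℕ} (W1 : ∀ a b, W a b = 0 ∨ ∃ j, W a b = 2 ^ j)
    (W2 : ∀ a b A, ¬ (a ∈ A ↔ b ∈ A) → (W a b : ℤ) ≤ slack f x0 A)
    (W3 : ∀ a b, a ≠ b → ∀ w : ℕ, 1 ≤ w → W a b ≤ w →
      ∃ A, ¬ (a ∈ A ↔ b ∈ A) ∧ slack f x0 A + 1 ≤ 2 * w)
    {F : Forest (Fin m)} {wd : Fin m → ℕ} (F1 : ∀ v, F.par v = none → wd v = G ^ 72)
    (F2 : ∀ v p, F.par v = some p → G ^ 72 ≤ wd v ∧ (wd v = W v p ∨ wd v = W p v))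
    (F3 : ∀ a b, G ^ 72 ≤ W a b → ∀ r, ¬ (F.A a r = true ↔ F.A b r = true) → W a b ≤ wd r) :
    (∀ u, ∃ j, wd u = 2 ^ j) ∧ (∀ u, G ^ 72 ≤ wd u) ∧ (∀ u, wd u ≤ 2 ^ (G + 1)) ∧
    (∀ u p, F.par u = some p → ∀ A, ¬ (u ∈ A ↔ p ∈ A) → (wd u : ℤ) ≤ slack f x0 A) ∧
    ∀ x, InK f pr x → ∀ r, |F.sumD (x - x0) r| ≤ (G : ℤ) ^ 14 * wd r := by
  obtain ⟨h32, hT, hT'⟩ := bd_pow h
  have hT0 : 1 ≤ G ^ 72 := Nat.one_le_pow _ _ (by omega)
  have hge : ∀ u, G ^ 72 ≤ wd u := fun u => by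
    cases hu : F.par u with
    | none => exact (F1 u hu).ge
    | some p => exact (F2 u p hu).1
  have hsep : ∀ u p, F.par u = some p → ∀ A, ¬ (u ∈ A ↔ p ∈ A) → (wd u : ℤ) ≤ slack f x0 A := by
    intro u p hu A hA
    rcases (F2 u p hu).2 with e | e <;> rw [e]
    · exact W2 u p A hA
    · exact W2 p u A fun H => hA H.symm
  refine ⟨fun u => ?_, hge, fun u => ?_, hsep, fun x hx' r => ?_⟩
  · cases hu : F.par u with
    | none => exact ⟨_, (F1 u hu).trans hT'⟩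
    | some p =>
      have h1 := hge u
      rcases (F2 u p hu).2 with e | e <;> rw [e] at h1 ⊢
      · exact (W1 u p).resolve_left (by omega)
      · exact (W1 p u).resolve_left (by omega)
  · cases hu : F.par u with
    | none => rw [F1 u hu, pow_succ 2]; omega
    | some p =>
      have h1 := hsep u p hu {u} (by simpa using F.par_ne hu)
      have h2 := abs_le.1 (abs_sum_le_of_below hx.1 hx.2.sum h.bd {u})
      have h3 := abs_le.1 (h.bd {u})
      have h4 : (wd u : ℤ) ≤ 2 ^ (G + 1) := by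
        unfold slack at h1
        rw [pow_succ]
        linarith [h2.1, h3.2]
      exact_mod_cast h4
  · have hG : (32 : ℤ) ≤ G := by exact_mod_cast h32
    have hw : (1 : ℤ) ≤ wd r := by exact_mod_cast hT0.trans (hge r)
    have h10 : (1 : ℤ) ≤ (G : ℤ) ^ 10 := one_le_pow₀ (by omega)
    have h1 := range_le h.nice hx.1 hx.2.sum hx'.1 hx'.2.sum (F.D r)
      (B := (G : ℤ) ^ 10 * (2 * wd r)) (by positivity) fun a ha b hb' => by
        have ha' : F.A a r = true := (mem_filter.1 ha).2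
        have hb'' : ¬ F.A b r = true := fun H => hb' (mem_filter.2 ⟨mem_univ _, H⟩)
        have h2 : W a b ≤ wd r := by
          rcases le_total (G ^ 72) (W a b) with h3 | h3
          · exact F3 a b h3 r fun H => hb'' (H.1 ha')
          · exact h3.trans (hge r)
        obtain ⟨A, hA, h3⟩ := W3 a b (fun e => hb'' (e ▸ ha')) (wd r) (hT0.trans (hge r)) h2
        refine ⟨A, hA, ?_, (hb x hx' A).trans (mul_le_mul_of_nonneg_left h3 (by positivity))⟩
        nlinarith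
    have h2 : (Fintype.card (Fin m) : ℤ) ≤ G := by
      rw [Fintype.card_fin]
      exact_mod_cast h.card
    have h3 : (Fintype.card (Fin m) : ℤ) ^ 3 ≤ (G : ℤ) ^ 3 :=
      pow_le_pow_left₀ (Int.natCast_nonneg _) h2 3
    refine h1.trans ?_
    have h4 : (0 : ℤ) ≤ (G : ℤ) ^ 10 * wd r := by positivity
    have h5 := mul_le_mul_of_nonneg_right h3 h4
    have h6 := mul_le_mul_of_nonneg_right hG
      (show (0 : ℤ) ≤ (G : ℤ) ^ 3 * ((G : ℤ) ^ 10 * wd r) by positivity)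
    have h7 : (G : ℤ) ^ 14 * wd r = G * ((G : ℤ) ^ 3 * ((G : ℤ) ^ 10 * wd r)) := by ring
    have h8 : (0 : ℤ) ≤ (G : ℤ) ^ 3 * ((G : ℤ) ^ 10 * wd r) := by positivity
    linarith

/-- The properties of the weights. -/
theorem bd_weight {m G : ℕ} {f : Finset (Fin m) → ℤ} {x : List ℤ}
    {cap : Un × Un × List ℤ × ℕ × ℕ → ℤ} (hx : Below f (vec m x))
    (hc : ∀ a b : Fin m, a ≠ b → ∀ t, t ≤ cap (⟨m⟩, ⟨G⟩, x, a.val, b.val) ↔
      CapGe f (vec m x) a b t) :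
    (∀ (a b : Fin m) A, ¬ (a ∈ A ↔ b ∈ A) → (bdW cap m G x a b : ℤ) ≤ slack f (vec m x) A) ∧
    ∀ a b : Fin m, a ≠ b → ∀ w : ℕ, 1 ≤ w → bdW cap m G x a b ≤ w →
      ∃ A, ¬ (a ∈ A ↔ b ∈ A) ∧ slack f (vec m x) A + 1 ≤ 2 * w := by
  have h0 : ∀ a b : Fin m, a ≠ b → 0 ≤ cap (⟨m⟩, ⟨G⟩, x, a.val, b.val) := fun a b hab =>
    (hc a b hab 0).2 fun A _ _ => sub_nonneg.2 (hx A)
  refine ⟨fun a b A hA => ?_, fun a b hab w hw h => ?_⟩
  · have hab : a ≠ b := fun e => hA (e ▸ Iff.rfl)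
    rw [bdW, if_neg (Fin.val_ne_of_ne hab)]
    refine (bdPw_le (le_min (h0 a b hab) (h0 b a hab.symm))).trans ?_
    by_cases ha : a ∈ A
    · exact (hc a b hab _).1 (min_le_left _ _) A ha (by tauto)
    · exact (hc b a hab.symm _).1 (min_le_right _ _) A (by tauto) ha
  · rw [bdW, if_neg (Fin.val_ne_of_ne hab)] at h
    have h1 := bdPw_lt _ hw h
    by_contra hno
    have h2 : ∀ A, ¬ (a ∈ A ↔ b ∈ A) → 2 * (w : ℤ) ≤ slack f (vec m x) A := fun A hA => by
      by_contra h3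
      exact hno ⟨A, hA, by omega⟩
    have h3 := (hc a b hab (2 * w)).2 fun A ha hb => h2 A (by tauto)
    have h4 := (hc b a hab.symm (2 * w)).2 fun A ha hb => h2 A (by tauto)
    omega

theorem bd_getD_mem {β : Type} {l : List β} {i : ℕ} (h : i < l.length) (d : β) : l.getD i d ∈ l := by
  simp [List.getD_eq_getElem?_getD, h]

theorem exists_build : ∃ alg : (List Bool → ℤ) → Un × List ℕ × List ℤ → Dat, HOPT alg ∧
    ∀ (m G : ℕ) (f : Finset (Fin m) → ℤ) (pr : Fin m → Fin m) (h : List Bool → ℤ) (pl : List ℕ)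
      (x1 : List ℤ), Fits G f → Calls h f → IsPr pl pr → InK f pr (vec m x1) →
      ∃ S : Sys (Fin m) (Fin m), S.Good ∧ Rep (alg h (⟨G⟩, pl, x1)) S ∧ S.G = G ∧ S.f = f ∧
        S.pr = pr := by
  obtain ⟨ce, Hce, hce⟩ := exists_centre
  obtain ⟨cap, Hc, hc⟩ := exists_cap
  obtain ⟨fo, Hfo, hfo⟩ := exists_forest
  refine ⟨fun h p => bdFin fo p.1 p.2.1 (ce h p) (bdArcs (cap h) p.2.1.length p.1.n (ce h p)),
    fun α _ h hh => ?_, fun m G f pr h pl x1 hF hh hp hx => ?_⟩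
  · have h2 : OPT fun O (p : ((α × Un × List ℕ × List ℤ) × List ℤ) × Un × Un × List ℤ × ℕ × ℕ) =>
        cap (h O p.1.1.1) p.2 :=
      (Hc α h hh).pre (f := fun p : ((α × Un × List ℕ × List ℤ) × List ℤ) ×
        Un × Un × List ℤ × ℕ × ℕ => (p.1.1.1, p.2)) (by fun_prop)
    have h3 := bdArcs_opt (C := (α × Un × List ℕ × List ℤ) × List ℤ)
      (cap := fun O c => cap (h O c.1.1)) h2 (m := fun c => ⟨c.1.2.2.1.length⟩)
      (G := fun c => c.1.2.1) (x := fun c => c.2) (by fun_prop) (by fun_prop) (by fun_prop)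
    exact OPT.bind (g := fun O (c : α × Un × List ℕ × List ℤ) x0 =>
        bdFin fo c.2.1 c.2.2.1 x0 (bdArcs (cap (h O c.1)) c.2.2.1.length c.2.1.n x0)) (Hce α h hh)
      (h3.cont (g := fun c arcs => bdFin fo c.1.2.1 c.1.2.2.1 c.2 arcs)
        (bdFin_pt Hfo (by fun_prop) (by fun_prop) (by fun_prop) (by fun_prop)))
  obtain ⟨h32, -, -⟩ := bd_pow hF
  obtain ⟨hx0, hbal⟩ := hce m G f pr h pl x1 hh hp hF.nice hF.bd hF.card h32 hx
  have hm := hp.1
  simp only [bdFin, bdOut, hm]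
  generalize ce h (⟨G⟩, pl, x1) = x0 at hx0 hbal ⊢
  obtain ⟨W2, W3⟩ := bd_weight (G := G) (cap := cap h) hx0.1 fun a b hab =>
    hc m G f h x0 a b hh hF.nice.sub hF.bd
      (fun u => by simpa using abs_sum_le_of_below hx0.1 hx0.2.sum hF.bd {u}) hab
  obtain ⟨F, hR, hF2, hF3⟩ := hfo m (bdArcs (cap h) m G x0) (G ^ 72) fun e he => by
    obtain ⟨a, ha, b, hb, rfl⟩ := mem_bdArcs.1 he
    exact ⟨ha, hb⟩
  generalize fo (⟨m⟩, bdArcs (cap h) m G x0, G ^ 72) = r at hR hF2 hF3 ⊢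
  have hwd : ∀ v : Fin m, (bdWd m (G ^ 72) (bdArcs (cap h) m G x0) r.1 r.2.2).getD v.val 0 =
      if F.par v = none then G ^ 72
      else ((bdArcs (cap h) m G x0).getD (r.2.2.getD v.val 0) (0, 0, 0)).2.2 := fun v => by
    rw [bdWd, getD_map_range _ _ v.2, hR.par v]
    simp
  generalize bdWd m (G ^ 72) (bdArcs (cap h) m G x0) r.1 r.2.2 = wl at hwd ⊢
  obtain ⟨g1, g2, g3, g4, g5⟩ := bd_first hF hx0 hbal
    (W := fun a b => bdW (cap h) m G x0 a b)
    (fun a b => by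
      unfold bdW
      split_ifs
      · exact Or.inl rfl
      · exact bdPw_pow _) W2 W3 (F := F) (wd := fun v => wl.getD v.val 0)
    (fun v hv => by rw [hwd, if_pos hv])
    (fun v p hv => by
      obtain ⟨h1, h2⟩ := hF2 v p hv
      obtain ⟨h3, h4⟩ := h2 _ rfl
      rw [hwd, if_neg (by simp [hv])]
      refine ⟨h3, ?_⟩
      obtain ⟨a, -, b, -, e⟩ := mem_bdArcs.1 (bd_getD_mem h1 (0, 0, 0))
      rw [e] at h4 ⊢
      rcases h4 with ⟨rfl, rfl⟩ | ⟨rfl, rfl⟩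
      · exact Or.inl rfl
      · exact Or.inr rfl)
    (fun a b hab s hs => by
      obtain ⟨h1, h2⟩ := hF3 a b _ (mem_bdArcs.2 ⟨a, a.2, b, b.2, rfl⟩) hab s hs
      rw [hwd, if_neg h1]
      exact h2)
  have hlen : (bdArcs' pl r.1 wl).length = m := by simp [bdArcs', hm]
  have harc : ∀ u : Fin m, (bdArcs' pl r.1 wl).getD u.val (0, 0, 0) =
      ((pr u).val, (pr ((F.par u).getD u)).val, if F.par u = none then 0 else wl.getD u.val 0) :=
    fun u => by
      rw [bdArcs', hm, getD_map_range _ _ u.2, hR.par u, hp.2 u, ← hp.2 ((F.par u).getD u)]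
      cases F.par u <;> simp
  obtain ⟨F', hR', hF2', hF3'⟩ := hfo m (bdArcs' pl r.1 wl) 1 fun e he => by
    obtain ⟨i, hi, rfl⟩ := List.getElem_of_mem he
    have h1 := harc ⟨i, hlen ▸ hi⟩
    rw [List.getD_eq_getElem _ _ hi] at h1
    rw [h1]
    exact ⟨Fin.is_lt _, Fin.is_lt _⟩
  generalize fo (⟨m⟩, bdArcs' pl r.1 wl, 1) = r' at hR' hF2' hF3' ⊢
  let pc : Fin m → Fin m := fun e => if H : r'.2.2.getD e.val 0 < m then ⟨_, H⟩ else e
  have hpc : ∀ e : Fin m, F'.par e ≠ none → r'.2.2.getD e.val 0 = (pc e).val := fun e he => by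
    obtain ⟨e', he'⟩ := Option.ne_none_iff_exists'.1 he
    have h1 := (hF2' e e' he').1
    rw [hlen] at h1
    simp only [pc, dif_pos h1]
  have hT0 : 1 ≤ G ^ 72 := Nat.one_le_pow _ _ (by omega)
  refine ⟨⟨G, f, pr, vec m x0, F, fun v => wl.getD v.val 0, F', pc⟩,
    ⟨hF.pow, hF.big, by simpa using hF.card, by simpa using hF.card, hF.nice, hF.bd, hx0, g1, g2, g3,
      fun v hv => by simp only [hwd, if_pos hv], g4, g5, fun e e' he => ?_, fun u p hu e he => ?_⟩,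
    ⟨rfl, hp, rfl, hR, fun _ => rfl, hR', hpc⟩, rfl, rfl, rfl⟩
  · dsimp only at he ⊢
    obtain ⟨h1, h2⟩ := (hF2' e e' he).2 _ rfl
    rw [hpc e (by simp [he]), harc] at h1 h2
    cases hu : F.par (pc e) with
    | none => simp [hu] at h1
    | some p =>
      refine ⟨p, rfl, ?_⟩
      simpa only [hu, Option.getD_some, Fin.val_inj] using h2
  · dsimp only at hu he ⊢
    have h1 := harc u
    rw [hu, Option.getD_some, if_neg (by simp)] at h1
    obtain ⟨h2, h3⟩ := hF3' (pr u) (pr p) (wl.getD u.val 0)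
      (h1 ▸ bd_getD_mem (hlen.symm ▸ u.2) _) (hT0.trans (g2 u)) e he
    refine ⟨h2, h3.trans ?_⟩
    rw [hpc e h2, harc]
    dsimp only
    split_ifs
    · exact Nat.zero_le _
    · exact le_rfl

end Crest.Agent.R302
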