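import Crest.Agent.R302.Ene

/-!
# R302/Desc: one step of the descent (TASK, short; compare `R309/Desc.lean`)
-/

set_option autoImplicit false
set_option linter.unusedSectionVars false

namespace Crest.Agent.R302

open Finset Crest.Agent.R309

namespace Sys

variable {U E : Type} [Fintype U] [DecidableEq U] [Fintype E] [DecidableEq E] {S : Sys U E}
  {φ : E → ℤ}

private theorem desc_En (S : Sys U E) (φ : E → ℤ) {e : E} (he : S.F'.par e = none) (ε : ℤ)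
    (σ : U → ℤ) : S.En (Function.update φ e (φ e + ε)) σ = S.En φ σ + ε * S.z σ e := by
  have h1 : ∀ e' ∈ S.F'.roots, Function.update φ e (φ e + ε) e' * S.z σ e' =
      φ e' * S.z σ e' + if e' = e then ε * S.z σ e else 0 := by
    intro e' _
    by_cases h : e' = e
    · subst h
      simp [add_mul]
    · simp [h]
  unfold En fld
  rw [sum_congr rfl h1, sum_add_distrib, sum_ite_eq',
    if_pos (show e ∈ S.F'.roots from mem_filter.2 ⟨mem_univ _, he⟩), add_assoc]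

private theorem desc_err (h : S.Good) : Real.exp ((S.G : ℝ) ^ 2) *
    (Real.exp (- (S.G : ℝ) ^ 3) * (S.G : ℝ) ^ 96) ≤ 1 / (20 * (S.G : ℝ) ^ 3) := by
  have hG := h.G_geR
  have h1 : (S.G : ℝ) ^ 100 ≤ 2 ^ S.G := by exact_mod_cast h.pow_le (k := 100) (by norm_num)
  have h2 : (2 : ℝ) ^ S.G ≤ Real.exp S.G := by
    calc (2 : ℝ) ^ S.G ≤ Real.exp 1 ^ S.G := by
          gcongr
          linarith [Real.add_one_le_exp (1 : ℝ)]
      _ = _ := by rw [← Real.exp_nat_mul, mul_one]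
  have h3 : Real.exp ((S.G : ℝ) ^ 2) * Real.exp (- (S.G : ℝ) ^ 3) * Real.exp S.G ≤ 1 := by
    rw [← Real.exp_add, ← Real.exp_add, Real.exp_le_one_iff]
    nlinarith [mul_nonneg (by linarith : (0 : ℝ) ≤ S.G - 2) (sq_nonneg (S.G : ℝ))]
  have h4 : 20 * (S.G : ℝ) ^ 99 ≤ (S.G : ℝ) ^ 100 := by
    rw [pow_succ' _ 99]
    exact mul_le_mul_of_nonneg_right (by linarith) (by positivity)
  rw [le_div_iff₀ (by positivity)]
  refine le_trans ?_ h3
  calc _ = Real.exp ((S.G : ℝ) ^ 2) * Real.exp (- (S.G : ℝ) ^ 3) * (20 * (S.G : ℝ) ^ 99) := by ring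
    _ ≤ _ := mul_le_mul_of_nonneg_left (h4.trans (h1.trans h2)) (by positivity)

theorem Good.abs_stat (h : S.Good) {a : U → ℤ} (ha : a ∈ S.cbox) (e : E) :
    |S.stat a e| ≤ (S.G : ℤ) ^ 96 := by
  unfold stat
  split_ifs with h1
  · exact h.abs_z_root (h.cor_mem' ha) h1.1
  · positivity

/-- the term `a0` -/
theorem Good.one_le_Zp (h : S.Good) (φ : E → ℤ) : 1 ≤ S.Zp φ := by
  have h1 : S.a0 ∈ S.cbox.filter fun a => ∑ u, S.pt (S.cor a) u = 0 :=
    mem_filter.2 ⟨h.a0_mem, by rw [pt_cor_a0]; exact h.x0.2.sum⟩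
  have h2 := single_le_sum (f := fun a => S.q ^ S.En φ (S.pt (S.cor a)))
    (fun _ _ => (zpow_pos h.q_pos _).le) h1
  simp only [pt_cor_a0, h.En_x0, zpow_zero] at h2
  exact h2

theorem Good.Zp_zero (h : S.Good) : S.Zp 0 ≤ Real.exp ((S.G : ℝ) ^ 2) := by
  have h1 : ∀ σ, S.q ^ S.En 0 σ ≤ 1 := fun σ => by
    have h2 := h.nu_nonneg σ
    have h3 : 0 ≤ S.num2 σ 0 := add_nonneg (sum_nonneg fun _ _ => sq_nonneg _)
      (sum_nonneg fun e _ => by unfold zt; split_ifs <;> positivity)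
    have h4 : 0 ≤ S.num σ := add_nonneg (by positivity) h3
    have h5 : 0 ≤ S.En 0 σ := by
      simp only [En, fld, Pi.zero_apply, zero_mul, sum_const_zero, add_zero]
      positivity
    simpa using h.q_anti h5
  refine (sum_le_card_nsmul _ _ _ fun a _ => h1 _).trans ?_
  rw [nsmul_eq_mul, mul_one]
  exact (Nat.cast_le.2 (card_filter_le _ _)).trans h.card_cbox

/-- `e` is a root (else the mean is `0`).  `En` grows by `ε z`, `|ell z| ≤ 1`, `exp x ≤ 1 + x + x²`.  At level `0`, `0 ≤ piC - q ^ En ≤ exp (- G³)` (`q_Ent_level`), so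
`ε ∑ q ^ En z ≥ ZC / (4 G³) - G ^ 96 exp (- G³ / 2) ≥ ZC / (5 G³) ≥ Zp / (5 G³)`; `ell² G ^ 192 ≤ ell / (20 G³)`, `ell ≥ 1 / G ^ 200`. -/
theorem Good.descent (h : S.Good) (hφ : S.Adm φ) (e : E) {ε : ℤ} (hε : ε = 1 ∨ ε = -1)
    (hm : 1 / (4 * (S.G : ℝ) ^ 3) ≤ ε * S.mean φ e) :
    S.Zp (Function.update φ e (φ e + ε)) ≤ (1 - 1 / (8 * (S.G : ℝ) ^ 203)) * S.Zp φ := by
  have hG := h.G_geR
  have hG0 : (0 : ℝ) < S.G := by linarith
  have hε1 : |(ε : ℝ)| = 1 := by rcases hε with rfl | rfl <;> simp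
  have hl0 := h.ell_pos
  have hL : (S.L : ℝ) = (S.G : ℝ) ^ 200 := by simp [L]
  obtain ⟨hll, hlu⟩ := h.kap
  rw [hL] at hll hlu
  have hZ := h.one_le_Zp φ
  have hq : ∀ k : ℤ, 0 < S.q ^ k := zpow_pos h.q_pos
  by_cases he : S.F'.par e = none
  swap
  · have h0 : (0 : ℝ) < 1 / (4 * (S.G : ℝ) ^ 3) := by positivity
    simp only [mean, stat, he, false_and, if_false, Int.cast_zero, mul_zero, sum_const_zero,
      zero_div] at hm
    linarith
  have hZC : S.Zp φ ≤ S.ZC φ :=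
    (sum_le_sum fun a _ => h.q_anti (S.Ent_le_En φ _)).trans
      (sum_le_sum_of_subset_of_nonneg (filter_subset _ _) fun _ _ _ => (hq _).le)
  have hz : ∀ a ∈ S.cbox, |(S.z (S.pt (S.cor a)) e : ℝ)| ≤ (S.G : ℝ) ^ 96 := fun a ha => by
    exact_mod_cast h.abs_z_root (h.cor_mem' ha) he
  have h8 : S.ell * (S.G : ℝ) ^ 192 ≤ 1 / (20 * (S.G : ℝ) ^ 3) := by
    rw [le_div_iff₀ (by positivity)]
    have h1 : (40 : ℝ) ≤ (S.G : ℝ) ^ 5 :=
      le_trans (by linarith) (le_self_pow₀ (a := (S.G : ℝ)) (by linarith) (by norm_num))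
    have h2 := mul_le_mul_of_nonneg_left h1 (by positivity : 0 ≤ S.ell * (S.G : ℝ) ^ 195)
    nlinarith
  have h12 : S.ell * (S.G : ℝ) ^ 96 ≤ 1 := by
    have h1 : (S.G : ℝ) ^ 96 ≤ (S.G : ℝ) ^ 192 := pow_le_pow_right₀ (by linarith) (by norm_num)
    refine (mul_le_mul_of_nonneg_left h1 hl0.le).trans (h8.trans ?_)
    rw [div_le_one (by positivity)]
    linarith [one_le_pow₀ (n := 3) (by linarith : (1 : ℝ) ≤ S.G)]
  have e1 : ∀ a ∈ S.cbox.filter (fun a => ∑ u, S.pt (S.cor a) u = 0),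
      S.q ^ S.En (Function.update φ e (φ e + ε)) (S.pt (S.cor a)) ≤
        (1 + (S.ell * (S.G : ℝ) ^ 96) ^ 2) * S.q ^ S.En φ (S.pt (S.cor a)) -
          S.ell * ε * (S.piC φ a * S.z (S.pt (S.cor a)) e) +
          S.ell * (Real.exp (- (S.G : ℝ) ^ 3) * (S.G : ℝ) ^ 96) := by
    intro a ha
    obtain ⟨ha, h0⟩ := mem_filter.1 ha
    obtain ⟨y, hy⟩ : ∃ y : ℝ, y = - (S.ell * (ε * S.z (S.pt (S.cor a)) e)) := ⟨_, rfl⟩
    have hy1 : |y| ≤ S.ell * (S.G : ℝ) ^ 96 := by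
      rw [hy, abs_neg, abs_mul, abs_mul, hε1, one_mul, abs_of_pos hl0]
      exact mul_le_mul_of_nonneg_left (hz a ha) hl0.le
    have hy2 := (abs_le.1 (Real.abs_exp_sub_one_sub_id_le (hy1.trans h12))).2
    have hy3 : y ^ 2 ≤ (S.ell * (S.G : ℝ) ^ 96) ^ 2 := by
      rw [← sq_abs]; exact pow_le_pow_left₀ (abs_nonneg _) hy1 2
    obtain ⟨h1, h2⟩ := h.q_Ent_level hφ h0
    rw [desc_En S φ he, zpow_add₀ h.q_pos.ne', h.q_zpow (ε * _), Int.cast_mul, ← hy]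
    have h3 := mul_le_mul_of_nonneg_left
      (by linarith : Real.exp y ≤ 1 + y + (S.ell * (S.G : ℝ) ^ 96) ^ 2)
      (hq (S.En φ (S.pt (S.cor a)))).le
    have h4 : (S.piC φ a - S.q ^ S.En φ (S.pt (S.cor a))) * -y ≤
        Real.exp (- (S.G : ℝ) ^ 3) * (S.ell * (S.G : ℝ) ^ 96) :=
      (mul_le_mul_of_nonneg_left ((neg_le_abs y).trans hy1) (sub_nonneg.2 h1)).trans
        (mul_le_mul_of_nonneg_right (sub_le_iff_le_add'.2 h2) (by positivity))
    have h5 : S.ell * ε * (S.piC φ a * S.z (S.pt (S.cor a)) e) = - (S.piC φ a * y) := by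
      rw [hy]; ring
    rw [h5]
    linarith
  have hs := sum_le_sum e1
  rw [sum_add_distrib, sum_sub_distrib, ← mul_sum, ← mul_sum, sum_const, nsmul_eq_mul] at hs
  have hmean : ∑ a ∈ S.cbox.filter (fun a => ∑ u, S.pt (S.cor a) u = 0),
      S.piC φ a * S.z (S.pt (S.cor a)) e = S.mean φ e * S.ZC φ := by
    rw [mean, div_mul_cancel₀ _ (by linarith), sum_filter]
    refine sum_congr rfl fun a _ => ?_
    simp only [stat, he, true_and]
    split_ifs <;> simp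
  rw [hmean] at hs
  refine le_trans hs ?_
  change (1 + (S.ell * (S.G : ℝ) ^ 96) ^ 2) * S.Zp φ - _ + _ ≤ _
  obtain ⟨c, hc⟩ : ∃ c : ℝ, c = 1 / (20 * (S.G : ℝ) ^ 3) := ⟨_, rfl⟩
  have hc0 : 0 < c := by rw [hc]; positivity
  have h1 : (S.ell * (S.G : ℝ) ^ 96) ^ 2 * S.Zp φ ≤ S.ell * c * S.Zp φ := by
    refine mul_le_mul_of_nonneg_right ?_ (by linarith)
    calc _ = S.ell * (S.ell * (S.G : ℝ) ^ 192) := by ring
      _ ≤ _ := mul_le_mul_of_nonneg_left (hc ▸ h8) hl0.le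
  have h2 : S.ell * (5 * c * S.Zp φ) ≤ S.ell * (ε * S.mean φ e * S.ZC φ) := by
    have h3 : 5 * c ≤ ε * S.mean φ e := by
      refine le_trans (le_of_eq ?_) hm
      rw [hc]; field_simp; norm_num
    exact mul_le_mul_of_nonneg_left (mul_le_mul h3 hZC (by linarith) (by linarith)) hl0.le
  have h3 : ((S.cbox.filter fun a => ∑ u, S.pt (S.cor a) u = 0).card : ℝ) *
      (S.ell * (Real.exp (- (S.G : ℝ) ^ 3) * (S.G : ℝ) ^ 96)) ≤ S.ell * c * S.Zp φ := by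
    have h4 := (Nat.cast_le.2 (card_filter_le S.cbox fun a => ∑ u, S.pt (S.cor a) u = 0)).trans
      h.card_cbox
    have h5 := (mul_le_mul_of_nonneg_right h4 (by positivity)).trans (desc_err h)
    rw [← hc] at h5
    rw [mul_left_comm]
    exact (mul_le_mul_of_nonneg_left h5 hl0.le).trans
      (le_mul_of_one_le_right (by positivity) hZ)
  have h4 : 1 / (8 * (S.G : ℝ) ^ 203) * S.Zp φ ≤ 3 * (S.ell * c) * S.Zp φ := by
    refine mul_le_mul_of_nonneg_right ?_ (by linarith)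
    rw [hc, div_le_iff₀ (by positivity)]
    calc (1 : ℝ) ≤ 6 / 5 * (S.ell * (S.G : ℝ) ^ 200) := by linarith
      _ = _ := by field_simp; norm_num
  linarith

theorem Good.descent_end (h : S.Good) :
    (1 - 1 / (8 * (S.G : ℝ) ^ 203)) ^ (S.G ^ 206) * Real.exp ((S.G : ℝ) ^ 2) < 1 := by
  have hG := h.G_geR
  have hG0 : (0 : ℝ) < S.G := by linarith
  have h1 : 1 / (8 * (S.G : ℝ) ^ 203) ≤ 1 := by
    rw [div_le_one (by positivity)]
    linarith [one_le_pow₀ (n := 203) (by linarith : (1 : ℝ) ≤ S.G)]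
  have h2 : 1 - 1 / (8 * (S.G : ℝ) ^ 203) ≤ Real.exp (- (1 / (8 * (S.G : ℝ) ^ 203))) := by
    linarith [Real.add_one_le_exp (- (1 / (8 * (S.G : ℝ) ^ 203)))]
  refine (mul_le_mul_of_nonneg_right (pow_le_pow_left₀ (by linarith) h2 _)
    (Real.exp_pos _).le).trans_lt ?_
  rw [← Real.exp_nat_mul, ← Real.exp_add, Real.exp_lt_one_iff]
  have h3 : ((S.G ^ 206 : ℕ) : ℝ) * - (1 / (8 * (S.G : ℝ) ^ 203)) = - ((S.G : ℝ) ^ 3 / 8) := by
    push_cast
    field_simp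
  rw [h3]
  nlinarith [mul_pos (by linarith : (0 : ℝ) < S.G - 8) (pow_pos hG0 2)]

end Sys

end Crest.Agent.R302
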