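import Crest.Agent.R302.Bas
import Crest.Agent.R309.Tape2

/-!
# R302/Learn: learning the fields by coordinate descent, abstractly (compare `R309/Learn.lean`)

State `(φ, flag)`, initially `(replicate m 0, false)`; `T` rounds (`iter`), each on `N * ρ` bits `l`.  If the flag is set nothing changes.  Otherwise let
`est r = ∑_{ω ∈ chunks ρ N l} (X (φ, ω)).getD r 0`; look for the first `r < m` with `N < 2 Θ |est r|`.  If there is none set the flag, else replace `φ r` by `φ r + sign (est r)`.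
Invariant after `k` rounds (`iter_good`): `φ.length = m`, `|φ r| ≤ k`, flag set → `|mu φ r| ≤ 1 / Θ` for all `r < m`, flag not set → `Zp φ ≤ (1 - c) ^ k Z₀`.
By `cheb_chunks` and a union bound all `|est r - N * Ex X r| < N / (8 Θ)` except with probability `m * 64 B² Θ² / N`; then `|est r / N - mu φ r| < 1 / (4 Θ)`.
-/

set_option autoImplicit false

namespace Crest.Agent.R302

open Finset Crest.Agent.Lib.PT Crest.Agent.R309

/-- the sum of the `r`-th entries of the samples -/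
def lnSum (vals : List (List ℤ)) (r : ℕ) : ℤ := (vals.map fun v => v.getD r 0).sum

/-- one round, given the samples -/
def lnUpd (m N Θ : ℕ) (c : List ℤ × Bool) (vals : List (List ℤ)) : List ℤ × Bool :=
  if c.2 = true then c else
    ((List.range m).find? fun r => decide ((N : ℤ) < 2 * (Θ : ℤ) * |lnSum vals r|)).elim (c.1, true)
      fun r => (c.1.set r (c.1.getD r 0 + (lnSum vals r).sign), false)

/-- one round -/
def lnStep (X : List ℤ × List Bool → List ℤ) (m N ρ Θ : ℕ) (c : List ℤ × Bool) (l : List Bool) :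
    List ℤ × Bool :=
  lnUpd m N Θ c ((chunks ρ N l).map fun ω => X (c.1, ω))

/-- the learning loop -/
def lnRun (X : List ℤ × List Bool → List ℤ) (m T N ρ Θ : ℕ) (l : List Bool) : List ℤ × Bool :=
  iter (lnStep X m N ρ Θ) (N * ρ) T (List.replicate m 0, false) l

@[fun_prop] theorem lnSum_pt {α : Type} [Enc α] {v : α → List (List ℤ)} {r : α → ℕ} (hv : PT v)
    (hr : PT r) : PT fun a => lnSum (v a) (r a) := by
  unfold lnSum; fun_prop

theorem lnUpd_pt {α : Type} [Enc α] {m N Θ : α → ℕ} {c : α → List ℤ × Bool}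
    {v : α → List (List ℤ)} (hm : PT m) (hb : PB m) (hN : PT N) (hΘ : PT Θ) (hc : PT c)
    (hv : PT v) : PT fun a => lnUpd (m a) (N a) (Θ a) (c a) (v a) := by
  unfold lnUpd; fun_prop

theorem ln_getD_set (φ : List ℤ) (r r' : ℕ) (a : ℤ) :
    (φ.set r a).getD r' 0 = a ∨ (φ.set r a).getD r' 0 = φ.getD r' 0 := by
  simp only [List.getD_eq_getElem?_getD, List.getElem?_set]
  split_ifs with h1 h2
  · left; rfl
  · right; subst h1; rw [List.getElem?_eq_none (by omega)]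
  · right; rfl

theorem ln_abs_sign (a : ℤ) : |a.sign| ≤ 1 := by
  rcases lt_trichotomy a 0 with h | h | h
  · rw [Int.sign_eq_neg_one_of_neg h]; simp
  · subst h; simp
  · rw [Int.sign_eq_one_of_pos h]; simp

theorem ln_set_bound {φ : List ℤ} {k : ℕ} (h : ∀ r, |φ.getD r 0| ≤ (k : ℤ)) (r : ℕ) (a : ℤ) :
    ∀ r', |(φ.set r (φ.getD r 0 + a.sign)).getD r' 0| ≤ ((k + 1 : ℕ) : ℤ) := by
  intro r'
  push_cast
  rcases ln_getD_set φ r r' (φ.getD r 0 + a.sign) with e | e <;> rw [e]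
  · have h1 := h r
    have h2 := ln_abs_sign a
    have h3 := abs_add_le (φ.getD r 0) a.sign
    omega
  · have := h r'; omega

theorem lnUpd_true (m N Θ : ℕ) {c : List ℤ × Bool} (v : List (List ℤ)) (hc : c.2 = true) :
    lnUpd m N Θ c v = c := by
  unfold lnUpd; rw [if_pos hc]

theorem lnUpd_cases (m N Θ : ℕ) {c : List ℤ × Bool} (v : List (List ℤ)) (hc : c.2 = false) :
    (lnUpd m N Θ c v = (c.1, true) ∧ ∀ r < m, 2 * (Θ : ℤ) * |lnSum v r| ≤ (N : ℤ)) ∨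
    ∃ r < m, (N : ℤ) < 2 * (Θ : ℤ) * |lnSum v r| ∧
      lnUpd m N Θ c v = (c.1.set r (c.1.getD r 0 + (lnSum v r).sign), false) := by
  unfold lnUpd
  rw [if_neg (by simp [hc])]
  cases hf : (List.range m).find? fun r => decide ((N : ℤ) < 2 * (Θ : ℤ) * |lnSum v r|) with
  | none =>
    left
    refine ⟨rfl, fun r hr => ?_⟩
    have := List.find?_eq_none.1 hf r (List.mem_range.2 hr)
    simpa only [decide_eq_true_eq, not_lt] using this
  | some r =>
    right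
    have h1 := List.find?_some hf
    have h2 := List.mem_range.1 (List.mem_of_find?_eq_some hf)
    simp only [decide_eq_true_eq] at h1
    exact ⟨r, h2, h1, rfl⟩

/-- the part of the invariant that holds on all tapes -/
def LnBd (m k : ℕ) (c : List ℤ × Bool) : Prop :=
  c.1.length = m ∧ ∀ r, |c.1.getD r 0| ≤ (k : ℤ)

theorem LnBd.zero (m : ℕ) : LnBd m 0 (List.replicate m 0, false) := by
  refine ⟨by simp, fun r => ?_⟩
  simp only [List.getD_eq_getElem?_getD, List.getElem?_replicate]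
  split_ifs <;> simp

theorem LnBd.upd {m k : ℕ} {c : List ℤ × Bool} (h : LnBd m k c) (N Θ : ℕ) (v : List (List ℤ)) :
    LnBd m (k + 1) (lnUpd m N Θ c v) := by
  have h' : LnBd m (k + 1) c := ⟨h.1, fun r => by have := h.2 r; push_cast; omega⟩
  cases hc : c.2 with
  | true => rw [lnUpd_true m N Θ v hc]; exact h'
  | false =>
    rcases lnUpd_cases m N Θ v hc with ⟨e, -⟩ | ⟨r, -, -, e⟩ <;> rw [e]
    · exact h'
    · exact ⟨by simpa using h.1, ln_set_bound h.2 r _⟩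

theorem LnBd.sz_le {m k T : ℕ} {c : List ℤ × Bool} (h : LnBd m k c) (hk : k ≤ T) :
    sz c ≤ m * (8 * T + 7) + 5 := by
  obtain ⟨h1, h2⟩ := h
  have h3 : sz c.1 ≤ _ := sz_list_le (B := 8 * T + 6) fun z hz => by
    obtain ⟨i, hi, rfl⟩ := List.getElem_of_mem hz
    have h4 := h2 i
    rw [List.getD_eq_getElem _ _ hi] at h4
    rw [Int.abs_eq_natAbs] at h4
    have h5 : (c.1[i]).natAbs ≤ T := by omega
    have := sz_int_le_of_le h5
    have := sz_nat_le_self T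
    omega
  have h4 := sz_bool_le c.2
  rw [h1] at h3
  have h5 : 8 * T + 6 + 1 = 8 * T + 7 := rfl
  rw [h5] at h3
  rw [sz_prod]
  omega

theorem lnRun_bd (X : List ℤ × List Bool → List ℤ) (m T N ρ Θ : ℕ) (l : List Bool) :
    LnBd m T (lnRun X m T N ρ Θ l) :=
  iter_inv' (lnStep X m N ρ Θ) (N * ρ) (J := LnBd m) (fun _ _ _ hs => hs.upd _ _ _) (LnBd.zero m) T l

theorem lnRun_hopt : HOPT fun (X : List ℤ × List Bool → List ℤ)
    (p : (Un × Un × Un × Un × ℕ) × List Bool) =>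
      (lnRun X p.1.1.n p.1.2.1.n p.1.2.2.1.n p.1.2.2.2.1.n p.1.2.2.2.2 p.2).1 := by
  intro α _ h hh
  refine OPT.post (g := fun c : List ℤ × Bool => c.1) (by fun_prop) ?_
  unfold lnRun
  refine OPT.iter (α := α × (Un × Un × Un × Un × ℕ) × List Bool)
    (f := fun O p => lnStep (h O p.1) p.2.1.1.n p.2.1.2.2.1.n p.2.1.2.2.2.1.n p.2.1.2.2.2.2)
    ?_ (by fun_prop) (by fun_prop) (by fun_prop) (OPT.pure (by fun_prop)) (by fun_prop)
    (fun _ p k c => LnBd p.2.1.1.n k c) (fun _ _ => LnBd.zero _)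
    (fun _ _ _ _ _ hc => hc.upd _ _ _)
    (B := fun p => p.2.1.1.n * (8 * p.2.1.2.1.n + 7) + 5) (by fun_prop)
    fun _ _ _ _ hk hc => hc.sz_le hk
  unfold lnStep
  refine OPT.cont (g := fun (q : (α × (Un × Un × Un × Un × ℕ) × List Bool) × (List ℤ × Bool) ×
      List Bool) v => lnUpd q.1.2.1.1.n q.1.2.1.2.2.1.n q.1.2.1.2.2.2.2 q.2.1 v) ?_
    (lnUpd_pt (by fun_prop) (by fun_prop) (by fun_prop) (by fun_prop) (by fun_prop) (by fun_prop))
  refine OPT.map (f := fun O (q : (α × (Un × Un × Un × Un × ℕ) × List Bool) × (List ℤ × Bool) ×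
      List Bool) ω => h O q.1.1 (q.2.1.1, ω)) (OPT.pure (by fun_prop)) ?_
  exact OPT.call hh (e := fun c : ((α × (Un × Un × Un × Un × ℕ) × List Bool) × (List ℤ × Bool) ×
      List Bool) × List Bool => c.1.1.1) (q := fun c => (c.1.2.1.1, c.2)) (by fun_prop) (by fun_prop)

/-- the invariant of the loop -/
def LnInv (m Θ : ℕ) (c Z₀ : ℝ) (mu : List ℤ → ℕ → ℝ) (Zp : List ℤ → ℝ) (k : ℕ)
    (s : List ℤ × Bool) : Prop :=
  LnBd m k s ∧ (s.2 = true → ∀ r < m, |mu s.1 r| ≤ 1 / Θ) ∧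
    (s.2 = false → Zp s.1 ≤ (1 - c) ^ k * Z₀)

theorem LnInv.upd {m T N Θ : ℕ} {c Z₀ : ℝ} {mu : List ℤ → ℕ → ℝ} {Zp : List ℤ → ℝ} {k : ℕ}
    {s : List ℤ × Bool} (hJ : LnInv m Θ c Z₀ mu Zp k s) (hs : s.2 = false) (hk : k ≤ T)
    (hΘ : 0 < Θ) (hN : 0 < N) (hc : c ≤ 1)
    (hd : ∀ φ : List ℤ, φ.length = m → (∀ r, |φ.getD r 0| ≤ T) → ∀ r < m, ∀ ε : ℤ,
      (ε = 1 ∨ ε = -1) → 1 / (4 * Θ) ≤ ε * mu φ r →
        Zp (φ.set r (φ.getD r 0 + ε)) ≤ (1 - c) * Zp φ)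
    {v : List (List ℤ)} (ha : ∀ r < m, |(lnSum v r : ℝ) - N * mu s.1 r| < N / (4 * Θ)) :
    LnInv m Θ c Z₀ mu Zp (k + 1) (lnUpd m N Θ s v) := by
  obtain ⟨h1, -, h5⟩ := hJ
  have hN' : (0 : ℝ) < N := by exact_mod_cast hN
  have hΘ' : (0 : ℝ) < Θ := by exact_mod_cast hΘ
  refine ⟨h1.upd N Θ v, ?_⟩
  rcases lnUpd_cases m N Θ v hs with ⟨e, hb⟩ | ⟨r, hr, hb, e⟩ <;> rw [e]
  · refine ⟨fun _ r hr => ?_, fun h' => by simp at h'⟩
    have b1 : 2 * (Θ : ℝ) * |(lnSum v r : ℝ)| ≤ N := by exact_mod_cast hb r hr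
    have b2 := ha r hr
    show |mu s.1 r| ≤ _
    generalize mu s.1 r = y at b2 ⊢
    generalize (lnSum v r : ℝ) = x at b1 b2
    generalize (N : ℝ) = N at b1 b2 hN'
    generalize (Θ : ℝ) = A at b1 b2 hΘ' ⊢
    rw [lt_div_iff₀ (by positivity)] at b2
    rw [le_div_iff₀ hΘ']
    have b3 : |N * y| ≤ |x| + |x - N * y| := by
      have := abs_sub x (x - N * y)
      rwa [sub_sub_cancel] at this
    rw [abs_mul, abs_of_pos hN'] at b3
    have b4 : N * |y| * A ≤ (|x| + |x - N * y|) * A := mul_le_mul_of_nonneg_right b3 hΘ'.le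
    have b5 : N * (|y| * A) ≤ N * 1 := by nlinarith
    exact le_of_mul_le_mul_left b5 hN'
  · have b1 : (N : ℝ) < 2 * (Θ : ℝ) * |(lnSum v r : ℝ)| := by exact_mod_cast hb
    have b2 := ha r hr
    have hne : lnSum v r ≠ 0 := by
      intro h0; rw [h0] at b1; simp at b1; linarith
    have hε : (lnSum v r).sign = 1 ∨ (lnSum v r).sign = -1 := by
      rcases lt_or_gt_of_ne hne with h' | h'
      · exact Or.inr (Int.sign_eq_neg_one_of_neg h')
      · exact Or.inl (Int.sign_eq_one_of_pos h')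
    have hm : 1 / (4 * (Θ : ℝ)) ≤ ((lnSum v r).sign : ℤ) * mu s.1 r := by
      have hs : (((lnSum v r).sign : ℤ) : ℝ) * (lnSum v r : ℝ) = |(lnSum v r : ℝ)| := by
        have := Int.sign_mul_self_eq_abs (lnSum v r)
        exact_mod_cast this
      have hε' : (((lnSum v r).sign : ℤ) : ℝ) = 1 ∨ (((lnSum v r).sign : ℤ) : ℝ) = -1 := by
        rcases hε with h' | h' <;> rw [h'] <;> simp
      generalize (((lnSum v r).sign : ℤ) : ℝ) = σ at hs hε' ⊢
      generalize mu s.1 r = y at b2 ⊢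
      generalize (lnSum v r : ℝ) = x at b1 b2 hs
      generalize (N : ℝ) = N at b1 b2 hN'
      generalize (Θ : ℝ) = A at b1 b2 hΘ' ⊢
      rw [lt_div_iff₀ (by positivity)] at b2
      rw [div_le_iff₀ (by positivity)]
      have b3 : σ * (x - N * y) ≤ |x - N * y| := by
        rcases hε' with h' | h' <;> rw [h']
        · rw [one_mul]; exact le_abs_self _
        · rw [neg_one_mul]; exact neg_le_abs _
      have b4 : σ * (x - N * y) * (4 * A) ≤ |x - N * y| * (4 * A) :=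
        mul_le_mul_of_nonneg_right b3 (by positivity)
      have b5 : N * 1 ≤ N * (σ * y * (4 * A)) := by
        have : σ * (x - N * y) * (4 * A) = σ * x * (4 * A) - N * (σ * y * (4 * A)) := by ring
        rw [this, hs] at b4
        nlinarith
      exact le_of_mul_le_mul_left b5 hN'
    have hd' := hd s.1 h1.1 (fun r => (h1.2 r).trans (by exact_mod_cast hk)) r hr _ hε hm
    refine ⟨fun h' => by simp at h', fun _ => hd'.trans ?_⟩
    rw [pow_succ' _ k, mul_assoc]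
    exact mul_le_mul_of_nonneg_left (h5 hs) (by linarith)

theorem ln_cast (ρ N : ℕ) (X : List Bool → List ℤ) (l : List Bool) (r : ℕ) :
    (lnSum ((chunks ρ N l).map X) r : ℝ) =
      ((chunks ρ N l).map fun ω => (((X ω).getD r 0 : ℤ) : ℝ)).sum := by
  unfold lnSum
  rw [Int.cast_list_sum, List.map_map, List.map_map]
  rfl

theorem LnInv.step {m T N ρ Θ : ℕ} {X : List ℤ × List Bool → List ℤ} {B c Z₀ : ℝ}
    {mu : List ℤ → ℕ → ℝ} {Zp : List ℤ → ℝ} {k : ℕ}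
    {s : List ℤ × Bool} (hJ : LnInv m Θ c Z₀ mu Zp k s) (hk : k ≤ T)
    (hΘ : 0 < Θ) (hN : 0 < N) (hc : c ≤ 1)
    (hX : ∀ φ : List ℤ, (∀ r, |φ.getD r 0| ≤ T) → ∀ r < m,
      (∀ ω, ω.length = ρ → |((X (φ, ω)).getD r 0 : ℝ)| ≤ B) ∧
      |Ex ρ (fun ω => ((X (φ, ω)).getD r 0 : ℝ)) - mu φ r| ≤ 1 / (8 * Θ))
    (hd : ∀ φ : List ℤ, φ.length = m → (∀ r, |φ.getD r 0| ≤ T) → ∀ r < m, ∀ ε : ℤ,
      (ε = 1 ∨ ε = -1) → 1 / (4 * Θ) ≤ ε * mu φ r →
        Zp (φ.set r (φ.getD r 0 + ε)) ≤ (1 - c) * Zp φ) :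
    1 - m * (64 * B ^ 2 * Θ ^ 2 / N) ≤
      Pr (N * ρ) fun l => LnInv m Θ c Z₀ mu Zp (k + 1) (lnStep X m N ρ Θ s l) := by
  have hN' : (0 : ℝ) < N := by exact_mod_cast hN
  have hΘ' : (0 : ℝ) < Θ := by exact_mod_cast hΘ
  cases hs : s.2 with
  | true =>
    rw [Pr_true]
    · have : 0 ≤ (m : ℝ) * (64 * B ^ 2 * Θ ^ 2 / N) := by positivity
      linarith
    · intro l _
      refine ⟨hJ.1.upd _ _ _, ?_⟩
      unfold lnStep
      rw [lnUpd_true m N Θ _ hs]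
      exact ⟨hJ.2.1, fun h' => by simp [hs] at h'⟩
  | false =>
    have hadm : ∀ r, |s.1.getD r 0| ≤ T := fun r => (hJ.1.2 r).trans (by exact_mod_cast hk)
    let E : ℕ → List Bool → Prop := fun r l => (N : ℝ) / (8 * Θ) ≤
      |((chunks ρ N l).map fun ω => (((X (s.1, ω)).getD r 0 : ℤ) : ℝ)).sum -
        N * Ex ρ fun ω => (((X (s.1, ω)).getD r 0 : ℤ) : ℝ)|
    have hu := Pr_exists_le (N * ρ) (range m) E
    have hsum : ∑ r ∈ range m, Pr (N * ρ) (E r) ≤ m * (64 * B ^ 2 * Θ ^ 2 / N) := by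
      refine (Finset.sum_le_card_nsmul _ _ (64 * B ^ 2 * Θ ^ 2 / N) fun r hr => ?_).trans ?_
      · refine (cheb_chunks ρ N _ B (hX s.1 hadm r (mem_range.1 hr)).1 _ (by positivity)).trans
          (le_of_eq ?_)
        field_simp
        ring
      · rw [nsmul_eq_mul, card_range]
    have hn := Pr_not (N * ρ) fun l => ∃ r ∈ range m, E r l
    refine le_trans (by linarith) (hn.ge.trans (Pr_mono fun l _ hl => ?_))
    refine hJ.upd hs hk hΘ hN hc hd fun r hr => ?_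
    have h1 : ¬ E r l := fun h => hl ⟨r, mem_range.2 hr, h⟩
    have h2 := (hX s.1 hadm r hr).2
    simp only [E, not_le] at h1
    rw [ln_cast ρ N fun ω => X (s.1, ω)]
    generalize ((chunks ρ N l).map fun ω => (((X (s.1, ω)).getD r 0 : ℤ) : ℝ)).sum = x at h1 ⊢
    generalize (Ex ρ fun ω => (((X (s.1, ω)).getD r 0 : ℤ) : ℝ)) = e at h1 h2
    have h3 : |x - N * mu s.1 r| ≤ |x - N * e| + N * |e - mu s.1 r| := by
      have := abs_add_le (x - N * e) (N * (e - mu s.1 r))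
      rw [abs_mul, abs_of_pos hN'] at this
      refine le_trans (le_of_eq ?_) this
      congr 1; ring
    have h4 : (N : ℝ) * |e - mu s.1 r| ≤ N * (1 / (8 * Θ)) := mul_le_mul_of_nonneg_left h2 hN'.le
    have h5 : (N : ℝ) / (4 * Θ) = N / (8 * Θ) + N * (1 / (8 * Θ)) := by field_simp; ring
    linarith

theorem exists_learn :
    ∃ learn : (List ℤ × List Bool → List ℤ) → (Un × Un × Un × Un × ℕ) × List Bool → List ℤ,
    HOPT learn ∧ ∀ (m T N ρ Θ : ℕ) (X : List ℤ × List Bool → List ℤ),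
      (∀ l r, |(learn X ((⟨m⟩, ⟨T⟩, ⟨N⟩, ⟨ρ⟩, Θ), l)).getD r 0| ≤ T) ∧
      ∀ (B c Z₀ : ℝ) (mu : List ℤ → ℕ → ℝ) (Zp : List ℤ → ℝ), 0 < Θ → 0 < N → 0 ≤ c → c ≤ 1 →
        (∀ φ : List ℤ, (∀ r, |φ.getD r 0| ≤ T) → ∀ r < m,
          (∀ ω, ω.length = ρ → |((X (φ, ω)).getD r 0 : ℝ)| ≤ B) ∧
          |Ex ρ (fun ω => ((X (φ, ω)).getD r 0 : ℝ)) - mu φ r| ≤ 1 / (8 * Θ)) →
        (∀ φ : List ℤ, φ.length = m → (∀ r, |φ.getD r 0| ≤ T) → ∀ r < m, ∀ ε : ℤ, (ε = 1 ∨ ε = -1) →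
          1 / (4 * Θ) ≤ ε * mu φ r → Zp (φ.set r (φ.getD r 0 + ε)) ≤ (1 - c) * Zp φ) →
        Zp (List.replicate m 0) ≤ Z₀ → (∀ φ, 1 ≤ Zp φ) → (1 - c) ^ T * Z₀ < 1 →
        ∀ n, T * (N * ρ) ≤ n →
          1 - T * (m * (64 * B ^ 2 * Θ ^ 2 / N)) ≤
            Pr n fun l => ∀ r < m, |mu (learn X ((⟨m⟩, ⟨T⟩, ⟨N⟩, ⟨ρ⟩, Θ), l)) r| ≤ 1 / Θ := by
  refine ⟨_, lnRun_hopt, fun m T N ρ Θ X => ⟨fun l => (lnRun_bd X m T N ρ Θ l).2,
    fun B c Z₀ mu Zp hΘ hN _ hc hX hd h0 h1 hT n hn => ?_⟩⟩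
  have hz : LnInv m Θ c Z₀ mu Zp 0 (List.replicate m 0, false) :=
    ⟨LnBd.zero m, fun h' => by simp at h', fun _ => by simpa using h0⟩
  have hg := iter_good (lnStep X m N ρ Θ) (N * ρ) (J := LnInv m Θ c Z₀ mu Zp)
    (δ := m * (64 * B ^ 2 * Θ ^ 2 / N)) (by positivity) (t := T)
    (fun k hk s hs => hs.step hk.le hΘ hN hc hX hd) hz
  have e := Ex_iter (lnStep X m N ρ Θ) (N * ρ) hn (List.replicate m 0, false)
    fun s => ind (∀ r < m, |mu s.1 r| ≤ 1 / Θ)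
  refine hg.trans (le_trans (Pr_mono fun l _ hl => ?_) e.ge)
  obtain ⟨-, h4, h5⟩ := hl
  refine h4 ?_
  by_contra hc'
  have h6 := h5 (by simpa using hc')
  have h7 := h1 (iter (lnStep X m N ρ Θ) (N * ρ) T (List.replicate m 0, false) l).1
  linarith

end Crest.Agent.R302
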