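import Crest.Agent.R302.Bas
import Crest.Agent.R309.Coarse

/-!
# R302/Coarse: weak Poincaré inequalities, from unit steps to coarse steps (TASK, short)
-/

set_option autoImplicit false
set_option linter.unusedSectionVars false

namespace Crest.Agent.R302

open Finset Crest.Agent.R309

variable {U : Type} [Fintype U] [DecidableEq U]

/-- a Poincaré inequality for functions bounded by one, with an additive error -/
def WPoin (lo hi : U → ℤ) (π : (U → ℤ) → ℝ) (lam : U → ℝ) (ε : ℝ) : Prop :=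
  ∀ f : (U → ℤ) → ℝ, (∀ σ, |f σ| ≤ 1) → ∃ c : ℝ,
    ∑ σ ∈ box lo hi, π σ * (f σ - c) ^ 2 ≤ ∑ u, lam u * dir lo hi π u f + ε

theorem WPoin.mono {lo hi : U → ℤ} {π : (U → ℤ) → ℝ} {lam lam' : U → ℝ} {ε ε' : ℝ}
    (h : WPoin lo hi π lam ε) (hπ : ∀ σ, 0 ≤ π σ) (h1 : ∀ u, lam u ≤ lam' u) (h2 : ε ≤ ε') :
    WPoin lo hi π lam' ε' := by
  intro f hf
  obtain ⟨c, hc⟩ := h f hf
  exact ⟨c, hc.trans (add_le_add (sum_le_sum fun u _ =>
    mul_le_mul_of_nonneg_right (h1 u) (Coarse.dir_nonneg lo hi hπ u f)) h2)⟩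

/-- Copy the proof of `R309.coarsen`: the averaged function is bounded by one, and the error `ε ∏ s` is multiplied by `2 A`. -/
theorem wcoarsen (lo : U → ℤ) (s M : U → ℕ) (hs : ∀ u, 0 < s u) (hM : ∀ u, 0 < M u)
    (π πb : (U → ℤ) → ℝ) (A : ℝ) (hA : 1 ≤ A) (lam : U → ℝ) (hlam : ∀ u, 0 ≤ lam u)
    (hπ : ∀ σ, 0 ≤ π σ) (hπb : ∀ a, 0 ≤ πb a)
    (hcmp : ∀ σ ∈ box lo (fun u => lo u + s u * M u - 1), ∀ a ∈ box 0 (fun u => (M u : ℤ) - 1),
      (∀ u, |(σ u - lo u) / s u - a u| ≤ 1 ∧ (s u = 1 → a u = σ u - lo u)) →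
      π σ ≤ A * πb a ∧ πb a ≤ A * π σ) {ε : ℝ}
    (hP : WPoin lo (fun u => lo u + s u * M u - 1) π lam (ε * ∏ u, (s u : ℝ))) :
    WPoin 0 (fun u => (M u : ℤ) - 1) πb
      (fun u => 8 * A ^ 2 * (lam u / (s u : ℝ) ^ 2 + Fintype.card U)) (2 * A * ε) := by
  intro F hF
  have hA0 : 0 ≤ A := zero_le_one.trans hA
  have hcl : ∀ σ ∈ box lo (fun u => lo u + s u * M u - 1), ∀ t ∈ Coarse.Tb s,
      π σ ≤ A * πb (Coarse.Bk lo s M σ t) ∧ πb (Coarse.Bk lo s M σ t) ≤ A * π σ :=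
    fun σ hσ t ht => hcmp σ hσ _ (Coarse.Bk_mem lo s hM σ t) fun u =>
      Coarse.blk_close (hs u) (Fintype.mem_piFinset.1 hσ u) (Fintype.mem_piFinset.1 ht u)
  have hc := fun σ hσ t ht => (hcl σ hσ t ht).1
  have h0 : (0 : U → ℤ) ∈ Coarse.Tb s :=
    Fintype.mem_piFinset.2 fun v => Coarse.zero_mem_win (hs v)
  have hT := Coarse.card_Tb_pos hs
  have hS : (0 : ℝ) < ∏ v, (s v : ℝ) := prod_pos fun v _ => by exact_mod_cast hs v
  obtain ⟨c, hc0⟩ := hP
    (fun σ => (∑ t ∈ Coarse.Tb s, F (Coarse.Bk lo s M σ t)) / (Coarse.Tb s).card) (fun σ => by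
      rw [abs_div, abs_of_pos hT, div_le_one hT]
      refine (abs_sum_le_sum_abs _ _).trans ((sum_le_sum fun t _ => hF _).trans (le_of_eq ?_))
      simp)
  refine ⟨c, ?_⟩
  have hD := fun u => Coarse.dir_nonneg 0 (fun u => (M u : ℤ) - 1) hπb u F
  -- the coarse sum as a fine sum
  have hpush := Coarse.push_eq (fun v => Coarse.fin (lo v) (s v) (M v))
    (fun v => Icc (0 : ℤ) ((M v : ℤ) - 1)) (fun v x => Coarse.blk (lo v) (s v) (M v) x)
    (fun v x => Coarse.blk_mem _ _ (hM v) _) fun a => πb a * (F a - c) ^ 2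
  rw [← Coarse.box_coarse, ← Coarse.box_fin] at hpush
  have e0 : ∀ σ : U → ℤ,
      (fun v => Coarse.blk (lo v) (s v) (M v) (σ v)) = Coarse.Bk lo s M σ 0 := fun σ => by
    funext v; simp [Coarse.Bk]
  simp only [e0] at hpush
  have h1 : (∏ v, (s v : ℝ)) * ∑ a ∈ box 0 (fun u => (M u : ℤ) - 1), πb a * (F a - c) ^ 2 =
      ∑ σ ∈ box lo (fun u => lo u + s u * M u - 1),
        πb (Coarse.Bk lo s M σ 0) * (F (Coarse.Bk lo s M σ 0) - c) ^ 2 := by
    rw [hpush, mul_sum]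
    refine sum_congr rfl fun a ha => ?_
    congr 1
    exact prod_congr rfl fun v _ => by
      rw [Coarse.card_block (hs v) (Fintype.mem_piFinset.1 ha v)]
  have htele := Coarse.tele hs hM hA0 hπ hπb hc F univ
  have hres : ∀ t : U → ℤ, Coarse.res univ t = t := fun t => by funext v; simp [Coarse.res]
  simp only [hres, card_univ] at htele
  have h2 : ∑ σ ∈ box lo (fun u => lo u + s u * M u - 1),
      πb (Coarse.Bk lo s M σ 0) * (F (Coarse.Bk lo s M σ 0) - c) ^ 2 ≤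
      2 * A * ∑ σ ∈ box lo (fun u => lo u + s u * M u - 1), π σ *
        ((∑ t ∈ Coarse.Tb s, F (Coarse.Bk lo s M σ t)) / (Coarse.Tb s).card - c) ^ 2 +
      2 * A / (Coarse.Tb s).card * ∑ σ ∈ box lo (fun u => lo u + s u * M u - 1),
        ∑ t ∈ Coarse.Tb s, π σ * (F (Coarse.Bk lo s M σ 0) - F (Coarse.Bk lo s M σ t)) ^ 2 := by
    rw [mul_sum, mul_sum, ← sum_add_distrib]
    refine sum_le_sum fun σ hσ => ?_
    have h3 := (hcl σ hσ 0 h0).2
    have h4 := sq_sum_le_card_mul_sum_sq (s := Coarse.Tb s)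
      (f := fun t => F (Coarse.Bk lo s M σ 0) - F (Coarse.Bk lo s M σ t))
    rw [sum_sub_distrib, sum_const, nsmul_eq_mul] at h4
    rw [← mul_sum]
    set g := F (Coarse.Bk lo s M σ 0)
    set Q := ∑ t ∈ Coarse.Tb s, (g - F (Coarse.Bk lo s M σ t)) ^ 2
    set Y := ∑ t ∈ Coarse.Tb s, F (Coarse.Bk lo s M σ t)
    generalize ((Coarse.Tb s).card : ℝ) = n at hT h4 ⊢
    have h5 : (g - Y / n) ^ 2 ≤ Q / n := by
      have : g - Y / n = (n * g - Y) / n := by field_simp
      rw [this, div_pow, div_le_div_iff₀ (by positivity) hT]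
      nlinarith
    have h6 : (g - c) ^ 2 ≤ 2 * (Y / n - c) ^ 2 + 2 * (Q / n) := by
      nlinarith [sq_nonneg (g - Y / n - (Y / n - c))]
    have h7 := mul_le_mul h3 h6 (sq_nonneg _) (mul_nonneg hA0 (hπ σ))
    refine h7.trans (le_of_eq ?_)
    field_simp
  have h8 : ∑ u, lam u * dir lo (fun u => lo u + s u * M u - 1) π u
      (fun σ => (∑ t ∈ Coarse.Tb s, F (Coarse.Bk lo s M σ t)) / (Coarse.Tb s).card) ≤
      ∑ u, lam u * (2 * A * (∏ v, (s v : ℝ)) / (s u : ℝ) ^ 2 *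
        dir 0 (fun u => (M u : ℤ) - 1) πb u F) :=
    sum_le_sum fun u _ =>
      mul_le_mul_of_nonneg_left (Coarse.dir_le hs hM hA0 hπ hπb hc F u) (hlam u)
  refine le_of_mul_le_mul_left ?_ hS
  rw [h1]
  refine h2.trans ((add_le_add (mul_le_mul_of_nonneg_left (hc0.trans (add_le_add h8 le_rfl))
    (by positivity)) (mul_le_mul_of_nonneg_left htele (by positivity))).trans ?_)
  rw [mul_add, mul_add, add_right_comm]
  refine add_le_add ?_ (le_of_eq (by ring))
  simp only [mul_sum, ← sum_add_distrib]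
  refine sum_le_sum fun u _ => ?_
  have hsu : (0 : ℝ) < s u := by exact_mod_cast hs u
  have h9 : 0 ≤ (∏ v, (s v : ℝ)) * (A ^ 2 * (lam u / (s u : ℝ) ^ 2 + Fintype.card U) *
      dir 0 (fun u => (M u : ℤ) - 1) πb u F) := by
    have := hD u
    have := hlam u
    positivity
  have e : 2 * A * (lam u * (2 * A * (∏ v, (s v : ℝ)) / (s u : ℝ) ^ 2 *
        dir 0 (fun u => (M u : ℤ) - 1) πb u F)) +
      2 * A / (Coarse.Tb s).card * (Fintype.card U * (2 * A * (∏ v, (s v : ℝ)) *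
        (Coarse.Tb s).card * dir 0 (fun u => (M u : ℤ) - 1) πb u F)) =
      4 * ((∏ v, (s v : ℝ)) * (A ^ 2 * (lam u / (s u : ℝ) ^ 2 + Fintype.card U) *
        dir 0 (fun u => (M u : ℤ) - 1) πb u F)) := by
    field_simp
    ring
  rw [e]
  linarith

/-- A sum over the fine box is a sum over blocks and offsets: `(a, o) ↦ lo + s a + o` is a bijection. -/
theorem sum_blocks (lo : U → ℤ) (s M : U → ℕ) (hs : ∀ u, 0 < s u) (H : (U → ℤ) → ℝ) :
    ∑ y ∈ box lo (fun u => lo u + s u * M u - 1), H y =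
      ∑ a ∈ box 0 (fun u => (M u : ℤ) - 1), ∑ o ∈ box 0 (fun u => (s u : ℤ) - 1),
        H fun u => lo u + s u * a u + o u := by
  rw [← sum_product']
  symm
  refine sum_nbij' (fun p u => lo u + s u * p.1 u + p.2 u)
    (fun y => (fun u => (y u - lo u) / s u, fun u => (y u - lo u) % s u)) ?_ ?_ ?_ ?_ ?_
  · intro p hp
    obtain ⟨ha, ho⟩ := mem_product.1 hp
    rw [mem_box] at ha ho ⊢
    intro u
    have hs' : (0 : ℤ) < s u := by exact_mod_cast hs u
    have h1 := ha u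
    have h2 := ho u
    simp only [Pi.zero_apply] at h1 h2
    constructor
    · nlinarith [h1.1, h2.1]
    · nlinarith [h1.2, h2.2]
  · intro y hy
    refine mem_product.2 ⟨mem_box.2 fun u => ?_, mem_box.2 fun u => ?_⟩
    · exact Coarse.div_range (hs u) (Fintype.mem_piFinset.1 hy u)
    · have hs' : (0 : ℤ) < s u := by exact_mod_cast hs u
      have h2 := Int.emod_nonneg (y u - lo u) hs'.ne'
      have h3 := Int.emod_lt_of_pos (y u - lo u) hs'
      simp only [Pi.zero_apply]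
      omega
  · intro p hp
    obtain ⟨-, ho⟩ := mem_product.1 hp
    rw [mem_box] at ho
    have key : ∀ u, (lo u + s u * p.1 u + p.2 u - lo u) / s u = p.1 u ∧
        (lo u + s u * p.1 u + p.2 u - lo u) % s u = p.2 u := by
      intro u
      have hs' : (0 : ℤ) < s u := by exact_mod_cast hs u
      have h2 := ho u
      simp only [Pi.zero_apply] at h2
      have e : lo u + s u * p.1 u + p.2 u - lo u = p.2 u + s u * p.1 u := by ring
      rw [e, Int.add_mul_ediv_left _ _ hs'.ne', Int.add_mul_emod_self_left,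
        Int.ediv_eq_zero_of_lt h2.1 (by omega), zero_add, Int.emod_eq_of_lt h2.1 (by omega)]
      exact ⟨rfl, rfl⟩
    exact Prod.ext (funext fun u => (key u).1) (funext fun u => (key u).2)
  · intro y _
    funext u
    have h1 := Int.emod_add_mul_ediv (y u - lo u) (s u)
    simp only
    omega
  · intro p _
    rfl

theorem card_box0 (s : U → ℕ) : (box 0 (fun u => (s u : ℤ) - 1)).card = ∏ u, s u := by
  rw [R309.box, Fintype.card_piFinset]
  refine prod_congr rfl fun u _ => ?_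
  rw [Int.card_Icc]
  simp

end Crest.Agent.R302
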