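import Crest.Agent.R302.Mix
import Crest.Agent.R302.Coarse
import Crest.Agent.R309.Tape2

/-!
# R302/Metro: the single-site Metropolis chain on a box (TASK)

One step on `ρ = 2 + g + lg * cap` bits `ω` from the state `a : List ℤ`: `u = ofBits ((ω.drop 2).take g)`, `v = a.getD u 0 ± 1` according to `ω.getD 1 false`, `a' = a.set u v`;
go to `a'` if `ω.getD 0 false = true`, `u < a.length`, `0 ≤ v < M` and `coin lg cap (en a' - en a).toNat (ω.drop (2 + g))`, else stay.  `run = iter step ρ t a0 l`.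
For `a' = a ± e_u` in the box the transition probability is `min 1 (π a' / π a) / (4 * 2 ^ g)`, so `π a P a a' = min (π a) (π a') / (4 * 2 ^ g)` and
`½ ∑∑ π P (f a - f a')² = ∑_u dir u f / (4 * 2 ^ g)`.  Apply `wmix` with `Γ = 4 * 2 ^ g * Λ`, on `Ω = cb.image List.ofFn` or after transporting the step to `Fin m → ℤ` (compare `R309/Chain.lean`).
Sizes: the length is constant and each entry is an entry of `a0` or lies in `[0, M)` (`OPT.iter`).
-/

set_option autoImplicit false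

namespace Crest.Agent.R302

open Finset Crest.Agent.Lib.PT Crest.Agent.R309

/-- a coin that shows `true` with probability `(1 - 2 ^ (-lg)) ^ min k cap` -/
def coin (lg cap k : ℕ) (ω : List Bool) : Bool :=
  decide (ofBits (ω.take (lg * cap)) < (2 ^ lg - 1) ^ min k cap * (2 ^ lg) ^ (cap - k))

theorem mt_two_pow (lg cap k : ℕ) : 2 ^ (lg * cap) = (2 ^ lg) ^ min k cap * (2 ^ lg) ^ (cap - k) := by
  rw [← pow_add, pow_mul]
  congr 1
  omega

theorem mt_thr_le (lg cap k : ℕ) :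
    (2 ^ lg - 1) ^ min k cap * (2 ^ lg) ^ (cap - k) ≤ 2 ^ (lg * cap) := by
  rw [mt_two_pow lg cap k]
  exact Nat.mul_le_mul_right _ (Nat.pow_le_pow_left (Nat.sub_le _ _) _)

theorem mt_thr_eq (lg cap k : ℕ) :
    (((2 ^ lg - 1) ^ min k cap * (2 ^ lg) ^ (cap - k) : ℕ) : ℝ) / 2 ^ (lg * cap) =
      (1 - 1 / (2 : ℝ) ^ lg) ^ min k cap := by
  have h1 : (2 : ℝ) ^ (lg * cap) = (2 ^ lg) ^ min k cap * (2 ^ lg) ^ (cap - k) := by
    exact_mod_cast mt_two_pow lg cap k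
  have h2 : 1 ≤ 2 ^ lg := Nat.one_le_two_pow
  have h3 : (0 : ℝ) < 2 ^ lg := by positivity
  rw [h1]
  push_cast [Nat.cast_sub h2]
  rw [one_sub_div h3.ne', div_pow]
  field_simp

/-- `Pr_take`, `Pr_ofBits_lt` -/
theorem Pr_coin (lg cap k : ℕ) {n : ℕ} (hn : lg * cap ≤ n) :
    Pr n (fun ω => coin lg cap k ω = true) = (1 - 1 / (2 : ℝ) ^ lg) ^ min k cap := by
  have h1 := Pr_take hn fun l =>
    ofBits l < (2 ^ lg - 1) ^ min k cap * (2 ^ lg) ^ (cap - k)
  rw [Pr_ofBits_lt (mt_thr_le lg cap k), mt_thr_eq] at h1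
  rw [← h1]
  exact Pr_congr fun ω _ => by simp only [coin, decide_eq_true_eq]

theorem coin_pt {α : Type} [Enc α] {lg cap k : α → ℕ} {ω : α → List Bool} (h1 : PT lg) (h1' : PB lg)
    (h2 : PT cap) (h2' : PB cap) (h3 : PT k) (h4 : PT ω) :
    PT fun a => coin (lg a) (cap a) (k a) (ω a) := by
  have e1 : PT fun a => 2 ^ lg a := (PT.const 2).nat_pow h1 h1'
  unfold coin
  exact PT.decide (PT.nat_lt (by fun_prop)
    (((e1.nat_sub (PT.const 1)).nat_pow (h3.nat_min h2) (PB.min_right _ h2')).nat_mul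
      (e1.nat_pow (h2.nat_sub h3) (h2'.sub _))))

/-- the box `[0, M) ^ m` -/
noncomputable def cb (m M : ℕ) : Finset (Fin m → ℤ) := box 0 fun _ => (M : ℤ) - 1

/-- the coordinate to be changed -/
def mt_u (g : ℕ) (ω : List Bool) : ℕ := ofBits ((ω.drop 2).take g)

/-- the direction -/
def mt_sg (b : Bool) : ℤ := if b = true then 1 else -1

/-- the proposed value -/
def mt_v (g : ℕ) (a : List ℤ) (ω : List Bool) : ℤ :=
  a.getD (mt_u g ω) 0 + mt_sg (ω.getD 1 false)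

/-- the proposed state -/
def mt_prop (g : ℕ) (a : List ℤ) (ω : List Bool) : List ℤ := a.set (mt_u g ω) (mt_v g a ω)

/-- accept or reject, given the two energies -/
def mt_acc (g lg cap M : ℕ) (a : List ℤ) (ω : List Bool) (e e' : ℤ) : List ℤ :=
  if ω.getD 0 false = true ∧ mt_u g ω < a.length ∧ 0 ≤ mt_v g a ω ∧ mt_v g a ω < M ∧
    coin lg cap (e' - e).toNat (ω.drop (2 + g)) = true then mt_prop g a ω else a

/-- one step -/
def mt_step (en : List ℤ → ℤ) (g lg cap M : ℕ) (a : List ℤ) (ω : List Bool) : List ℤ :=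
  mt_acc g lg cap M a ω (en a) (en (mt_prop g a ω))

/-- the chain -/
def mt_run (en : List ℤ → ℤ) (p : (Un × Un × Un × Un × ℕ) × List ℤ × List Bool) : List ℤ :=
  iter (mt_step en p.1.1.n p.1.2.1.n p.1.2.2.1.n p.1.2.2.2.2)
    (2 + p.1.1.n + p.1.2.1.n * p.1.2.2.1.n) p.1.2.2.2.1.n p.2.1 p.2.2

section pt

variable {α : Type} [Enc α]

theorem mt_u_pt {g : α → ℕ} {ω : α → List Bool} (hg : PT g) (hω : PT ω) :
    PT fun a => mt_u (g a) (ω a) := by
  unfold mt_u; fun_prop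

theorem mt_v_pt {g : α → ℕ} {x : α → List ℤ} {ω : α → List Bool} (hg : PT g) (hx : PT x)
    (hω : PT ω) : PT fun a => mt_v (g a) (x a) (ω a) := by
  have := mt_u_pt hg hω
  unfold mt_v mt_sg; fun_prop

theorem mt_prop_pt {g : α → ℕ} {x : α → List ℤ} {ω : α → List Bool} (hg : PT g) (hx : PT x)
    (hω : PT ω) : PT fun a => mt_prop (g a) (x a) (ω a) :=
  hx.set (mt_u_pt hg hω) (mt_v_pt hg hx hω)

theorem mt_acc_pt {g lg cap M : α → ℕ} {x : α → List ℤ} {ω : α → List Bool} {e e' : α → ℤ}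
    (hg : PT g) (h1 : PT lg) (h1' : PB lg) (h2 : PT cap) (h2' : PB cap) (hM : PT M) (hx : PT x)
    (hω : PT ω) (he : PT e) (he' : PT e') :
    PT fun a => mt_acc (g a) (lg a) (cap a) (M a) (x a) (ω a) (e a) (e' a) := by
  have a1 := mt_u_pt hg hω
  have a2 := mt_v_pt hg hx hω
  have a3 := mt_prop_pt hg hx hω
  have a4 : PT fun a => coin (lg a) (cap a) (e' a - e a).toNat ((ω a).drop (2 + g a)) :=
    coin_pt h1 h1' h2 h2' (by fun_prop) (by fun_prop)
  unfold mt_acc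
  exact PT.ite (PT.and (PT.eq_true (by fun_prop)) (PT.and (a1.nat_lt hx.length)
    (PT.and ((PT.const 0).int_le a2) (PT.and (a2.int_lt hM.int_natCast) a4.eq_true)))) a3 hx

end pt

theorem mt_hopt : HOPT mt_run := by
  intro α _ h hh
  refine OPT.iter (α := α × (Un × Un × Un × Un × ℕ) × List ℤ × List Bool)
    (f := fun O p c ω => mt_step (h O p.1) p.2.1.1.n p.2.1.2.1.n p.2.1.2.2.1.n p.2.1.2.2.2.2 c ω)
    (ρ := fun p => 2 + p.2.1.1.n + p.2.1.2.1.n * p.2.1.2.2.1.n) (t := fun p => p.2.1.2.2.2.1.n)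
    (s := fun _ p => p.2.2.1) (l := fun p => p.2.2.2) ?_ (by fun_prop) (by fun_prop) (by fun_prop)
    (OPT.pure (by fun_prop)) (by fun_prop)
    (fun _ p _ c => c.length = p.2.2.1.length ∧
      ∀ z ∈ c, sz z ≤ sz p.2.2.1 + 2 * sz p.2.1.2.2.2.2 + 4) ?_ ?_
    (B := fun p => p.2.2.1.length * (sz p.2.2.1 + 2 * sz p.2.1.2.2.2.2 + 4 + 1) + 1)
    (by fun_prop) ?_
  · refine OPT.cont₂
      (α := (α × (Un × Un × Un × Un × ℕ) × List ℤ × List Bool) × List ℤ × List Bool)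
      (f := fun O q => h O q.1.1 q.2.1)
      (f' := fun O q => h O q.1.1 (mt_prop q.1.2.1.1.n q.2.1 q.2.2))
      (g := fun q e e' => mt_acc q.1.2.1.1.n q.1.2.1.2.1.n q.1.2.1.2.2.1.n q.1.2.1.2.2.2.2
        q.2.1 q.2.2 e e')
      (hh.call (by fun_prop) (by fun_prop))
      (hh.call (by fun_prop) (mt_prop_pt (by fun_prop) (by fun_prop) (by fun_prop))) ?_
    exact mt_acc_pt (by fun_prop) (by fun_prop) (by fun_prop) (by fun_prop) (by fun_prop)
      (by fun_prop) (by fun_prop) (by fun_prop) (by fun_prop) (by fun_prop)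
  · intro O p
    refine ⟨rfl, fun z hz => ?_⟩
    have := sz_le_of_mem hz
    omega
  · rintro O p k c ω ⟨h1, h2⟩
    unfold mt_step mt_acc
    split_ifs with h3
    · refine ⟨by rw [mt_prop, List.length_set, h1], fun z hz => ?_⟩
      rcases List.mem_or_eq_of_mem_set hz with hz | rfl
      · exact h2 z hz
      · have := sz_int_le_of_le (z := mt_v p.2.1.1.n c ω) (n := p.2.1.2.2.2.2) (by omega)
        omega
    · exact ⟨h1, h2⟩
  · rintro O p k c - ⟨h1, h2⟩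
    have := sz_list_le h2
    rwa [h1] at this

/-- a unit move -/
def mt_mv {m : ℕ} (x : Fin m → ℤ) (u : Fin m) (b : Bool) : Fin m → ℤ := x + mt_sg b • dl u

/-- the step on vectors -/
noncomputable def mt_st {m : ℕ} (g lg cap M : ℕ) (E : (Fin m → ℤ) → ℤ) (x : Fin m → ℤ)
    (ω : List Bool) : Fin m → ℤ :=
  if h : mt_u g ω < m then
    if ω.getD 0 false = true ∧ mt_mv x ⟨mt_u g ω, h⟩ (ω.getD 1 false) ∈ cb m M ∧
      coin lg cap (E (mt_mv x ⟨mt_u g ω, h⟩ (ω.getD 1 false)) - E x).toNat (ω.drop (2 + g)) = true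
    then mt_mv x ⟨mt_u g ω, h⟩ (ω.getD 1 false) else x
  else x

section chain

variable {m g lg cap M : ℕ} {E : (Fin m → ℤ) → ℤ}

theorem mt_mem_cb {x : Fin m → ℤ} : x ∈ cb m M ↔ ∀ u, 0 ≤ x u ∧ x u < M := by
  unfold cb
  rw [mem_box]
  exact forall_congr' fun u => and_congr Iff.rfl (by omega)

theorem mt_mv_apply (x : Fin m → ℤ) (u : Fin m) (b : Bool) (i : Fin m) :
    mt_mv x u b i = x i + if i = u then mt_sg b else 0 := by
  simp [mt_mv, dl_apply]

theorem mt_sg_ne (b : Bool) : mt_sg b ≠ 0 := by cases b <;> simp [mt_sg]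

theorem mt_mv_not (x : Fin m → ℤ) (u : Fin m) (b : Bool) : mt_mv (mt_mv x u b) u (!b) = x := by
  funext i
  rw [mt_mv_apply, mt_mv_apply]
  cases b <;> split_ifs <;> simp [mt_sg]

theorem mt_mv_ne (x : Fin m → ℤ) (u : Fin m) (b : Bool) : mt_mv x u b ≠ x := by
  intro h
  have := congrFun h u
  rw [mt_mv_apply, if_pos rfl] at this
  exact mt_sg_ne b (by omega)

theorem mt_mv_inj {x : Fin m → ℤ} {u u' : Fin m} {b b' : Bool} (h : mt_mv x u' b' = mt_mv x u b) :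
    u' = u ∧ b' = b := by
  have h1 := congrFun h u
  rw [mt_mv_apply, mt_mv_apply, if_pos rfl] at h1
  by_cases hu : u = u'
  · rw [if_pos hu] at h1
    refine ⟨hu.symm, ?_⟩
    revert h1
    cases b <;> cases b' <;> simp [mt_sg]
  · rw [if_neg hu] at h1
    exact absurd (by omega) (mt_sg_ne b)

theorem mt_ofFn {a : List ℤ} (ha : a.length = m) : List.ofFn (vec m a) = a :=
  eq_of_vec (by simp) ha (vec_ofFn _)

theorem mt_vec_prop {a : List ℤ} (ha : a.length = m) {ω : List Bool} (h : mt_u g ω < m) :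
    vec m (mt_prop g a ω) = mt_mv (vec m a) ⟨mt_u g ω, h⟩ (ω.getD 1 false) := by
  funext i
  rw [mt_mv_apply]
  unfold vec mt_prop mt_v
  rw [List.getD_eq_getElem?_getD, List.getElem?_set]
  by_cases hi : mt_u g ω = i.val
  · rw [if_pos hi, if_pos (ha ▸ h), if_pos (Fin.ext hi.symm), hi]
    rfl
  · rw [if_neg hi, if_neg fun e => hi (by rw [e]), add_zero, List.getD_eq_getElem?_getD]

theorem mt_st_mem {x : Fin m → ℤ} (hx : x ∈ cb m M) (ω : List Bool) :
    mt_st g lg cap M E x ω ∈ cb m M := by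
  unfold mt_st
  split_ifs with h1 h2
  · exact h2.2.1
  · exact hx
  · exact hx

theorem mt_step_eq {en : List ℤ → ℤ}
    (hen : ∀ a, a.length = m → vec m a ∈ cb m M → en a = E (vec m a)) {a : List ℤ}
    (ha : a.length = m) (hb : vec m a ∈ cb m M) (ω : List Bool) :
    (mt_step en g lg cap M a ω).length = m ∧
      vec m (mt_step en g lg cap M a ω) = mt_st g lg cap M E (vec m a) ω := by
  have hl : (mt_prop g a ω).length = m := by rw [mt_prop, List.length_set, ha]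
  constructor
  · unfold mt_step mt_acc
    split_ifs
    · exact hl
    · exact ha
  · unfold mt_step mt_acc mt_st
    by_cases h : mt_u g ω < m
    · rw [dif_pos h, ← mt_vec_prop ha h]
      have hv : vec m (mt_prop g a ω) ∈ cb m M ↔ 0 ≤ mt_v g a ω ∧ mt_v g a ω < M := by
        rw [mt_vec_prop ha h, mt_mem_cb]
        constructor
        · intro h1
          have := h1 ⟨mt_u g ω, h⟩
          rwa [mt_mv_apply, if_pos rfl] at this
        · intro h1 i
          rw [mt_mv_apply]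
          split_ifs with hi
          · subst hi
            exact h1
          · rw [add_zero]
            exact mt_mem_cb.1 hb i
      by_cases h2 : vec m (mt_prop g a ω) ∈ cb m M
      · rw [hen a ha hb, hen _ hl h2]
        have h3 := hv.1 h2
        simp only [ha, h, h3, h2, true_and]
        split_ifs <;> rfl
      · rw [if_neg fun h3 => h2 (hv.2 ⟨h3.2.2.1, h3.2.2.2.1⟩), if_neg fun h3 => h2 h3.2.1]
    · rw [dif_neg h, if_neg fun h3 => h (ha ▸ h3.2.1)]

theorem mt_iter {en : List ℤ → ℤ}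
    (hen : ∀ a, a.length = m → vec m a ∈ cb m M → en a = E (vec m a)) {a : List ℤ}
    (ha : a.length = m) (hb : vec m a ∈ cb m M) (ρ t : ℕ) (l : List Bool) :
    (iter (mt_step en g lg cap M) ρ t a l).length = m ∧
      vec m (iter (mt_step en g lg cap M) ρ t a l) ∈ cb m M ∧
      vec m (iter (mt_step en g lg cap M) ρ t a l) = iter (mt_st g lg cap M E) ρ t (vec m a) l := by
  induction t with
  | zero => exact ⟨ha, hb, rfl⟩
  | succ t ih =>
    obtain ⟨h1, h2, h3⟩ := ih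
    rw [iter_succ', iter_succ', ← h3]
    obtain ⟨h4, h5⟩ := mt_step_eq (g := g) (lg := lg) (cap := cap) hen h1 h2
      ((l.drop (t * ρ)).take ρ)
    exact ⟨h4, h5 ▸ mt_st_mem h2 _, h5⟩

theorem mt_lazy (x : Fin m → ℤ) :
    1 / 2 ≤ Pr (2 + g + lg * cap) fun ω => mt_st g lg cap M E x ω = x := by
  obtain ⟨n, hn⟩ : ∃ n, 2 + g + lg * cap = n + 1 := ⟨1 + g + lg * cap, by omega⟩
  rw [hn]
  have h2 : Ex n (fun l => ind (mt_st g lg cap M E x (false :: l) = x)) = 1 :=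
    Pr_true fun l _ => by
      unfold mt_st
      split_ifs with h1 h2
      · exact absurd h2.1 (by simp)
      · rfl
      · rfl
  have h3 : 0 ≤ Ex n (fun l => ind (mt_st g lg cap M E x (true :: l) = x)) := Pr_nonneg _ _
  unfold Pr
  simp only [Ex]
  linarith

theorem mt_Pr4 {u : ℕ} (b : Bool) (hu : u < 2 ^ g) (k : ℕ) :
    Pr (2 + g + lg * cap) (fun ω => ω.getD 0 false = true ∧ ω.getD 1 false = b ∧
      mt_u g ω = u ∧ coin lg cap k (ω.drop (2 + g)) = true) =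
      1 / 4 * (1 / 2 ^ g) * (1 - 1 / (2 : ℝ) ^ lg) ^ min k cap := by
  have hn : 2 + g + lg * cap = g + lg * cap + 1 + 1 := by omega
  rw [hn]
  have key : Ex (g + lg * cap) (fun l => ind (ofBits (l.take g) = u ∧
      coin lg cap k (l.drop g) = true)) = (1 / 2 ^ g) * (1 - 1 / (2 : ℝ) ^ lg) ^ min k cap := by
    simp only [ind_and]
    rw [Ex_take_drop (k := g) (by omega)
      (fun l l' => ind (ofBits l = u) * ind (coin lg cap k l' = true))]
    simp only [Ex_mul_left]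
    rw [Ex_mul_right]
    have e1 := Pr_ofBits_eq hu
    have e2 := Pr_coin lg cap k (n := g + lg * cap - g) (by omega)
    unfold Pr at e1 e2
    rw [e1, e2]
  have e : ∀ (c d : Bool) (l : List Bool), (c :: d :: l).drop (2 + g) = l.drop g := by
    intro c d l
    rw [Nat.add_comm]; rfl
  have z : Ex (g + lg * cap) (fun _ => ind False) = 0 := by rw [ind_neg not_false, Ex_const]
  generalize (1 - 1 / (2 : ℝ) ^ lg) ^ min k cap = w at key
  unfold Pr mt_u
  cases b <;> simp [Ex, e, key, z] <;> ring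

theorem mt_min {q : ℝ} (h0 : 0 < q) (h1 : q ≤ 1) (a b : ℤ) :
    q ^ a * q ^ (b - a).toNat = min (q ^ a) (q ^ b) := by
  rcases le_total a b with hab | hab
  · rw [min_eq_right (zpow_le_zpow_right_of_le_one₀ h0 h1 hab), ← zpow_natCast,
      Int.toNat_of_nonneg (sub_nonneg.2 hab), ← zpow_add₀ h0.ne']
    congr 1; ring
  · rw [min_eq_left (zpow_le_zpow_right_of_le_one₀ h0 h1 hab),
      Int.toNat_eq_zero.2 (sub_nonpos.2 hab)]
    simp

theorem mt_move (hg : m ≤ 2 ^ g) (hq : 0 < 1 - 1 / (2 : ℝ) ^ lg)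
    (hcap : ∀ a ∈ cb m M, ∀ a' ∈ cb m M, E a - E a' ≤ cap) {x : Fin m → ℤ} (hx : x ∈ cb m M)
    {u : Fin m} {b : Bool} (hy : mt_mv x u b ∈ cb m M) :
    (1 - 1 / (2 : ℝ) ^ lg) ^ E x *
        Pr (2 + g + lg * cap) (fun ω => mt_st g lg cap M E x ω = mt_mv x u b) =
      min ((1 - 1 / (2 : ℝ) ^ lg) ^ E x) ((1 - 1 / (2 : ℝ) ^ lg) ^ E (mt_mv x u b)) /
        (4 * 2 ^ g) := by
  have hk : (E (mt_mv x u b) - E x).toNat ≤ cap := by
    rw [Int.toNat_le]
    exact hcap _ hy _ hx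
  have h1 : Pr (2 + g + lg * cap) (fun ω => mt_st g lg cap M E x ω = mt_mv x u b) =
      Pr (2 + g + lg * cap) (fun ω => ω.getD 0 false = true ∧ ω.getD 1 false = b ∧
        mt_u g ω = u ∧ coin lg cap (E (mt_mv x u b) - E x).toNat (ω.drop (2 + g)) = true) := by
    refine Pr_congr fun ω _ => ?_
    unfold mt_st
    constructor
    · intro h2
      split_ifs at h2 with h3 h4
      · obtain ⟨e1, e2⟩ := mt_mv_inj h2
        refine ⟨h4.1, e2, congrArg Fin.val e1, ?_⟩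
        have := h4.2.2
        rwa [h2] at this
      · exact absurd h2.symm (mt_mv_ne _ _ _)
      · exact absurd h2.symm (mt_mv_ne _ _ _)
    · rintro ⟨a1, a2, a3, a4⟩
      have h3 : mt_u g ω < m := a3 ▸ u.2
      have e : (⟨mt_u g ω, h3⟩ : Fin m) = u := Fin.ext a3
      rw [dif_pos h3, e, a2, if_pos ⟨a1, hy, a4⟩]
  rw [h1, mt_Pr4 b (u.2.trans_le hg), min_eq_left hk,
    ← mt_min hq (sub_le_self _ (by positivity))]
  field_simp

theorem mt_zero {x y : Fin m → ℤ} (hne : x ≠ y) (h : ¬ ∃ u b, y = mt_mv x u b) (ρ : ℕ) :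
    Pr ρ (fun ω => mt_st g lg cap M E x ω = y) = 0 := by
  refine Pr_false fun ω _ e => ?_
  unfold mt_st at e
  split_ifs at e with h1 h2
  · exact h ⟨_, _, e.symm⟩
  · exact hne e
  · exact hne e

theorem mt_rev (hg : m ≤ 2 ^ g) (hq : 0 < 1 - 1 / (2 : ℝ) ^ lg)
    (hcap : ∀ a ∈ cb m M, ∀ a' ∈ cb m M, E a - E a' ≤ cap) {x y : Fin m → ℤ} (hx : x ∈ cb m M)
    (hy : y ∈ cb m M) :
    (1 - 1 / (2 : ℝ) ^ lg) ^ E x * Pr (2 + g + lg * cap) (fun ω => mt_st g lg cap M E x ω = y) =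
      (1 - 1 / (2 : ℝ) ^ lg) ^ E y *
        Pr (2 + g + lg * cap) fun ω => mt_st g lg cap M E y ω = x := by
  by_cases hne : x = y
  · rw [hne]
  by_cases h1 : ∃ u b, y = mt_mv x u b
  · obtain ⟨u, b, rfl⟩ := h1
    have h2 := mt_move hg hq hcap hy (u := u) (b := !b) (by rwa [mt_mv_not])
    rw [mt_mv_not] at h2
    rw [mt_move hg hq hcap hx hy, h2, min_comm]
  · have h2 : ¬ ∃ u b, x = mt_mv y u b := by
      rintro ⟨u, b, rfl⟩
      exact h1 ⟨u, !b, (mt_mv_not _ _ _).symm⟩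
    rw [mt_zero hne h1, mt_zero (Ne.symm hne) h2, mul_zero, mul_zero]

theorem mt_dir (π f : (Fin m → ℤ) → ℝ) (u : Fin m) (b : Bool) :
    ∑ x ∈ (cb m M).filter (fun x => mt_mv x u b ∈ cb m M),
      min (π x) (π (mt_mv x u b)) * (f x - f (mt_mv x u b)) ^ 2 =
      dir 0 (fun _ => (M : ℤ) - 1) π u f := by
  have h1 : ∑ x ∈ (cb m M).filter (fun x => mt_mv x u true ∈ cb m M),
      min (π x) (π (mt_mv x u true)) * (f x - f (mt_mv x u true)) ^ 2 =
      dir 0 (fun _ => (M : ℤ) - 1) π u f := by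
    have e : ∀ x : Fin m → ℤ, mt_mv x u true = x + dl u := fun x => by simp [mt_mv, mt_sg]
    unfold dir
    refine Finset.sum_congr (Finset.filter_congr fun x hx => ?_) fun x _ => ?_
    · have hx' := mt_mem_cb.1 hx
      rw [mt_mem_cb]
      beta_reduce
      constructor
      · intro h
        have := h u
        rw [mt_mv_apply, if_pos rfl] at this
        simp only [mt_sg, if_true] at this
        omega
      · intro h i
        have := hx' i
        rw [mt_mv_apply]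
        split_ifs with hi
        · subst hi
          simp only [mt_sg, if_true]
          omega
        · omega
    · rw [e]
      ring
  cases b
  · rw [← h1]
    refine Finset.sum_nbij' (fun x => mt_mv x u false) (fun x => mt_mv x u true) ?_ ?_ ?_ ?_ ?_
    · intro x hx
      obtain ⟨a1, a2⟩ := mem_filter.1 hx
      exact mem_filter.2 ⟨a2, (mt_mv_not x u false).symm ▸ a1⟩
    · intro x hx
      obtain ⟨a1, a2⟩ := mem_filter.1 hx
      exact mem_filter.2 ⟨a2, (mt_mv_not x u true).symm ▸ a1⟩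
    · exact fun x _ => mt_mv_not x u false
    · exact fun x _ => mt_mv_not x u true
    · intro x _
      have : mt_mv (mt_mv x u false) u true = x := mt_mv_not x u false
      rw [this, min_comm]
      ring
  · exact h1

theorem mt_poin (hg : m ≤ 2 ^ g) (hq : 0 < 1 - 1 / (2 : ℝ) ^ lg)
    (hcap : ∀ a ∈ cb m M, ∀ a' ∈ cb m M, E a - E a' ≤ cap) (f : (Fin m → ℤ) → ℝ) :
    (2 * ∑ u, dir 0 (fun _ => (M : ℤ) - 1) (fun a => (1 - 1 / (2 : ℝ) ^ lg) ^ E a) u f) /
        (4 * 2 ^ g) ≤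
      ∑ x ∈ cb m M, ∑ y ∈ cb m M, (1 - 1 / (2 : ℝ) ^ lg) ^ E x *
        Pr (2 + g + lg * cap) (fun ω => mt_st g lg cap M E x ω = y) * (f x - f y) ^ 2 := by
  have h1 : ∀ x ∈ cb m M, ∑ p ∈ (univ : Finset (Fin m × Bool)).filter
      (fun p => mt_mv x p.1 p.2 ∈ cb m M),
      min ((1 - 1 / (2 : ℝ) ^ lg) ^ E x) ((1 - 1 / (2 : ℝ) ^ lg) ^ E (mt_mv x p.1 p.2)) *
        (f x - f (mt_mv x p.1 p.2)) ^ 2 / (4 * 2 ^ g) ≤
      ∑ y ∈ cb m M, (1 - 1 / (2 : ℝ) ^ lg) ^ E x *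
        Pr (2 + g + lg * cap) (fun ω => mt_st g lg cap M E x ω = y) * (f x - f y) ^ 2 := by
    intro x hx
    refine le_trans (le_of_eq ?_) (Finset.sum_le_sum_of_subset_of_nonneg
      (s := ((univ : Finset (Fin m × Bool)).filter (fun p => mt_mv x p.1 p.2 ∈ cb m M)).image
        fun p => mt_mv x p.1 p.2) ?_ ?_)
    · rw [Finset.sum_image fun p _ p' _ e => Prod.ext (mt_mv_inj e).1 (mt_mv_inj e).2]
      refine Finset.sum_congr rfl fun p hp => ?_
      rw [mt_move hg hq hcap hx (mem_filter.1 hp).2]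
      ring
    · intro y hy
      obtain ⟨p, hp, rfl⟩ := mem_image.1 hy
      exact (mem_filter.1 hp).2
    · intro y _ _
      exact mul_nonneg (mul_nonneg (zpow_pos hq _).le (Pr_nonneg _ _)) (sq_nonneg _)
  refine le_trans (le_of_eq ?_) (Finset.sum_le_sum h1)
  simp only [← Finset.sum_div]
  congr 1
  simp only [Finset.sum_filter]
  rw [Finset.sum_comm, Fintype.sum_prod_type, Finset.mul_sum]
  refine Finset.sum_congr rfl fun u _ => ?_
  simp only [← Finset.sum_filter]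
  rw [Fintype.sum_bool, mt_dir (fun a => (1 - 1 / (2 : ℝ) ^ lg) ^ E a),
    mt_dir (fun a => (1 - 1 / (2 : ℝ) ^ lg) ^ E a)]
  ring

end chain

theorem exists_metro :
    ∃ run : (List ℤ → ℤ) → (Un × Un × Un × Un × ℕ) × List ℤ × List Bool → List ℤ, HOPT run ∧
    ∀ (m g lg cap t M : ℕ) (en : List ℤ → ℤ) (a0 : List ℤ), a0.length = m → vec m a0 ∈ cb m M →
      (∀ l, (run en ((⟨g⟩, ⟨lg⟩, ⟨cap⟩, ⟨t⟩, M), a0, l)).length = m ∧
        vec m (run en ((⟨g⟩, ⟨lg⟩, ⟨cap⟩, ⟨t⟩, M), a0, l)) ∈ cb m M) ∧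
      ∀ (E : (Fin m → ℤ) → ℤ) (Λ ε : ℝ), m ≤ 2 ^ g → 1 ≤ lg →
        (∀ a, a.length = m → vec m a ∈ cb m M → en a = E (vec m a)) →
        (∀ a ∈ cb m M, ∀ a' ∈ cb m M, E a - E a' ≤ cap) → 1 ≤ Λ → 0 ≤ ε →
        WPoin 0 (fun _ => (M : ℤ) - 1) (fun a => (1 - 1 / (2 : ℝ) ^ lg) ^ E a) (fun _ => Λ) ε →
        ∀ φ : (Fin m → ℤ) → ℝ, (∀ a ∈ cb m M, 0 ≤ φ a ∧ φ a ≤ 1) →
        ∀ n, t * (2 + g + lg * cap) ≤ n →
          (1 - 1 / (2 : ℝ) ^ lg) ^ E (vec m a0) *
            (Ex n (fun l => φ (vec m (run en ((⟨g⟩, ⟨lg⟩, ⟨cap⟩, ⟨t⟩, M), a0, l)))) -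
              (∑ a ∈ cb m M, (1 - 1 / (2 : ℝ) ^ lg) ^ E a * φ a) /
                ∑ a ∈ cb m M, (1 - 1 / (2 : ℝ) ^ lg) ^ E a) ^ 2 ≤
          Real.exp (- (t / (4 * 2 ^ g * Λ))) * ∑ a ∈ cb m M, (1 - 1 / (2 : ℝ) ^ lg) ^ E a + ε := by
  refine ⟨mt_run, mt_hopt, fun m g lg cap t M en a0 h0 hb0 => ⟨fun l => ?_, ?_⟩⟩
  · obtain ⟨h1, h2, -⟩ := mt_iter (g := g) (lg := lg) (cap := cap) (en := en)
      (E := fun x => en (List.ofFn x)) (fun a ha _ => by rw [mt_ofFn ha]) h0 hb0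
      (2 + g + lg * cap) t l
    exact ⟨h1, h2⟩
  · intro E Λ ε hg hlg hen hcap hΛ hε hP φ hφ n hn
    have h2 : (1 : ℝ) < 2 ^ lg := one_lt_pow₀ one_lt_two (by omega)
    have hq0 : 0 < 1 - 1 / (2 : ℝ) ^ lg := by
      rw [sub_pos, div_lt_one (by positivity)]
      exact h2
    have hq1 : 1 - 1 / (2 : ℝ) ^ lg ≤ 1 := sub_le_self _ (by positivity)
    have hG : (1 : ℝ) ≤ 2 ^ g := one_le_pow₀ one_le_two
    have e1 : Ex n (fun l => φ (vec m (mt_run en ((⟨g⟩, ⟨lg⟩, ⟨cap⟩, ⟨t⟩, M), a0, l)))) =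
        Ex (t * (2 + g + lg * cap)) fun l =>
          φ (iter (mt_st g lg cap M E) (2 + g + lg * cap) t (vec m a0) l) := by
      rw [← Ex_iter _ _ hn]
      refine Ex_congr fun l _ => congrArg φ ?_
      exact (mt_iter hen h0 hb0 (2 + g + lg * cap) t l).2.2
    rw [e1]
    refine wmix (cb m M) (mt_st g lg cap M E) (2 + g + lg * cap)
      (fun a => (1 - 1 / (2 : ℝ) ^ lg) ^ E a) (4 * 2 ^ g * Λ) ε (by nlinarith) hε
      (fun x _ => zpow_pos hq0 _) (fun x hx ω _ => mt_st_mem hx ω) (fun x _ => mt_lazy x)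
      (fun x hx y hy => mt_rev hg hq0 hcap hx hy) (fun f hf => ?_) φ hφ t _ hb0
    obtain ⟨c, hc⟩ := hP f hf
    refine ⟨c, hc.trans (add_le_add_left ?_ ε)⟩
    have h3 := mt_poin hg hq0 hcap f
    rw [← Finset.mul_sum]
    have h4 : (0 : ℝ) < 4 * 2 ^ g := by positivity
    rw [div_le_iff₀ h4] at h3
    have h5 := mul_le_mul_of_nonneg_left h3 (show 0 ≤ Λ / 2 by linarith)
    calc _ = Λ / 2 * (2 * ∑ u, dir 0 (fun _ => (M : ℤ) - 1)
          (fun a => (1 - 1 / (2 : ℝ) ^ lg) ^ E a) u f) := by ring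
      _ ≤ _ := h5
      _ = _ := by ring

end Crest.Agent.R302
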