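import Crest.Agent.R302.Marg
import Crest.Agent.R302.BL
import Crest.Agent.R302.Tail
import Crest.Agent.R302.Lip

/-!
# R302/Transfer: the weak Poincaré inequalities of the fine and the coarse weights
-/

set_option autoImplicit false
set_option linter.unusedSectionVars false

namespace Crest.Agent.R302

open Finset Crest.Agent.R309

theorem tr_inj {α β : Type} [DecidableEq β] {A : Finset α} {B : Finset β} (m : α → β)
    (hm : Function.Injective m) (hAB : ∀ a ∈ A, m a ∈ B) (g : β → ℝ) (hg : ∀ b, 0 ≤ g b) :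
    ∑ a ∈ A, g (m a) ≤ ∑ b ∈ B, g b := by
  rw [← sum_image (f := g) (s := A) (g := m) fun _ _ _ _ e => hm e]
  refine sum_le_sum_of_subset_of_nonneg ?_ fun b _ _ => hg b
  intro b hb
  obtain ⟨a, ha, rfl⟩ := mem_image.1 hb
  exact hAB a ha

theorem tr_sq4 {a b : ℝ} (ha : |a| ≤ 1) (hb : |b| ≤ 1) : (a - b) ^ 2 ≤ 4 := by
  obtain ⟨h1, h2⟩ := abs_le.1 ha
  obtain ⟨h3, h4⟩ := abs_le.1 hb
  nlinarith

theorem tr_clamp {a : ℝ} (ha : |a| ≤ 1) (c : ℝ) : (a - max (-1) (min 1 c)) ^ 2 ≤ (a - c) ^ 2 := by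
  obtain ⟨h1, h2⟩ := abs_le.1 ha
  rcases le_total c 1 with h | h
  · rw [min_eq_right h]
    rcases le_total (-1) c with h' | h'
    · rw [max_eq_right h']
    · rw [max_eq_left h']
      nlinarith
  · rw [min_eq_left h, max_eq_right (by norm_num)]
    nlinarith

namespace Sys

variable {U E : Type} [Fintype U] [DecidableEq U] [Fintype E] [DecidableEq E] {S : Sys U E}
  {φ : E → ℤ}

theorem tr_pt_inj (S : Sys U E) : Function.Injective S.pt := fun a b e => by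
  rw [← S.y_pt a, e, S.y_pt]

theorem tr_y_inj (S : Sys U E) : Function.Injective S.y := fun a b e => by
  rw [← S.pt_y a, e, S.pt_y]

theorem tr_y_ed (S : Sys U E) (σ : U → ℤ) (u : U) : S.y (σ + S.F.ed u) = S.y σ + dl u := by
  conv_lhs => rw [← S.pt_y σ, ← S.pt_add_dl, S.y_pt]

theorem tr_lt {y : U → ℤ} {u : U} (hy : y + dl u ∈ S.fbx) : y u < S.hiF u := by
  have := (mem_box.1 hy u).2
  simp only [Pi.add_apply, dl_self] at this
  omega

theorem tr_piF_y (S : Sys U E) (φ : E → ℤ) (σ : U → ℤ) : S.piF φ (S.y σ) = S.q ^ S.Ent φ σ := by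
  unfold piF
  rw [S.pt_y]

open Classical in
/-- the pointwise bound of `var_le` -/
theorem Good.tr_point (h : S.Good) (hφ : S.Adm φ) (f : (U → ℤ) → ℝ) (hf : ∀ y, |f y| ≤ 1) {c : ℝ}
    (hc : |c| ≤ 1) (y : U → ℤ) :
    S.piF φ y * (f y - c) ^ 2 ≤ 4 * Real.exp (- (S.G : ℝ) ^ 3) +
      2 * (Real.exp (- S.Er φ (S.pt y)) * (f (S.y (S.pt y)) - c) ^ 2) +
      2 * ∑ C, (if y C < S.hiF C then
        min (S.piF φ y) (S.piF φ (y + dl C)) * (f (y + dl C) - f y) ^ 2 else 0) +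
      4 * ∑ C, (if S.pt (y + dl C) ∈ S.big then
        Real.exp (- S.Er φ (S.pt (y + dl C))) * (f (S.y (S.pt (y + dl C))) - c) ^ 2 else 0) := by
  have p0 : 0 ≤ 4 * Real.exp (- (S.G : ℝ) ^ 3) := by positivity
  have p1 : 0 ≤ 2 * (Real.exp (- S.Er φ (S.pt y)) * (f (S.y (S.pt y)) - c) ^ 2) := by positivity
  have q2 : ∀ C, 0 ≤ (if y C < S.hiF C then
      min (S.piF φ y) (S.piF φ (y + dl C)) * (f (y + dl C) - f y) ^ 2 else 0) := fun C => by
    split_ifs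
    · exact mul_nonneg (le_min (h.piF_pos φ _).le (h.piF_pos φ _).le) (sq_nonneg _)
    · exact le_rfl
  have q3 : ∀ C, 0 ≤ (if S.pt (y + dl C) ∈ S.big then
      Real.exp (- S.Er φ (S.pt (y + dl C))) * (f (S.y (S.pt (y + dl C))) - c) ^ 2 else 0) :=
    fun C => by
      split_ifs
      · positivity
      · exact le_rfl
  have p2 := sum_nonneg fun C (_ : C ∈ univ) => q2 C
  have p3 := sum_nonneg fun C (_ : C ∈ univ) => q3 C
  rcases S.Ent_cases φ (S.pt y) with e | ⟨_, e⟩ | ⟨C, hC, hg, e⟩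
  · have h1 : S.piF φ y ≤ Real.exp (- (S.G : ℝ) ^ 3) := by
      unfold piF
      rw [e]
      exact h.q_NL
    have h2 := tr_sq4 (hf y) hc
    have h3 : S.piF φ y * (f y - c) ^ 2 ≤ Real.exp (- (S.G : ℝ) ^ 3) * 4 :=
      mul_le_mul h1 h2 (sq_nonneg _) (Real.exp_pos _).le
    linarith
  · have h1 : S.piF φ y ≤ 2 * Real.exp (- S.Er φ (S.pt y)) := by
      unfold piF
      rw [e]
      exact (h.exp_le_q φ _).2
    have h3 := mul_le_mul_of_nonneg_right h1 (sq_nonneg (f y - c))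
    rw [S.y_pt] at p1 ⊢
    linarith
  · have e1 : S.pt (y + dl C) = S.pt y + dl C := by rw [S.pt_add_dl, S.F.ed_root hC]
    rw [← e1] at hg e
    have hb := h.big_of_gd hφ hg
    have hx := h.fbx_of_gd hφ hg
    rw [S.y_pt] at hx
    have h1 : S.piF φ y = S.q ^ S.En φ (S.pt (y + dl C)) := by
      unfold piF
      rw [e]
    have h2 : S.piF φ y ≤ S.piF φ (y + dl C) := by
      rw [h1]
      exact h.q_anti (S.Ent_le_En φ _)
    have h3 : S.piF φ y ≤ 2 * Real.exp (- S.Er φ (S.pt (y + dl C))) := by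
      rw [h1]
      exact (h.exp_le_q φ _).2
    have r2 := single_le_sum (fun C (_ : C ∈ univ) => q2 C) (mem_univ C)
    have r3 := single_le_sum (fun C (_ : C ∈ univ) => q3 C) (mem_univ C)
    simp only [if_pos (tr_lt hx), min_eq_left h2] at r2
    simp only [if_pos hb] at r3
    rw [S.y_pt] at r3
    have h4 : (f y - c) ^ 2 ≤ 2 * (f (y + dl C) - f y) ^ 2 + 2 * (f (y + dl C) - c) ^ 2 := by
      nlinarith [sq_nonneg (2 * f (y + dl C) - f y - c)]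
    have h5 := mul_le_mul_of_nonneg_left h4 (h.piF_pos φ y).le
    have h6 := mul_le_mul_of_nonneg_right h3 (sq_nonneg (f (y + dl C) - c))
    linarith

open Classical in
/-- Let `μ σ = exp (- Er φ σ)`, `ψ σ = f (y σ)` (`|ψ| ≤ 1`), `V = ∑_{σ ∈ big, good} μ (ψ - c)²`, `|c| ≤ 1`.  For `y ∈ fbx`, `σ = pt y` use `Ent_cases`.  Truncated: `piF (f - c)² ≤ 4 exp (- G³)`.  Good: `piF y = q ^ En ≤ 2 μ σ`, `σ ∈ big`.
Partner `σ' = σ + dl C = pt (y + dl C)` good: `y + dl C ∈ fbx`, `piF y = q ^ En σ' ≤ piF (y + dl C)` and `≤ 2 μ σ'`, so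
`piF y (f y - c)² ≤ 2 min (piF y) (piF (y + dl C)) (f (y + dl C) - f y)² + 4 μ σ' (ψ σ' - c)²`.  Bound each term by the sum of all these nonnegative terms (over all roots `C`) and sum. -/
theorem Good.var_le (h : S.Good) (hφ : S.Adm φ) (f : (U → ℤ) → ℝ) (hf : ∀ y, |f y| ≤ 1) {c : ℝ}
    (hc : |c| ≤ 1) :
    ∑ y ∈ S.fbx, S.piF φ y * (f y - c) ^ 2 ≤
      (4 * S.G + 2) * ∑ σ ∈ S.big, Real.exp (- S.Er φ σ) * (f (S.y σ) - c) ^ 2 +
        2 * ∑ u, dir S.loF S.hiF (S.piF φ) u f + 4 * Real.exp (- (S.G : ℝ) ^ 3 / 2) * S.vol := by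
  set V := ∑ σ ∈ S.big, Real.exp (- S.Er φ σ) * (f (S.y σ) - c) ^ 2 with hV
  have hg : ∀ σ, 0 ≤ Real.exp (- S.Er φ σ) * (f (S.y σ) - c) ^ 2 := fun σ => by positivity
  have hV0 : 0 ≤ V := sum_nonneg fun σ _ => hg σ
  refine (sum_le_sum fun y _ => h.tr_point hφ f hf hc y).trans ?_
  rw [sum_add_distrib, sum_add_distrib, sum_add_distrib, ← mul_sum, ← mul_sum, ← mul_sum, ← mul_sum,
    sum_const, nsmul_eq_mul]
  have a0 : (S.fbx.card : ℝ) * Real.exp (- (S.G : ℝ) ^ 3) ≤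
      Real.exp (- (S.G : ℝ) ^ 3 / 2) * S.vol := by
    rw [h.card_fbx]
    push_cast
    have := mul_le_mul_of_nonneg_right h.junk (Nat.cast_nonneg (α := ℝ) S.vol)
    linarith
  have a1 : ∑ y ∈ S.fbx, Real.exp (- S.Er φ (S.pt y)) * (f (S.y (S.pt y)) - c) ^ 2 ≤ V :=
    tr_inj S.pt S.tr_pt_inj (fun y hy => h.pt_mem_big hy)
      (fun σ => Real.exp (- S.Er φ σ) * (f (S.y σ) - c) ^ 2) hg
  have a2 : ∑ y ∈ S.fbx, ∑ C, (if y C < S.hiF C then
      min (S.piF φ y) (S.piF φ (y + dl C)) * (f (y + dl C) - f y) ^ 2 else 0) =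
      ∑ u, dir S.loF S.hiF (S.piF φ) u f := by
    rw [sum_comm]
    refine sum_congr rfl fun u _ => ?_
    unfold dir
    rw [sum_filter]
    rfl
  have a3 : ∑ y ∈ S.fbx, ∑ C, (if S.pt (y + dl C) ∈ S.big then
      Real.exp (- S.Er φ (S.pt (y + dl C))) * (f (S.y (S.pt (y + dl C))) - c) ^ 2 else 0) ≤
      S.G * V := by
    rw [sum_comm]
    have hU : (Fintype.card U : ℝ) ≤ S.G := by exact_mod_cast h.cardU
    refine (sum_le_sum (g := fun _ => V) fun C _ => ?_).trans ?_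
    · rw [← sum_filter]
      exact tr_inj (fun y => S.pt (y + dl C))
        (fun a b e => add_right_cancel (S.tr_pt_inj e)) (fun y hy => (mem_filter.1 hy).2)
        (fun σ => Real.exp (- S.Er φ σ) * (f (S.y σ) - c) ^ 2) hg
    · rw [sum_const, card_univ, nsmul_eq_mul]
      exact mul_le_mul_of_nonneg_right hU hV0
  rw [a2]
  linarith

/-- For good `σ`: `y₁ = y (σ - dl u)` and `y₁ + dl u = y (σ - dl u + ed u)` lie in `fbx` and have weights `≥ μ σ / 3` (`qEn_le_piF` for `u` and its parent; for a root the second point is `σ`); `σ ↦ y₁` is injective.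
For bad `σ` use `tail` and `(Δ ψ)² ≤ 4`. -/
theorem Good.edge_le (h : S.Good) (hφ : S.Adm φ) (f : (U → ℤ) → ℝ) (hf : ∀ y, |f y| ≤ 1) (u : U) :
    ∑ σ ∈ S.big, Real.exp (- S.Er φ σ) * (f (S.y (σ - dl u)) - f (S.y (σ - dl u + S.F.ed u))) ^ 2 ≤
      3 * dir S.loF S.hiF (S.piF φ) u f + 4 * Real.exp (- (S.G : ℝ) ^ 3 / 2) * S.vol := by
  classical
  rw [← sum_filter_add_sum_filter_not S.big (fun σ => S.Gd φ σ)]
  refine add_le_add ?_ ?_
  · have key : ∀ σ, S.Gd φ σ → S.y (σ - dl u) ∈ S.fbx ∧ S.y (σ - dl u) + dl u ∈ S.fbx ∧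
        Real.exp (- S.Er φ σ) ≤
          3 * min (S.piF φ (S.y (σ - dl u))) (S.piF φ (S.y (σ - dl u) + dl u)) := by
      intro σ hσ
      obtain ⟨m1, b1⟩ := h.qEn_le_piF hφ hσ u
      have h2 : S.y (σ - dl u) + dl u ∈ S.fbx ∧
          S.q ^ S.En φ σ ≤ 3 * S.piF φ (S.y (σ - dl u) + dl u) := by
        rw [← S.tr_y_ed]
        cases hp : S.F.par u with
        | none =>
          rw [S.F.ed_root hp, sub_add_cancel]
          refine ⟨h.fbx_of_gd hφ hσ, ?_⟩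
          have h3 : S.q ^ S.En φ σ ≤ S.piF φ (S.y σ) := by
            rw [S.tr_piF_y]
            exact h.q_anti (S.Ent_le_En φ σ)
          have := h.piF_pos φ (S.y σ)
          linarith
        | some p =>
          have e : σ - dl u + S.F.ed u = σ - dl p := by
            rw [S.F.ed_par hp]
            abel
          rw [e]
          exact h.qEn_le_piF hφ hσ p
      refine ⟨m1, h2.1, (h.exp_le_q φ σ).1.trans ?_⟩
      rw [mul_min_of_nonneg _ _ (by norm_num : (0 : ℝ) ≤ 3)]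
      exact le_min b1 h2.2
    unfold dir
    rw [mul_sum]
    refine le_trans (sum_le_sum fun σ hσ => ?_) (tr_inj (fun σ => S.y (σ - dl u))
      (fun a b e => sub_left_injective (S.tr_y_inj e))
      (fun σ hσ => mem_filter.2 ⟨(key σ (mem_filter.1 hσ).2).1, tr_lt (key σ (mem_filter.1 hσ).2).2.1⟩)
      (fun y => 3 * (min (S.piF φ y) (S.piF φ (y + dl u)) * (f (y + dl u) - f y) ^ 2))
      fun y => mul_nonneg (by norm_num)
        (mul_nonneg (le_min (h.piF_pos φ _).le (h.piF_pos φ _).le) (sq_nonneg _)))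
    rw [S.tr_y_ed, ← mul_assoc, ← neg_sub (f (S.y (σ - dl u) + dl u)), neg_sq]
    exact mul_le_mul_of_nonneg_right (key σ (mem_filter.1 hσ).2).2.2 (sq_nonneg _)
  · have ht := h.tail hφ S.big
    refine (sum_le_sum (g := fun σ => Real.exp (- S.Er φ σ) * 4) fun σ _ =>
      mul_le_mul_of_nonneg_left (tr_sq4 (hf _) (hf _)) (Real.exp_pos _).le).trans ?_
    rw [← sum_mul]
    linarith

/-- `bl` with `margin`, `β u = 2 G ^ 55 wd²`, `Phi_diag`; clamp `c` to `[-1, 1]`; `var_le`, `edge_le`, `tiny`: `(4 G + 2) 6 G ^ 55 wd² + 2 ≤ G ^ 57 wd²` -/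
theorem Good.poin_fine (h : S.Good) (hφ : S.Adm φ) :
    WPoin S.loF S.hiF (S.piF φ) (fun u => (S.G : ℝ) ^ 57 * (S.wd u : ℝ) ^ 2)
      (Real.exp (- (S.G : ℝ) ^ 3 / 4) * S.vol) := by
  intro f hf
  have hG := h.G_geR
  have hG0 : (0 : ℝ) < S.G := by linarith
  have hwd : ∀ u, (1 : ℝ) ≤ (S.wd u : ℝ) ^ 2 := fun u => by
    obtain ⟨j, hj⟩ := h.wd_pow u
    rw [hj]
    push_cast
    exact one_le_pow₀ (one_le_pow₀ (by norm_num))
  have hwd' : ∀ u, (S.wd u : ℝ) ^ 2 ≤ 4 ^ (S.G + 1) := fun u => by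
    have h1 : (S.wd u : ℝ) ≤ 2 ^ (S.G + 1) := by exact_mod_cast h.wd_le u
    calc (S.wd u : ℝ) ^ 2 ≤ (2 ^ (S.G + 1)) ^ 2 := pow_le_pow_left₀ (Nat.cast_nonneg _) h1 2
      _ = 4 ^ (S.G + 1) := by rw [← pow_mul, mul_comm, pow_mul]; norm_num
  obtain ⟨c, hc⟩ := bl (S.Phi φ) S.F (fun u => 2 * (S.G : ℝ) ^ 55 * (S.wd u : ℝ) ^ 2)
    (fun u => by have := hwd u; positivity) (h.margin φ)
    (fun _ => - 2 ^ (2 * S.G)) (fun _ => 2 ^ (2 * S.G)) (fun σ => f (S.y σ))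
  simp only [S.Phi_diag] at hc
  refine ⟨max (-1) (min 1 c), ?_⟩
  have hc1 : |max (-1) (min 1 c)| ≤ (1 : ℝ) :=
    abs_le.2 ⟨le_max_left _ _, max_le (by norm_num) (min_le_left _ _)⟩
  have hv := h.var_le hφ f hf hc1
  set e := Real.exp (- (S.G : ℝ) ^ 3 / 2) * S.vol with he
  have he0 : 0 ≤ e := by positivity
  have hD := fun u => Coarse.dir_nonneg S.loF S.hiF (fun σ => (h.piF_pos φ σ).le) u f
  have a1 : ∑ σ ∈ S.big, Real.exp (- S.Er φ σ) * (f (S.y σ) - max (-1) (min 1 c)) ^ 2 ≤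
      ∑ u, 2 * (S.G : ℝ) ^ 55 * (S.wd u : ℝ) ^ 2 * (3 * dir S.loF S.hiF (S.piF φ) u f + 4 * e) := by
    refine (sum_le_sum fun σ _ =>
      mul_le_mul_of_nonneg_left (tr_clamp (hf _) c) (Real.exp_pos _).le).trans (hc.trans ?_)
    simp only [mul_sum]
    rw [sum_comm]
    refine sum_le_sum fun u _ => ?_
    have h1 := h.edge_le hφ f hf u
    rw [mul_assoc 4, ← he] at h1
    refine le_trans (le_of_eq ?_) (mul_le_mul_of_nonneg_left h1 (by positivity))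
    rw [mul_sum]
    exact sum_congr rfl fun σ _ => by ring
  have a2 := mul_le_mul_of_nonneg_left a1 (by positivity : (0 : ℝ) ≤ 4 * S.G + 2)
  have a3 : (4 * (S.G : ℝ) + 2) *
      ∑ u, 2 * (S.G : ℝ) ^ 55 * (S.wd u : ℝ) ^ 2 * (3 * dir S.loF S.hiF (S.piF φ) u f + 4 * e) +
      2 * ∑ u, dir S.loF S.hiF (S.piF φ) u f ≤
      ∑ u, (S.G : ℝ) ^ 57 * (S.wd u : ℝ) ^ 2 * dir S.loF S.hiF (S.piF φ) u f +
        S.G * (40 * (S.G : ℝ) ^ 56 * 4 ^ (S.G + 1) * e) := by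
    have hU : (Fintype.card U : ℝ) ≤ S.G := by exact_mod_cast h.cardU
    have b0 : ∑ _u : U, 40 * (S.G : ℝ) ^ 56 * 4 ^ (S.G + 1) * e ≤
        S.G * (40 * (S.G : ℝ) ^ 56 * 4 ^ (S.G + 1) * e) := by
      rw [sum_const, card_univ, nsmul_eq_mul]
      exact mul_le_mul_of_nonneg_right hU (by positivity)
    refine le_trans ?_ (add_le_add le_rfl b0)
    rw [mul_sum, mul_sum, ← sum_add_distrib, ← sum_add_distrib]
    refine sum_le_sum fun u _ => ?_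
    have w1 := hwd u
    have w2 := hwd' u
    have d0 := hD u
    set W := (S.wd u : ℝ) ^ 2
    set D := dir S.loF S.hiF (S.piF φ) u f
    have g55 : (1 : ℝ) ≤ (S.G : ℝ) ^ 55 := one_le_pow₀ (by linarith)
    have e56 : (S.G : ℝ) ^ 56 = S.G * (S.G : ℝ) ^ 55 := by ring
    have e57 : (S.G : ℝ) ^ 57 = S.G * S.G * (S.G : ℝ) ^ 55 := by ring
    rw [e56, e57]
    set P := (S.G : ℝ) ^ 55
    set Q := (4 : ℝ) ^ (S.G + 1)
    have PW : 1 ≤ P * W := one_le_mul_of_one_le_of_one_le g55 w1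
    have c1 : (4 * (S.G : ℝ) + 2) * 6 + 2 ≤ S.G * S.G := by nlinarith
    have c2 : (4 * (S.G : ℝ) + 2) * 6 * (P * W) + 2 ≤ S.G * S.G * (P * W) := by
      have := mul_le_mul_of_nonneg_right c1 (by linarith : 0 ≤ P * W)
      nlinarith
    have c3 := mul_le_mul_of_nonneg_right c2 d0
    have c4 : (4 * (S.G : ℝ) + 2) * 8 * (P * W) ≤ 40 * S.G * (P * Q) :=
      mul_le_mul (by linarith) (mul_le_mul_of_nonneg_left w2 (by linarith)) (by linarith)
        (by positivity)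
    have c5 := mul_le_mul_of_nonneg_right c4 he0
    nlinarith
  have a4 : S.G * (40 * (S.G : ℝ) ^ 56 * 4 ^ (S.G + 1) * e) + 4 * e ≤
      Real.exp (- (S.G : ℝ) ^ 3 / 4) * S.vol := by
    have ht := h.tiny (k := 58) (by norm_num)
    have q1 : (1 : ℝ) ≤ (S.G : ℝ) ^ 57 * 4 ^ (S.G + 1) :=
      one_le_mul_of_one_le_of_one_le (one_le_pow₀ (by linarith)) (one_le_pow₀ (by norm_num))
    have q2 : S.G * (40 * (S.G : ℝ) ^ 56 * 4 ^ (S.G + 1)) + 4 ≤ (S.G : ℝ) ^ 58 * 4 ^ (S.G + 1) := by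
      have e1 : S.G * (40 * (S.G : ℝ) ^ 56 * 4 ^ (S.G + 1)) =
          40 * ((S.G : ℝ) ^ 57 * 4 ^ (S.G + 1)) := by ring
      have e2 : (S.G : ℝ) ^ 58 * 4 ^ (S.G + 1) = S.G * ((S.G : ℝ) ^ 57 * 4 ^ (S.G + 1)) := by ring
      rw [e1, e2]
      nlinarith
    have q3 : Real.exp (- (S.G : ℝ) ^ 3 / 2) ≤
        Real.exp (- (S.G : ℝ) ^ 3 / 8) * Real.exp (- (S.G : ℝ) ^ 3 / 4) := by
      rw [← Real.exp_add]
      have : (0 : ℝ) ≤ (S.G : ℝ) ^ 3 := by positivity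
      exact Real.exp_le_exp.2 (by linarith)
    have q4 : (S.G : ℝ) ^ 58 * 4 ^ (S.G + 1) * Real.exp (- (S.G : ℝ) ^ 3 / 2) ≤
        Real.exp (- (S.G : ℝ) ^ 3 / 4) := by
      calc _ ≤ (S.G : ℝ) ^ 58 * 4 ^ (S.G + 1) *
            (Real.exp (- (S.G : ℝ) ^ 3 / 8) * Real.exp (- (S.G : ℝ) ^ 3 / 4)) :=
            mul_le_mul_of_nonneg_left q3 (by positivity)
        _ = (S.G : ℝ) ^ 58 * 4 ^ (S.G + 1) * Real.exp (- (S.G : ℝ) ^ 3 / 8) *
            Real.exp (- (S.G : ℝ) ^ 3 / 4) := by ring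
        _ ≤ 1 * Real.exp (- (S.G : ℝ) ^ 3 / 4) := mul_le_mul_of_nonneg_right ht (Real.exp_pos _).le
        _ = _ := one_mul _
    calc _ = (S.G * (40 * (S.G : ℝ) ^ 56 * 4 ^ (S.G + 1)) + 4) * e := by ring
      _ ≤ (S.G : ℝ) ^ 58 * 4 ^ (S.G + 1) * e := mul_le_mul_of_nonneg_right q2 he0
      _ = (S.G : ℝ) ^ 58 * 4 ^ (S.G + 1) * Real.exp (- (S.G : ℝ) ^ 3 / 2) * S.vol := by
          rw [he]; ring
      _ ≤ _ := mul_le_mul_of_nonneg_right q4 (Nat.cast_nonneg _)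
  rw [mul_assoc 4, ← he] at hv
  change ∑ y ∈ S.fbx, _ ≤ _
  linarith

/-- `wcoarsen` with `A = 3` (`cmp`); `72 (G ^ 201 + G) ≤ G ^ 202` -/
theorem Good.poin_coarse (h : S.Good) (hφ : S.Adm φ) :
    WPoin 0 (fun _ => (S.M : ℤ) - 1) (S.piC φ) (fun _ => (S.G : ℝ) ^ 202)
      (6 * Real.exp (- (S.G : ℝ) ^ 3 / 4)) := by
  have hG := h.G_geR
  have hM : 0 < S.M := by
    have : 0 < S.G := lt_of_lt_of_le (by norm_num) h.G_ge
    unfold M
    positivity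
  have hP := h.poin_fine hφ
  have hv : (S.vol : ℝ) = ∏ u, (S.s u : ℝ) := by
    unfold vol
    push_cast
    rfl
  rw [hv] at hP
  have hw := wcoarsen S.loF S.s (fun _ => S.M) h.s_pos (fun _ => hM) (S.piF φ) (S.piC φ) 3
    (by norm_num) (fun u => (S.G : ℝ) ^ 57 * (S.wd u : ℝ) ^ 2) (fun u => by positivity)
    (fun σ => (h.piF_pos φ σ).le) (fun a => (h.piC_pos φ a).le)
    (fun σ hσ a ha hd => h.cmp φ hσ ha hd) hP
  refine hw.mono (fun a => (h.piC_pos φ a).le) (fun u => ?_) (le_of_eq (by ring))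
  have hs : (0 : ℝ) < S.s u := by exact_mod_cast h.s_pos u
  have hw : (S.wd u : ℝ) = S.s u * (S.G : ℝ) ^ 72 := by exact_mod_cast (h.s_mul u).symm
  have e1 : (S.G : ℝ) ^ 57 * (S.wd u : ℝ) ^ 2 / (S.s u : ℝ) ^ 2 = (S.G : ℝ) ^ 201 := by
    rw [hw]
    field_simp
  have hU : (Fintype.card U : ℝ) ≤ S.G := by exact_mod_cast h.cardU
  have h1 : (S.G : ℝ) ≤ (S.G : ℝ) ^ 201 := le_self_pow₀ (by linarith) (by norm_num)
  have e2 : (S.G : ℝ) ^ 202 = S.G * (S.G : ℝ) ^ 201 := by ring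
  simp only [e1, e2]
  have h2 : (0 : ℝ) ≤ (S.G : ℝ) ^ 201 := by positivity
  nlinarith

/-- `ZC_le`, `tiny` -/
theorem Good.mix_err (h : S.Good) (hφ : S.Adm φ) :
    Real.exp (- (((S.G ^ 218 : ℕ) : ℝ) / (4 * 2 ^ S.g * (S.G : ℝ) ^ 202))) * S.ZC φ +
      6 * Real.exp (- (S.G : ℝ) ^ 3 / 4) ≤ (1 / (S.G : ℝ) ^ 100) ^ 2 := by
  have hG := h.G_geR
  have hG0 : (0 : ℝ) < S.G := by linarith
  have e2 : (2 : ℝ) ^ S.g = S.G := by
    have := h.par_G
    exact_mod_cast this.symm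
  have e1 : ((S.G ^ 218 : ℕ) : ℝ) / (4 * 2 ^ S.g * (S.G : ℝ) ^ 202) = (S.G : ℝ) ^ 15 / 4 := by
    rw [e2]
    push_cast
    field_simp
  rw [e1]
  have a1 : Real.exp (- ((S.G : ℝ) ^ 15 / 4)) * S.ZC φ ≤ Real.exp (- (S.G : ℝ) ^ 3 / 4) := by
    refine (mul_le_mul_of_nonneg_left (h.ZC_le hφ) (Real.exp_pos _).le).trans ?_
    rw [← Real.exp_add]
    refine Real.exp_le_exp.2 ?_
    have h1 : (S.G : ℝ) ^ 3 ≤ (S.G : ℝ) ^ 13 := pow_le_pow_right₀ (by linarith) (by norm_num)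
    have h2 : (S.G : ℝ) ^ 15 = S.G * S.G * (S.G : ℝ) ^ 13 := by ring
    have h3 : (0 : ℝ) ≤ (S.G : ℝ) ^ 13 := by positivity
    have h4 : (13 : ℝ) ≤ S.G * S.G := by nlinarith
    have h5 := mul_le_mul_of_nonneg_right h4 h3
    rw [h2]
    linarith
  have ht := h.tiny (k := 201) (by norm_num)
  have q1 : (1 : ℝ) ≤ 4 ^ (S.G + 1) := one_le_pow₀ (by norm_num)
  have q2 : Real.exp (- (S.G : ℝ) ^ 3 / 4) ≤ Real.exp (- (S.G : ℝ) ^ 3 / 8) := by
    have : (0 : ℝ) ≤ (S.G : ℝ) ^ 3 := by positivity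
    exact Real.exp_le_exp.2 (by linarith)
  have q3 : (S.G : ℝ) ^ 201 * Real.exp (- (S.G : ℝ) ^ 3 / 4) ≤ 1 := by
    refine le_trans ?_ ht
    exact mul_le_mul (le_mul_of_one_le_right (by positivity) q1) q2 (Real.exp_pos _).le
      (by positivity)
  have q4 : 7 * Real.exp (- (S.G : ℝ) ^ 3 / 4) ≤ (1 / (S.G : ℝ) ^ 100) ^ 2 := by
    rw [div_pow, one_pow, le_div_iff₀ (by positivity)]
    refine le_trans ?_ q3
    have e3 : (S.G : ℝ) ^ 201 = S.G * ((S.G : ℝ) ^ 100) ^ 2 := by ring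
    rw [e3]
    have h3 : 0 ≤ ((S.G : ℝ) ^ 100) ^ 2 * Real.exp (- (S.G : ℝ) ^ 3 / 4) := by positivity
    nlinarith
  linarith

end Sys

end Crest.Agent.R302
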