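import Crest.Agent.R302.EnAlg
import Crest.Agent.R302.Metro
import Crest.Agent.R302.Transfer
import Crest.Agent.R302.Desc
import Crest.Agent.R302.Learn

/-!
# R302/Chain: the chain and the learnt fields (TASK)
-/

set_option autoImplicit false

namespace Crest.Agent.R302

open Finset Crest.Agent.Lib.PT Crest.Agent.R309

/-- the parameters of the chain -/
def chPar (D : Dat) : Un × Un × Un × Un × ℕ :=
  (⟨D.G.log2⟩, ⟨200 * D.G.log2⟩, ⟨D.G ^ 214⟩, ⟨D.G ^ 218⟩, 2 * D.G ^ 95)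

/-- the starting point of the chain -/
def chStart (D : Dat) : List ℤ := List.replicate D.pl.length ((D.G : ℤ) ^ 95)

/-- the parameters of the learning loop -/
def chLearn (D : Dat) : Un × Un × Un × Un × ℕ :=
  (⟨D.pl.length⟩, ⟨D.G ^ 206⟩, ⟨D.G ^ 409⟩, ⟨D.G ^ 434⟩, D.G ^ 3)

theorem ch_un_pow {α : Type} [Enc α] {D : α → Dat} (h : PT D) (k : ℕ) :
    PT fun a => Un.mk ((D a).G ^ k) :=
  PT.un_mk (PT.nat_pow (Dat.G_pt h) (PT.const k) (PB.const k)) ((Dat.G_pb h).pow k)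

theorem chPar_pt {α : Type} [Enc α] {D : α → Dat} (h : PT D) : PT fun a => chPar (D a) := by
  have h1 : PT fun a => (D a).G.log2 := PT.nat_log2 (Dat.G_pt h)
  have h2 : PB fun a => (D a).G.log2 := PB.log2 (Dat.G_pt h)
  have h3 : PT fun a => 200 * (D a).G.log2 := by fun_prop
  have h4 : PT fun a => (D a).G ^ 95 := (ch_un_pow h 95).un_n
  have h5 : PT fun a => 2 * (D a).G ^ 95 := by fun_prop
  exact (PT.un_mk h1 h2).pair ((PT.un_mk h3 ((PB.const 200).mul h2)).pair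
    ((ch_un_pow h 214).pair ((ch_un_pow h 218).pair h5)))

theorem chStart_pt {α : Type} [Enc α] {D : α → Dat} (h : PT D) : PT fun a => chStart (D a) := by
  have h1 : PT fun a => (D a).pl := Dat.pl_pt h
  exact PT.replicate (by fun_prop) (PB.length h1)
    (PT.int_pow (PT.int_natCast (Dat.G_pt h)) (PT.const 95) (PB.const 95))

theorem chLearn_pt {α : Type} [Enc α] {D : α → Dat} (h : PT D) : PT fun a => chLearn (D a) :=
  (PT.un_length (Dat.pl_pt h)).pair ((ch_un_pow h 206).pair ((ch_un_pow h 409).pair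
    ((ch_un_pow h 434).pair (ch_un_pow h 3).un_n)))

theorem ch_time {G g : ℕ} (hG : 2 ^ 20 ≤ G) (hg : 32768 * g ≤ G) :
    G ^ 218 * (2 + g + 200 * g * G ^ 214) ≤ G ^ 434 := by
  have h1 : 1 ≤ G ^ 214 := Nat.one_le_pow _ _ (by omega)
  have h2 : 2 + g + 200 * g * G ^ 214 ≤ G ^ 216 := by
    have e : G ^ 216 = G * G * G ^ 214 := by ring
    rw [e]
    generalize G ^ 214 = X at h1 ⊢
    have h3 : 2 + g + 200 * g * X ≤ (2 + 201 * g) * X := by nlinarith
    have h4 : 2 + 201 * g ≤ G * G := by nlinarith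
    exact h3.trans (Nat.mul_le_mul_right _ h4)
  calc G ^ 218 * (2 + g + 200 * g * G ^ 214) ≤ G ^ 218 * G ^ 216 := Nat.mul_le_mul_left _ h2
    _ = G ^ 434 := by rw [← pow_add]

theorem ch_vec_start {m : ℕ} {S : Sys (Fin m) (Fin m)} {D : Dat} (hD : Rep D S) :
    (chStart D).length = m ∧ vec m (chStart D) = S.a0 := by
  refine ⟨by rw [chStart, List.length_replicate, hD.pl.1], funext fun i => ?_⟩
  have hi : i.val < D.pl.length := by rw [hD.pl.1]; exact i.2
  rw [vec, chStart, List.getD_eq_getElem?_getD, List.getElem?_replicate, if_pos hi, hD.G]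
  rfl

theorem ch_vec_set {m : ℕ} {φ : List ℤ} (hφ : φ.length = m) (e : Fin m) (a : ℤ) :
    vec m (φ.set e.val a) = Function.update (vec m φ) e a := by
  funext i
  by_cases hi : i = e
  · subst hi
    have : i.val < φ.length := hφ ▸ i.2
    simp [vec, List.getD_eq_getElem?_getD, this]
  · have : e.val ≠ i.val := fun h => hi (Fin.ext h.symm)
    simp [vec, List.getD_eq_getElem?_getD, List.getElem?_set_ne this, Function.update_of_ne hi]

/-- `exists_metro` with the subroutine `exists_enC`, parameters `(g, 200 g, G ^ 214, G ^ 218, M)` and the start `replicate m (G ^ 95)`; `q_eq`, `Ent_sub_le`, `poin_coarse`, `one_le_piC`, `mix_err`;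
`G ^ 218 (2 + g + 200 g G ^ 214) ≤ G ^ 434`.  Inputs `(D, φ, ω)`. -/
theorem exists_chain : ∃ alg : (List Bool → ℤ) → Dat × List ℤ × List Bool → List ℤ, HOPT alg ∧
    ∀ (m : ℕ) (S : Sys (Fin m) (Fin m)) (D : Dat) (h : List Bool → ℤ) (φ : List ℤ), S.Good →
      Rep D S → Calls h S.f → (∀ ω, vec m (alg h (D, φ, ω)) ∈ S.cbox) ∧
      (S.Adm (vec m φ) → ∀ ψ : (Fin m → ℤ) → ℝ, (∀ a ∈ S.cbox, 0 ≤ ψ a ∧ ψ a ≤ 1) →
        ∀ n, S.G ^ 434 ≤ n → |Ex n (fun ω => ψ (vec m (alg h (D, φ, ω)))) -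
          (∑ a ∈ S.cbox, S.piC (vec m φ) a * ψ a) / S.ZC (vec m φ)| ≤ 1 / (S.G : ℝ) ^ 100) := by
  obtain ⟨run, Hrun, hrun⟩ := exists_metro
  obtain ⟨enC, HenC, henC⟩ := exists_enC
  refine ⟨fun h p => run (fun a => enC h (p.1, p.2.1, a)) (chPar p.1, chStart p.1, p.2.2),
    fun α _ h hh => ?_, ?_⟩
  · refine Hrun.app (h := fun O (c : α × Dat × List ℤ × List Bool) a =>
      enC (h O c.1) (c.2.1, c.2.2.1, a)) ?_ (OPT.pure ((chPar_pt (by fun_prop)).pair
        ((chStart_pt (by fun_prop)).pair (by fun_prop))))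
    exact HenC.app (h := fun O (c : (α × Dat × List ℤ × List Bool) × List ℤ) l => h O c.1.1 l)
      (OPT.call hh (e := fun c : ((α × Dat × List ℤ × List Bool) × List ℤ) × List Bool => c.1.1.1)
        (q := fun c => c.2) (by fun_prop) (by fun_prop)) (OPT.pure (by fun_prop))
  · intro m S D h φ hS hD hc
    have hpar : chPar D = (⟨S.g⟩, ⟨200 * S.g⟩, ⟨S.G ^ 214⟩, ⟨S.G ^ 218⟩, S.M) := by
      rw [chPar, hD.G, Nat.log2_eq_log_two]
      rfl
    have hcb : cb m S.M = S.cbox := rfl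
    obtain ⟨hl, hv⟩ := ch_vec_start hD
    obtain ⟨h1, h2⟩ := hrun m S.g (200 * S.g) (S.G ^ 214) (S.G ^ 218) S.M
      (fun a => enC h (D, φ, a)) (chStart D) hl (by rw [hv, hcb]; exact hS.a0_mem)
    refine ⟨fun ω => ?_, fun hφ ψ hψ n hn => ?_⟩
    · change vec m (run (fun a => enC h (D, φ, a)) (chPar D, chStart D, ω)) ∈ S.cbox
      rw [hpar]
      exact (h1 ω).2
    · change |Ex n (fun ω => ψ (vec m (run (fun a => enC h (D, φ, a))
        (chPar D, chStart D, ω)))) - _| ≤ _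
      rw [hpar]
      have hG := hS.G_geR
      have hm : m ≤ 2 ^ S.g := by
        rw [← hS.par_G]
        simpa using hS.cardU
      have h3 := h2 (S.enC (vec m φ)) ((S.G : ℝ) ^ 202) (6 * Real.exp (- (S.G : ℝ) ^ 3 / 4)) hm
        (by have := hS.par_g; omega) (fun a _ ha => henC m S D h φ a hS hD hc ha)
        (fun a _ a' _ => by
          have := hS.Ent_sub_le hφ (S.pt (S.cor a)) (S.pt (S.cor a'))
          rw [Nat.cast_pow]
          exact this)
        (one_le_pow₀ (by linarith)) (by positivity)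
        (by rw [← hS.q_eq]; exact hS.poin_coarse hφ) ψ hψ n
        ((ch_time hS.G_ge hS.g_le).trans hn)
      rw [← hS.q_eq, hv, hcb] at h3
      have h4 := hS.mix_err hφ
      have h5 := hS.one_le_piC (vec m φ)
      change S.piC (vec m φ) S.a0 * (_ - (∑ a ∈ S.cbox, S.piC (vec m φ) a * ψ a) /
        S.ZC (vec m φ)) ^ 2 ≤ _ * S.ZC (vec m φ) + _ at h3
      refine abs_le_of_sq_le_sq ?_ (by positivity)
      refine le_trans ?_ (h3.trans h4)
      exact le_mul_of_one_le_left (sq_nonneg _) h5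

theorem ch_bias {m n : ℕ} {S : Sys (Fin m) (Fin m)} (hS : S.Good) (φ : Fin m → ℤ)
    (X : List Bool → Fin m → ℤ) (e : Fin m)
    (h : ∀ ψ : (Fin m → ℤ) → ℝ, (∀ a ∈ S.cbox, 0 ≤ ψ a ∧ ψ a ≤ 1) →
      |Ex n (fun ω => ψ (X ω)) - (∑ a ∈ S.cbox, S.piC φ a * ψ a) / S.ZC φ| ≤ 1 / (S.G : ℝ) ^ 100) :
    |Ex n (fun ω => (S.stat (X ω) e : ℝ)) - S.mean φ e| ≤ 1 / (8 * (S.G : ℝ) ^ 3) := by
  have hG := hS.G_geR
  have hG0 : (0 : ℝ) < S.G := by linarith
  have hB : (0 : ℝ) < (S.G : ℝ) ^ 96 := by positivity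
  have hZ : 0 < S.ZC φ := lt_of_lt_of_le one_pos (hS.one_le_ZC φ)
  have h1 := h (fun a => 1 / (2 * (S.G : ℝ) ^ 96) * S.stat a e + 1 / 2) fun a ha => by
    have h2 : |(S.stat a e : ℝ)| ≤ (S.G : ℝ) ^ 96 := by exact_mod_cast hS.abs_stat ha e
    obtain ⟨h3, h4⟩ := abs_le.1 h2
    generalize (S.G : ℝ) ^ 96 = B at hB h3 h4 ⊢
    have e1 : 1 / (2 * B) * (S.stat a e : ℝ) + 1 / 2 = (S.stat a e + B) / (2 * B) := by
      field_simp
    rw [e1]
    exact ⟨div_nonneg (by linarith) (by linarith), (div_le_one (by linarith)).2 (by linarith)⟩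
  have e2 : (∑ a ∈ S.cbox, S.piC φ a * (1 / (2 * (S.G : ℝ) ^ 96) * S.stat a e + 1 / 2)) / S.ZC φ =
      1 / (2 * (S.G : ℝ) ^ 96) * S.mean φ e + 1 / 2 := by
    have e3 : ∑ a ∈ S.cbox, S.piC φ a * (1 / (2 * (S.G : ℝ) ^ 96) * S.stat a e + 1 / 2) =
        1 / (2 * (S.G : ℝ) ^ 96) * (∑ a ∈ S.cbox, S.piC φ a * S.stat a e) + 1 / 2 * S.ZC φ := by
      rw [Sys.ZC, mul_sum, mul_sum, ← sum_add_distrib]
      exact sum_congr rfl fun a _ => by ring
    rw [e3, Sys.mean, add_div, mul_div_assoc, mul_div_assoc, div_self hZ.ne', mul_one]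
  rw [e2, Ex_add, Ex_mul_left, Ex_const, add_sub_add_right_eq_sub, ← mul_sub, abs_mul,
    abs_of_pos (by positivity : (0 : ℝ) < 1 / (2 * (S.G : ℝ) ^ 96)), one_div_mul_eq_div,
    div_le_iff₀ (by positivity)] at h1
  refine h1.trans ?_
  have e4 : 1 / (S.G : ℝ) ^ 100 * (2 * (S.G : ℝ) ^ 96) = 2 / (S.G * (S.G : ℝ) ^ 3) := by
    field_simp
  rw [e4, div_le_div_iff₀ (by positivity) (by positivity)]
  have : (0 : ℝ) < (S.G : ℝ) ^ 3 := by positivity
  nlinarith

theorem ch_fail {G m : ℝ} (hG : 1048576 ≤ G) (hm : m ≤ G) :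
    G ^ 206 * (m * (64 * (G ^ 96) ^ 2 * (G ^ 3) ^ 2 / G ^ 409)) ≤ 1 / G ^ 3 := by
  have hG0 : 0 < G := by linarith
  have e : G ^ 206 * (m * (64 * (G ^ 96) ^ 2 * (G ^ 3) ^ 2 / G ^ 409)) =
      64 * m / (G * G * G ^ 3) := by
    field_simp
  rw [e, div_le_div_iff₀ (by positivity) (by positivity), one_mul]
  refine mul_le_mul_of_nonneg_right ?_ (by positivity)
  nlinarith

/-- `exists_learn` with `X (φ, ω) = stat (chain (D, φ, ω))`, `T = G ^ 206`, `N = G ^ 409`, `ρ = G ^ 434`, `Θ = G ^ 3`, `B = G ^ 96`, `c = 1 / (8 G ^ 203)`, `Z₀ = exp (G²)`,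
`mu φ r = if h : r < m then S.mean (vec m φ) ⟨r, h⟩ else 0`, `Zp φ = S.Zp (vec m φ)`.  The bias of the samples is at most `2 B / G ^ 100` (`ψ a = (stat a e / B + 1) / 2`).  Inputs `(D, l)`. -/
theorem exists_fields : ∃ alg : (List Bool → ℤ) → Dat × List Bool → List ℤ, HOPT alg ∧
    ∀ (m : ℕ) (S : Sys (Fin m) (Fin m)) (D : Dat) (h : List Bool → ℤ), S.Good →
      Rep D S → Calls h S.f → (∀ l, S.Adm (vec m (alg h (D, l)))) ∧
      1 - 1 / (S.G : ℝ) ^ 3 ≤ Pr (S.G ^ 1049) fun l =>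
        ∀ e, |S.mean (vec m (alg h (D, l))) e| ≤ 1 / (S.G : ℝ) ^ 3 := by
  obtain ⟨chain, Hch, hch⟩ := exists_chain
  obtain ⟨stat, Hst, hst⟩ := exists_stat
  obtain ⟨learn, Hl, hl⟩ := exists_learn
  refine ⟨fun h p => learn (fun q => stat (p.1, chain h (p.1, q.1, q.2))) (chLearn p.1, p.2),
    fun α _ h hh => ?_, ?_⟩
  · refine Hl.app (h := fun O (c : α × Dat × List Bool) q =>
      stat (c.2.1, chain (h O c.1) (c.2.1, q.1, q.2))) ?_
      (OPT.pure ((chLearn_pt (by fun_prop)).pair (by fun_prop)))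
    refine OPT.cont (g := fun (c : (α × Dat × List Bool) × List ℤ × List Bool) y =>
      stat (c.1.2.1, y)) ?_ (Hst.comp (by fun_prop))
    exact Hch.app (h := fun O (c : (α × Dat × List Bool) × List ℤ × List Bool) l => h O c.1.1 l)
      (OPT.call hh (e := fun c : ((α × Dat × List Bool) × List ℤ × List Bool) × List Bool =>
        c.1.1.1) (q := fun c => c.2) (by fun_prop) (by fun_prop)) (OPT.pure (by fun_prop))
  · intro m S D h hS hD hc
    have hpar : chLearn D = (⟨m⟩, ⟨S.G ^ 206⟩, ⟨S.G ^ 409⟩, ⟨S.G ^ 434⟩, S.G ^ 3) := by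
      rw [chLearn, hD.G, hD.pl.1]
    obtain ⟨h1, h2⟩ := hl m (S.G ^ 206) (S.G ^ 409) (S.G ^ 434) (S.G ^ 3)
      (fun q => stat (D, chain h (D, q.1, q.2)))
    have hadm : ∀ φ : List ℤ, (∀ r, |φ.getD r 0| ≤ ((S.G ^ 206 : ℕ) : ℤ)) → S.Adm (vec m φ) :=
      fun φ hφ e => by
        have := hφ e.val
        rwa [Nat.cast_pow] at this
    have hG := hS.G_geR
    have hG0 : (0 : ℝ) < S.G := by linarith
    have hGn : 0 < S.G := Nat.cast_pos.1 hG0
    refine ⟨fun l => hadm _ fun r => ?_, ?_⟩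
    · change |(learn (fun q => stat (D, chain h (D, q.1, q.2))) (chLearn D, l)).getD r 0| ≤ _
      rw [hpar]
      exact h1 l r
    · change _ ≤ Pr _ fun l => ∀ e, |S.mean (vec m
        (learn (fun q => stat (D, chain h (D, q.1, q.2))) (chLearn D, l))) e| ≤ _
      rw [hpar]
      have hc1 : (1 : ℝ) ≤ 8 * (S.G : ℝ) ^ 203 := by
        have : (1 : ℝ) ≤ (S.G : ℝ) ^ 203 := one_le_pow₀ (by linarith)
        linarith
      have h3 := h2 ((S.G : ℝ) ^ 96) (1 / (8 * (S.G : ℝ) ^ 203)) (Real.exp ((S.G : ℝ) ^ 2))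
        (fun φ r => if hr : r < m then S.mean (vec m φ) ⟨r, hr⟩ else 0)
        (fun φ => S.Zp (vec m φ)) (pow_pos hGn _) (pow_pos hGn _) (by positivity)
        ((div_le_one (by positivity)).2 hc1)
        (fun φ hφ r hr => by
          obtain ⟨h4, h5⟩ := hch m S D h φ hS hD hc
          have e1 : ∀ ω, (stat (D, chain h (D, φ, ω))).getD r 0 =
              S.stat (vec m (chain h (D, φ, ω))) ⟨r, hr⟩ := fun ω =>
            congrFun (hst m S D (chain h (D, φ, ω)) hD) ⟨r, hr⟩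
          refine ⟨fun ω _ => ?_, ?_⟩
          · rw [e1]
            exact_mod_cast hS.abs_stat (h4 ω) ⟨r, hr⟩
          · rw [dif_pos hr, Nat.cast_pow (α := ℝ) S.G 3]
            simp only [e1]
            exact ch_bias hS (vec m φ) (fun ω => vec m (chain h (D, φ, ω))) ⟨r, hr⟩
              fun ψ hψ => h5 (hadm φ hφ) ψ hψ _ le_rfl)
        (fun φ hφl hφ r hr ε hε hm => by
          rw [dif_pos hr, Nat.cast_pow] at hm
          have := hS.descent (hadm φ hφ) ⟨r, hr⟩ hε hm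
          rw [← ch_vec_set hφl] at this
          exact this)
        (by
          have e2 : vec m (List.replicate m 0) = 0 := by
            funext i
            simp [vec, List.getD_eq_getElem?_getD]
          rw [e2]
          exact hS.Zp_zero)
        (fun φ => hS.one_le_Zp _) hS.descent_end (S.G ^ 1049)
        (by rw [← pow_add, ← pow_add])
      refine le_trans ?_ (h3.trans (Pr_mono fun l _ hl e => ?_))
      · have hm : (m : ℝ) ≤ S.G := by
          have := hS.cardU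
          rw [Fintype.card_fin] at this
          exact_mod_cast this
        have := ch_fail hG hm
        rw [Nat.cast_pow, Nat.cast_pow, Nat.cast_pow]
        linarith
      · have := hl e.val e.2
        beta_reduce at this
        rw [dif_pos e.2, Nat.cast_pow] at this
        exact this

end Crest.Agent.R302
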