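import Crest.Agent.R302.EnAlg
import Crest.Agent.R302.Metro

/-!
# R302/OutAlg: the output map

With `ρ = G + 1`, the offsets are `o u = ofBits ((ω.drop (u * ρ)).take ρ) % s u`, `u < m`; they are uniform on `obox` (`Pr_blocks`, `Pr_ofBits_mod`, `s_pow`; compare `R309/Out.lean`).  Let `σ = fine a o`, `t = z σ`, `x = out σ`
(`out σ v = σ v - ∑_e t e * pe e v`).  Output `some x` if all `|t e| ≤ gz e`, `exists_mem` (with `K = 2 G + 1`) accepts `x`, and `coin (200 g) (G ^ 214) (2 L + Ez t - k).toNat (ω.drop (m * ρ))` is true (`Pr_coin`, `q_eq`); else `none`.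
When the first test is passed, `|x v| ≤ 2 ^ (2 G) + G 2 ^ (G + 1) / G ^ 20 ≤ 2 ^ (2 G + 1)` (`abs_pt_le`, `cor_mem`, `abs_ed_le`).  Bits: `m (G + 1) + 200 g G ^ 214 ≤ G ^ 216` (`g_le`).
-/

set_option autoImplicit false

namespace Crest.Agent.R302

open Finset Crest.Agent.Lib.PT Crest.Agent.R309

/-- the offsets -/
def oaOff (D : Dat) (ω : List Bool) : List ℤ :=
  (List.range D.pl.length).map fun u =>
    ((ofBits ((ω.drop (u * (D.G + 1))).take (D.G + 1)) % (D.wd.getD u 0 / D.G ^ 72) : ℕ) : ℤ)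

/-- the accepted range of `z` -/
def oaGz (D : Dat) (e : ℕ) : ℕ :=
  if D.par'.getD e none = none then 0 else D.wd.getD (D.pc.getD e 0) 0 / D.G ^ 20

/-- the move that changes only `z e` -/
def oaPe (D : Dat) (e v : ℕ) : ℤ :=
  if D.par'.getD e none = none then 0 else
    (if D.pl.getD (D.pc.getD e 0) 0 = e then 1 else -1) *
      ((if v = D.pc.getD e 0 then 1 else 0) -
        if D.par.getD (D.pc.getD e 0) none = some v then 1 else 0)

/-- the projection -/
def oaOut (D : Dat) (σ t : List ℤ) : List ℤ :=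
  (List.range D.pl.length).map fun v =>
    σ.getD v 0 - ((List.range D.pl.length).map fun e => t.getD e 0 * oaPe D e v).sum

/-- the energy of `z` -/
def oaEz (D : Dat) (t : List ℤ) : ℤ :=
  ((D.G ^ 200 : ℕ) : ℤ) * ((List.range D.pl.length).map fun e =>
    if D.par'.getD e none = none then 0 else
      (D.G : ℤ) ^ 75 * (((2 ^ (D.G + 1) / D.wd.getD (D.pc.getD e 0) 0 : ℕ) : ℤ) * t.getD e 0) ^ 2).sum /
    ((2 * D.G ^ 31 * (2 ^ (D.G + 1)) ^ 2 : ℕ) : ℤ)

/-- the last step: `t` are the coordinates, `x` the projection, `b` the membership test -/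
def oaFin (D : Dat) (k : ℤ) (ω : List Bool) (t x : List ℤ) (b : Bool) : Option (List ℤ) :=
  if (∀ e < D.pl.length, |t.getD e 0| ≤ oaGz D e) ∧ b = true ∧
    coin (200 * Nat.log 2 D.G) (D.G ^ 214) (2 * ((D.G ^ 200 : ℕ) : ℤ) + oaEz D t - k).toNat
      (ω.drop (D.pl.length * (D.G + 1))) = true then some x else none

section pt

variable {α : Type} [Enc α]

theorem oaOff_pt {D : α → Dat} {ω : α → List Bool} (hD : PT D) (hω : PT ω) :
    PT fun a => oaOff (D a) (ω a) := by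
  unfold oaOff
  refine PT.map (PT.range (by fun_prop) (by fun_prop)) ?_
  fun_prop

theorem oaGz_pt {D : α → Dat} {e : α → ℕ} (hD : PT D) (he : PT e) :
    PT fun a => oaGz (D a) (e a) := by
  unfold oaGz
  fun_prop

theorem oaPe_pt {D : α → Dat} {e v : α → ℕ} (hD : PT D) (he : PT e) (hv : PT v) :
    PT fun a => oaPe (D a) (e a) (v a) := by
  unfold oaPe
  fun_prop

theorem oaOut_pt {D : α → Dat} {σ t : α → List ℤ} (hD : PT D) (hσ : PT σ) (ht : PT t) :
    PT fun a => oaOut (D a) (σ a) (t a) := by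
  unfold oaOut
  refine PT.map (PT.range (by fun_prop) (by fun_prop)) (PT.int_sub (by fun_prop) ?_)
  refine PT.int_sum (PT.map (PT.range (by fun_prop) (by fun_prop)) ?_)
  exact PT.int_mul (by fun_prop) (oaPe_pt (by fun_prop) (by fun_prop) (by fun_prop))

theorem oaEz_pt {D : α → Dat} {t : α → List ℤ} (hD : PT D) (ht : PT t) :
    PT fun a => oaEz (D a) (t a) := by
  unfold oaEz
  refine PT.int_ediv (PT.int_mul (by fun_prop) ?_) (by fun_prop)
  refine PT.int_sum (PT.map (PT.range (by fun_prop) (by fun_prop)) ?_)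
  fun_prop

theorem oaFin_pt {D : α → Dat} {k : α → ℤ} {ω : α → List Bool} {t x : α → List ℤ} {b : α → Bool}
    (hD : PT D) (hk : PT k) (hω : PT ω) (ht : PT t) (hx : PT x) (hb : PT b) :
    PT fun a => oaFin (D a) (k a) (ω a) (t a) (x a) (b a) := by
  have h1 := oaEz_pt hD ht
  have h2 : PT fun a => coin (200 * Nat.log 2 (D a).G) ((D a).G ^ 214)
      (2 * (((D a).G ^ 200 : ℕ) : ℤ) + oaEz (D a) (t a) - k a).toNat
      ((ω a).drop ((D a).pl.length * ((D a).G + 1))) :=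
    coin_pt (by fun_prop) (by fun_prop) (by fun_prop) (by fun_prop) (by fun_prop) (by fun_prop)
  have h3 : PT fun a => ∀ e < (D a).pl.length, |(t a).getD e 0| ≤ oaGz (D a) e :=
    PT.ball_lt (by fun_prop) (by fun_prop)
      (PT.int_le (by fun_prop) (PT.int_natCast (oaGz_pt (by fun_prop) (by fun_prop))))
  unfold oaFin
  exact PT.ite (h3.and (hb.eq_true.and h2.eq_true)) (by fun_prop) (by fun_prop)

end pt

section rep

variable {m : ℕ} {S : Sys (Fin m) (Fin m)} {D : Dat}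

theorem oa_root (hR : Rep D S) (e : Fin m) : D.par'.getD e.val none = none ↔ S.F'.par e = none := by
  rw [hR.F'.par, Option.map_eq_none_iff]

theorem oaGz_eq (hR : Rep D S) (e : Fin m) : oaGz D e.val = S.gz e := by
  unfold oaGz Sys.gz
  by_cases he : S.F'.par e = none
  · rw [if_pos he, if_pos ((oa_root hR e).2 he)]
  · rw [if_neg he, if_neg (mt (oa_root hR e).1 he), hR.pc e he, hR.wd, hR.G]

theorem oaPe_eq (hR : Rep D S) (e v : Fin m) : oaPe D e.val v.val = S.pe e v := by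
  unfold oaPe Sys.pe
  by_cases he : S.F'.par e = none
  · rw [if_pos he, if_pos ((oa_root hR e).2 he)]
    rfl
  · rw [if_neg he, if_neg (mt (oa_root hR e).1 he), hR.pc e he, hR.pl.2, hR.F.par, Pi.smul_apply,
      smul_eq_mul]
    congr 1
    · simp only [Fin.val_inj]
    · unfold Forest.ed
      rw [Pi.sub_apply, dl_apply]
      congr 1
      · simp only [Fin.val_inj]
      · cases S.F.par (S.pc e) with
        | none => simp
        | some p => simp [dl_apply, Fin.val_inj, eq_comm]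

theorem oaOut_eq (hR : Rep D S) {σ t : List ℤ} (ht : vec m t = S.z (vec m σ)) :
    vec m (oaOut D σ t) = S.out (vec m σ) := by
  funext v
  unfold oaOut Sys.out
  rw [hR.pl.1, vec_map_range, tl_sum_range, Pi.sub_apply, Finset.sum_apply]
  congr 1
  refine sum_congr rfl fun e _ => ?_
  rw [oaPe_eq hR, Pi.smul_apply, smul_eq_mul, ← ht]
  rfl

theorem oaEz_eq (hR : Rep D S) (t : List ℤ) : oaEz D t = S.Ez (vec m t) := by
  unfold oaEz Sys.Ez Sys.L Sys.den Sys.Dn
  rw [hR.pl.1, tl_sum_range, hR.G]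
  congr 2
  refine sum_congr rfl fun e _ => ?_
  by_cases he : S.F'.par e = none
  · rw [if_pos he, if_pos ((oa_root hR e).2 he)]
  · rw [if_neg he, if_neg (mt (oa_root hR e).1 he), hR.pc e he, hR.wd]
    rfl

theorem oaOff_apply (hR : Rep D S) (ω : List Bool) (u : Fin m) :
    vec m (oaOff D ω) u =
      ((ofBits ((ω.drop (u.val * (S.G + 1))).take (S.G + 1)) % S.s u : ℕ) : ℤ) := by
  unfold oaOff
  rw [hR.pl.1, vec_map_range, hR.wd, hR.G]
  rfl

theorem oaOff_take (hR : Rep D S) (ω : List Bool) :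
    vec m (oaOff D (ω.take (m * (S.G + 1)))) = vec m (oaOff D ω) := by
  funext u
  have := Nat.mul_le_mul_right (S.G + 1) (Nat.succ_le_of_lt u.2)
  rw [Nat.succ_mul] at this
  rw [oaOff_apply hR, oaOff_apply hR, List.drop_take, List.take_take, min_eq_left (by omega)]

theorem oaOff_mem (hS : S.Good) (hR : Rep D S) (ω : List Bool) : vec m (oaOff D ω) ∈ S.obox := by
  refine mem_box.2 fun u => ?_
  have := Nat.mod_lt (ofBits ((ω.drop (u.val * (S.G + 1))).take (S.G + 1))) (hS.s_pos u)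
  rw [oaOff_apply hR, Pi.zero_apply]
  omega

theorem oaOff_Pr (hS : S.Good) (hR : Rep D S) {o : Fin m → ℤ} (ho : o ∈ S.obox) :
    Pr (m * (S.G + 1)) (fun ω => vec m (oaOff D ω) = o) = 1 / S.vol := by
  have key := Pr_blocks (S.G + 1) m fun i l =>
    ∀ hi : i < m, ofBits l % S.s ⟨i, hi⟩ = (o ⟨i, hi⟩).toNat
  rw [Pr_congr (E' := fun l => ∀ i < m, ∀ hi : i < m,
    ofBits ((l.drop (i * (S.G + 1))).take (S.G + 1)) % S.s ⟨i, hi⟩ = (o ⟨i, hi⟩).toNat)
    fun ω _ => ?_, key]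
  · rw [Finset.prod_range, Sys.vol]
    push_cast
    rw [one_div, ← Finset.prod_inv_distrib]
    refine Finset.prod_congr rfl fun u _ => ?_
    obtain ⟨j, hj, hs⟩ := hS.s_pow u
    obtain ⟨h1, h2⟩ := mem_box.1 ho u
    rw [Pr_congr (E' := fun l => ofBits l % 2 ^ j = (o u).toNat) fun l _ => ?_, Pr_ofBits_mod hj,
      hs]
    · simp
    · rw [← hs]
      simp only [Pi.zero_apply] at h1
      omega
    · rw [← hs]
      exact ⟨fun h => h u.2, fun h _ => h⟩
  · constructor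
    · intro e i _ hi
      rw [← e, oaOff_apply hR, Int.toNat_natCast]
    · intro e
      funext u
      have h1 := (mem_box.1 ho u).1
      rw [oaOff_apply hR, e u.val u.2 u.2]
      exact Int.toNat_of_nonneg h1

theorem oa_abs_pe (e v : Fin m) : |S.pe e v| ≤ 1 := by
  unfold Sys.pe
  split_ifs
  · simp
  · simpa using S.F.abs_ed_le _ v
  · simpa using S.F.abs_ed_le _ v

theorem oa_abs_out (hS : S.Good) {a o : Fin m → ℤ} (ha : a ∈ S.cbox) (ho : o ∈ S.obox)
    (hz : ∀ e, |S.z (S.fine a o) e| ≤ S.gz e) (v : Fin m) :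
    |S.out (S.fine a o) v| ≤ 2 ^ (2 * S.G + 1) := by
  have hG := hS.G_ge
  have h1 : |S.fine a o v| < 2 ^ (2 * S.G) := by
    refine hS.abs_pt_le (fun u => ?_) v
    obtain ⟨a1, a2⟩ := Sys.mem_fbx.1 (hS.cor_mem ha ho) u
    have a3 : (0 : ℤ) ≤ (S.G : ℤ) ^ 95 * S.s u := by positivity
    rw [abs_le, mul_assoc]
    constructor <;> linarith
  have h2 : ∀ e, |S.z (S.fine a o) e * S.pe e v| ≤ 2 ^ (S.G + 1) := by
    intro e
    have a1 : S.gz e ≤ 2 ^ (S.G + 1) := by
      unfold Sys.gz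
      split_ifs
      · exact Nat.zero_le _
      · exact (Nat.div_le_self _ _).trans (hS.wd_le _)
    have a2 : (S.gz e : ℤ) ≤ 2 ^ (S.G + 1) := by exact_mod_cast a1
    rw [abs_mul]
    exact (mul_le_of_le_one_right (abs_nonneg _) (oa_abs_pe e v)).trans ((hz e).trans a2)
  have h3 := tl_abs_sum_le h2 univ
  have h4 : (m : ℤ) ≤ S.G := by
    have := hS.cardU
    rw [Fintype.card_fin] at this
    exact_mod_cast this
  have h5 : (S.G : ℤ) ^ 2 ≤ 2 ^ S.G := by exact_mod_cast hS.pow_le (k := 2) (by norm_num)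
  have h6 : (m : ℤ) * 2 ^ (S.G + 1) ≤ 2 ^ (2 * S.G) := by
    have a1 : (2 : ℤ) ≤ S.G := by omega
    calc (m : ℤ) * 2 ^ (S.G + 1) ≤ S.G * 2 ^ (S.G + 1) := by gcongr
      _ = S.G * 2 * 2 ^ S.G := by ring
      _ ≤ S.G * S.G * 2 ^ S.G := by gcongr
      _ ≤ 2 ^ S.G * 2 ^ S.G := by rw [← sq]; gcongr
      _ = _ := by rw [two_mul, pow_add]
  unfold Sys.out
  rw [Pi.sub_apply, Finset.sum_apply]
  simp only [Pi.smul_apply, smul_eq_mul]
  refine (abs_sub _ _).trans ?_
  rw [pow_succ]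
  linarith

theorem oa_bits (hS : S.Good) : m * (S.G + 1) + 200 * S.g * S.G ^ 214 ≤ S.G ^ 216 := by
  have hG := hS.G_ge
  have h1 := hS.g_le
  have h2 := hS.cardU
  rw [Fintype.card_fin] at h2
  have h3 : m * (S.G + 1) ≤ S.G * S.G ^ 214 := by
    refine Nat.mul_le_mul h2 ?_
    calc S.G + 1 ≤ S.G * S.G := by nlinarith
      _ = S.G ^ 2 := (sq _).symm
      _ ≤ _ := Nat.pow_le_pow_right (by omega) (by norm_num)
  have h4 : 200 * S.g * S.G ^ 214 ≤ S.G * S.G ^ 214 := Nat.mul_le_mul_right _ (by omega)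
  calc _ ≤ 2 * (S.G * S.G ^ 214) := by omega
    _ ≤ S.G * (S.G * S.G ^ 214) := Nat.mul_le_mul_right _ (by omega)
    _ = _ := by ring

theorem oa_Pr (hS : S.Good) (hR : Rep D S) (k : ℤ) (a : Fin m → ℤ) (P : (Fin m → ℤ) → Prop) {n : ℕ}
    (hn : S.G ^ 216 ≤ n) :
    Pr n (fun ω => (S.okO (S.fine a (vec m (oaOff D ω))) ∧ P (S.out (S.fine a (vec m (oaOff D ω))))) ∧
      coin (200 * S.g) (S.G ^ 214) (2 * S.L + S.Ez (S.z (S.fine a (vec m (oaOff D ω)))) - k).toNat
        (ω.drop (m * (S.G + 1))) = true) = S.outP k a P := by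
  have hb := oa_bits hS
  have e1 := Ex_take_drop (k := m * (S.G + 1)) (n := n) (by omega) fun l l' =>
    ind (S.okO (S.fine a (vec m (oaOff D l))) ∧ P (S.out (S.fine a (vec m (oaOff D l))))) *
      ind (coin (200 * S.g) (S.G ^ 214)
        (2 * S.L + S.Ez (S.z (S.fine a (vec m (oaOff D l)))) - k).toNat l' = true)
  simp only [oaOff_take hR, Ex_mul_left] at e1
  have e2 : ∀ j, Ex (n - m * (S.G + 1)) (fun l' => ind (coin (200 * S.g) (S.G ^ 214) j l' = true)) =
      S.q ^ min j (S.G ^ 214) := fun j => by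
    rw [hS.q_eq]
    exact Pr_coin _ _ j (by omega)
  simp only [e2] at e1
  unfold Pr
  simp only [ind_and (_ ∧ _)]
  rw [e1, Ex_comp (g := fun l => vec m (oaOff D l)) (fun l _ => oaOff_mem hS hR l)
    fun o => ind (S.okO (S.fine a o) ∧ P (S.out (S.fine a o))) *
      S.q ^ min (2 * S.L + S.Ez (S.z (S.fine a o)) - k).toNat (S.G ^ 214), Sys.outP, sum_div]
  refine sum_congr rfl fun o ho => ?_
  rw [oaOff_Pr hS hR ho, one_div_mul_eq_div]
  rfl

end rep

/-- inputs `(D, k, a, ω)` -/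
theorem exists_out :
    ∃ alg : (List Bool → ℤ) → Dat × ℤ × List ℤ × List Bool → Option (List ℤ), HOPT alg ∧
    ∀ (m : ℕ) (S : Sys (Fin m) (Fin m)) (D : Dat) (h : List Bool → ℤ) (k : ℤ) (a : List ℤ), S.Good →
      Rep D S → Calls h S.f → vec m a ∈ S.cbox → ∀ (P : (Fin m → ℤ) → Prop) (n : ℕ),
      S.G ^ 216 ≤ n →
      Pr n (fun ω => ∃ y, alg h (D, k, a, ω) = some y ∧ P (vec m y)) = S.outP k (vec m a) P := by
  obtain ⟨fi, hfi, sfi⟩ := exists_fine
  obtain ⟨zz, hzz, szz⟩ := exists_z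
  obtain ⟨me, hme, sme⟩ := exists_mem
  -- the point, its coordinates and its projection
  obtain ⟨σ, hσ, sσ⟩ : ∃ σ : Dat × ℤ × List ℤ × List Bool → List ℤ, PT σ ∧
      ∀ p, σ p = fi (p.1, p.2.2.1, oaOff p.1 p.2.2.2) :=
    ⟨_, hfi.comp (PT.pair (by fun_prop) (PT.pair (by fun_prop)
      (oaOff_pt (by fun_prop) (by fun_prop)))), fun _ => rfl⟩
  obtain ⟨t, ht, st⟩ : ∃ t : Dat × ℤ × List ℤ × List Bool → List ℤ, PT t ∧
      ∀ p, t p = zz (p.1, σ p) := ⟨_, hzz.comp (PT.pair (by fun_prop) hσ), fun _ => rfl⟩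
  obtain ⟨x, hx, sx⟩ : ∃ x : Dat × ℤ × List ℤ × List Bool → List ℤ, PT x ∧
      ∀ p, x p = oaOut p.1 (σ p) (t p) := ⟨_, oaOut_pt (by fun_prop) hσ ht, fun _ => rfl⟩
  refine ⟨fun h p => oaFin p.1 p.2.1 p.2.2.2 (t p) (x p)
    (me h (⟨p.1.pl.length⟩, ⟨2 * p.1.G + 1⟩, x p)), fun α _ h hh => ?_,
    fun m S D h k a hS hR hc ha P n hn => ?_⟩
  · refine OPT.cont (g := fun (c : α × Dat × ℤ × List ℤ × List Bool) b =>
      oaFin c.2.1 c.2.2.1 c.2.2.2.2 (t c.2) (x c.2) b) ?_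
      (oaFin_pt (by fun_prop) (by fun_prop) (by fun_prop) (by fun_prop) (by fun_prop) (by fun_prop))
    exact hme.app (h := fun O (c : α × Dat × ℤ × List ℤ × List Bool) l => h O c.1 l)
      (OPT.call hh (e := fun c : (α × Dat × ℤ × List ℤ × List Bool) × List Bool => c.1.1)
        (q := fun c => c.2) (by fun_prop) (by fun_prop)) (OPT.pure (by fun_prop))
  · rw [← oa_Pr hS hR k (vec m a) P hn]
    refine Pr_congr fun ω _ => ?_
    have e1 : vec m (σ (D, k, a, ω)) = S.fine (vec m a) (vec m (oaOff D ω)) := by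
      rw [sσ]; exact sfi m S D a _ hR
    have e2 : vec m (t (D, k, a, ω)) = S.z (vec m (σ (D, k, a, ω))) := by
      rw [st]; exact szz m S D _ hR
    have e3 : vec m (x (D, k, a, ω)) = S.out (S.fine (vec m a) (vec m (oaOff D ω))) := by
      rw [sx, oaOut_eq hR e2, e1]
    rw [e1] at e2
    have e4 : (∀ e < m, |(t (D, k, a, ω)).getD e 0| ≤ oaGz D e) ↔
        ∀ e, |S.z (S.fine (vec m a) (vec m (oaOff D ω))) e| ≤ S.gz e := by
      rw [← e2]
      exact ⟨fun H e => oaGz_eq hR e ▸ H e.val e.2, fun H e he =>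
        (oaGz_eq hR ⟨e, he⟩).symm ▸ H ⟨e, he⟩⟩
    have e5 : (∀ e, |S.z (S.fine (vec m a) (vec m (oaOff D ω))) e| ≤ S.gz e) →
        (me h (⟨m⟩, ⟨2 * S.G + 1⟩, x (D, k, a, ω)) = true ↔
          Below S.f (S.out (S.fine (vec m a) (vec m (oaOff D ω))))) := by
      intro H
      rw [← e3]
      refine sme m _ S.f h _ hc hS.nice.sub (fun A => (hS.bd A).trans ?_) fun u => ?_
      · exact pow_le_pow_right₀ (by norm_num) (by omega)
      · rw [e3]
        exact oa_abs_out hS ha (oaOff_mem hS hR ω) H u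
    unfold oaFin Sys.okO
    simp only [hR.pl.1, hR.G, oaEz_eq hR, e2, e4]
    constructor
    · rintro ⟨y, h1, h2⟩
      split_ifs at h1 with h3
      obtain rfl := Option.some.inj h1
      exact ⟨⟨⟨h3.1, (e5 h3.1).1 h3.2.1⟩, e3 ▸ h2⟩, h3.2.2⟩
    · rintro ⟨⟨⟨h1, h2⟩, h3⟩, h4⟩
      exact ⟨_, if_pos ⟨h1, (e5 h1).2 h2, h4⟩, e3 ▸ h3⟩

end Crest.Agent.R302
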