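import Crest.Agent.R302.Build
import Crest.Agent.R302.Chain
import Crest.Agent.R302.OutAlg
import Crest.Agent.R302.Acc

/-!
# R302/Core: the sampler (done)

`shot h (i, l, ω)`: `D = build i`, `φ = fields (D, l)`, `a = chain (D, φ, ω.take (G ^ 434))`, output `out (D, enC (D, φ, a), a, ω.drop (G ^ 434))`; `e = 1049`.
For good `l` take `c = S.cst φ` (`acc`).  By `Ex_take_drop` and `exists_out` the probability is `Ex (G ^ 434) (ψ (chain))` with `ψ a = outP (enC φ a) a P ∈ [0, 1]` (`outP_mem`); conclude with `exists_chain`, `out_sum`.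
-/

set_option autoImplicit false

namespace Crest.Agent.R302

open Finset Crest.Agent.Lib.PT Crest.Agent.R309

theorem core_app {ι ο β γ α δ : Type} [Enc ι] [Enc ο] [Enc β] [Enc γ] [Enc α] [Enc δ]
    {alg : (ι → ο) → β → γ} (H : HOPT alg) {h : Orc → α → ι → ο}
    (hh : OPT fun O (p : α × ι) => h O p.1 p.2) {b : Orc → α × δ → β} (hb : OPT b) :
    OPT fun O (p : α × δ) => alg (h O p.1) (b O p) :=
  H.app (h := fun O (p : α × δ) i => h O p.1 i)
    (OPT.call hh (e := fun c : (α × δ) × ι => c.1.1) (q := fun c => c.2) (by fun_prop)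
      (by fun_prop)) hb

theorem exists_core : ∃ shot e, CoreSpec shot e := by
  obtain ⟨bld, bld_pt, hbld⟩ := exists_build
  obtain ⟨fl, fl_pt, hfl⟩ := exists_fields
  obtain ⟨ch, ch_pt, hch⟩ := exists_chain
  obtain ⟨en, en_pt, hen⟩ := exists_enC
  obtain ⟨ot, ot_pt, hot⟩ := exists_out
  refine ⟨fun h p => ot h (bld h p.1,
      en h (bld h p.1, fl h (bld h p.1, p.2.1),
        ch h (bld h p.1, fl h (bld h p.1, p.2.1), p.2.2.take (p.1.1.n ^ 434))),
      ch h (bld h p.1, fl h (bld h p.1, p.2.1), p.2.2.take (p.1.1.n ^ 434)),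
      p.2.2.drop (p.1.1.n ^ 434)), 1049, ?_, ?_⟩
  · intro α _ h hh
    have hD : OPT fun O (p : α × (Un × List ℕ × List ℤ) × List Bool × List Bool) =>
        bld (h O p.1) p.2.1 := core_app bld_pt hh (OPT.pure (by fun_prop))
    have hφ : OPT fun O (p : α × (Un × List ℕ × List ℤ) × List Bool × List Bool) =>
        fl (h O p.1) (bld (h O p.1) p.2.1, p.2.2.1) :=
      core_app fl_pt hh (hD.pair (OPT.pure (by fun_prop)))
    have ha : OPT fun O (p : α × (Un × List ℕ × List ℤ) × List Bool × List Bool) =>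
        ch (h O p.1) (bld (h O p.1) p.2.1, fl (h O p.1) (bld (h O p.1) p.2.1, p.2.2.1),
          p.2.2.2.take (p.2.1.1.n ^ 434)) :=
      core_app ch_pt hh (hD.pair (hφ.pair (OPT.pure (by fun_prop))))
    have hk := core_app en_pt hh (hD.pair (hφ.pair ha))
    exact core_app ot_pt hh (hD.pair (hk.pair (ha.pair (OPT.pure
      (f := fun p : α × (Un × List ℕ × List ℤ) × List Bool × List Bool =>
        p.2.2.2.drop (p.2.1.1.n ^ 434)) (by fun_prop)))))
  · intro m G f pr h pl x1 hF hc hp hx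
    obtain ⟨S, hS, hR, rfl, rfl, rfl⟩ := hbld m G f pr h pl x1 hF hc hp hx
    dsimp only
    generalize bld h (⟨S.G⟩, pl, x1) = D at hR ⊢
    obtain ⟨hadm, hgood⟩ := hfl m S D h hS hR hc
    refine hgood.trans (Pr_mono fun l _ hl => ?_)
    have hφ := hadm l
    generalize fl h (D, l) = φ at hl hφ ⊢
    refine ⟨S.cst (vec m φ), hS.acc hφ hl, fun P => ?_⟩
    obtain ⟨hmem, hmix⟩ := hch m S D h φ hS hR hc
    have hG1 : 1 ≤ S.G := le_trans (by norm_num) hS.G_ge
    have hG2 : 2 ≤ S.G := le_trans (by norm_num) hS.G_ge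
    have h1 : S.G ^ 434 + S.G ^ 216 ≤ S.G ^ 1049 := by
      have a1 : S.G ^ 216 ≤ S.G ^ 434 := Nat.pow_le_pow_right hG1 (by norm_num)
      have a2 : S.G ^ 435 ≤ S.G ^ 1049 := Nat.pow_le_pow_right hG1 (by norm_num)
      have a3 : S.G ^ 434 * 2 ≤ S.G ^ 435 := by
        rw [show 435 = 434 + 1 from rfl, pow_succ]; exact Nat.mul_le_mul_left _ hG2
      omega
    have e1 := Ex_take_drop (k := S.G ^ 434) (n := S.G ^ 1049) (by omega) fun w w' =>
      ind (∃ y, ot h (D, en h (D, φ, ch h (D, φ, w)), ch h (D, φ, w), w') = some y ∧ P (vec m y))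
    have e2 : ∀ w, Ex (S.G ^ 1049 - S.G ^ 434) (fun w' => ind (∃ y,
        ot h (D, en h (D, φ, ch h (D, φ, w)), ch h (D, φ, w), w') = some y ∧ P (vec m y))) =
        S.outP (S.enC (vec m φ) (vec m (ch h (D, φ, w)))) (vec m (ch h (D, φ, w))) P := fun w => by
      rw [← hen m S D h φ _ hS hR hc (hmem w)]
      exact hot m S D h _ _ hS hR hc (hmem w) P _ (by omega)
    simp only [e2] at e1
    have e3 := hmix hφ (fun a => S.outP (S.enC (vec m φ) a) a P)
      (fun a _ => hS.outP_mem _ a P) _ le_rfl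
    rw [hS.out_sum hφ P, ← e1] at e3
    refine e3.trans (one_div_le_one_div_of_le (by positivity) ?_)
    exact pow_le_pow_right₀ (by exact_mod_cast hG1) (by norm_num)

end Crest.Agent.R302
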