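import Crest.Agent.R302.Unify
import Crest.Agent.R309.Tape2

/-!
# R302/Count: the approximation scheme (TASK; compare `R309/Count.lean`, `Fin79.half_pow_le`)

Input `((v, inp), l)` with `v = n + ε.den / |ε.num|` in unary and `inp = [n, R, |ε.num|, ε.den, |δ.num|, δ.den]`.  Let `n' = min inp[0] v` (unary), `R = inp[1]`,
`G = 2 ^ (size (2 v + size R + 2) + 20)` (polynomially bounded; `Fits₂ G n R` and `1 / G ≤ ε` since `G ≥ v + 1`), `D = size inp[5]`, `len = (2 D + 1) * G ^ e`.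
Output `0` if `exists_nonempty` says no; else the median of the estimates on the blocks `chunks (G ^ e) (2 D + 1) l` (copy the private `med` lemmas; `major_chunks`, `(3/5) ^ (2 D + 1) ≤ (1/2) ^ D ≤ δ`).
-/

set_option autoImplicit false

namespace Crest.Agent.R302

open Finset Crest.Agent.Lib.PT Crest.Agent.R309

/-- A median of a list. -/
def ctMed (L : List ℚ) : ℚ :=
  (L.find? fun z => decide (L.length ≤ 2 * L.countP fun y => decide (y ≤ z)) &&
    decide (L.length ≤ 2 * L.countP fun y => decide (z ≤ y))).getD 0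

theorem ct_med_pt {α : Type} [Enc α] {L : α → List ℚ} (hL : PT L) :
    PT fun a => ctMed (L a) := by
  unfold ctMed; fun_prop

theorem ct_exists_med {L : List ℚ} (hL : L ≠ []) :
    ∃ z ∈ L, L.length ≤ 2 * L.countP (fun y => decide (y ≤ z)) ∧
      L.length ≤ 2 * L.countP (fun y => decide (z ≤ y)) := by
  classical
  obtain ⟨m, hm, hmax⟩ := L.toFinset.exists_max_image id (by simpa using hL)
  obtain ⟨z, hz, hmin⟩ := (L.toFinset.filter fun z =>
    L.length ≤ 2 * L.countP (fun y => decide (y ≤ z))).exists_min_image id ⟨m, by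
      refine mem_filter.2 ⟨hm, ?_⟩
      rw [List.countP_eq_length.2 fun a ha => by simpa using hmax a (by simpa using ha)]
      omega⟩
  obtain ⟨hz1, hz2⟩ := mem_filter.1 hz
  refine ⟨z, by simpa using hz1, hz2, ?_⟩
  have e := List.length_eq_countP_add_countP (fun y => decide (z ≤ y)) (l := L)
  by_cases h0 : (L.toFinset.filter fun y => y < z).Nonempty
  · obtain ⟨w, hw, hwmax⟩ := (L.toFinset.filter fun y => y < z).exists_max_image id h0
    obtain ⟨hw1, hw2⟩ := mem_filter.1 hw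
    have h1 : ¬ L.length ≤ 2 * L.countP (fun y => decide (y ≤ w)) := fun h =>
      absurd (hmin w (mem_filter.2 ⟨hw1, h⟩)) (not_le.2 hw2)
    have h2 : L.countP (fun a => decide ¬ (decide (z ≤ a) = true)) ≤
        L.countP (fun y => decide (y ≤ w)) :=
      List.countP_mono_left fun a ha h => by
        simpa using hwmax a (mem_filter.2 ⟨by simpa using ha, by simpa using h⟩)
    omega
  · have h2 : L.countP (fun a => decide ¬ (decide (z ≤ a) = true)) = 0 :=
      List.countP_eq_zero.2 fun a ha h =>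
        h0 ⟨a, mem_filter.2 ⟨by simpa using ha, by simpa using h⟩⟩
    omega

theorem ct_med_spec {L : List ℚ} (hL : L ≠ []) :
    L.length ≤ 2 * L.countP (fun y => decide (y ≤ ctMed L)) ∧
      L.length ≤ 2 * L.countP (fun y => decide (ctMed L ≤ y)) := by
  obtain ⟨z, hz, h1, h2⟩ := ct_exists_med hL
  unfold ctMed
  cases h : L.find? fun z => decide (L.length ≤ 2 * L.countP fun y => decide (y ≤ z)) &&
    decide (L.length ≤ 2 * L.countP fun y => decide (z ≤ y)) with
  | none => exact absurd (by simpa using ⟨h1, h2⟩) (List.find?_eq_none.1 h z hz)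
  | some w => simpa using List.find?_some h

theorem ct_med_nonneg {L : List ℚ} (h : ∀ z ∈ L, 0 ≤ z) : 0 ≤ ctMed L := by
  unfold ctMed
  cases h' : L.find? fun z => decide (L.length ≤ 2 * L.countP fun y => decide (y ≤ z)) &&
    decide (L.length ≤ 2 * L.countP fun y => decide (z ≤ y)) with
  | none => exact le_rfl
  | some w => exact h w (List.mem_of_find?_eq_some h')

theorem ct_med_good {L : List ℚ} (hL : L ≠ []) (c r : ℝ) (bad : ℚ → Bool)
    (hbad : ∀ z : ℚ, ¬ |(z : ℝ) - c| ≤ r → bad z = true) (h : ¬ L.length ≤ 2 * L.countP bad) :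
    |(ctMed L : ℝ) - c| ≤ r := by
  obtain ⟨h1, h2⟩ := ct_med_spec hL
  by_contra hc
  apply h
  rcases lt_abs.1 (not_le.1 hc) with h3 | h3
  · refine h2.trans (Nat.mul_le_mul_left 2 (List.countP_mono_left fun a _ ha => hbad a ?_))
    have : (ctMed L : ℝ) ≤ a := by exact_mod_cast of_decide_eq_true ha
    exact not_le.2 (lt_abs.2 (Or.inl (by linarith)))
  · refine h1.trans (Nat.mul_le_mul_left 2 (List.countP_mono_left fun a _ ha => hbad a ?_))
    have : (a : ℝ) ≤ ctMed L := by exact_mod_cast of_decide_eq_true ha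
    exact not_le.2 (lt_abs.2 (Or.inr (by linarith)))

theorem ct_two_pow_size_le (x : ℕ) : 2 ^ x.size ≤ 2 * x + 1 := by
  rcases h : x.size with _ | k
  · simp
  · have : 2 ^ k ≤ x := Nat.lt_size.1 (by omega)
    rw [pow_succ]; omega

theorem ct_half_pow_le {δ : ℚ} (hδ : 0 < δ) : ((1 : ℝ) / 2) ^ δ.den.size ≤ δ := by
  have h1 : (δ.den : ℝ) ≤ 2 ^ δ.den.size := by exact_mod_cast (Nat.lt_size_self δ.den).le
  have h2 : (0 : ℝ) < δ.den := by exact_mod_cast δ.den_pos
  have h3 : (1 : ℝ) ≤ δ.num := by exact_mod_cast Rat.num_pos.2 hδ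
  rw [one_div, inv_pow, Rat.cast_def]
  calc ((2 : ℝ) ^ δ.den.size)⁻¹ ≤ (δ.den : ℝ)⁻¹ := inv_anti₀ h2 h1
    _ = 1 / δ.den := (one_div _).symm
    _ ≤ _ := by gcongr

/-- the size parameter -/
def ctG (a : Un × List ℕ) : ℕ := 2 ^ (Nat.size (2 * a.1.n + Nat.size (a.2.getD 1 0) + 2) + 20)

/-- the number of repetitions -/
def ctN (a : Un × List ℕ) : ℕ := 2 * Nat.size (a.2.getD 5 0) + 1

/-- the parameters `(n, G, R)` -/
def ctP (a : Un × List ℕ) : Un × Un × ℕ := (⟨min (a.2.getD 0 0) a.1.n⟩, ⟨ctG a⟩, a.2.getD 1 0)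

theorem ctG_pt : PT ctG ∧ PB ctG := by
  have h1 : PT fun a : Un × List ℕ => a.2.getD 1 0 := by fun_prop
  have h2 : PT fun a : Un × List ℕ => 2 * a.1.n + Nat.size (a.2.getD 1 0) + 2 :=
    PT.nat_add (PT.nat_add (by fun_prop) h1.nat_size) (PT.const 2)
  have h3 : PB fun a : Un × List ℕ => 2 * a.1.n + Nat.size (a.2.getD 1 0) + 2 :=
    PB.add (PB.add (by fun_prop) (PB.size h1)) (PB.const 2)
  unfold ctG
  refine ⟨(PT.const 2).nat_pow (h2.nat_size.nat_add (PT.const 20))
    ((PB.size h2).add (PB.const 20)), ?_⟩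
  refine ((((PB.const 2).mul h3).add (PB.const 1)).mul (PB.const (2 ^ 20))).mono fun a => ?_
  rw [pow_add]
  exact Nat.mul_le_mul_right _ (ct_two_pow_size_le _)

theorem ctN_pt : PT ctN ∧ PB ctN := by
  have h1 : PT fun a : Un × List ℕ => a.2.getD 5 0 := by fun_prop
  unfold ctN
  exact ⟨PT.nat_add ((PT.const 2).nat_mul h1.nat_size) (PT.const 1),
    ((PB.const 2).mul (PB.size h1)).add (PB.const 1)⟩

theorem ctP_pt : PT ctP := by
  unfold ctP
  refine PT.pair (PT.un_mk (by fun_prop) (PB.min_right _ (by fun_prop)))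
    (PT.pair (PT.un_mk ctG_pt.1 ctG_pt.2) (by fun_prop))

theorem ctP_inp (n R : ℕ) (ε δ : ℚ) :
    ctP (inpOf n R ε δ) = (⟨n⟩, ⟨ctG (inpOf n R ε δ)⟩, R) := by
  simp [ctP, inpOf, Crest.Polymatroid.countInput]

theorem ctN_inp (n R : ℕ) (ε δ : ℚ) : ctN (inpOf n R ε δ) = 2 * δ.den.size + 1 := rfl

theorem ctG_ge (n R : ℕ) (ε δ : ℚ) :
    2 * (n + ε.den / ε.num.natAbs) + R.size + 2 ≤ ctG (inpOf n R ε δ) :=
  (Nat.lt_size_self _).le.trans (Nat.pow_le_pow_right (by norm_num) (Nat.le_add_right _ _))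

theorem ct_fits (n R : ℕ) (ε δ : ℚ) : Fits₂ (ctG (inpOf n R ε δ)) n R := by
  have hG := ctG_ge n R ε δ
  generalize ε.den / ε.num.natAbs = t at hG
  have hl : ∀ k, Nat.log 2 (2 ^ k) = k := fun k => Nat.log_pow (by norm_num) _
  refine ⟨by rw [ctG, hl], by rw [ctG, hl]; omega, by omega, ?_⟩
  exact (Nat.lt_size_self R).trans_le (Nat.pow_le_pow_right (by norm_num) (by omega))

theorem ct_inv_le (n R : ℕ) {ε : ℚ} (hε : 0 < ε) (δ : ℚ) :
    (1 : ℝ) / ctG (inpOf n R ε δ) ≤ ε := by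
  have hG := ctG_ge n R ε δ
  have h0 : 0 < ε.num.natAbs := Int.natAbs_pos.2 (Rat.num_pos.2 hε).ne'
  have h1 : ε.den ≤ ε.num.natAbs * ctG (inpOf n R ε δ) :=
    (Nat.lt_mul_div_succ ε.den h0).le.trans (Nat.mul_le_mul_left _ (by omega))
  have h2 : (ε.den : ℝ) ≤ (ε.num : ℝ) * ctG (inpOf n R ε δ) := by
    have h3 : ((ε.num.natAbs : ℕ) : ℝ) = (ε.num : ℝ) := by
      rw [← Int.cast_natCast, Int.natAbs_of_nonneg (Rat.num_pos.2 hε).le]
    rw [← h3]
    exact_mod_cast h1
  have h4 : (0 : ℝ) < ε.den := by exact_mod_cast ε.den_pos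
  have h5 : (0 : ℝ) < ctG (inpOf n R ε δ) := by exact_mod_cast (by omega : 0 < ctG (inpOf n R ε δ))
  rw [Rat.cast_def, div_le_div_iff₀ h5 h4, one_mul]
  exact h2

attribute [local irreducible] ctP ctG ctN

theorem exists_count {est : (Bool × List Bool → ℤ) → (Un × Un × ℕ) × List Bool → ℚ} {e : ℕ}
    (h : EstSpec est e) : ∃ ct len, CountSpec ct len := by
  classical
  obtain ⟨ne, Hne, hne⟩ := exists_nonempty
  have hP := ctP_pt
  obtain ⟨hG, hGb⟩ := ctG_pt
  obtain ⟨hN, hNb⟩ := ctN_pt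
  have hρ : PT fun a => ctG a ^ e := hG.nat_pow (PT.const e) (PB.const e)
  refine ⟨fun k a => if ne k (ctP a.1) = true then
      ctMed ((chunks (ctG a.1 ^ e) (ctN a.1) a.2).map fun ω => est k (ctP a.1, ω)) else 0,
    fun a => ctN a * ctG a ^ e, ?_, hN.nat_mul hρ, hNb.mul (hGb.pow e), ?_, ?_, ?_⟩
  · intro α _ k hk
    have hk' : OPT fun O (p : (α × (Un × List ℕ) × List Bool) × Bool × List Bool) =>
        k O p.1.1 p.2 := OPT.call hk (by fun_prop) (by fun_prop)
    have h1 : OPT fun O (c : α × (Un × List ℕ) × List Bool) => ne (k O c.1) (ctP c.2.1) :=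
      Hne.app (h := fun O (c : α × (Un × List ℕ) × List Bool) i => k O c.1 i) hk'
        (OPT.pure (hP.comp (by fun_prop)))
    have h2 : OPT fun O (c : α × (Un × List ℕ) × List Bool) =>
        (chunks (ctG c.2.1 ^ e) (ctN c.2.1) c.2.2).map fun ω => est (k O c.1) (ctP c.2.1, ω) := by
      refine OPT.map (l := fun _ (c : α × (Un × List ℕ) × List Bool) =>
        chunks (ctG c.2.1 ^ e) (ctN c.2.1) c.2.2)
        (f := fun O c ω => est (k O c.1) (ctP c.2.1, ω))
        (OPT.pure (PT.chunks (hρ.comp (by fun_prop)) (hN.comp (by fun_prop))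
          (hNb.comp (by fun_prop)) (by fun_prop))) ?_
      exact h.pt.app (h := fun O (c : (α × (Un × List ℕ) × List Bool) × List Bool) i => k O c.1.1 i)
        (OPT.call hk (by fun_prop) (by fun_prop))
        (OPT.pure (PT.pair (hP.comp (by fun_prop)) (by fun_prop)))
    exact OPT.cont₂ (g := fun _ (b : Bool) (L : List ℚ) => if b = true then ctMed L else 0) h1 h2
      (PT.ite (PT.eq_true (by fun_prop)) (ct_med_pt (by fun_prop)) (by fun_prop))
  · intro k a
    split_ifs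
    · refine ct_med_nonneg fun z hz => ?_
      obtain ⟨ω, -, rfl⟩ := List.mem_map.1 hz
      exact h.nonneg _ _
    · exact le_rfl
  · intro n R ε δ r₁ r₂ k hPM hc h0 l
    dsimp only
    rw [if_neg]
    rw [ctP_inp, hne n _ R r₁ r₂ k (ct_fits n R ε δ).bd hPM hc, card_eq_zero.1 h0]
    exact not_nonempty_empty
  · intro n R ε δ r₁ r₂ k hPM hc hε hδ
    have hF := ct_fits n R ε δ
    have hn := hne n _ R r₁ r₂ k hF.bd hPM hc
    have hinv := ct_inv_le n R hε δ
    have hδ' : (0 : ℝ) < δ := by exact_mod_cast hδ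
    simp only [ctP_inp]
    by_cases hne' : (CB R r₁ r₂ 0 fun _ => R).Nonempty
    swap
    · have h0 : (CB R r₁ r₂ 0 fun _ => R).card = 0 := card_eq_zero.2 (not_nonempty_iff_eq_empty.1 hne')
      have h1 : ¬ ne k (⟨n⟩, ⟨ctG (inpOf n R ε δ)⟩, R) = true := fun h' => hne' (hn.1 h')
      rw [Pr_true fun l _ => by simp [h0, h1]]
      linarith
    simp only [hn.2 hne', if_true]
    have hg := h.good n _ R r₁ r₂ k hF hPM hc hne'
    have hNe := ctN_inp n R ε δ
    generalize ctG (inpOf n R ε δ) = G at *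
    generalize ctN (inpOf n R ε δ) = N at *
    generalize (CB R r₁ r₂ 0 fun _ => R).card = c at *
    let bad : ℚ → Bool := fun z => decide (¬ |(z : ℝ) - c| ≤ (c : ℝ) / G)
    have hb : Pr (G ^ e) (fun ω => bad (est k ((⟨n⟩, ⟨G⟩, R), ω)) = true) ≤ 1 / 16 := by
      simp only [bad, decide_eq_true_eq]
      rw [Pr_not]
      linarith
    have hm := major_chunks (G ^ e) N _ hb
    have h35 : (3 / 5 : ℝ) ^ N ≤ (1 / 2) ^ δ.den.size := by
      rw [hNe, pow_succ, pow_mul]
      have : ((3 / 5 : ℝ) ^ 2) ^ δ.den.size ≤ (1 / 2) ^ δ.den.size :=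
        pow_le_pow_left₀ (by positivity) (by norm_num) _
      have h' : (0 : ℝ) ≤ ((3 / 5 : ℝ) ^ 2) ^ δ.den.size := by positivity
      linarith
    have hd := ct_half_pow_le hδ
    refine le_trans ?_ (Pr_mono (E := fun l => ¬ N ≤ 2 * (chunks (G ^ e) N l).countP
      fun ω => bad (est k ((⟨n⟩, ⟨G⟩, R), ω))) fun l _ hl => ?_)
    · rw [Pr_not]; linarith
    · have h1 := ct_med_good (L := (chunks (G ^ e) N l).map fun ω => est k ((⟨n⟩, ⟨G⟩, R), ω))
        (List.ne_nil_of_length_pos (by simp [hNe])) c ((c : ℝ) / G) bad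
        (fun z hz => decide_eq_true hz) (by rwa [List.length_map, length_chunks, List.countP_map])
      generalize ctMed ((chunks (G ^ e) N l).map fun ω => est k ((⟨n⟩, ⟨G⟩, R), ω)) = z at h1 ⊢
      have h2 : (c : ℝ) / G ≤ ε * c := by
        rw [div_eq_mul_one_div, mul_comm]
        exact mul_le_mul_of_nonneg_right hinv (Nat.cast_nonneg _)
      obtain ⟨h3, h4⟩ := abs_le.1 (h1.trans h2)
      constructor
      · have : (1 - (ε : ℝ)) * c ≤ z := by linarith
        exact_mod_cast this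
      · have : (z : ℝ) ≤ (1 + (ε : ℝ)) * c := by linarith
        exact_mod_cast this

end Crest.Agent.R302
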