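import Crest.Agent.R302.Sub

/-!
# R302/Cyc: the exchange graph (TASK)
-/

set_option autoImplicit false
set_option linter.unusedSectionVars false

namespace Crest.Agent.R302

open Finset Crest.Agent.R309

variable {U E : Type} [Fintype U] [DecidableEq U] [Fintype E] [DecidableEq E]
  {f : Finset U → ℤ} {pr : U → E} {x y : U → ℤ}

/-- the moves of capacity at least `τ` -/
def Mv (f : Finset U → ℤ) (x : U → ℤ) (τ : ℤ) (u v : U) : Prop := CapGe f x v u τ

/-- a set of small slack is closed -/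
theorem clo_of_slack_lt {τ : ℤ} {A : Finset U} (h : slack f x A < τ) : Clo (Mv f x τ) A := by
  intro u v huv hv
  by_contra hu
  exact absurd (huv A hv hu) (not_le.2 h)

/-- a set that contains each fibre of `pr` or misses it has sum zero -/
theorem PZ.sum_sat (h : PZ pr x) {A : Finset U} (hA : ∀ u v, pr u = pr v → u ∈ A → v ∈ A) :
    ∑ u ∈ A, x u = 0 := by
  rw [← sum_fiberwise A pr x]
  refine sum_eq_zero fun e _ => ?_
  by_cases he : ∃ u ∈ A, pr u = e
  · obtain ⟨u, hu, rfl⟩ := he
    rw [← h (pr u)]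
    refine sum_congr ?_ fun _ _ => rfl
    ext v
    simp only [mem_filter, mem_univ, true_and]
    exact ⟨fun h => h.2, fun h => ⟨hA u v h.symm hu, h⟩⟩
  · exact sum_eq_zero fun u hu => absurd ⟨u, (mem_filter.1 hu).1, (mem_filter.1 hu).2⟩ he

/-- **Lemma X.**  Let `T = Mv f x τ`.  The classes `C` of mutual reachability are unions of fibres.  For a class `C` let `P` be the set of the `w ∉ C` that reach `C` (a union of fibres) and
`Q = P ∪ (C \ A)`.  No move enters `Q` (from outside `P ∪ C`: it would reach `C`; from `C` to `P`: the target would be in `C`; from `C ∩ A` to `C \ A`: excluded by `h`), so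
`slack f x Q ≤ m² τ` (`slack_of_closed`).  As `x` and `y` sum to zero on `C` and `P`: `(x - y) (A ∩ C) = (y - x) (C \ A) = (y - x) Q ≤ slack f x Q`.  Sum over the at most `m` classes
(`sum_fiberwise` for the map `u ↦ class of u`, a `Finset U`). -/
theorem lemX (hf : Nice f) (hx : InK f pr x) (hy : InK f pr y) {τ : ℤ} (hτ : 0 ≤ τ) (A : Finset U)
    (h : ∀ u v, Mv f x τ u v → u ∈ A → v ∉ A → ¬ Reach (Mv f x τ) pr v u) :
    slack f y A ≤ slack f x A + (Fintype.card U : ℤ) ^ 3 * τ := by
  classical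
  let cls : U → Finset U := fun u =>
    univ.filter fun w => Reach (Mv f x τ) pr u w ∧ Reach (Mv f x τ) pr w u
  have hcls : ∀ u c, cls u = cls c ↔
      Reach (Mv f x τ) pr c u ∧ Reach (Mv f x τ) pr u c := by
    intro u c
    constructor
    · intro e
      have : u ∈ cls c := e ▸ mem_filter.2 ⟨mem_univ _, .refl, .refl⟩
      exact (mem_filter.1 this).2
    · rintro ⟨h1, h2⟩
      ext w
      simp only [cls, mem_filter, mem_univ, true_and]
      exact ⟨fun h => ⟨h1.trans h.1, h.2.trans h2⟩, fun h => ⟨h2.trans h.1, h.2.trans h1⟩⟩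
  have hcl : ∀ S ∈ A.image cls,
      ∑ u ∈ A.filter (fun u => cls u = S), (x u - y u) ≤ (Fintype.card U : ℤ) ^ 2 * τ := by
    intro S hS
    obtain ⟨c, -, rfl⟩ := mem_image.1 hS
    set R : Finset U := univ.filter fun w => Reach (Mv f x τ) pr w c with hR
    set D : Finset U := A.filter fun u => cls u = cls c with hD
    have hDR : D ⊆ R := fun u hu =>
      mem_filter.2 ⟨mem_univ _, ((hcls u c).1 (mem_filter.1 hu).2).2⟩
    have hsat : ∀ u v, pr u = pr v → u ∈ R → v ∈ R := fun u v e hu =>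
      mem_filter.2 ⟨mem_univ _, Relation.ReflTransGen.head (Or.inr e.symm) (mem_filter.1 hu).2⟩
    have h1 := hx.2.sum_sat hsat
    have h2 := hy.2.sum_sat hsat
    have h3 := sum_sdiff (f := x) hDR
    have h4 := sum_sdiff (f := y) hDR
    have h5 := hy.1 (R \ D)
    have h6 : slack f x (R \ D) ≤ (Fintype.card U : ℤ) ^ 2 * τ := by
      refine slack_of_closed hf hx.1 hx.2.sum hτ _ fun v hv u hu huv => ?_
      obtain ⟨hvR, hvD⟩ := mem_sdiff.1 hv
      have hvc := (mem_filter.1 hvR).2
      have huR : u ∈ R :=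
        mem_filter.2 ⟨mem_univ _, Relation.ReflTransGen.head (Or.inl huv) hvc⟩
      have huD : u ∈ D := by
        by_contra h'
        exact hu (mem_sdiff.2 ⟨huR, h'⟩)
      obtain ⟨huA, huc⟩ := mem_filter.1 huD
      have hcu := ((hcls u c).1 huc).1
      have hvA : v ∉ A := fun hvA => hvD (mem_filter.2
        ⟨hvA, (hcls v c).2 ⟨Relation.ReflTransGen.tail hcu (Or.inl huv), hvc⟩⟩)
      exact h u v huv huA hvA (hvc.trans hcu)
    rw [sum_sub_distrib]
    unfold slack at h6
    omega
  have h1 : ∑ u ∈ A, (x u - y u) ≤ (Fintype.card U : ℤ) ^ 3 * τ := by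
    rw [← sum_fiberwise_of_maps_to (t := A.image cls) (g := cls)
      fun u hu => mem_image_of_mem _ hu]
    refine (sum_le_card_nsmul _ _ _ hcl).trans ?_
    have h2 : ((A.image cls).card : ℤ) ≤ Fintype.card U := by
      exact_mod_cast card_image_le.trans (card_le_univ A)
    rw [nsmul_eq_mul]
    calc _ ≤ (Fintype.card U : ℤ) * ((Fintype.card U : ℤ) ^ 2 * τ) := by gcongr
      _ = _ := by ring
  rw [sum_sub_distrib] at h1
  unfold slack
  omega

private theorem cyc_sum_dl (a : U) (A : Finset U) :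
    ∑ u ∈ A, dl a u = if a ∈ A then 1 else 0 := by
  simp only [dl_apply, sum_ite_eq']

private theorem cyc_sum_mv (a b : U) (c : U → ℤ) (A : Finset U) :
    ∑ u ∈ A, (dl b - dl a + c) u =
      (if b ∈ A then 1 else 0) - (if a ∈ A then 1 else 0) + ∑ u ∈ A, c u := by
  simp only [Pi.add_apply, Pi.sub_apply, sum_add_distrib, sum_sub_distrib, cyc_sum_dl]

/-- A walk from `a` to `b` gives a vector `c` (sum of `dl q - dl p` over the moves `p → q` of the walk; steps inside a fibre contribute nothing) with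
`c - dl b + dl a` of fibre sums zero and `c A ≤ 0` for closed `A`; a shortest walk has at most `m - 1` steps (e.g. define reachability in at most `k` steps; the reached sets
increase and stabilise, or shorten a chain with a repeated vertex). -/
theorem exists_path (T : U → U → Prop) (pr : U → E) {a b : U} (h : Reach T pr a b) :
    ∃ c : U → ℤ, PZ pr (c - dl b + dl a) ∧ (∀ A, Clo T A → ∑ u ∈ A, c u ≤ 0) ∧
      ∀ A : Finset U, |∑ u ∈ A, c u| + 1 ≤ Fintype.card U := by
  classical
  let P : ℕ → U → Prop := fun k b => ∃ c : U → ℤ, PZ pr (c - dl b + dl a) ∧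
    (∀ A, Clo T A → ∑ u ∈ A, c u ≤ 0) ∧ ∀ A : Finset U, |∑ u ∈ A, c u| ≤ k
  have hmono : ∀ k b, P k b → P (k + 1) b := by
    rintro k b ⟨c, h1, h2, h3⟩
    exact ⟨c, h1, h2, fun A => (h3 A).trans (by push_cast; omega)⟩
  have hstep : ∀ k b b', P k b → (T b b' ∨ pr b = pr b') → P (k + 1) b' := by
    rintro k b b' ⟨c, h1, h2, h3⟩ (hT | hp)
    · refine ⟨dl b' - dl b + c, ?_, fun A hA => ?_, fun A => ?_⟩
      · have e : dl b' - dl b + c - dl b' + dl a = c - dl b + dl a := by abel
        rw [e]; exact h1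
      · have := h2 A hA
        have := hA b b' hT
        rw [cyc_sum_mv]
        split_ifs <;> first | omega | tauto
      · have := abs_le.1 (h3 A)
        rw [cyc_sum_mv, abs_le]
        push_cast
        split_ifs <;> omega
    · refine hmono k b' ⟨c, fun e => ?_, h2, h3⟩
      have h4 := h1 e
      simp only [Pi.add_apply, Pi.sub_apply, sum_add_distrib, sum_sub_distrib, cyc_sum_dl,
        mem_filter, mem_univ, true_and] at h4 ⊢
      rw [← hp]
      exact h4
  have ha : ∀ k, P k a := by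
    intro k
    refine ⟨0, fun e => ?_, fun A _ => by simp, fun A => by simp⟩
    simp
  have key : ∀ k, (∀ b, Reach T pr a b → P k b) ∨ k + 1 ≤ (univ.filter (P k)).card := by
    intro k
    induction k with
    | zero => exact Or.inr (card_pos.2 ⟨a, mem_filter.2 ⟨mem_univ _, ha 0⟩⟩)
    | succ k ih =>
      rcases ih with ih | ih
      · exact Or.inl fun b hb => hmono k b (ih b hb)
      · by_cases hc : ∀ b b', P k b → (T b b' ∨ pr b = pr b') → P k b'
        · refine Or.inl fun b hb => hmono k b ?_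
          induction hb with
          | refl => exact ha k
          | tail _ h2 ih' => exact hc _ _ ih' h2
        · push Not at hc
          obtain ⟨b, b', h1, h2, h3⟩ := hc
          refine Or.inr (lt_of_le_of_lt ih (card_lt_card ⟨fun u hu => ?_, fun hsub => ?_⟩))
          · exact mem_filter.2 ⟨mem_univ _, hmono k u (mem_filter.1 hu).2⟩
          · exact h3 (mem_filter.1 (hsub (mem_filter.2 ⟨mem_univ _, hstep k b b' h1 h2⟩))).2
  obtain ⟨k, hk⟩ : ∃ k, Fintype.card U = k + 1 :=
    ⟨Fintype.card U - 1, by have := Fintype.card_pos_iff.2 ⟨a⟩; omega⟩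
  have hb : P k b := by
    rcases key k with h1 | h1
    · exact h1 b h
    · have h2 : univ.filter (P k) = univ :=
        eq_univ_of_card _ (le_antisymm (card_le_univ _) (hk ▸ h1))
      have h3 : b ∈ univ.filter (P k) := by rw [h2]; exact mem_univ b
      exact (mem_filter.1 h3).2
  obtain ⟨c, h1, h2, h3⟩ := hb
  refine ⟨c, h1, h2, fun A => ?_⟩
  have := h3 A
  rw [hk]
  push_cast
  omega

/-- `d` is the sum, over the pairs `(u, v)` with `T u v` and `Reach v u`, of `dl v - dl u + c v u`. -/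
theorem dirSpec_of_paths (T : U → U → Prop) (pr : U → E) {G : ℕ} (hG : Fintype.card U ≤ G)
    (S : Finset (U × U)) (hS : ∀ u v, (u, v) ∈ S ↔ T u v ∧ Reach T pr v u) (c : U × U → U → ℤ)
    (hc : ∀ p ∈ S, PZ pr (c p - dl p.1 + dl p.2) ∧ (∀ A, Clo T A → ∑ u ∈ A, c p u ≤ 0) ∧
      ∀ A : Finset U, |∑ u ∈ A, c p u| + 1 ≤ Fintype.card U) :
    DirSpec T pr G (∑ p ∈ S, (dl p.2 - dl p.1 + c p)) := by
  have hsum : ∀ A : Finset U, ∑ u ∈ A, (∑ p ∈ S, (dl p.2 - dl p.1 + c p)) u =
      ∑ p ∈ S, ∑ u ∈ A, (dl p.2 - dl p.1 + c p) u := by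
    intro A
    simp only [Finset.sum_apply]
    exact sum_comm
  have hle : ∀ A, Clo T A → ∀ p ∈ S, ∑ u ∈ A, (dl p.2 - dl p.1 + c p) u ≤ 0 := by
    intro A hA p hp
    have := (hc p hp).2.1 A hA
    have := hA p.1 p.2 ((hS p.1 p.2).1 hp).1
    rw [cyc_sum_mv]
    split_ifs <;> first | omega | tauto
  refine ⟨fun e => ?_, fun A => ?_, fun A hA => ?_, fun A hA u v huv hu hv hr => ?_⟩
  · rw [hsum]
    refine sum_eq_zero fun p hp => ?_
    have e' : dl p.2 - dl p.1 + c p = c p - dl p.1 + dl p.2 := by abel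
    rw [e']
    exact (hc p hp).1 e
  · rw [hsum]
    have h1 : ∀ p ∈ S, |∑ u ∈ A, (dl p.2 - dl p.1 + c p) u| ≤ (Fintype.card U : ℤ) := by
      intro p hp
      have h2 := (hc p hp).2.2 A
      have h3 := le_abs_self (∑ u ∈ A, c p u)
      have h4 := neg_abs_le (∑ u ∈ A, c p u)
      rw [cyc_sum_mv, abs_le]
      split_ifs <;> omega
    refine (abs_sum_le_sum_abs _ _).trans ((sum_le_card_nsmul _ _ _ h1).trans ?_)
    have h2 : (S.card : ℤ) ≤ Fintype.card U * Fintype.card U := by
      have := card_le_univ S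
      rw [Fintype.card_prod] at this
      exact_mod_cast this
    have h3 : (Fintype.card U : ℤ) ≤ G := by exact_mod_cast hG
    rw [nsmul_eq_mul]
    calc _ ≤ ((G : ℤ) * G) * G := by
          refine mul_le_mul (h2.trans ?_) h3 (by positivity) (by positivity)
          gcongr
      _ = _ := by ring
  · rw [hsum]
    exact sum_nonpos (hle A hA)
  · have hp : (u, v) ∈ S := (hS u v).2 ⟨huv, hr⟩
    rw [hsum, ← add_sum_erase _ _ hp]
    have h1 := sum_nonpos fun p (hp : p ∈ S.erase (u, v)) => hle A hA p (mem_of_mem_erase hp)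
    have h2 := (hc _ hp).2.1 A hA
    rw [cyc_sum_mv, if_pos hu, if_neg hv]
    omega

theorem exists_dirSpec (T : U → U → Prop) (pr : U → E) {G : ℕ} (hG : Fintype.card U ≤ G) :
    ∃ d, DirSpec T pr G d := by
  classical
  have h : ∀ p : U × U, ∃ c : U → ℤ, Reach T pr p.2 p.1 →
      PZ pr (c - dl p.1 + dl p.2) ∧ (∀ A, Clo T A → ∑ u ∈ A, c u ≤ 0) ∧
        ∀ A : Finset U, |∑ u ∈ A, c u| + 1 ≤ Fintype.card U := by
    intro p
    by_cases hp : Reach T pr p.2 p.1
    · obtain ⟨c, hc⟩ := exists_path T pr hp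
      exact ⟨c, fun _ => hc⟩
    · exact ⟨0, fun h => absurd h hp⟩
  choose c hc using h
  exact ⟨_, dirSpec_of_paths T pr hG (univ.filter fun p => T p.1 p.2 ∧ Reach T pr p.2 p.1)
    (fun u v => by simp) c fun p hp => hc p (mem_filter.1 hp).2.2⟩

/-- moving along the direction: a set that is not closed has slack `≥ τ`, a closed set has `d A ≤ 0` -/
theorem inK_move (hx : InK f pr x) {τ s : ℤ} {G : ℕ} {d : U → ℤ} (hd : DirSpec (Mv f x τ) pr G d)
    (hs : 0 ≤ s) (hτ : (G : ℤ) ^ 3 * s ≤ τ) : InK f pr (x + s • d) := by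
  have hsum : ∀ A : Finset U, ∑ u ∈ A, (x + s • d) u = ∑ u ∈ A, x u + s * ∑ u ∈ A, d u := by
    intro A
    simp only [Pi.add_apply, Pi.smul_apply, smul_eq_mul, sum_add_distrib, mul_sum]
  refine ⟨fun A => ?_, fun e => ?_⟩
  · rw [hsum]
    by_cases hA : slack f x A < τ
    · have h1 := mul_nonpos_of_nonneg_of_nonpos hs (hd.cl A (clo_of_slack_lt hA))
      have h2 := hx.1 A
      omega
    · have h1 := mul_le_mul_of_nonneg_left (abs_le.1 (hd.bd A)).2 hs
      rw [mul_comm s ((G : ℤ) ^ 3)] at h1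
      unfold slack at hA
      omega
  · rw [hsum, hx.2 e, hd.pz e, mul_zero, add_zero]

theorem slack_move (f : Finset U → ℤ) (x d : U → ℤ) (s : ℤ) (A : Finset U) :
    slack f (x + s • d) A = slack f x A - s * ∑ u ∈ A, d u := by
  simp only [slack, Pi.add_apply, Pi.smul_apply, smul_eq_mul, sum_add_distrib, mul_sum]
  ring

end Crest.Agent.R302
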