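import Crest.Agent.R302.OMac
import Crest.Prelude.Def_Polymatroid

/-!
# R302/Driver: an `OPT` function as a macro machine (TASK)

The machine works in phases (state = phase number, counters, data; all transitions are polynomial time in the state, the
state stays polynomially small only on the real run, which is all that `Small` asks for).
1. Read the six input words (cells `0..5`) and `2 ^ (w-1)` (kind `3`).  Write harmless values meanwhile (e.g. to cell `6`, value `0`).
2. Build `v = n + den / num` in unary (`Un`): one macro step per unit.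
3. Compute `len (v, inp)` (unary through `PT.un_mk`) and collect that many random bits, one per step.  The number `t₀` of steps of
   phases 1-2 does not depend on the bits, so the tape is `(l.drop t₀).take len` for the list `l` of all bits.
4. Replay loop with the table `t` (initially `[]`): compute `S (t, a)`.  If it is `inl (b, q)`: write the bits `q.getD j false`, `j < n`, to the cells
   `8 + j` (`n` steps), ask the oracle `b` at address `8`, put the answer in front of the table.  The table stays consistent, each round adds a new element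
   of `L`, so there are at most `L.length ≤ N a` rounds.  If it is `inr z`, go on.
5. Output `k :: digits of z.num ++ digits of z.den` in base `2 ^ w = 2 * 2 ^ (w-1)` (`Nat.digits`, or `(range K).map (x / b ^ i % b)` with
   `K = sz z`; `wordsVal`), written to the cells `0, 1, …`, then halt.
-/

set_option autoImplicit false

namespace Crest.Agent.R302

open Crest.Agent.Lib.PT Crest.Agent.R309 Crest.OracleRAM Crest.Polymatroid

/-- the oracle seen by the polynomial-time code -/
def orcOf {n : ℕ} (O : Bool → Finset (Fin n) → ℕ) : Orc :=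
  fun q => O q.1 (Finset.univ.filter fun j : Fin n => q.2.getD j.val false = true)

/-- the input of the polynomial-time code, without the tape -/
def inpOf (n R : ℕ) (ε δ : ℚ) : Un × List ℕ := (⟨n + ε.den / ε.num.natAbs⟩, countInput n R ε δ)

namespace Drv

/-- `K` digits of `x` in base `b` -/
def digs (K b x : ℕ) : List ℕ := (List.range K).map fun i => x / b ^ i % b

@[simp] theorem length_digs (K b x : ℕ) : (digs K b x).length = K := by simp [digs]

theorem digs_succ (K b x : ℕ) : digs (K + 1) b x = x % b :: digs K b (x / b) := by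
  simp only [digs, List.range_succ_eq_map, List.map_cons, List.map_map, pow_zero, Nat.div_one]
  congr 1
  refine List.map_congr_left fun i _ => ?_
  simp only [Function.comp, Nat.succ_eq_add_one]
  rw [Nat.div_div_eq_div_mul, pow_succ']

theorem wordsVal_digs (w K : ℕ) : ∀ x, x < (2 ^ w) ^ K → wordsVal w (digs K (2 ^ w) x) = x := by
  induction K with
  | zero => intro x h; simp at h; simp [digs, wordsVal, h]
  | succ K ih =>
    intro x h
    rw [digs_succ, wordsVal, ih _ (Nat.div_lt_of_lt_mul (by rwa [pow_succ'] at h)),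
      Nat.mod_add_div]

/-- the output list -/
def outL (z : ℚ) (H : ℕ) : List ℕ :=
  sz z :: (digs (sz z) (2 * H) z.num.natAbs ++ digs (sz z) (2 * H) z.den)

theorem length_outL (z : ℚ) (H : ℕ) : (outL z H).length = 2 * sz z + 1 := by
  simp [outL]; omega

theorem decode_outL {w : ℕ} (hw : 1 ≤ w) {z : ℚ} (hz : 0 ≤ z) :
    decodeRat w (outL z (2 ^ (w - 1))) = some z := by
  have e : 2 * 2 ^ (w - 1) = 2 ^ w := by rw [← pow_succ']; congr 1; omega
  have h2 : 2 ^ sz z ≤ (2 ^ w) ^ sz z :=
    Nat.pow_le_pow_left (by simpa using Nat.pow_le_pow_right (n := 2) (by omega) hw) _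
  have h3 := ratH_lt_two_pow_sz z
  unfold ratH at h3
  rw [outL, decodeRat, e, List.take_left' (length_digs _ _ _), List.drop_left' (length_digs _ _ _),
    wordsVal_digs _ _ _ (by omega), wordsVal_digs _ _ _ (by omega), if_neg z.den_nz]
  congr 1
  rw [Nat.cast_natAbs, abs_of_nonneg (Rat.num_nonneg.2 hz), Rat.num_div_den]

theorem outL_lt {w : ℕ} (hw : 1 ≤ w) {z : ℚ} (hz : sz z < 2 ^ w) (i : ℕ) :
    (outL z (2 ^ (w - 1))).getD i 0 < 2 ^ w := by
  have e : 2 * 2 ^ (w - 1) = 2 ^ w := by rw [← pow_succ']; congr 1; omega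
  have hp : 0 < 2 ^ w := by positivity
  rcases Nat.lt_or_ge i (outL z (2 ^ (w - 1))).length with h | h
  · rw [List.getD_eq_getElem _ _ h]
    have := List.getElem_mem h
    generalize (outL z (2 ^ (w - 1)))[i] = y at this
    simp only [outL, e, digs, List.mem_cons, List.mem_append, List.mem_map] at this
    rcases this with rfl | ⟨_, _, rfl⟩ | ⟨_, _, rfl⟩
    exacts [hz, Nat.mod_lt _ hp, Nat.mod_lt _ hp]
  · rw [List.getD_eq_default _ _ h]; exact hp

@[fun_prop] theorem outL_pt {α : Type} [Enc α] {z : α → ℚ} {H : α → ℕ} (hz : PT z) (hH : PT H) :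
    PT fun a => outL (z a) (H a) := by
  have key : ∀ {x : α → ℕ}, PT x → PT fun a => digs (sz (z a)) (2 * H a) (x a) := by
    intro x hx
    unfold digs
    refine PT.map_range (by fun_prop) (by fun_prop) (PT.nat_mod (PT.nat_div (by fun_prop)
      (PT.nat_pow (by fun_prop) (by fun_prop) (PB.idx (n := fun a => sz (z a)) (by fun_prop))))
      (by fun_prop))
  unfold outL
  exact PT.cons (by fun_prop) ((key (by fun_prop)).append (key (by fun_prop)))

/-- states: words read, unary counter, tape, table, counter -/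
abbrev DS : Type := List ℕ × Un × List Bool × Tab × ℕ

variable (S : Tab × (Un × List ℕ) × List Bool → Qy ⊕ ℚ) (len : Un × List ℕ → ℕ)

/-- the result of the replay on the current table -/
def cur (s : DS) : Qy ⊕ ℚ := S (s.2.2.2.1, (s.2.1, s.1.take 6), s.2.2.1)

/-- the machine -/
def mac : OMac DS where
  s0 := ([], ⟨0⟩, [], [], 0)
  nx s x b :=
    if s.1.length < 7 then (s.1 ++ [x], s.2)
    else if s.2.1.n < s.1.getD 0 0 + s.1.getD 3 0 / s.1.getD 2 0 then
      (s.1, ⟨s.2.1.n + 1⟩, s.2.2)
    else if s.2.2.1.length < len (s.2.1, s.1.take 6) then (s.1, s.2.1, s.2.2.1 ++ [b], s.2.2.2)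
    else Sum.elim
      (fun q => if s.2.2.2.2 < s.1.getD 0 0 then (s.1, s.2.1, s.2.2.1, s.2.2.2.1, s.2.2.2.2 + 1)
        else (s.1, s.2.1, s.2.2.1, (q, x) :: s.2.2.2.1, 0))
      (fun _ => (s.1, s.2.1, s.2.2.1, s.2.2.2.1, s.2.2.2.2 + 1)) (cur S s)
  rd s := if s.1.length < 6 then (0, s.1.length) else if s.1.length < 7 then (3, 0)
    else (Sum.elim (fun q => bif q.1 then 2 else 1) (fun _ => 3) (cur S s), 8)
  wr s := if s.2.2.2.2 = 0 then (6, 0) else Sum.elim
    (fun q => (8 + (s.2.2.2.2 - 1), (q.2.getD (s.2.2.2.2 - 1) false).toNat))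
    (fun z => (s.2.2.2.2 - 1, (outL z (s.1.getD 6 0)).getD (s.2.2.2.2 - 1) 0)) (cur S s)
  fin s := Sum.elim (fun _ => none)
    (fun z => if (outL z (s.1.getD 6 0)).length ≤ s.2.2.2.2 then some s.2.2.2.2 else none) (cur S s)

variable {S len}

theorem cur_pt (hS : PT S) : PT (cur S) := by
  unfold cur; fun_prop

theorem nx_pt (hS : PT S) (hl : PT len) :
    PT fun p : DS × ℕ × Bool => (mac S len).nx p.1 p.2.1 p.2.2 := by
  have := cur_pt hS
  unfold mac
  refine PT.ite (by fun_prop) (by fun_prop) (PT.ite (by fun_prop) (by fun_prop)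
    (PT.ite (by fun_prop) (by fun_prop) (PT.sum_elim (by fun_prop)
      (PT.ite (by fun_prop) (by fun_prop) (by fun_prop)) (by fun_prop))))

theorem rd_pt (hS : PT S) : PT (mac S len).rd := by
  have := cur_pt hS
  unfold mac
  refine PT.ite (by fun_prop) (by fun_prop) (PT.ite (by fun_prop) (by fun_prop)
    (PT.pair (PT.sum_elim this (by fun_prop) (by fun_prop)) (by fun_prop)))

theorem wr_pt (hS : PT S) : PT (mac S len).wr := by
  have := cur_pt hS
  unfold mac
  refine PT.ite (by fun_prop) (by fun_prop) (PT.sum_elim this (by fun_prop) (by fun_prop))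

theorem fin_pt (hS : PT S) : PT (mac S len).fin := by
  have := cur_pt hS
  unfold mac
  refine PT.sum_elim this (by fun_prop) (PT.ite (by fun_prop) (by fun_prop) (by fun_prop))

theorem rd_le (s : DS) : ((mac S len).rd s).2 ≤ 8 := by
  simp only [mac]
  split_ifs <;> simp only [] <;> omega

theorem fin_eq {s : DS} {k : ℕ} (h : (mac S len).fin s = some k) :
    ∃ z, cur S s = Sum.inr z ∧ (outL z (s.1.getD 6 0)).length ≤ s.2.2.2.2 ∧ k = s.2.2.2.2 := by
  simp only [mac] at h
  rcases hc : cur S s with q | z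
  · rw [hc] at h; cases h
  · rw [hc, Sum.elim_inr] at h
    split_ifs at h with h1
    exact ⟨z, rfl, h1, (Option.some.inj h).symm⟩

theorem fin_zero {s : DS} (h : s.2.2.2.2 = 0) : (mac S len).fin s = none := by
  rcases hf : (mac S len).fin s with _ | k
  · rfl
  · obtain ⟨z, -, h1, -⟩ := fin_eq hf
    rw [length_outL] at h1
    omega

theorem wr_zero {s : DS} (h : s.2.2.2.2 = 0) : (mac S len).wr s = (6, 0) := if_pos h

theorem step_eq {σ : Type} (m : OMac σ) (n : ℕ) (O : Bool → Finset (Fin n) → ℕ) (w : ℕ)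
    {c : σ × (ℕ → ℕ)} (h : m.fin c.1 = none) (b : Bool) {s : σ}
    (hs : m.nx c.1 (m.val n O w c) b = s) :
    m.step n O w c b = (s, Function.update c.2 (m.wr s).1 (m.wr s).2) := by
  unfold OMac.step
  rw [h, hs]
  rfl

section run

variable {n : ℕ} (O : Bool → Finset (Fin n) → ℕ) (w : ℕ) {inp : List ℕ} {v : ℕ}

/-- phases 1-3 -/
theorem go_pre (h6 : inp.length = 6) (hv : inp.getD 0 0 + inp.getD 3 0 / inp.getD 2 0 = v)
    (l : List Bool) (hl : l.length ≤ 7 + v + len (⟨v⟩, inp)) :
    ((mac S len).go n O w ((mac S len).init inp) l).1 =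
      ((inp ++ [2 ^ (w - 1)]).take l.length, ⟨min (l.length - 7) v⟩, l.drop (7 + v), [], 0) ∧
    ∀ i < 6, ((mac S len).go n O w ((mac S len).init inp) l).2 i = inp.getD i 0 := by
  induction l using List.reverseRecOn with
  | nil => exact ⟨by simp [OMac.init, mac], fun _ _ => rfl⟩
  | append_singleton l b ih =>
    rw [List.length_append, List.length_singleton] at hl ⊢
    obtain ⟨h1, h2⟩ := ih (by omega)
    rw [OMac.go_append, OMac.go_cons, OMac.go_nil]
    generalize (mac S len).go n O w ((mac S len).init inp) l = c at h1 h2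
    obtain ⟨s, mem⟩ := c
    obtain rfl : s = _ := h1
    have hW : (inp ++ [2 ^ (w - 1)]).length = 7 := by simp [h6]
    rw [step_eq _ n O w (fin_zero rfl) b (s := ((inp ++ [2 ^ (w - 1)]).take (l.length + 1),
      ⟨min (l.length + 1 - 7) v⟩, (l ++ [b]).drop (7 + v), [], 0)), wr_zero rfl]
    · exact ⟨rfl, fun i hi => by
        rw [← h2 i hi]; exact Function.update_of_ne (by simp only []; omega) _ _⟩
    rcases Nat.lt_or_ge l.length 7 with h7 | h7
    · have hk : ((inp ++ [2 ^ (w - 1)]).take l.length).length = l.length := by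
        rw [List.length_take, hW]; omega
      have hval : (mac S len).val n O w (((inp ++ [2 ^ (w - 1)]).take l.length,
          ⟨min (l.length - 7) v⟩, l.drop (7 + v), [], 0), mem) =
          (inp ++ [2 ^ (w - 1)])[l.length]'(by omega) := by
        rcases Nat.lt_or_ge l.length 6 with h | h
        · have : (mac S len).rd ((inp ++ [2 ^ (w - 1)]).take l.length,
              ⟨min (l.length - 7) v⟩, l.drop (7 + v), [], 0) = (0, l.length) := by
            simp only [mac, hk, if_pos h]
          simp only [OMac.val, this, if_true]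
          rw [List.getElem_append_left (by omega), ← List.getD_eq_getElem _ 0]
          exact h2 _ h
        · have : (mac S len).rd ((inp ++ [2 ^ (w - 1)]).take l.length,
              ⟨min (l.length - 7) v⟩, l.drop (7 + v), [], 0) = (3, 0) := by
            simp only [mac, hk, if_pos h7, if_neg (not_lt.2 h)]
          simp only [OMac.val, this]
          rw [List.getElem_append_right (by omega)]
          simp
      rw [hval]
      simp only [mac, hk, if_pos h7]
      rw [List.take_add_one, List.getElem?_eq_getElem (by omega), Option.toList_some,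
        List.drop_eq_nil_of_le (by omega), List.drop_eq_nil_of_le (by simp; omega),
        show l.length - 7 = 0 by omega, show l.length + 1 - 7 = 0 by omega]
    · have e1 : (inp ++ [2 ^ (w - 1)]).take l.length = inp ++ [2 ^ (w - 1)] :=
        List.take_of_length_le (by omega)
      have e2 : (inp ++ [2 ^ (w - 1)]).take (l.length + 1) = inp ++ [2 ^ (w - 1)] :=
        List.take_of_length_le (by omega)
      have e3 : ∀ i < 6, (inp ++ [2 ^ (w - 1)]).getD i 0 = inp.getD i 0 := fun i hi =>
        List.getD_append _ _ _ _ (by omega)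
      have e4 : (inp ++ [2 ^ (w - 1)]).take 6 = inp := List.take_left' h6
      rw [e1, e2]
      simp only [mac, hW, lt_irrefl, if_false, e3 0 (by omega), e3 3 (by omega), e3 2 (by omega),
        hv, e4]
      rcases Nat.lt_or_ge l.length (7 + v) with h | h
      · rw [if_pos (by omega), List.drop_eq_nil_of_le (by omega),
          List.drop_eq_nil_of_le (by simp; omega),
          show min (l.length - 7) v + 1 = min (l.length + 1 - 7) v by omega]
      · rw [show min (l.length - 7) v = v by omega, show min (l.length + 1 - 7) v = v by omega,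
          if_neg (lt_irrefl _), if_pos (by rw [List.length_drop]; omega),
          List.drop_append_of_le_length h]

variable (S len inp v) in
/-- the invariant of phases 4-5, after `k` steps -/
def Main (L : List Qy) (tape : List Bool) (k : ℕ) (c : DS × (ℕ → ℕ)) : Prop :=
  ∃ (t : Tab) (j : ℕ), c.1 = (inp ++ [2 ^ (w - 1)], ⟨v⟩, tape, t, j) ∧ Cons (orcOf O) t ∧
    (t.map Prod.fst).Nodup ∧ (∀ p ∈ t, p.1 ∈ L ∧ p.2 < 2 ^ w) ∧
    (∀ q, S (t, (⟨v⟩, inp), tape) = Sum.inl q →
      j ≤ n ∧ ∀ i < j, c.2 (8 + i) = (q.2.getD i false).toNat) ∧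
    (∀ z, S (t, (⟨v⟩, inp), tape) = Sum.inr z →
      j ≤ (outL z (2 ^ (w - 1))).length ∧ ∀ i < j, c.2 i = (outL z (2 ^ (w - 1))).getD i 0) ∧
    ((mac S len).fin c.1 = none → k = t.length * (n + 1) + j)

theorem lookup_none {t : Tab} {q : Qy} (h : t.lookup q = none) : q ∉ t.map Prod.fst := by
  intro hq
  obtain ⟨p, hp, rfl⟩ := List.mem_map.1 hq
  have := List.lookup_eq_none_iff.1 h p hp
  simp at this

theorem main_step (h6 : inp.length = 6) (hn : inp.getD 0 0 = n)
    (hv : inp.getD 0 0 + inp.getD 3 0 / inp.getD 2 0 = v) (hO : ∀ b A, O b A < 2 ^ w)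
    {L : List Qy} {tape : List Bool} (ht : tape.length = len (⟨v⟩, inp)) {z₀ : ℚ}
    (hL : ∀ t, Cons (orcOf O) t → S (t, (⟨v⟩, inp), tape) = Sum.inr z₀ ∨
      ∃ q ∈ L, t.lookup q = none ∧ S (t, (⟨v⟩, inp), tape) = Sum.inl q)
    {k : ℕ} {c : DS × (ℕ → ℕ)} (h : Main S len O w inp v L tape k c) (b : Bool) :
    Main S len O w inp v L tape (k + 1) ((mac S len).step n O w c b) := by
  by_cases hf : (mac S len).fin c.1 = none
  swap
  · rw [OMac.step_of_fin _ n O w hf]
    obtain ⟨t, j, h1, h2, h3, h4, h5, h6, -⟩ := h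
    exact ⟨t, j, h1, h2, h3, h4, h5, h6, fun h => absurd h hf⟩
  obtain ⟨s, mem⟩ := c
  obtain ⟨t, j, h1, h2, h3, h4, h5, h7, h8⟩ := h
  obtain rfl : s = _ := h1
  have h8 := h8 hf
  have hW : (inp ++ [2 ^ (w - 1)]).length = 7 := by simp [h6]
  have e3 : ∀ i < 6, (inp ++ [2 ^ (w - 1)]).getD i 0 = inp.getD i 0 := fun i hi =>
    List.getD_append _ _ _ _ (by omega)
  have e4 : (inp ++ [2 ^ (w - 1)]).take 6 = inp := List.take_left' h6
  have e5 : (inp ++ [2 ^ (w - 1)]).getD 6 0 = 2 ^ (w - 1) := by
    rw [List.getD_append_right _ _ _ _ (by omega), h6]; rfl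
  have hcur : ∀ t j, cur S (inp ++ [2 ^ (w - 1)], ⟨v⟩, tape, t, j) = S (t, (⟨v⟩, inp), tape) :=
    fun t j => by simp only [cur, e4]
  have hnx : ∀ x, (mac S len).nx (inp ++ [2 ^ (w - 1)], ⟨v⟩, tape, t, j) x b =
      Sum.elim (fun q => if j < n then (inp ++ [2 ^ (w - 1)], ⟨v⟩, tape, t, j + 1)
        else (inp ++ [2 ^ (w - 1)], ⟨v⟩, tape, (q, x) :: t, 0))
      (fun _ => (inp ++ [2 ^ (w - 1)], ⟨v⟩, tape, t, j + 1)) (S (t, (⟨v⟩, inp), tape)) := by
    intro x
    simp only [mac, hW, lt_irrefl, if_false, e3 0 (by omega), e3 3 (by omega), e3 2 (by omega),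
      hv, e4, ht, hcur]
    rw [hn]
  rcases hL t h2 with hS | ⟨q, hq, hlk, hS⟩
  · have hj : j < (outL z₀ (2 ^ (w - 1))).length := by
      simp only [mac, hcur, hS, Sum.elim_inr, e5] at hf
      split_ifs at hf with h
      omega
    rw [step_eq _ n O w hf b (s := (inp ++ [2 ^ (w - 1)], ⟨v⟩, tape, t, j + 1))
      (by rw [hnx, hS]; rfl)]
    have hwr : (mac S len).wr (inp ++ [2 ^ (w - 1)], ⟨v⟩, tape, t, j + 1) =
        (j, (outL z₀ (2 ^ (w - 1))).getD j 0) := by
      simp only [mac, hcur, hS, Sum.elim_inr, e5, Nat.add_sub_cancel]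
      rw [if_neg (by omega)]
    rw [hwr]
    refine ⟨t, j + 1, rfl, h2, h3, h4, fun q hq => ?_, fun z hz => ?_, fun _ => by omega⟩
    · rw [hS] at hq; cases hq
    · obtain rfl : z₀ = z := Sum.inr.inj (hS.symm.trans hz)
      refine ⟨hj, fun i hi => ?_⟩
      rcases Nat.lt_succ_iff_lt_or_eq.1 hi with hi | rfl
      · rw [← (h7 _ hS).2 i hi]; exact Function.update_of_ne (by simp only []; omega) _ _
      · exact Function.update_self ..
  · obtain ⟨h9, h10⟩ := h5 q hS
    rcases h9.lt_or_eq with hj | rfl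
    · rw [step_eq _ n O w hf b (s := (inp ++ [2 ^ (w - 1)], ⟨v⟩, tape, t, j + 1))
        (by rw [hnx, hS, Sum.elim_inl, if_pos hj])]
      have hwr : (mac S len).wr (inp ++ [2 ^ (w - 1)], ⟨v⟩, tape, t, j + 1) =
          (8 + j, (q.2.getD j false).toNat) := by
        simp only [mac, hcur, hS, Sum.elim_inl, Nat.add_sub_cancel]
        rw [if_neg (by omega)]
      rw [hwr]
      refine ⟨t, j + 1, rfl, h2, h3, h4, fun q' hq' => ?_, fun z hz => ?_, fun _ => by omega⟩
      · obtain rfl : q = q' := Sum.inl.inj (hS.symm.trans hq')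
        refine ⟨hj, fun i hi => ?_⟩
        rcases Nat.lt_succ_iff_lt_or_eq.1 hi with hi | rfl
        · rw [← h10 i hi]; exact Function.update_of_ne (by simp only []; omega) _ _
        · exact Function.update_self ..
      · rw [hS] at hz; cases hz
    · have hval : (mac S len).val j O w ((inp ++ [2 ^ (w - 1)], ⟨v⟩, tape, t, j), mem) =
          orcOf O q := by
        have hrd : (mac S len).rd (inp ++ [2 ^ (w - 1)], ⟨v⟩, tape, t, j) =
            (bif q.1 then 2 else 1, 8) := by
          simp only [mac, hW, hcur, hS, Sum.elim_inl]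
          rfl
        have hset : (Finset.univ.filter fun i : Fin j => mem (8 + i.val) ≠ 0) =
            Finset.univ.filter fun i : Fin j => q.2.getD i.val false = true := by
          refine Finset.filter_congr fun i _ => ?_
          have := h10 i i.2
          simp only [] at this
          rw [this]
          cases q.2.getD i.val false <;> simp
        simp only [OMac.val, hrd, hset, orcOf]
        cases q.1 <;> simp
      rw [step_eq _ j O w hf b (s := (inp ++ [2 ^ (w - 1)], ⟨v⟩, tape, (q, orcOf O q) :: t, 0))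
        (by rw [hval, hnx, hS, Sum.elim_inl, if_neg (lt_irrefl _)])]
      refine ⟨(q, orcOf O q) :: t, 0, rfl, fun q' x hx => ?_, ?_, ?_,
        fun _ _ => ⟨Nat.zero_le _, fun _ h => absurd h (Nat.not_lt_zero _)⟩,
        fun _ _ => ⟨Nat.zero_le _, fun _ h => absurd h (Nat.not_lt_zero _)⟩, fun _ => ?_⟩
      · rw [List.lookup_cons] at hx
        by_cases e : q' = q
        · subst e
          simpa using hx.symm
        · rw [show (q' == q) = false by simpa using e] at hx
          exact h2 q' x hx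
      · exact List.nodup_cons.2 ⟨lookup_none hlk, h3⟩
      · intro p hp
        rcases List.mem_cons.1 hp with rfl | hp
        · exact ⟨hq, hO _ _⟩
        · exact h4 p hp
      · rw [h8, List.length_cons]; ring

theorem go_main (h6 : inp.length = 6) (hn : inp.getD 0 0 = n)
    (hv : inp.getD 0 0 + inp.getD 3 0 / inp.getD 2 0 = v) (hO : ∀ b A, O b A < 2 ^ w)
    {L : List Qy} {tape : List Bool} (ht : tape.length = len (⟨v⟩, inp)) {z₀ : ℚ}
    (hL : ∀ t, Cons (orcOf O) t → S (t, (⟨v⟩, inp), tape) = Sum.inr z₀ ∨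
      ∃ q ∈ L, t.lookup q = none ∧ S (t, (⟨v⟩, inp), tape) = Sum.inl q) (l : List Bool) :
    ∀ {k : ℕ} {c : DS × (ℕ → ℕ)}, Main S len O w inp v L tape k c →
      Main S len O w inp v L tape (k + l.length) ((mac S len).go n O w c l) := by
  induction l with
  | nil => intro k c h; exact h
  | cons b l ih =>
    intro k c h
    have := ih (main_step O w h6 hn hv hO ht hL h b)
    rwa [show k + 1 + l.length = k + (b :: l).length by simp; omega] at this

theorem sz_state (W : List ℕ) (u : ℕ) (tape : List Bool) (t : Tab) (j : ℕ) :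
    sz ((W, ⟨u⟩, tape, t, j) : DS) ≤ sz W + 2 * u + 4 * tape.length + sz t + 4 * j + 7 := by
  have h1 := sz_boolList_le tape
  have h2 := sz_nat_le_self j
  simp only [sz_mk, sz_un]
  omega

theorem sz_W (hw : 1 ≤ w) (inp : List ℕ) : sz (inp ++ [2 ^ (w - 1)]) ≤ sz inp + 4 * w + 2 := by
  have h1 := sz_append inp [2 ^ (w - 1)]
  have h2 : sz (2 ^ (w - 1)) ≤ 4 * w + 1 :=
    sz_nat_le_of_lt (Nat.pow_lt_pow_right (by omega) (by omega))
  simp only [sz_cons, sz_nil] at h1
  omega

end run

end Drv

theorem exists_omac (F : Orc → (Un × List ℕ) × List Bool → ℚ) (hF : OPT F) (h0 : ∀ O a, 0 ≤ F O a)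
    (len : Un × List ℕ → ℕ) (hl : PT len) (hb : PB len) :
    ∃ (σ : Type) (_ : Enc σ) (m : OMac σ), (PT fun p : σ × ℕ × Bool => m.nx p.1 p.2.1 p.2.2) ∧
      PT m.rd ∧ PT m.wr ∧ PT m.fin ∧ ∃ c d : ℕ, ∀ (n R : ℕ) (ε δ : ℚ)
      (O : Bool → Finset (Fin n) → ℕ) (w B : ℕ), 1 ≤ w → (∀ b A, O b A < 2 ^ w) →
      c * (sz (inpOf n R ε δ) + w) ^ d ≤ B → B < 2 ^ (w - 1) →
      ∃ t₀, t₀ + len (inpOf n R ε δ) ≤ B ∧ ∀ l : List Bool,
        m.Small n w B (m.go n O w (m.init (countInput n R ε δ)) l).1 ∧
        (B ≤ l.length → ∃ out, m.Out (m.go n O w (m.init (countInput n R ε δ)) l) out ∧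
          decodeRat w out = some (F (orcOf O)
            (inpOf n R ε δ, (l.drop t₀).take (len (inpOf n R ε δ))))) := by
  obtain ⟨S, N, hS, ⟨cN, kN, hN⟩, hsim⟩ := hF
  obtain ⟨c, d, hcd⟩ : PB fun p : (Un × List ℕ) × Un =>
      40 * (sz p.1 + p.2.n + len p.1 + cN * (sz p.1 + 4 * len p.1 + 2) ^ kN + 1) ^ 2 := by
    fun_prop
  refine ⟨Drv.DS, inferInstance, Drv.mac S len, Drv.nx_pt hS hl, Drv.rd_pt hS, Drv.wr_pt hS,
    Drv.fin_pt hS, c * 2 ^ d, d, fun n R ε δ O w B hw hO hB hBw => ?_⟩
  obtain ⟨v, hv'⟩ : ∃ v, v = n + ε.den / ε.num.natAbs := ⟨_, rfl⟩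
  have ha : inpOf n R ε δ = (⟨v⟩, countInput n R ε δ) := by rw [hv']; rfl
  rw [ha] at hB ⊢
  have h6 : (countInput n R ε δ).length = 6 := rfl
  have hn : (countInput n R ε δ).getD 0 0 = n := rfl
  have hv : (countInput n R ε δ).getD 0 0 +
      (countInput n R ε δ).getD 3 0 / (countInput n R ε δ).getD 2 0 = v := hv'.symm
  have hnv : n ≤ v := by rw [hv']; exact Nat.le_add_right _ _
  clear hv' ha
  generalize countInput n R ε δ = inp at *
  have hX : sz ((⟨v⟩, inp) : Un × List ℕ) = 2 * v + sz inp + 2 := by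
    simp only [sz_mk, sz_un]; omega
  have hY := hcd ((⟨v⟩, inp), ⟨w⟩)
  have hY2 : c * sz ((((⟨v⟩, inp) : Un × List ℕ), (⟨w⟩ : Un))) ^ d ≤ B := by
    refine le_trans ?_ hB
    rw [mul_assoc, ← mul_pow]
    refine Nat.mul_le_mul_left _ (Nat.pow_le_pow_left ?_ _)
    rw [sz_mk, sz_un, hX]
    simp only []
    omega
  have hM : ∀ tape : List Bool, tape.length = len (⟨v⟩, inp) → N ((⟨v⟩, inp), tape) ≤
      cN * (sz ((⟨v⟩, inp) : Un × List ℕ) + 4 * len (⟨v⟩, inp) + 2) ^ kN := fun tape ht => by
    refine (hN _).trans (Nat.mul_le_mul_left _ (Nat.pow_le_pow_left ?_ _))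
    have := sz_boolList_le tape
    rw [sz_mk]
    omega
  simp only [] at hY
  generalize cN * (sz ((⟨v⟩, inp) : Un × List ℕ) + 4 * len (⟨v⟩, inp) + 2) ^ kN = M at hY hM
  rw [hX] at hY
  obtain ⟨Y, hYe⟩ : ∃ Y, Y = 2 * v + sz inp + 2 + w + len (⟨v⟩, inp) + M + 1 := ⟨_, rfl⟩
  rw [← hYe, sq] at hY
  have hYY : Y ≤ Y * Y := Nat.le_mul_self Y
  have hp : 2 ^ (w - 1) ≤ 2 ^ w := Nat.pow_le_pow_right (by omega) (by omega)
  have hW := Drv.sz_W w hw inp
  refine ⟨7 + v, by omega, fun l => ?_⟩
  rcases Nat.lt_or_ge l.length (7 + v + len (⟨v⟩, inp)) with hlen | hlen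
  · refine ⟨?_, fun h => by omega⟩
    rw [(Drv.go_pre O w h6 hv l hlen.le).1]
    have h1 := Drv.sz_state ((inp ++ [2 ^ (w - 1)]).take l.length) (min (l.length - 7) v)
      (l.drop (7 + v)) [] 0
    have h2 := sz_sublist (List.take_sublist l.length (inp ++ [2 ^ (w - 1)]))
    have h3 := Drv.rd_le (S := S) (len := len) ((inp ++ [2 ^ (w - 1)]).take l.length,
      ⟨min (l.length - 7) v⟩, l.drop (7 + v), [], 0)
    rw [List.length_drop, sz_nil] at h1
    refine ⟨by omega, ?_, ?_, by omega, fun k hk => ?_⟩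
    · rw [Drv.wr_zero rfl]; simp only []; omega
    · rw [Drv.wr_zero rfl]; simp only []; omega
    · rw [Drv.fin_zero rfl] at hk; cases hk
  · have hl1 : (l.take (7 + v + len (⟨v⟩, inp))).length = 7 + v + len (⟨v⟩, inp) := by
      rw [List.length_take]; omega
    have hpre := (Drv.go_pre (S := S) O w h6 hv _ hl1.le).1
    rw [hl1, List.take_of_length_le (l := inp ++ [2 ^ (w - 1)]) (by simp [h6]; omega),
      show min (7 + v + len (⟨v⟩, inp) - 7) v = v by omega, List.drop_take,
      show 7 + v + len (⟨v⟩, inp) - (7 + v) = len (⟨v⟩, inp) by omega] at hpre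
    have ht : ((l.drop (7 + v)).take (len (⟨v⟩, inp))).length = len (⟨v⟩, inp) := by
      rw [List.length_take, List.length_drop]; omega
    generalize (l.drop (7 + v)).take (len (⟨v⟩, inp)) = tape at hpre ht ⊢
    obtain ⟨hz, L, hLs, hL⟩ := hsim (orcOf O) ((⟨v⟩, inp), tape)
    have hz0 := h0 (orcOf O) ((⟨v⟩, inp), tape)
    generalize F (orcOf O) ((⟨v⟩, inp), tape) = z₀ at hz hL hz0 ⊢
    have hM' := hM tape ht
    have hmain := Drv.go_main O w h6 hn hv hO ht hL (l.drop (7 + v + len (⟨v⟩, inp))) (k := 0)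
      ⟨[], 0, hpre, fun _ _ h => by simp at h, by simp, by simp,
        fun _ _ => ⟨Nat.zero_le _, fun _ h => absurd h (Nat.not_lt_zero _)⟩,
        fun _ _ => ⟨Nat.zero_le _, fun _ h => absurd h (Nat.not_lt_zero _)⟩, fun _ => by simp⟩
    rw [← OMac.go_append, List.take_append_drop, List.length_drop] at hmain
    generalize (Drv.mac S len).go n O w ((Drv.mac S len).init inp) l = cf at hmain ⊢
    obtain ⟨s, mem⟩ := cf
    obtain ⟨t, j, h1, h2, h3, h4, h5, h7, h8⟩ := hmain
    obtain rfl : s = _ := h1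
    have e4 : (inp ++ [2 ^ (w - 1)]).take 6 = inp := List.take_left' h6
    have e5 : (inp ++ [2 ^ (w - 1)]).getD 6 0 = 2 ^ (w - 1) := by
      rw [List.getD_append_right _ _ _ _ (by omega), h6]; rfl
    have hcur : Drv.cur S (inp ++ [2 ^ (w - 1)], ⟨v⟩, tape, t, j) = S (t, (⟨v⟩, inp), tape) := by
      simp only [Drv.cur, e4]
    have hj : j ≤ n + 2 * M + 1 := by
      rcases hL t h2 with hS' | ⟨q, -, -, hS'⟩
      · have := (h7 _ hS').1
        rw [Drv.length_outL] at this
        omega
      · have := (h5 _ hS').1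
        omega
    have htl : t.length ≤ M := by
      have h9 : (t.map Prod.fst).length ≤ L.length :=
        (List.subperm_of_subset h3 fun q hq => by
          obtain ⟨p, hp, rfl⟩ := List.mem_map.1 hq
          exact (h4 p hp).1).length_le
      have := length_le_sz L
      rw [List.length_map] at h9
      omega
    have hts : sz t ≤ 4 * (Y * Y) + 1 := by
      have h9 : sz t ≤ t.length * (M + 4 * w + 2 + 1) + 1 := sz_list_le fun p hp => by
        have := sz_le_of_mem (h4 p hp).1
        have := sz_nat_le_of_lt (h4 p hp).2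
        rw [sz_prod]
        omega
      have h10 : t.length * (M + 4 * w + 2 + 1) ≤ Y * (4 * Y) :=
        Nat.mul_le_mul (by omega) (by omega)
      have h11 : Y * (4 * Y) = 4 * (Y * Y) := by ring
      omega
    have hrun : t.length * (n + 1) ≤ Y * Y := Nat.mul_le_mul (by omega) (by omega)
    refine ⟨⟨?_, ?_, ?_, ?_, fun k hk => ?_⟩, fun hBl => ?_⟩
    · have := Drv.sz_state (inp ++ [2 ^ (w - 1)]) v tape t j
      simp only []
      omega
    · simp only [Drv.mac, hcur]
      split_ifs
      · simp only []; omega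
      · rcases S (t, (⟨v⟩, inp), tape) with q | z <;> simp only [Sum.elim_inl, Sum.elim_inr] <;>
          omega
    · simp only [Drv.mac, hcur, e5]
      split_ifs
      · simp only []; omega
      · rcases hL t h2 with hS' | ⟨q, -, -, hS'⟩
        · rw [hS']
          exact Drv.outL_lt hw (by omega) _
        · rw [hS', Sum.elim_inl]
          exact (Bool.toNat_le _).trans_lt (by omega)
    · have := Drv.rd_le (S := S) (len := len) (inp ++ [2 ^ (w - 1)], ⟨v⟩, tape, t, j)
      simp only []
      omega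
    · obtain ⟨z, -, -, hk'⟩ := Drv.fin_eq hk
      simp only [] at hk'
      omega
    · rcases hf : (Drv.mac S len).fin (inp ++ [2 ^ (w - 1)], ⟨v⟩, tape, t, j) with _ | k
      · have := h8 hf
        omega
      · obtain ⟨z, hz1, hz2, hk⟩ := Drv.fin_eq hf
        rw [hcur] at hz1
        simp only [e5] at hz2 hk
        rw [hk] at hf
        obtain ⟨h9, h10⟩ := h7 z hz1
        obtain rfl : z₀ = z := by
          rcases hL t h2 with hS' | ⟨q, -, -, hS'⟩
          · exact Sum.inr.inj (hS'.symm.trans hz1)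
          · rw [hS'] at hz1; cases hz1
        refine ⟨_, ⟨j, hf, ?_⟩, Drv.decode_outL hw hz0⟩
        refine List.ext_getElem (by simp; omega) fun i h11 h12 => ?_
        rw [List.getElem_map, List.getElem_range, h10 i (by omega), List.getD_eq_getElem _ _ h11]

end Crest.Agent.R302
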