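import Crest.Agent.R302.Sub
import Crest.Agent.R302.Driver

/-!
# R302/Ifc: interfaces between the sampler and the counting algorithm (definitions, finished file)
-/

set_option autoImplicit false

namespace Crest.Agent.R302

open Finset Crest.Agent.Lib.PT Crest.Agent.R309

open Classical in
/-- the number of elements of `K` with the property `P` -/
noncomputable def cnt {β : Type} (K : Finset β) (P : β → Prop) : ℕ := (K.filter P).card

theorem cnt_eq {β : Type} (K : Finset β) (P : β → Prop) [DecidablePred P] :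
    cnt K P = (K.filter P).card := by
  unfold cnt; congr

theorem cnt_true {β : Type} (K : Finset β) : cnt K (fun _ => True) = K.card := by
  rw [cnt_eq]; simp

theorem cnt_eq_sum {β : Type} (K : Finset β) (P : β → Prop) :
    (cnt K P : ℝ) = ∑ x ∈ K, ind (P x) := by
  classical
  rw [cnt_eq]; simp [ind_eq]

/-- The size parameter `G` fits the function `f`. -/
structure Fits {m : ℕ} (G : ℕ) (f : Finset (Fin m) → ℤ) : Prop where
  pow : G = 2 ^ Nat.log 2 G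
  big : 20 ≤ Nat.log 2 G
  card : m ≤ G
  nice : Nice f
  bd : ∀ A, |f A| ≤ 2 ^ G

/-- One shot of the sampler; inputs `((G, pl, x1), l, ω)`.  For most preprocessing tapes `l`, the output is uniform on `K` with total mass at least `G⁻²`. -/
structure CoreSpec
    (shot : (List Bool → ℤ) → (Un × List ℕ × List ℤ) × List Bool × List Bool → Option (List ℤ))
    (e : ℕ) : Prop where
  pt : HOPT shot
  good : ∀ (m G : ℕ) (f : Finset (Fin m) → ℤ) (pr : Fin m → Fin m) (h : List Bool → ℤ) (pl : List ℕ)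
    (x1 : List ℤ), Fits G f → Calls h f → IsPr pl pr → InK f pr (vec m x1) →
    1 - 1 / (G : ℝ) ^ 3 ≤ Pr (G ^ e) fun l => ∃ c : ℝ, 1 / (G : ℝ) ^ 2 ≤ c * (KK f pr).card ∧
      ∀ P : (Fin m → ℤ) → Prop,
        |Pr (G ^ e) (fun ω => ∃ y, shot h ((⟨G⟩, pl, x1), l, ω) = some y ∧ P (vec m y)) -
          c * cnt (KK f pr) P| ≤ 1 / (G : ℝ) ^ 10

/-- An estimate `c / c₁` of the fraction of the points of `K` with `x u ≤ t`; inputs `((G, pl, x1), (u, t), l)`. -/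
structure FracSpec
    (frac : (List Bool → ℤ) → (Un × List ℕ × List ℤ) × (ℕ × ℤ) × List Bool → ℕ × ℕ) (e : ℕ) :
    Prop where
  pt : HOPT frac
  le : ∀ h a, (frac h a).1 ≤ (frac h a).2 ∧ (frac h a).2 ≤ a.1.1.n ^ 18
  good : ∀ (m G : ℕ) (f : Finset (Fin m) → ℤ) (pr : Fin m → Fin m) (h : List Bool → ℤ) (pl : List ℕ)
    (x1 : List ℤ) (u : Fin m) (t : ℤ), Fits G f → Calls h f → IsPr pl pr → InK f pr (vec m x1) →
    1 - 2 / (G : ℝ) ^ 3 ≤ Pr (G ^ e) fun l => 0 < (frac h ((⟨G⟩, pl, x1), (u.val, t), l)).2 ∧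
      |((frac h ((⟨G⟩, pl, x1), (u.val, t), l)).1 : ℝ) / (frac h ((⟨G⟩, pl, x1), (u.val, t), l)).2 -
        (cnt (KK f pr) fun x => x u ≤ t : ℕ) / ((KK f pr).card : ℝ)| ≤ 1 / (G : ℝ) ^ 4

/-- two polymatroid rank functions of total rank `R` (monotonicity is not needed) -/
structure PM {n : ℕ} (R : ℕ) (r₁ r₂ : Finset (Fin n) → ℤ) : Prop where
  sub₁ : Submod r₁
  sub₂ : Submod r₂
  emp₁ : r₁ ∅ = 0
  emp₂ : r₂ ∅ = 0
  top₁ : r₁ univ = R
  top₂ : r₂ univ = R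
  bd : ∀ A, (0 ≤ r₁ A ∧ r₁ A ≤ R) ∧ 0 ≤ r₂ A ∧ r₂ A ≤ R

open Classical in
/-- the common bases in a box -/
noncomputable def CB {n : ℕ} (R : ℕ) (r₁ r₂ : Finset (Fin n) → ℤ) (lo hi : Fin n → ℤ) :
    Finset (Fin n → ℤ) :=
  (box lo hi).filter fun x => Below r₁ x ∧ Below r₂ x ∧ ∑ j, x j = R

theorem mem_CB {n R : ℕ} {r₁ r₂ : Finset (Fin n) → ℤ} {lo hi x : Fin n → ℤ} :
    x ∈ CB R r₁ r₂ lo hi ↔
      (∀ j, lo j ≤ x j ∧ x j ≤ hi j) ∧ Below r₁ x ∧ Below r₂ x ∧ ∑ j, x j = R := by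
  classical
  unfold CB; rw [mem_filter, mem_box]

/-- the subroutine `h` computes `r₁` and `r₂` -/
def Calls₂ {n : ℕ} (h : Bool × List Bool → ℤ) (r₁ r₂ : Finset (Fin n) → ℤ) : Prop :=
  Calls (fun l => h (false, l)) r₁ ∧ Calls (fun l => h (true, l)) r₂

/-- The size parameter `G` fits `n` and `R`. -/
structure Fits₂ (G n R : ℕ) : Prop where
  pow : G = 2 ^ Nat.log 2 G
  big : 20 ≤ Nat.log 2 G
  card : n + n ≤ G
  bd : R < 2 ^ G

/-- An estimate of the fraction of the common bases in the box `[lo, hi]` with `x u ≤ t`; inputs `((n, G, R), (lo, hi), (u, t), l)`. -/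
structure HalfSpec (half : (Bool × List Bool → ℤ) →
    (Un × Un × ℕ) × (List ℤ × List ℤ) × (ℕ × ℤ) × List Bool → ℕ × ℕ) (e : ℕ) : Prop where
  pt : HOPT half
  le : ∀ h a, (half h a).1 ≤ (half h a).2 ∧ (half h a).2 ≤ a.1.2.1.n ^ 18
  good : ∀ (n G R : ℕ) (r₁ r₂ : Finset (Fin n) → ℤ) (h : Bool × List Bool → ℤ) (lo hi : List ℤ)
    (u : Fin n) (t : ℤ), Fits₂ G n R → PM R r₁ r₂ → Calls₂ h r₁ r₂ →
    (∀ j, 0 ≤ vec n lo j ∧ vec n hi j ≤ R) → (CB R r₁ r₂ (vec n lo) (vec n hi)).Nonempty →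
    1 - 2 / (G : ℝ) ^ 3 ≤ Pr (G ^ e) fun l =>
      0 < (half h ((⟨n⟩, ⟨G⟩, R), (lo, hi), (u.val, t), l)).2 ∧
      |((half h ((⟨n⟩, ⟨G⟩, R), (lo, hi), (u.val, t), l)).1 : ℝ) /
          (half h ((⟨n⟩, ⟨G⟩, R), (lo, hi), (u.val, t), l)).2 -
        (cnt (CB R r₁ r₂ (vec n lo) (vec n hi)) fun x => x u ≤ t : ℕ) /
          ((CB R r₁ r₂ (vec n lo) (vec n hi)).card : ℝ)| ≤ 1 / (G : ℝ) ^ 4

/-- An estimator of the number of common bases; inputs `((n, G, R), l)`. -/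
structure EstSpec (est : (Bool × List Bool → ℤ) → (Un × Un × ℕ) × List Bool → ℚ) (e : ℕ) :
    Prop where
  pt : HOPT est
  nonneg : ∀ h a, 0 ≤ est h a
  good : ∀ (n G R : ℕ) (r₁ r₂ : Finset (Fin n) → ℤ) (h : Bool × List Bool → ℤ), Fits₂ G n R →
    PM R r₁ r₂ → Calls₂ h r₁ r₂ → (CB R r₁ r₂ 0 fun _ => R).Nonempty →
    15 / 16 ≤ Pr (G ^ e) fun l => |(est h ((⟨n⟩, ⟨G⟩, R), l) : ℝ) - (CB R r₁ r₂ 0 fun _ => R).card| ≤
      (CB R r₁ r₂ 0 fun _ => R).card / G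

/-- The approximation scheme, with the rank functions as a subroutine. -/
structure CountSpec (ct : (Bool × List Bool → ℤ) → (Un × List ℕ) × List Bool → ℚ)
    (len : Un × List ℕ → ℕ) : Prop where
  pt : HOPT ct
  len_pt : PT len
  len_pb : PB len
  nonneg : ∀ h a, 0 ≤ ct h a
  zero : ∀ (n R : ℕ) (ε δ : ℚ) (r₁ r₂ : Finset (Fin n) → ℤ) (h : Bool × List Bool → ℤ),
    PM R r₁ r₂ → Calls₂ h r₁ r₂ → (CB R r₁ r₂ 0 fun _ => R).card = 0 →
    ∀ l, ct h (inpOf n R ε δ, l) = 0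
  good : ∀ (n R : ℕ) (ε δ : ℚ) (r₁ r₂ : Finset (Fin n) → ℤ) (h : Bool × List Bool → ℤ),
    PM R r₁ r₂ → Calls₂ h r₁ r₂ → 0 < ε → 0 < δ →
    1 - (δ : ℝ) ≤ Pr (len (inpOf n R ε δ)) fun l =>
      (1 - ε) * (CB R r₁ r₂ 0 fun _ => R).card ≤ ct h (inpOf n R ε δ, l) ∧
        ct h (inpOf n R ε δ, l) ≤ (1 + ε) * (CB R r₁ r₂ 0 fun _ => R).card

end Crest.Agent.R302
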