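import Crest.Agent.R302.Sys
import Crest.Agent.R302.Ifc

/-!
# R302/Dat: the system as lists (definitions, finished file)
-/

set_option autoImplicit false

namespace Crest.Agent.R302

open Finset Crest.Agent.Lib.PT Crest.Agent.R309

/-- The data of a system, as lists; the ground set has `pl.length` elements. -/
structure Dat where
  /-- size parameter -/
  G : ℕ
  /-- table of `pr` -/
  pl : List ℕ
  /-- the centre -/
  x0 : List ℤ
  /-- parents in `F` -/
  par : List (Option ℕ)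
  /-- ancestors in `F` -/
  an : List (List ℕ)
  /-- widths -/
  wd : List ℕ
  /-- parents in `F'` -/
  par' : List (Option ℕ)
  /-- ancestors in `F'` -/
  an' : List (List ℕ)
  /-- witnesses -/
  pc : List ℕ

/-- The tuple of fields. -/
def Dat.tup (D : Dat) : Un × List ℕ × List ℤ × (List (Option ℕ) × List (List ℕ) × List ℕ) ×
    List (Option ℕ) × List (List ℕ) × List ℕ :=
  (⟨D.G⟩, D.pl, D.x0, (D.par, D.an, D.wd), D.par', D.an', D.pc)

instance : Enc Dat := Enc.ofInj Dat.tup (by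
  rintro ⟨_, _, _, _, _, _, _, _, _⟩ ⟨_, _, _, _, _, _, _, _, _⟩ h
  simp only [Dat.tup, Prod.mk.injEq, Un.mk.injEq] at h
  obtain ⟨rfl, rfl, rfl, ⟨rfl, rfl, rfl⟩, rfl, rfl, rfl⟩ := h
  rfl)

/-- The lists describe the system. -/
structure Rep {m : ℕ} (D : Dat) (S : Sys (Fin m) (Fin m)) : Prop where
  G : D.G = S.G
  pl : IsPr D.pl S.pr
  x0 : vec m D.x0 = S.x0
  F : FRep S.F D.par D.an
  wd : ∀ u : Fin m, D.wd.getD u.val 0 = S.wd u
  F' : FRep S.F' D.par' D.an'
  pc : ∀ e : Fin m, S.F'.par e ≠ none → D.pc.getD e.val 0 = (S.pc e).val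

namespace Dat

variable {α : Type} [Enc α] {D : α → Dat}

theorem tup_pt (h : PT D) : PT fun a => (D a).tup := h.of_enc_eq fun _ => rfl
@[fun_prop] theorem G_pt (h : PT D) : PT fun a => (D a).G := (tup_pt h).fst.un_n
@[fun_prop] theorem G_pb (h : PT D) : PB fun a => (D a).G := PB.un (tup_pt h).fst
@[fun_prop] theorem pl_pt (h : PT D) : PT fun a => (D a).pl := (tup_pt h).snd.fst
@[fun_prop] theorem x0_pt (h : PT D) : PT fun a => (D a).x0 := (tup_pt h).snd.snd.fst
@[fun_prop] theorem par_pt (h : PT D) : PT fun a => (D a).par := (tup_pt h).snd.snd.snd.fst.fst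
@[fun_prop] theorem an_pt (h : PT D) : PT fun a => (D a).an := (tup_pt h).snd.snd.snd.fst.snd.fst
@[fun_prop] theorem wd_pt (h : PT D) : PT fun a => (D a).wd := (tup_pt h).snd.snd.snd.fst.snd.snd
@[fun_prop] theorem par'_pt (h : PT D) : PT fun a => (D a).par' :=
  (tup_pt h).snd.snd.snd.snd.fst
@[fun_prop] theorem an'_pt (h : PT D) : PT fun a => (D a).an' :=
  (tup_pt h).snd.snd.snd.snd.snd.fst
@[fun_prop] theorem pc_pt (h : PT D) : PT fun a => (D a).pc := (tup_pt h).snd.snd.snd.snd.snd.snd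

theorem mk_pt {G : α → Un} {pl wd pc : α → List ℕ} {x0 : α → List ℤ}
    {par par' : α → List (Option ℕ)} {an an' : α → List (List ℕ)} (h1 : PT G) (h2 : PT pl)
    (h3 : PT x0) (h4 : PT par) (h5 : PT an) (h6 : PT wd) (h7 : PT par') (h8 : PT an') (h9 : PT pc) :
    PT fun a => (⟨(G a).n, pl a, x0 a, par a, an a, wd a, par' a, an' a, pc a⟩ : Dat) :=
  (h1.pair (h2.pair (h3.pair ((h4.pair (h5.pair h6)).pair (h7.pair (h8.pair h9)))))).of_enc_eq
    fun _ => rfl

end Dat

end Crest.Agent.R302
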