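import Crest.Agent.R302.Cyc
import Crest.Agent.R309.Reach

/-!
# R302/Dir: computing the direction

Either a direct search (for each source `a`, `m` rounds extending a table `v ↦ Option (List ℤ)` of path vectors as in `exists_path`), or `R309.exists_reach`:
the instance has the vertices `< m` and one cell `(u, v)` with index `u * m + v` for each ordered pair, usable forwards if `T u v ∨ pr u = pr v`, never backwards.
`ReachSpec` with the single source `a` says that exactly the reachable `v` get a unit flow `φ` (closure gives one direction; for the other direction a unit flow from `a` to `v`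
on usable cells forces reachability: sum the divergence over the reachable set, `Inst.sum_div`), but it does not bound the number of cells used by `m`, so the direct search is probably simpler.
Finish with `dirSpec_of_paths`.
-/

set_option autoImplicit false

namespace Crest.Agent.R302

open Finset Crest.Agent.Lib.PT Crest.Agent.R309

/-- one round of the search for paths -/
private def dstep (x : List ℕ × List (List Bool)) (t : List (Option (List (ℕ × ℕ)))) :
    List (Option (List (ℕ × ℕ))) :=
  (List.range x.1.length).map fun v => (List.range x.1.length).findSome? fun w =>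
    (t.getD w none).bind fun l => if x.1.getD w 0 = x.1.getD v 0 then some l
      else if (x.2.getD w []).getD v false = true then some ((w, v) :: l) else none

/-- the table of paths from `a` after `k` rounds -/
private def dtab (x : List ℕ × List (List Bool)) (a k : ℕ) : List (Option (List (ℕ × ℕ))) :=
  (dstep x)^[k] ((List.range x.1.length).map fun v => if v = a then some [] else none)

/-- the vector of a path -/
private def cvx (l : List (ℕ × ℕ)) (y : ℕ) : ℤ :=
  (l.map fun q => (if y = q.2 then 1 else 0) - (if y = q.1 then 1 else 0)).sum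

private def dalg (x : List ℕ × List (List Bool)) : List ℤ :=
  (List.range x.1.length).map fun y => ((List.range x.1.length).map fun u =>
    ((List.range x.1.length).map fun v => ((dtab x v (x.1.length - 1)).getD u none).elim 0 fun l =>
      if (x.2.getD u []).getD v false = true then cvx ((u, v) :: l) y else 0).sum).sum

private theorem dtab_succ (x : List ℕ × List (List Bool)) (a k : ℕ) :
    dtab x a (k + 1) = dstep x (dtab x a k) := Function.iterate_succ_apply' _ _ _

private theorem dstep_some {x : List ℕ × List (List Bool)} {t : List (Option (List (ℕ × ℕ)))}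
    {v : ℕ} {l : List (ℕ × ℕ)} (h : (dstep x t).getD v none = some l) :
    v < x.1.length ∧ ∃ w < x.1.length, ∃ l', t.getD w none = some l' ∧
      (x.1.getD w 0 = x.1.getD v 0 ∧ l = l' ∨
        (x.2.getD w []).getD v false = true ∧ l = (w, v) :: l') := by
  have hv : v < x.1.length := by
    by_contra hv
    rw [List.getD_eq_default _ _ (by simpa [dstep] using hv)] at h
    cases h
  rw [dstep, getD_map_range _ _ hv] at h
  obtain ⟨w, hw, h⟩ := List.exists_of_findSome?_eq_some h
  obtain ⟨l', h1, h2⟩ := Option.bind_eq_some_iff.1 h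
  refine ⟨hv, w, List.mem_range.1 hw, l', h1, ?_⟩
  split_ifs at h2 with e1 e2
  · exact Or.inl ⟨e1, (Option.some.inj h2).symm⟩
  · exact Or.inr ⟨e2, (Option.some.inj h2).symm⟩

private theorem dstep_isSome {x : List ℕ × List (List Bool)} {t : List (Option (List (ℕ × ℕ)))}
    {v w : ℕ} (hv : v < x.1.length) (hw : w < x.1.length) (h : t.getD w none ≠ none)
    (h' : (x.2.getD w []).getD v false = true ∨ x.1.getD w 0 = x.1.getD v 0) :
    (dstep x t).getD v none ≠ none := by
  rw [dstep, getD_map_range _ _ hv, Ne, List.findSome?_eq_none_iff]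
  intro h2
  obtain ⟨l, hl⟩ := Option.ne_none_iff_exists'.1 h
  have := h2 w (List.mem_range.2 hw)
  rw [hl, Option.bind_some] at this
  split_ifs at this with e1 e2
  exact h'.elim e2 e1

private theorem dtab_zero {x : List ℕ × List (List Bool)} {a v : ℕ} {l : List (ℕ × ℕ)}
    (h : (dtab x a 0).getD v none = some l) : v = a ∧ l = [] := by
  by_cases hv : v < x.1.length
  · rw [dtab, Function.iterate_zero, id, getD_map_range _ _ hv] at h
    split_ifs at h with e
    exact ⟨e, (Option.some.inj h).symm⟩
  · rw [List.getD_eq_default _ _ (by simpa [dtab] using hv)] at h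
    cases h

private theorem dtab_small (x : List ℕ × List (List Bool)) (a k : ℕ) : ∀ v l,
    (dtab x a k).getD v none = some l →
      l.length ≤ k ∧ ∀ q ∈ l, q.1 < x.1.length ∧ q.2 < x.1.length := by
  induction k with
  | zero => intro v l h; simp [(dtab_zero h).2]
  | succ k ih =>
    intro v l h
    rw [dtab_succ] at h
    obtain ⟨hv, w, hw, l', h1, ⟨-, rfl⟩ | ⟨-, rfl⟩⟩ := dstep_some h
    · exact ⟨(ih w _ h1).1.trans k.le_succ, (ih w _ h1).2⟩
    · exact ⟨by simpa using (ih w _ h1).1, by simpa using ⟨⟨hw, hv⟩, by simpa using (ih w _ h1).2⟩⟩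

private theorem length_dtab (x : List ℕ × List (List Bool)) (a k : ℕ) :
    (dtab x a k).length = x.1.length := by
  cases k with
  | zero => simp [dtab]
  | succ k => simp [dtab_succ, dstep]

private theorem dtab_pt : PT fun p : (List ℕ × List (List Bool)) × ℕ =>
    dtab p.1 p.2 (p.1.1.length - 1) := by
  refine PT.iterate (f := fun p : (List ℕ × List (List Bool)) × ℕ => dstep p.1) (by fun_prop)
    (by fun_prop) (by fun_prop) (by unfold dstep; fun_prop)
    (B := fun p => p.1.1.length * (p.1.1.length * (8 * p.1.1.length + 4) + 4) + 1) (by fun_prop)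
    fun p k hk => ?_
  refine (sz_list_le (l := dtab p.1 p.2 k)
    (B := p.1.1.length * (8 * p.1.1.length + 3 + 1) + 3) fun o ho => ?_).trans (by rw [length_dtab])
  obtain ⟨v, hv, rfl⟩ := List.getElem_of_mem ho
  rcases e : (dtab p.1 p.2 k)[v] with _ | l
  · simp
  · obtain ⟨h1, h2⟩ := dtab_small p.1 p.2 k v l (by rw [List.getD_eq_getElem _ _ hv, e])
    have := sz_list_le (l := l) (B := 8 * p.1.1.length + 3) fun q hq => by
      have := h2 q hq
      have := sz_nat_le_self q.1
      have := sz_nat_le_self q.2
      rw [sz_prod]; omega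
    have := Nat.mul_le_mul_right (8 * p.1.1.length + 3 + 1) (show l.length ≤ p.1.1.length by omega)
    rw [sz_some]; omega

private theorem dalg_pt : PT dalg := by
  have h : PT fun p : (((List ℕ × List (List Bool)) × ℕ) × ℕ) × ℕ =>
      dtab p.1.1.1 p.2 (p.1.1.1.1.length - 1) :=
    dtab_pt.comp_eq (fun p => (p.1.1.1, p.2)) (by fun_prop)
  unfold dalg cvx
  refine PT.map (by fun_prop) (PT.int_sum (PT.map (by fun_prop) (PT.int_sum (PT.map (by fun_prop)
    (PT.option_elim ((h.getD (by fun_prop) (by fun_prop))) (by fun_prop) (by fun_prop))))))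

section

variable {m : ℕ} {pr : Fin m → Fin m} {pl : List ℕ} (adj : List (List Bool))

private theorem cvx_cons (w v : Fin m) (l : List (ℕ × ℕ)) :
    (fun y : Fin m => cvx ((w.val, v.val) :: l) y) = dl v - dl w + fun y : Fin m => cvx l y := by
  funext y
  simp [cvx, dl_apply, Fin.ext_iff]

private theorem sum_dl (A : Finset (Fin m)) (v : Fin m) :
    ∑ u ∈ A, dl v u = if v ∈ A then 1 else 0 := by simp [dl_apply]

private theorem dtab_sound (h : IsPr pl pr) (a : Fin m) (k : ℕ) : ∀ (v : Fin m) l,
    (dtab (pl, adj) a k).getD v none = some l →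
      Reach (fun u v : Fin m => (adj.getD u.val []).getD v.val false = true) pr a v ∧
      PZ pr ((fun y : Fin m => cvx l y) - dl v + dl a) ∧
      (∀ A, Clo (fun u v : Fin m => (adj.getD u.val []).getD v.val false = true) A →
        ∑ u ∈ A, cvx l u ≤ 0) ∧ ∀ A : Finset (Fin m), |∑ u ∈ A, cvx l u| ≤ l.length := by
  induction k with
  | zero =>
    intro v l h'
    obtain ⟨h1, rfl⟩ := dtab_zero h'
    obtain rfl := Fin.ext h1
    exact ⟨.refl, fun e => by simp [cvx], by simp [cvx], by simp [cvx]⟩
  | succ k ih =>
    intro v l h'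
    rw [dtab_succ] at h'
    obtain ⟨-, w, hw, l', h1, h2⟩ := dstep_some h'
    obtain ⟨w, rfl⟩ : ∃ w' : Fin m, w'.val = w := ⟨⟨w, h.1 ▸ hw⟩, rfl⟩
    obtain ⟨g1, g2, g3, g4⟩ := ih w l' h1
    rcases h2 with ⟨h2, rfl⟩ | ⟨h2, rfl⟩
    · have e : pr w = pr v := Fin.ext (by rw [← h.2, ← h.2]; exact h2)
      refine ⟨g1.tail (Or.inr e), fun x => ?_, g3, g4⟩
      have := g2 x
      simp only [Pi.add_apply, Pi.sub_apply, sum_add_distrib, sum_sub_distrib, sum_dl, mem_filter,
        mem_univ, true_and, e] at this ⊢
      exact this
    · have e := fun A : Finset (Fin m) => congrArg (fun c : Fin m → ℤ => ∑ u ∈ A, c u)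
        (cvx_cons w v l')
      simp only [Pi.add_apply, Pi.sub_apply, sum_add_distrib, sum_sub_distrib, sum_dl] at e
      refine ⟨g1.tail (Or.inl h2), ?_, fun A hA => ?_, fun A => ?_⟩
      · rw [cvx_cons]
        convert g2 using 1
        abel
      · have := g3 A hA
        have := hA w v h2
        rw [e]; split_ifs with e1 e2 <;> first | omega | exact absurd (this e1) e2
      · have := abs_le.1 (g4 A)
        rw [e, abs_le, List.length_cons]
        push_cast
        split_ifs <;> constructor <;> omega

private theorem dtab_complete (h : IsPr pl pr) (a v : Fin m)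
    (hr : Reach (fun u v : Fin m => (adj.getD u.val []).getD v.val false = true) pr a v) :
    (dtab (pl, adj) a (m - 1)).getD v none ≠ none := by
  let R : ℕ → Finset (Fin m) := fun k => univ.filter fun v => (dtab (pl, adj) a k).getD v none ≠ none
  have st : ∀ k (w v : Fin m), w ∈ R k →
      (adj.getD w.val []).getD v.val false = true ∨ pr w = pr v → v ∈ R (k + 1) := fun k w v h1 h2 =>
    mem_filter.2 ⟨mem_univ _, dtab_succ _ _ _ ▸ dstep_isSome (h.1 ▸ v.2) (h.1 ▸ w.2)
      (mem_filter.1 h1).2 (h2.imp_right fun e => by rw [h.2, h.2, e])⟩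
  have mo : ∀ k, R k ⊆ R (k + 1) := fun k v hv => st k v v hv (Or.inr rfl)
  have a0 : ∀ k, a ∈ R k := fun k => by
    induction k with
    | zero =>
      refine mem_filter.2 ⟨mem_univ _, ?_⟩
      rw [dtab, Function.iterate_zero, id, getD_map_range _ _ (h.1 ▸ a.2)]
      simp
    | succ k ih => exact mo k ih
  have key : ∀ k, v ∈ R k ∨ k + 1 ≤ (R k).card := fun k => by
    induction k with
    | zero => exact Or.inr (card_pos.2 ⟨a, a0 0⟩)
    | succ k ih =>
      rcases ih with ih | ih
      · exact Or.inl (mo k ih)
      by_cases e : R (k + 1) ⊆ R k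
      · refine Or.inl (mo k ?_)
        clear ih
        induction hr with
        | refl => exact a0 k
        | tail _ h2 ih => exact e (st k _ _ ih h2)
      · exact Or.inr (Nat.succ_le_of_lt (lt_of_le_of_lt ih (card_lt_card ⟨mo k, e⟩)))
  rcases key (m - 1) with h1 | h1
  · exact (mem_filter.1 h1).2
  · have : R (m - 1) = univ := eq_univ_of_card _ (le_antisymm (card_le_univ _) (by simp; omega))
    exact (mem_filter.1 (this ▸ mem_univ v : v ∈ R (m - 1))).2

end

theorem exists_dir : ∃ alg : List ℕ × List (List Bool) → List ℤ, PT alg ∧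
    ∀ (m G : ℕ) (pr : Fin m → Fin m) (pl : List ℕ) (adj : List (List Bool)), IsPr pl pr → m ≤ G →
      DirSpec (fun u v : Fin m => (adj.getD u.val []).getD v.val false = true) pr G
        (vec m (alg (pl, adj))) := by
  classical
  refine ⟨dalg, dalg_pt, fun m G pr pl adj h hG => ?_⟩
  have := dirSpec_of_paths (fun u v : Fin m => (adj.getD u.val []).getD v.val false = true) pr
    (G := G) (by simpa) (univ.filter fun p => (adj.getD p.1.val []).getD p.2.val false = true ∧
      (dtab (pl, adj) p.2 (m - 1)).getD p.1 none ≠ none)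
    (fun u v => by
      simp only [mem_filter, mem_univ, true_and]
      refine and_congr_right fun _ => ⟨fun h' => ?_, dtab_complete adj h v u⟩
      obtain ⟨l, hl⟩ := Option.ne_none_iff_exists'.1 h'
      exact (dtab_sound adj h v _ u l hl).1)
    (fun p y => cvx (((dtab (pl, adj) p.2 (m - 1)).getD p.1 none).getD []) y)
    fun p hp => by
      obtain ⟨l, hl⟩ := Option.ne_none_iff_exists'.1 (mem_filter.1 hp).2.2
      obtain ⟨-, g2, g3, g4⟩ := dtab_sound adj h p.2 _ p.1 l hl
      have := (dtab_small _ _ _ _ _ hl).1
      have := p.1.pos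
      simp only [hl, Option.getD_some, Fintype.card_fin]
      exact ⟨g2, g3, fun A => by have := g4 A; omega⟩
  convert this using 1
  funext y
  rw [dalg, h.1, vec_map_range, Finset.sum_apply, sum_filter, Fintype.sum_prod_type]
  have e0 : ∀ g : ℕ → ℤ, ((List.range m).map g).sum = ∑ i : Fin m, g i := fun g =>
    sum_range_vec g
  simp only [e0]
  refine sum_congr rfl fun u _ => sum_congr rfl fun v _ => ?_
  rcases e : (dtab (pl, adj) v (m - 1)).getD u none with _ | l
  · simp
  · have := congrFun (cvx_cons u v l) y
    simp only [Option.elim_some, this, ne_eq, reduceCtorEq, not_false_eq_true, and_true,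
      Option.getD_some]

end Crest.Agent.R302
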