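import Crest.Agent.R302.Bas

/-!
# R302/Fst: rooted forests (TASK)

`A` is the reflexive transitive closure of the parent relation.  There is no cycle `v₁ → v₂ → ⋯ → v_k → v₁` of parents (else `A v₂ v₁`
by `step`, against `acyc`); one clean way to `induction`: the number of ancestors `card {r | A v r}` is strictly larger than that of the parent
(`step`, `acyc`), so use strong induction on it.
-/

set_option autoImplicit false
set_option linter.unusedSectionVars false

namespace Crest.Agent.R302

open Finset Crest.Agent.R309

namespace Forest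

variable {U : Type} [Fintype U] [DecidableEq U] (F : Forest U)

@[simp] theorem mem_D {v r : U} : v ∈ F.D r ↔ F.A v r = true := by simp [D]

@[simp] theorem mem_roots {u : U} : u ∈ F.roots ↔ F.par u = none := by simp [roots]

theorem refl (v : U) : F.A v v = true := (F.step v v).2 (Or.inl rfl)

private theorem fst_root {v r : U} (hv : F.par v = none) : F.A v r = true ↔ r = v := by
  rw [F.step, hv]
  simp

private theorem fst_par {v p r : U} (hv : F.par v = some p) :
    F.A v r = true ↔ r = v ∨ F.A p r = true := by
  rw [F.step, hv]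
  simp

private theorem fst_anc_root {v : U} (hv : F.par v = none) :
    univ.filter (fun r => F.A v r = true) = {v} := by
  ext r
  simp [F.fst_root hv]

private theorem fst_anc_par {v p : U} (hv : F.par v = some p) :
    univ.filter (fun r => F.A v r = true) = insert v (univ.filter fun r => F.A p r = true) ∧
      v ∉ univ.filter (fun r => F.A p r = true) := by
  refine ⟨?_, by simp [F.acyc v p hv]⟩
  ext r
  simp [F.fst_par hv]

/-- induction from the roots downwards -/
theorem induction {P : U → Prop} (h : ∀ v, (∀ p, F.par v = some p → P p) → P v) (v : U) : P v := by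
  obtain ⟨n, hn⟩ : ∃ n, (univ.filter fun r => F.A v r = true).card = n := ⟨_, rfl⟩
  induction n using Nat.strong_induction_on generalizing v with
  | _ n ih =>
    refine h v fun p hp => ih _ ?_ p rfl
    rw [← hn, (F.fst_anc_par hp).1, card_insert_of_notMem (F.fst_anc_par hp).2]
    exact Nat.lt_succ_self _

theorem trans {u v w : U} (h : F.A u v = true) (h' : F.A v w = true) : F.A u w = true := by
  induction u using F.induction with
  | h u ih =>
    rcases (F.step u v).1 h with rfl | ⟨p, hp, h1⟩
    · exact h'
    · exact (F.step u w).2 (Or.inr ⟨p, hp, ih p hp h1⟩)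

theorem antisymm {u v : U} (h : F.A u v = true) (h' : F.A v u = true) : u = v := by
  rcases (F.step u v).1 h with rfl | ⟨p, hp, h1⟩
  · rfl
  · have := F.trans h1 h'
    rw [F.acyc u p hp] at this
    exact absurd this Bool.false_ne_true

theorem of_root {v r : U} (hv : F.par v = none) : F.A v r = true ↔ r = v := by
  exact F.fst_root hv

theorem of_par {v p r : U} (hv : F.par v = some p) : F.A v r = true ↔ r = v ∨ F.A p r = true := by
  exact F.fst_par hv

theorem par_ne {v p : U} (hv : F.par v = some p) : p ≠ v := by
  rintro rfl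
  have := F.refl p
  rw [F.acyc p p hv] at this
  exact Bool.false_ne_true this

/-- every vertex has exactly one root above it -/
theorem exists_root (v : U) : ∃ r, F.par r = none ∧ F.A v r = true ∧
    ∀ r', F.par r' = none → F.A v r' = true → r' = r := by
  induction v using F.induction with
  | h v ih =>
    cases hv : F.par v with
    | none => exact ⟨v, hv, F.refl v, fun r' _ h => (F.of_root hv).1 h⟩
    | some p =>
      obtain ⟨r, h1, h2, h3⟩ := ih p hv
      refine ⟨r, h1, (F.of_par hv).2 (Or.inr h2), fun r' h4 h5 => ?_⟩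
      rcases (F.of_par hv).1 h5 with rfl | h6
      · rw [hv] at h4
        exact absurd h4 (Option.some_ne_none _)
      · exact h3 r' h4 h6

/-- the sets of descendants of the roots partition `U` -/
theorem sum_roots {R : Type} [AddCommMonoid R] (x : U → R) :
    ∑ r ∈ F.roots, F.sumD x r = ∑ v, x v := by
  simp only [sumD, D, sum_filter]
  rw [sum_comm]
  refine sum_congr rfl fun v _ => ?_
  obtain ⟨r, h1, h2, h3⟩ := F.exists_root v
  rw [sum_eq_single r (fun r' hr' hne => if_neg fun h => hne (h3 r' (F.mem_roots.1 hr') h))
    (fun h => absurd (F.mem_roots.2 h1) h), if_pos h2]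

theorem sumD_add {R : Type} [AddCommMonoid R] (x y : U → R) (r : U) :
    F.sumD (x + y) r = F.sumD x r + F.sumD y r := by
  simp only [sumD, Pi.add_apply, sum_add_distrib]

theorem sumD_sub (x y : U → ℤ) (r : U) : F.sumD (x - y) r = F.sumD x r - F.sumD y r := by
  simp only [sumD, Pi.sub_apply, sum_sub_distrib]

theorem sumD_smul (c : ℤ) (x : U → ℤ) (r : U) : F.sumD (c • x) r = c * F.sumD x r := by
  simp only [sumD, Pi.smul_apply, smul_eq_mul, mul_sum]

theorem sumD_dl (u r : U) : F.sumD (dl u) r = if F.A u r = true then 1 else 0 := by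
  simp [sumD, dl, Pi.single_apply]

theorem sumD_ed (u : U) : F.sumD (F.ed u) = dl u := by
  funext r
  unfold ed
  cases hu : F.par u with
  | none =>
    rw [Option.elim_none, sub_zero, sumD_dl]
    simp [F.of_root hu, dl, Pi.single_apply]
  | some p =>
    rw [Option.elim_some, sumD_sub, sumD_dl, sumD_dl]
    by_cases h : r = u
    · subst h
      simp [F.refl, F.acyc r p hu, dl]
    · simp [F.of_par hu, h, dl]

theorem sumD_unD (y : U → ℤ) : F.sumD (F.unD y) = y := by
  funext r
  have h : ∀ s : Finset U, F.sumD (∑ u ∈ s, y u • F.ed u) r = ∑ u ∈ s, y u * dl u r := by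
    intro s
    induction s using Finset.induction_on with
    | empty => simp [sumD]
    | insert a s ha ih => rw [sum_insert ha, sum_insert ha, sumD_add, ih, sumD_smul, sumD_ed]
  rw [unD, h]
  simp [dl, Pi.single_apply]

/-- telescoping along the ancestors -/
theorem sum_df {R : Type} [AddCommGroup R] (p : U → R) (v : U) :
    ∑ r ∈ univ.filter (fun r => F.A v r = true), F.df p r = p v := by
  induction v using F.induction with
  | h v ih =>
    cases hv : F.par v with
    | none =>
      rw [F.fst_anc_root hv, sum_singleton, df, hv, Option.elim_none, sub_zero]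
    | some q =>
      rw [(F.fst_anc_par hv).1, sum_insert (F.fst_anc_par hv).2, ih q hv, df, hv, Option.elim_some,
        sub_add_cancel]

/-- Abel summation (`sum_df`, exchange the sums) -/
theorem abel {R : Type} [CommRing R] (x ψ : U → R) :
    ∑ v, x v * ψ v = ∑ u, F.sumD x u * F.df ψ u := by
  calc ∑ v, x v * ψ v = ∑ v, ∑ u, if F.A v u = true then x v * F.df ψ u else 0 := by
        refine sum_congr rfl fun v _ => ?_
        rw [← F.sum_df ψ v, mul_sum, sum_filter]
    _ = _ := by
        rw [sum_comm]
        refine sum_congr rfl fun u _ => ?_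
        rw [sumD, D, sum_mul, sum_filter]

private theorem fst_ed (u v : U) : F.ed u v = F.df (dl v) u := by
  unfold ed df
  cases F.par u <;> simp [dl, Pi.single_apply, eq_comm]

/-- `abel` with `ψ = dl v` -/
theorem unD_sumD (x : U → ℤ) : F.unD (F.sumD x) = x := by
  funext v
  simp only [unD, Finset.sum_apply, Pi.smul_apply, smul_eq_mul, fst_ed]
  rw [← F.abel x (dl v)]
  simp [dl, Pi.single_apply]

theorem unD_add (y y' : U → ℤ) : F.unD (y + y') = F.unD y + F.unD y' := by
  simp only [unD, Pi.add_apply, add_smul, sum_add_distrib]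

theorem unD_sub (y y' : U → ℤ) : F.unD (y - y') = F.unD y - F.unD y' := by
  simp only [unD, Pi.sub_apply, sub_smul, sum_sub_distrib]

theorem unD_dl (u : U) : F.unD (dl u) = F.ed u := by
  rw [← F.sumD_ed, unD_sumD]

theorem ed_root {u : U} (h : F.par u = none) : F.ed u = dl u := by
  rw [ed, h, Option.elim_none, sub_zero]

theorem ed_par {u p : U} (h : F.par u = some p) : F.ed u = dl u - dl p := by
  rw [ed, h, Option.elim_some]

theorem dot_ed (p : U → ℤ) (u : U) : dot p (F.ed u) = F.df p u := by
  unfold dot ed df
  cases F.par u <;> simp [dl, Pi.single_apply, mul_sub]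

theorem sum_ed (u : U) (A : Finset U) : ∑ v ∈ A, F.ed u v = F.df (chi A) u := by
  rw [← dot_ed]
  simp [dot, chi]

theorem abs_ed_le (u v : U) : |F.ed u v| ≤ 1 := by
  unfold ed
  cases F.par u with
  | none =>
    simp only [Option.elim_none, sub_zero, dl, Pi.single_apply]
    split_ifs <;> simp
  | some p =>
    simp only [Option.elim_some, Pi.sub_apply, dl, Pi.single_apply]
    split_ifs <;> simp

theorem abs_unD_le (y : U → ℤ) (v : U) : |F.unD y v| ≤ ∑ u, |y u| := by
  simp only [unD, Finset.sum_apply, Pi.smul_apply, smul_eq_mul]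
  refine (abs_sum_le_sum_abs _ _).trans (sum_le_sum fun u _ => ?_)
  rw [abs_mul]
  exact mul_le_of_le_one_right (abs_nonneg _) (F.abs_ed_le u v)

/-- the level is the sum of the root coordinates -/
theorem sum_unD (y : U → ℤ) : ∑ v, F.unD y v = ∑ r ∈ F.roots, y r := by
  rw [← F.sum_roots, sumD_unD]

/-- the formula used by the algorithms -/
theorem unD_apply (y : U → ℤ) (v : U) :
    F.unD y v = y v - ∑ u ∈ univ.filter (fun u => F.par u = some v), y u := by
  have h : ∀ u, y u * F.ed u v =
      (if v = u then y u else 0) - if F.par u = some v then y u else 0 := by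
    intro u
    unfold ed
    cases F.par u <;> simp [dl, Pi.single_apply, mul_sub, eq_comm]
  simp only [unD, Finset.sum_apply, Pi.smul_apply, smul_eq_mul, h, sum_sub_distrib, sum_filter,
    sum_ite_eq, mem_univ, if_true]

/-- `sum_df` gives the box -/
theorem mem_PP {lam : U → ℕ} {p : U → ℤ} : p ∈ F.PP lam ↔ ∀ u, |F.df p u| ≤ lam u := by
  rw [PP, mem_filter, and_iff_right_iff_imp]
  intro h
  refine mem_box.2 fun v => abs_le.1 ?_
  rw [← F.sum_df p v]
  exact (abs_sum_le_sum_abs _ _).trans ((sum_le_sum fun u _ => h u).trans
    (sum_le_sum_of_subset_of_nonneg (filter_subset _ _) fun _ _ _ => Int.natCast_nonneg _))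

theorem abs_le_of_mem_PP {lam : U → ℕ} {p : U → ℤ} (h : p ∈ F.PP lam) (v : U) :
    |p v| ≤ ∑ u, (lam u : ℤ) := by
  exact abs_le.2 (mem_box.1 (mem_filter.1 h).1 v)

end Forest

end Crest.Agent.R302
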