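import Crest.Agent.R302.Lov
import Crest.Agent.R302.Fst

/-!
# R302/Nu: the restricted conjugate `nu` (TASK)
-/

set_option autoImplicit false
set_option linter.unusedSectionVars false

namespace Crest.Agent.R302

open Finset Crest.Agent.R309

variable {U : Type} [Fintype U] [DecidableEq U]

section conj

variable {P : Finset (U → ℤ)} {g : (U → ℤ) → ℤ}

/-- `P` is closed under the two operations of `TSub` -/
def TClosed (P : Finset (U → ℤ)) : Prop :=
  ∀ p ∈ P, ∀ q ∈ P, ∀ α : ℤ, 0 ≤ α →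
    (fun u => min (p u) (q u + α)) ∈ P ∧ (fun u => max (p u - α) (q u)) ∈ P

/-- Let `h = - g`.  The maximisers of `h` on `P` are closed under `max` (`α = 0`); let `y` be the largest one (maximise `∑ y` among them).  For `p ∈ P` with `p ≥ y` let `q j = min p (y + j)`.
`TSub` for `(q (j+1), y, j)` gives `h (q (j+1)) + h y ≤ h (q j) + h (y + chi A)`, `A = {p - y ≥ j + 1}`, and `h (y + chi A) ≤ h y - 1` if `A ≠ ∅`.  So `h p ≤ h y - (p c - y c)` for every `c`.
For general `p` use `max p y`, as `h p ≤ h (max p y)`. -/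
theorem exists_top (hne : P.Nonempty) (hP : TClosed P) (hg : TSub g) :
    ∃ y ∈ P, ∀ p ∈ P, g y ≤ g p ∧ ∀ c, g y + (p c - y c) ≤ g p := by
  obtain ⟨m, hm, hmin⟩ := exists_min_image P g hne
  obtain ⟨y, hy, hmax⟩ := exists_max_image (P.filter fun p => g p = g m) (fun p => ∑ u, p u)
    ⟨m, mem_filter.2 ⟨hm, rfl⟩⟩
  obtain ⟨hy, hy'⟩ := mem_filter.1 hy
  have key : ∀ (c : U) (k : ℕ), ∀ p ∈ P, (k : ℤ) ≤ p c - y c → g y + k ≤ g p := by
    intro c k
    induction k with
    | zero =>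
      intro p hp _
      have := hmin p hp
      push_cast
      omega
    | succ k ih =>
      intro p hp hk
      push_cast at hk ⊢
      obtain ⟨h1, h2⟩ := hP p hp y hy k (Int.natCast_nonneg k)
      have h3 := hg p y k (Int.natCast_nonneg k)
      have h4 := ih _ h1 (by omega)
      have h5 := hmin _ h2
      have h6 : g (fun u => max (p u - k) (y u)) ≠ g m := fun h => by
        have h7 := hmax _ (mem_filter.2 ⟨h2, h⟩)
        have h8 : ∑ u, y u < ∑ u, max (p u - k) (y u) :=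
          sum_lt_sum (fun u _ => le_max_right _ _) ⟨c, mem_univ _, by omega⟩
        omega
      omega
  refine ⟨y, hy, fun p hp => ⟨hy' ▸ hmin p hp, fun c => ?_⟩⟩
  have h1 := hmin p hp
  have h2 := key c (p c - y c).toNat p hp
  omega

/-- With `y` as in `exists_top`, `H p = g y - g p`.  Suppose `p ∈ P`, `0 ≤ W ≤ H p + (p - y) a + (p - y) c`.  Then some `p' ∈ P` has `(p' - y) a ≥ W`, `(p' - y) c ≥ W`, `H p' ≥ - W`.
Proof: let `Φ t = max {H r | r ∈ P, (r - y) a ≥ t, (r - y) c ≥ t}` for `0 ≤ t ≤ t₀ = min ((p - y) a) ((p - y) c)`; `t₀ ≥ W` because `H p ≤ - (p - y) a`, `H p ≤ - (p - y) c`.  `Φ 0 = 0`; `Φ` is concave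
(`r` for `t + 1`, `r'` for `t - 1`: both `min r (r' + 1)` and `max (r - 1) r'` are admissible for `t`); `Φ t₀ + 2 t₀ ≥ W` (replace `p` by `max p y` and truncate at `y + t₀`: by the chain argument
of `exists_top`, `H (min p (y + j)) ≥ H (min p (y + j + 1)) + 1` as long as `j < max (p - y)`).  If `Φ W ≤ - W - 1`, some slope before `W` is `≤ -2`, hence all later ones, and
`W ≤ Φ t₀ + 2 t₀ ≤ Φ W + 2 W ≤ W - 1`. -/
theorem exists_level (hP : TClosed P) (hg : TSub g) {y : U → ℤ} (hy : y ∈ P)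
    (ht : ∀ p ∈ P, g y ≤ g p ∧ ∀ c, g y + (p c - y c) ≤ g p) {p : U → ℤ} (hp : p ∈ P) (a c : U)
    {W : ℤ} (h0 : 0 ≤ W) (hW : W ≤ g y - g p + (p a - y a) + (p c - y c)) :
    ∃ p' ∈ P, W ≤ p' a - y a ∧ W ≤ p' c - y c ∧ g p' ≤ g y + W := by
  by_contra hno
  have h1 : ∀ r ∈ P, W ≤ r a - y a → W ≤ r c - y c → g y + W + 1 ≤ g r := by
    intro r hr ha hc
    by_contra h
    exact hno ⟨r, hr, ha, hc, by omega⟩
  -- the first level at which the value exceeds the level
  have h2 : ∃ s : ℤ, s + 1 ≤ W ∧ (∃ r ∈ P, s ≤ r a - y a ∧ s ≤ r c - y c ∧ g r ≤ g y + s) ∧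
      ∀ r ∈ P, s + 1 ≤ r a - y a → s + 1 ≤ r c - y c → g y + s + 2 ≤ g r := by
    by_contra h
    have h3 : ∀ n : ℕ, (n : ℤ) ≤ W →
        ∃ r ∈ P, (n : ℤ) ≤ r a - y a ∧ (n : ℤ) ≤ r c - y c ∧ g r ≤ g y + n := by
      intro n
      induction n with
      | zero => exact fun _ => ⟨y, hy, by simp, by simp, by simp⟩
      | succ n ih =>
        intro hn
        push_cast at hn ⊢
        by_contra h4
        refine h ⟨n, hn, ih (by omega), fun r hr ha hc => ?_⟩
        by_contra h5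
        exact h4 ⟨r, hr, ha, hc, by omega⟩
    obtain ⟨r, hr, h4, h5, h6⟩ := h3 W.toNat (by omega)
    exact hno ⟨r, hr, by omega, by omega, by omega⟩
  obtain ⟨s, hs, ⟨r₀, hr₀, ha₀, hc₀, hg₀⟩, h2⟩ := h2
  have h3 : ∀ k : ℕ, ∀ r ∈ P, W + k ≤ r a - y a → W + k ≤ r c - y c →
      g y + W + 1 + 2 * k ≤ g r := by
    intro k
    induction k with
    | zero =>
      intro r hr ha hc
      have := h1 r hr (by omega) (by omega)
      omega
    | succ k ih =>
      intro r hr ha hc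
      push_cast at ha hc ⊢
      obtain ⟨h4, h5⟩ := hP r hr r₀ hr₀ 1 zero_le_one
      have h6 := hg r r₀ 1 zero_le_one
      have h7 := h2 _ h4 (by omega) (by omega)
      have h8 := ih _ h5 (by omega) (by omega)
      omega
  have h4 := (ht p hp).2 a
  have h5 := (ht p hp).2 c
  have h6 : (0 : ℤ) ≤ min (p a - y a) (p c - y c) := by omega
  obtain ⟨h7, h8⟩ := hP p hp y hy _ h6
  have h9 := hg p y _ h6
  have h10 := (ht _ h8).2 a
  have h11 := (ht _ h8).2 c
  have h12 := h3 (min (p a - y a) (p c - y c) - W).toNat _ h7 (by omega) (by omega)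
  omega

theorem nu_dot_dl (p x : U → ℤ) (u : U) : dot p (x + dl u) = dot p x + p u := by
  simp [dot, mul_add, sum_add_distrib, dl_apply]

/-- Apply `exists_top` to `p ↦ g p - dot p σ` (`TSub.add`, `tsub_dot`): `ν (σ + dl c) = ν σ + y c`, so `dd ν σ a b = max_p (H p + (p - y) a + (p - y) b) ≥ 0`.
For the second claim let `W = min …`, take `p`, `q` from `exists_level` for `(a, c)` and `(b, c)`; `r = max p q` has `H r ≥ H p + H q - H (min p q) ≥ - 2 W + W`. -/
theorem conj_ultra (hne : P.Nonempty) (hP : TClosed P) (hg : TSub g) (σ : U → ℤ) (a b c : U) :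
    0 ≤ dd (fun x => P.sup' hne fun p => dot p x - g p) σ a b ∧
      min (dd (fun x => P.sup' hne fun p => dot p x - g p) σ a c)
          (dd (fun x => P.sup' hne fun p => dot p x - g p) σ b c) ≤
        dd (fun x => P.sup' hne fun p => dot p x - g p) σ a b := by
  have hg' : TSub fun p => g p + - dot p σ := hg.add (tsub_dot σ)
  obtain ⟨y, hy, ht⟩ := exists_top hne hP hg'
  have e0 : P.sup' hne (fun p => dot p σ - g p) = dot y σ - g y :=
    le_antisymm (sup'_le _ _ fun p hp => by have := (ht p hp).1; omega)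
      (le_sup' (fun p => dot p σ - g p) hy)
  have e1 : ∀ u, P.sup' hne (fun p => dot p (σ + dl u) - g p) = dot y σ - g y + y u := fun u =>
    le_antisymm (sup'_le _ _ fun p hp => by have := (ht p hp).2 u; rw [nu_dot_dl]; omega)
      ((le_sup' (fun p => dot p (σ + dl u) - g p) hy).trans' (by rw [nu_dot_dl]; omega))
  have e2 : ∀ u v, ∀ p ∈ P, (g y + - dot y σ) - (g p + - dot p σ) + (p u - y u) + (p v - y v) ≤
      dd (fun x => P.sup' hne fun p => dot p x - g p) σ u v := by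
    intro u v p hp
    have := le_sup' (fun p => dot p (σ + dl u + dl v) - g p) hp
    rw [nu_dot_dl, nu_dot_dl] at this
    simp only [dd, e0, e1]
    omega
  have e3 : ∀ u v, ∃ p ∈ P, dd (fun x => P.sup' hne fun p => dot p x - g p) σ u v ≤
      (g y + - dot y σ) - (g p + - dot p σ) + (p u - y u) + (p v - y v) := by
    intro u v
    obtain ⟨p, hp, h⟩ := exists_mem_eq_sup' hne fun p => dot p (σ + dl u + dl v) - g p
    refine ⟨p, hp, ?_⟩
    simp only [dd, e0, e1, h]
    rw [nu_dot_dl, nu_dot_dl]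
    omega
  have e4 : ∀ u v, 0 ≤ dd (fun x => P.sup' hne fun p => dot p x - g p) σ u v := fun u v => by
    have := e2 u v y hy
    omega
  refine ⟨e4 a b, ?_⟩
  obtain ⟨p, hp, h1⟩ := e3 a c
  obtain ⟨q, hq, h2⟩ := e3 b c
  have h0 := le_min (e4 a c) (e4 b c)
  obtain ⟨p', hp', a1, a2, a3⟩ := exists_level hP hg' hy ht hp a c h0
    ((min_le_left _ _).trans h1)
  obtain ⟨q', hq', b1, b2, b3⟩ := exists_level hP hg' hy ht hq b c h0
    ((min_le_right _ _).trans h2)
  obtain ⟨h3, h4⟩ := hP p' hp' q' hq' 0 le_rfl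
  have h5 := hg' p' q' 0 le_rfl
  have h6 := (ht _ h3).2 c
  have h7 := e2 a b _ h4
  simp only [] at a3 b3 h5 h6 h7
  omega

end conj

namespace Forest

variable (F : Forest U) {f : Finset U → ℤ} (lam : U → ℕ)

theorem tclosed_PP : TClosed (F.PP lam) := by
  intro p hp q hq α hα
  rw [mem_PP] at hp hq
  simp only [mem_PP]
  constructor <;> intro u <;> have h1 := abs_le.1 (hp u) <;> have h2 := abs_le.1 (hq u) <;>
    rw [abs_le] <;> unfold df at h1 h2 ⊢ <;> cases h : F.par u <;>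
    simp only [h, Option.elim_none, Option.elim_some] at h1 h2 ⊢ <;> omega

theorem nu_dd_nonneg (hf : Nice f) (σ : U → ℤ) (a b : U) : 0 ≤ dd (F.nu f lam) σ a b :=
  (conj_ultra _ (F.tclosed_PP lam) (lov_tsub hf) σ a b a).1

theorem nu_ultra (hf : Nice f) (σ : U → ℤ) (a b c : U) :
    min (dd (F.nu f lam) σ a c) (dd (F.nu f lam) σ b c) ≤ dd (F.nu f lam) σ a b :=
  (conj_ultra _ (F.tclosed_PP lam) (lov_tsub hf) σ a b c).2

theorem le_nu {p : U → ℤ} (hp : ∀ u, |F.df p u| ≤ lam u) (σ : U → ℤ) :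
    dot p σ - lov f p ≤ F.nu f lam σ := by
  exact le_sup' (fun p => dot p σ - lov f p) (F.mem_PP.2 hp)

theorem nu_nonneg (hf : Nice f) (σ : U → ℤ) : 0 ≤ F.nu f lam σ := by
  have h := le_sup' (fun p => dot p σ - lov f p) (F.zero_mem_PP lam)
  have e : dot 0 σ = 0 := by simp [dot]
  rwa [lov_zero hf, e, sub_zero] at h

/-- `dot_le_lov` -/
theorem nu_eq_zero (hf : Nice f) {x : U → ℤ} (hx : Below f x) (h0 : ∑ u, x u = 0) :
    F.nu f lam x = 0 := by
  refine le_antisymm (sup'_le _ _ fun p _ => ?_) (F.nu_nonneg lam hf x)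
  have := dot_le_lov hf hx h0 p
  omega

/-- `dot p δ = ∑ sumD δ u * df p u` (`abel`) -/
theorem nu_lip (σ σ' : U → ℤ) :
    |F.nu f lam σ - F.nu f lam σ'| ≤ ∑ u, (lam u : ℤ) * |F.sumD (σ - σ') u| := by
  have key : ∀ x x' : U → ℤ,
      F.nu f lam x ≤ F.nu f lam x' + ∑ u, (lam u : ℤ) * |F.sumD (x - x') u| := by
    intro x x'
    refine sup'_le _ _ fun p hp => ?_
    rw [mem_PP] at hp
    have h1 := F.le_nu (f := f) lam hp x'
    have h2 : dot p x - dot p x' = ∑ u, F.sumD (x - x') u * F.df p u := by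
      rw [← F.abel, dot, dot, ← sum_sub_distrib]
      exact sum_congr rfl fun u _ => by rw [Pi.sub_apply]; ring
    have h3 : ∑ u, F.sumD (x - x') u * F.df p u ≤ ∑ u, (lam u : ℤ) * |F.sumD (x - x') u| := by
      refine sum_le_sum fun u _ => (le_abs_self _).trans ?_
      rw [abs_mul, mul_comm]
      exact mul_le_mul_of_nonneg_right (hp u) (abs_nonneg _)
    omega
  have h1 := key σ σ'
  have h2 := key σ' σ
  have h3 : ∑ u, (lam u : ℤ) * |F.sumD (σ' - σ) u| = ∑ u, (lam u : ℤ) * |F.sumD (σ - σ') u| :=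
    sum_congr rfl fun u _ => by rw [sumD_sub, sumD_sub, abs_sub_comm]
  rw [abs_le]
  omega

/-- the price vector `t • chi A` -/
theorem nu_ge_set (hf : Nice f) (σ : U → ℤ) (A : Finset U) {t : ℤ} (ht : 0 ≤ t)
    (h : ∀ u, F.df (chi A) u ≠ 0 → t ≤ lam u) : t * (∑ u ∈ A, σ u - f A) ≤ F.nu f lam σ := by
  have h1 := F.le_nu (f := f) lam (p := fun u => t * chi A u) (fun u => by
    have h2 := h u
    have h3 : (0 : ℤ) ≤ lam u := Int.natCast_nonneg _
    unfold df chi at h2 ⊢
    rw [abs_le]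
    cases hu : F.par u <;> simp only [hu, Option.elim_none, Option.elim_some] at h2 ⊢ <;>
      split_ifs at h2 ⊢ <;> omega) σ
  have h2 : dot (fun u => t * chi A u) σ = t * ∑ u ∈ A, σ u := by
    simp [dot, chi, mul_sum]
  rw [lov_chi hf A ht, h2] at h1
  rwa [mul_sub]

/-- constant price vectors `± t` -/
theorem nu_ge_level (hf : Nice f) (σ : U → ℤ) {t : ℤ} (ht : 0 ≤ t)
    (h : ∀ u, F.par u = none → t ≤ lam u) : t * |∑ u, σ u| ≤ F.nu f lam σ := by
  have key : ∀ s : ℤ, |s| ≤ t → s * ∑ u, σ u ≤ F.nu f lam σ := by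
    intro s hs
    have h1 := F.le_nu (f := f) lam (p := fun _ => s) (fun u => by
      have h2 := h u
      have h3 : (0 : ℤ) ≤ lam u := Int.natCast_nonneg _
      unfold df
      cases hu : F.par u with
      | none => simpa using hs.trans (h2 hu)
      | some w => simp) σ
    rwa [lov_const hf, sub_zero, dot, ← mul_sum] at h1
  rcases abs_cases (∑ u, σ u) with ⟨e, -⟩ | ⟨e, -⟩
  · rw [e]
    exact key t (abs_of_nonneg ht).le
  · rw [e, mul_neg, ← neg_mul]
    exact key (-t) (by rw [abs_neg]; exact (abs_of_nonneg ht).le)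

end Forest

end Crest.Agent.R302
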