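import Crest.Agent.R302.LMin
import Crest.Agent.R302.Nu

/-!
# R302/NuAlg: computing `nu` (TASK)

Let `m, values ≤ 2 ^ K` as in the statement, `Mp = 2 ^ (4 K + 4)`, and
`γ p = lov f p - dot p σ + ∑_u Mp * max 0 (|df p u| - lam u)`; it is `TSub` (`lov_tsub`, `tsub_dot`, `tsub_pen1`, `tsub_pen2`, `tsub_sum`), `γ 0 = 0`.
With a base `b` (`exists_base`, `|b u| ≤ 2 ^ K` by `abs_sum_le_of_below`), `dot p σ - lov f p ≤ dot p (σ - b) = ∑ sumD (σ - b) u * df p u ≤ B ∑ (lam u + viol u)`, `B = 2 ^ (2 K + 1)`, `∑ lam ≤ 2 ^ (2 K)`.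
So `γ p ≤ 0` forces `viol = 0`, i.e. `p ∈ PP`, where `γ p = lov f p - dot p σ` and `|p u| ≤ 2 ^ (2 K) < 2 ^ (2 K + 1)`.  Hence `min γ = - nu`.  Apply `exists_lmin` with `2 K + 1` and `K' = 8 K + 12` (`abs_lov_le`).
-/

set_option autoImplicit false
set_option linter.unusedSectionVars false

namespace Crest.Agent.R302

open Finset Crest.Agent.Lib.PT Crest.Agent.R309

section math

variable {U : Type} [Fintype U] [DecidableEq U]

/-- the penalised objective -/
noncomputable def naObj (F : Forest U) (f : Finset U → ℤ) (lam : U → ℕ) (σ : U → ℤ) (M : ℤ)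
    (p : U → ℤ) : ℤ :=
  lov f p + - dot p σ + ∑ u, M * max 0 (|F.df p u| - lam u)

variable {F : Forest U} {f : Finset U → ℤ} {lam : U → ℕ} {σ : U → ℤ} {M N : ℤ}

theorem naObj_tsub (hf : Nice f) (hM : 0 ≤ M) : TSub (naObj F f lam σ M) := by
  refine ((lov_tsub hf).add (tsub_dot σ)).add (tsub_sum univ
    (γ := fun u p => M * max 0 (|F.df p u| - lam u)) fun u _ => ?_)
  unfold Forest.df
  cases F.par u with
  | none => simpa only [Option.elim_none, sub_zero] using tsub_pen1 u hM (lam u)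
  | some w => simpa only [Option.elim_some] using tsub_pen2 u w hM (lam u)

theorem naObj_of_mem {p : U → ℤ} (hp : p ∈ F.PP lam) :
    naObj F f lam σ M p = - (dot p σ - lov f p) := by
  rw [Forest.mem_PP] at hp
  rw [naObj, sum_eq_zero fun u _ => by rw [max_eq_left (sub_nonpos.2 (hp u)), mul_zero]]
  ring

theorem naObj_zero (hf : Nice f) : naObj F f lam σ M 0 = 0 := by
  rw [naObj_of_mem (F.zero_mem_PP lam), lov_zero hf]
  simp [dot]

theorem na_sum_le (hU : (Fintype.card U : ℤ) ≤ N) {x : U → ℤ} {C : ℤ} (hC : 0 ≤ C)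
    (hx : ∀ u, |x u| ≤ C) (A : Finset U) : |∑ u ∈ A, x u| ≤ N * C := by
  refine (abs_sum_le_sum_abs _ _).trans ((sum_le_sum fun u _ => hx u).trans ?_)
  rw [sum_const, nsmul_eq_mul]
  exact mul_le_mul_of_nonneg_right ((Int.ofNat_le.2 (card_le_univ A)).trans hU) hC

theorem na_sum_lam (hN : 1 ≤ N) (hU : (Fintype.card U : ℤ) ≤ N) (hl : ∀ u, (lam u : ℤ) ≤ N) :
    ∑ u, (lam u : ℤ) ≤ N * N :=
  (le_abs_self _).trans (na_sum_le hU (by omega)
    (fun u => by rw [abs_of_nonneg (Int.natCast_nonneg _)]; exact hl u) univ)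

theorem mem_of_naObj (hf : Nice f) (hN : 1 ≤ N) (hU : (Fintype.card U : ℤ) ≤ N)
    (hb : ∀ A, |f A| ≤ N) (hl : ∀ u, (lam u : ℤ) ≤ N) (hσ : ∀ u, |σ u| ≤ N) {p : U → ℤ}
    (hp : naObj F f lam σ (16 * N ^ 4) p ≤ 0) : p ∈ F.PP lam := by
  obtain ⟨b, hb1, hb2⟩ := exists_base hf
  have h1 := dot_le_lov hf hb1 hb2 p
  have h2 : dot p σ - dot p b = ∑ u, F.sumD (σ - b) u * F.df p u := by
    rw [← F.abel, dot, dot, ← sum_sub_distrib]
    exact sum_congr rfl fun u _ => by rw [Pi.sub_apply]; ring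
  have h3 : ∀ u, |F.sumD (σ - b) u| ≤ 2 * N ^ 2 := fun u => by
    have h4 := abs_le.1 (na_sum_le hU (by omega) hσ (F.D u))
    have h5 := abs_le.1 (abs_sum_le_of_below hb1 hb2 hb (F.D u))
    rw [F.sumD_sub, abs_le]
    unfold Forest.sumD
    constructor <;> nlinarith [h4.1, h4.2, h5.1, h5.2]
  have h4 : ∑ u, F.sumD (σ - b) u * F.df p u ≤
      ∑ u, 2 * N ^ 2 * ((lam u : ℤ) + max 0 (|F.df p u| - lam u)) := by
    refine sum_le_sum fun u _ => (le_abs_self _).trans ?_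
    rw [abs_mul]
    exact mul_le_mul (h3 u) (by omega) (abs_nonneg _) (by positivity)
  rw [← mul_sum, sum_add_distrib] at h4
  rw [naObj, ← mul_sum] at hp
  have h5 := na_sum_lam hN hU hl
  rw [Forest.mem_PP]
  by_contra h
  push Not at h
  obtain ⟨u, hu⟩ := h
  have h6 : max 0 (|F.df p u| - lam u) ≤ ∑ u, max 0 (|F.df p u| - lam u) :=
    single_le_sum (f := fun u => max 0 (|F.df p u| - lam u)) (fun v _ => le_max_left _ _) (mem_univ u)
  have h7 : 1 ≤ ∑ u, max 0 (|F.df p u| - lam u) := by omega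
  generalize ∑ u, max 0 (|F.df p u| - lam u) = V at h4 hp h7
  generalize ∑ u, (lam u : ℤ) = L at h4 h5
  have h8 : 1 ≤ N ^ 2 := one_le_pow₀ hN
  have h9 : N ^ 4 = N ^ 2 * N ^ 2 := by ring
  have h10 : N * N = N ^ 2 := by ring
  rw [h9] at hp
  rw [h10] at h5
  generalize N ^ 2 = Q at h4 hp h5 h8
  have h11 : Q * L ≤ Q * Q := mul_le_mul_of_nonneg_left h5 (by omega)
  have h12 : Q * Q * 1 ≤ Q * Q * V := mul_le_mul_of_nonneg_left h7 (by positivity)
  have h13 : 1 * (Q * V) ≤ Q * (Q * V) := mul_le_mul_of_nonneg_right h8 (by positivity)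
  have h14 : 1 * 1 ≤ Q * Q := mul_le_mul h8 h8 zero_le_one (by omega)
  nlinarith

theorem abs_naObj_le (hf : Nice f) (hN : 1 ≤ N) (hU : (Fintype.card U : ℤ) ≤ N)
    (hb : ∀ A, |f A| ≤ N) (hσ : ∀ u, |σ u| ≤ N) {p : U → ℤ} (hp : ∀ u, |p u| ≤ 4 * N ^ 2) :
    |naObj F f lam σ (16 * N ^ 4) p| ≤ 256 * N ^ 7 := by
  have h1 := abs_le.1 (abs_lov_le hf hb (by positivity) hp)
  have h2 := abs_le.1 (na_sum_le hU (x := fun u => p u * σ u) (C := 4 * N ^ 2 * N) (by positivity)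
    (fun u => by rw [abs_mul]; exact mul_le_mul (hp u) (hσ u) (abs_nonneg _) (by positivity)) univ)
  have h3 := abs_le.1 (na_sum_le hU (x := fun u => 16 * N ^ 4 * max 0 (|F.df p u| - lam u))
    (C := 16 * N ^ 4 * (8 * N ^ 2)) (by positivity) (fun u => by
      rw [abs_mul, abs_of_nonneg (by positivity), abs_of_nonneg (le_max_left _ _)]
      refine mul_le_mul_of_nonneg_left (max_le (by positivity) ?_) (by positivity)
      have h4 : (0 : ℤ) ≤ lam u := Int.natCast_nonneg _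
      have h5 := abs_le.1 (hp u)
      have h6 : |F.df p u| ≤ 8 * N ^ 2 := by
        unfold Forest.df
        rw [abs_le]
        cases F.par u with
        | none => simp only [Option.elim_none]; omega
        | some w =>
          have := abs_le.1 (hp w)
          simp only [Option.elim_some]
          omega
      omega) univ)
  have e1 : N ≤ N ^ 7 := le_self_pow₀ hN (by norm_num)
  have e3 : N ^ 3 ≤ N ^ 7 := pow_le_pow_right₀ hN (by norm_num)
  have e4 : N ^ 4 ≤ N ^ 7 := pow_le_pow_right₀ hN (by norm_num)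
  have e5 : (2 * (4 * N ^ 2) + 1) * N = 8 * N ^ 3 + N := by ring
  have e6 : N * (4 * N ^ 2 * N) = 4 * N ^ 4 := by ring
  have e7 : N * (16 * N ^ 4 * (8 * N ^ 2)) = 128 * N ^ 7 := by ring
  rw [e5] at h1
  rw [e6] at h2
  rw [e7] at h3
  unfold naObj dot
  rw [abs_le]
  omega

end math

/-- the modular part and the penalty, on lists -/
def naPen (m K : ℕ) (par : List (Option ℕ)) (lam : List ℕ) (σ l : List ℤ) : ℤ :=
  - ((List.range m).map fun u => l.getD u 0 * σ.getD u 0).sum +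
    ((List.range m).map fun u => 16 * ((2 : ℤ) ^ K) ^ 4 *
      max 0 (|l.getD u 0 - (par.getD u none).elim 0 fun w => l.getD w 0| - (lam.getD u 0 : ℕ))).sum

@[fun_prop] theorem naPen_pt {α : Type} [Enc α] {m K : α → ℕ} {par : α → List (Option ℕ)}
    {lam : α → List ℕ} {σ l : α → List ℤ} (hm : PT m) (hm' : PB m) (hK : PT K) (hK' : PB K)
    (hpar : PT par) (hlam : PT lam) (hσ : PT σ) (hl : PT l) :
    PT fun a => naPen (m a) (K a) (par a) (lam a) (σ a) (l a) := by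
  unfold naPen
  fun_prop

theorem exists_nu :
    ∃ alg : (List Bool → ℤ) → Un × Un × List (Option ℕ) × List ℕ × List ℤ → ℤ, HOPT alg ∧
    ∀ (m K : ℕ) (f : Finset (Fin m) → ℤ) (h : List Bool → ℤ) (F : Forest (Fin m))
      (par : List (Option ℕ)) (lam : List ℕ) (σ : List ℤ), Calls h f → Nice f →
      (∀ v : Fin m, par.getD v.val none = (F.par v).map Fin.val) → m ≤ 2 ^ K →
      (∀ A, |f A| ≤ 2 ^ K) → (∀ u : Fin m, lam.getD u.val 0 ≤ 2 ^ K) →
      (∀ u, |vec m σ u| ≤ 2 ^ K) →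
      alg h (⟨m⟩, ⟨K⟩, par, lam, σ) = F.nu f (fun u => lam.getD u.val 0) (vec m σ) := by
  obtain ⟨lv, Hv, hv⟩ := exists_lov
  obtain ⟨mn, Hm, hmn⟩ := exists_lmin
  refine ⟨fun h p => - mn (fun l => lv h (p.1, l) + naPen p.1.n p.2.1.n p.2.2.1 p.2.2.2.1 p.2.2.2.2 l)
      (p.1, ⟨2 * p.2.1.n + 1⟩, ⟨7 * p.2.1.n + 8⟩), fun α _ h hh => ?_,
    fun m K f h F par lam σ hc hf hpar hm hb hl hσ => ?_⟩
  · refine OPT.post (g := fun z : ℤ => - z) (by fun_prop) ?_
    refine Hm.app (h := fun O (c : α × Un × Un × List (Option ℕ) × List ℕ × List ℤ) l =>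
      lv (h O c.1) (c.2.1, l) + naPen c.2.1.n c.2.2.1.n c.2.2.2.1 c.2.2.2.2.1 c.2.2.2.2.2 l)
      ?_ (OPT.pure (by fun_prop))
    refine OPT.cont (g := fun (c : (α × Un × Un × List (Option ℕ) × List ℕ × List ℤ) × List ℤ) z =>
      z + naPen c.1.2.1.n c.1.2.2.1.n c.1.2.2.2.1 c.1.2.2.2.2.1 c.1.2.2.2.2.2 c.2) ?_ (by fun_prop)
    exact Hv.app (h := fun O (c : (α × Un × Un × List (Option ℕ) × List ℕ × List ℤ) × List ℤ) i =>
      h O c.1.1 i) (OPT.call hh (by fun_prop) (by fun_prop)) (OPT.pure (by fun_prop))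
  · have hN : (1 : ℤ) ≤ 2 ^ K := one_le_pow₀ one_le_two
    have hU : (Fintype.card (Fin m) : ℤ) ≤ 2 ^ K := by
      rw [Fintype.card_fin]
      exact_mod_cast hm
    have hl' : ∀ u : Fin m, ((lam.getD u.val 0 : ℕ) : ℤ) ≤ 2 ^ K := fun u => by
      exact_mod_cast hl u
    obtain ⟨⟨p, hp⟩, h2⟩ := hmn m (2 * K + 1) (7 * K + 8)
      (naObj F f (fun u => lam.getD u.val 0) (vec m σ) (16 * (2 ^ K) ^ 4))
      (fun l => lv h (⟨m⟩, l) + naPen m K par lam σ l)
      (fun l => by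
        rw [hv m f h l hc hf, naPen, naObj, tl_sum_range, tl_sum_range, add_assoc]
        congr 2
        refine sum_congr rfl fun u _ => ?_
        rw [hpar, Forest.df]
        cases F.par u <;> rfl)
      (naObj_tsub hf (by positivity))
      (fun p hp u => by
        rw [naObj_zero hf] at hp
        have h1 := F.abs_le_of_mem_PP (mem_of_naObj hf hN hU hb hl' hσ hp) u
        have h2 := na_sum_lam hN hU hl'
        have h3 : (2 : ℤ) ^ (2 * K + 1) = 2 * (2 ^ K * 2 ^ K) := by ring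
        have h4 : (0 : ℤ) < 2 ^ K * 2 ^ K := by positivity
        omega)
      (fun p hp => (abs_naObj_le hf hN hU hb hσ fun u => (hp u).trans (le_of_eq (by ring))).trans
        (le_of_eq (by ring)))
    change - mn (fun l => lv h (⟨m⟩, l) + naPen m K par lam σ l) (⟨m⟩, ⟨2 * K + 1⟩, ⟨7 * K + 8⟩) = _
    rw [hp] at h2 ⊢
    have h3 := mem_of_naObj hf hN hU hb hl' hσ ((h2 0).trans_eq (naObj_zero hf))
    refine le_antisymm ?_ (sup'_le _ _ fun q hq => ?_)
    · rw [naObj_of_mem h3, neg_neg]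
      exact F.le_nu _ (F.mem_PP.1 h3) _
    · have := h2 q
      rw [naObj_of_mem hq] at this
      omega

end Crest.Agent.R302
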