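import Crest.Agent.R302.Sys

/-!
# R302/Par: parameters and coordinates
-/

set_option autoImplicit false
set_option linter.unusedSectionVars false

namespace Crest.Agent.R302

open Finset Crest.Agent.R309

namespace Sys

variable {U E : Type} [Fintype U] [DecidableEq U] [Fintype E] [DecidableEq E] {S : Sys U E}
  {φ : E → ℤ} {σ : U → ℤ}

theorem Good.par_G (h : S.Good) : S.G = 2 ^ S.g := h.pow

theorem Good.par_g (h : S.Good) : 20 ≤ S.g := h.big

theorem Good.G_ge (h : S.Good) : 2 ^ 20 ≤ S.G := by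
  rw [h.par_G]
  exact Nat.pow_le_pow_right (by norm_num) h.par_g

theorem Good.G_geR (h : S.Good) : (1048576 : ℝ) ≤ S.G := by
  have := h.G_ge
  exact_mod_cast this

/-- `g ≤ G / 2 ^ 15`: `2 ^ 15 g ≤ 2 ^ g` for `g ≥ 20` -/
theorem Good.g_le (h : S.Good) : 32768 * S.g ≤ S.G := by
  have key : ∀ n : ℕ, 32768 * (20 + n) ≤ 2 ^ (20 + n) := by
    intro n
    induction n with
    | zero => norm_num
    | succ n ih => rw [← add_assoc, pow_succ]; omega
  obtain ⟨n, hn⟩ := Nat.exists_eq_add_of_le h.par_g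
  have := key n
  rwa [← hn, ← h.par_G] at this

/-- polynomials against exponentials: `G ^ k = 2 ^ (k g)` -/
theorem Good.pow_le (h : S.Good) {k : ℕ} (hk : k ≤ 32768) : S.G ^ k ≤ 2 ^ S.G := by
  have h1 := h.g_le
  have h2 : S.g * k ≤ S.G := le_trans (Nat.mul_le_mul_left _ hk) (by omega)
  calc S.G ^ k = 2 ^ (S.g * k) := by rw [pow_mul, ← h.par_G]
    _ ≤ 2 ^ S.G := Nat.pow_le_pow_right (by norm_num) h2

theorem Good.q_eq (h : S.Good) : S.q = 1 - 1 / (2 : ℝ) ^ (200 * S.g) := by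
  have : S.L = 2 ^ (200 * S.g) := by rw [L, mul_comm, pow_mul, ← h.par_G]
  rw [q, this]
  push_cast
  rfl

theorem Good.par_L (h : S.Good) : (2 : ℝ) ≤ S.L := by
  have h1 := h.G_ge
  have h2 : S.G ≤ S.G ^ 200 := Nat.le_self_pow (by norm_num) _
  have h3 : 2 ≤ S.L := by unfold L; omega
  exact_mod_cast h3

theorem Good.par_inv (h : S.Good) : 0 < 1 / (S.L : ℝ) ∧ 1 / (S.L : ℝ) ≤ 1 / 2 := by
  have := h.par_L
  exact ⟨by positivity, one_div_le_one_div_of_le (by norm_num) this⟩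

theorem Good.q_pos (h : S.Good) : 0 < S.q := by
  have := h.par_inv.2
  unfold q
  linarith

theorem Good.q_le (h : S.Good) : S.q ≤ 1 := by
  have := h.par_inv.1
  unfold q
  linarith

theorem Good.ell_pos (h : S.Good) : 0 < S.ell := by
  have h1 := h.par_inv.1
  have h2 : S.q < 1 := by unfold q; linarith
  exact neg_pos.2 (Real.log_neg h.q_pos h2)

/-- compare `ell_lb`, `ell_ub` in `R309/Par.lean` -/
theorem Good.kap (h : S.Good) : 1 ≤ S.ell * S.L ∧ S.ell * S.L ≤ 2 := by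
  have hL := h.par_L
  have hL0 : (0 : ℝ) < S.L := by linarith
  have h1 := Real.log_le_sub_one_of_pos h.q_pos
  have h2 := Real.one_sub_inv_le_log_of_pos h.q_pos
  have hq : S.q = 1 - 1 / (S.L : ℝ) := rfl
  constructor
  · have h3 : 1 / (S.L : ℝ) ≤ S.ell := by unfold ell; linarith
    rwa [div_le_iff₀ hL0] at h3
  · have h3 : S.q⁻¹ ≤ 1 + 2 / (S.L : ℝ) := by
      rw [inv_le_iff_one_le_mul₀ h.q_pos, hq, show 2 / (S.L : ℝ) = 2 * (1 / (S.L : ℝ)) by ring]
      nlinarith [h.par_inv.1, h.par_inv.2]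
    have h4 : S.ell ≤ 2 / (S.L : ℝ) := by unfold ell; linarith
    rwa [le_div_iff₀ hL0] at h4

theorem Good.q_zpow (h : S.Good) (k : ℤ) : S.q ^ k = Real.exp (- (S.ell * k)) := by
  rw [← Real.exp_log (zpow_pos h.q_pos k), Real.log_zpow, ell]
  congr 1
  ring

theorem Good.q_anti (h : S.Good) {k k' : ℤ} (hk : k ≤ k') : S.q ^ k' ≤ S.q ^ k := by
  exact zpow_le_zpow_right_of_le_one₀ h.q_pos h.q_le hk

theorem Good.q_NL (h : S.Good) : S.q ^ S.NL ≤ Real.exp (- (S.G : ℝ) ^ 3) := by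
  rw [h.q_zpow, Real.exp_le_exp, neg_le_neg_iff, NL]
  push_cast
  have h1 : (0 : ℝ) ≤ (S.G : ℝ) ^ 3 := by positivity
  nlinarith [mul_le_mul_of_nonneg_left h.kap.1 h1]

theorem Good.cu_mul (h : S.Good) (u : U) : S.cu u * S.wd u = S.Dn := by
  obtain ⟨j, hj⟩ := h.wd_pow u
  have h1 := h.wd_le u
  rw [hj, Nat.pow_le_pow_iff_right (by norm_num)] at h1
  exact Nat.div_mul_cancel (hj ▸ Nat.pow_dvd_pow 2 h1)

theorem Good.par_72 (h : S.Good) : S.G ^ 72 = 2 ^ (S.g * 72) := by rw [pow_mul, ← h.par_G]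

theorem Good.s_mul (h : S.Good) (u : U) : S.s u * S.G ^ 72 = S.wd u := by
  obtain ⟨j, hj⟩ := h.wd_pow u
  have h1 := h.wd_ge u
  rw [hj, h.par_72, Nat.pow_le_pow_iff_right (by norm_num)] at h1
  refine Nat.div_mul_cancel ?_
  rw [hj, h.par_72]
  exact Nat.pow_dvd_pow 2 h1

theorem Good.s_pos (h : S.Good) (u : U) : 0 < S.s u := by
  obtain ⟨j, hj⟩ := h.wd_pow u
  have h1 := h.s_mul u
  rcases Nat.eq_zero_or_pos (S.s u) with h0 | h0
  · rw [h0, zero_mul, hj] at h1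
    exact absurd h1 (by positivity)
  · exact h0

theorem Good.s_root (h : S.Good) {u : U} (hu : S.F.par u = none) : S.s u = 1 := by
  have := h.G_ge
  rw [s, h.wd_root u hu]
  exact Nat.div_self (pow_pos (by omega) _)

theorem Good.s_pow (h : S.Good) (u : U) : ∃ j ≤ S.G + 1, S.s u = 2 ^ j := by
  obtain ⟨j, hj⟩ := h.wd_pow u
  have h1 := h.wd_ge u
  have h2 := h.wd_le u
  rw [hj, h.par_72, Nat.pow_le_pow_iff_right (by norm_num)] at h1
  rw [hj, Nat.pow_le_pow_iff_right (by norm_num)] at h2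
  refine ⟨j - S.g * 72, by omega, ?_⟩
  rw [s, hj, h.par_72, Nat.pow_div h1 (by norm_num)]

theorem Good.vol_pos (h : S.Good) : 0 < S.vol := by
  exact prod_pos fun u _ => h.s_pos u

theorem Good.den_pos (h : S.Good) : 0 < S.den := by
  have := h.G_ge
  have h1 : 0 < S.G := by omega
  unfold den Dn
  positivity

/-- `(2 G ^ 95) ^ G ≤ 2 ^ (96 g G)` -/
theorem Good.card_cbox (h : S.Good) : (S.cbox.card : ℝ) ≤ Real.exp ((S.G : ℝ) ^ 2) := by
  have hG := h.G_ge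
  have h1 : S.M ≤ 2 ^ S.G := by
    refine le_trans ?_ (h.pow_le (k := 96) (by norm_num))
    rw [M, pow_succ' _ 95]
    exact Nat.mul_le_mul_right _ (by omega)
  have h2 : (S.M : ℝ) ≤ Real.exp S.G := by
    have h3 : (2 : ℝ) ≤ Real.exp 1 := by linarith [Real.add_one_le_exp (1 : ℝ)]
    calc (S.M : ℝ) ≤ 2 ^ S.G := by exact_mod_cast h1
      _ ≤ Real.exp 1 ^ S.G := by gcongr
      _ = Real.exp S.G := by rw [← Real.exp_nat_mul, mul_one]
  have h4 : 1 ≤ Real.exp (S.G : ℝ) := Real.one_le_exp (Nat.cast_nonneg _)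
  rw [cbox, card_box0 fun _ : U => S.M, prod_const, card_univ]
  push_cast
  calc (S.M : ℝ) ^ Fintype.card U ≤ Real.exp S.G ^ Fintype.card U := by gcongr
    _ ≤ Real.exp S.G ^ S.G := pow_le_pow_right₀ h4 h.cardU
    _ = _ := by rw [← Real.exp_nat_mul, sq]

theorem Good.card_fbx (h : S.Good) : S.fbx.card = S.cbox.card * S.vol := by
  have := sum_blocks S.loF S.s (fun _ => S.M) h.s_pos fun _ => 1
  simp only [sum_const, nsmul_eq_mul, mul_one, card_box0 S.s] at this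
  exact_mod_cast this

theorem card_obox (S : Sys U E) : S.obox.card = S.vol := by
  exact card_box0 S.s

/-- `sum_blocks` -/
theorem Good.sum_fbx (h : S.Good) (H : (U → ℤ) → ℝ) :
    ∑ y ∈ S.fbx, H y = ∑ a ∈ S.cbox, ∑ o ∈ S.obox, H fun u => S.cor a u + o u := by
  exact sum_blocks S.loF S.s (fun _ => S.M) h.s_pos H

theorem mem_fbx {y : U → ℤ} :
    y ∈ S.fbx ↔ ∀ u, - ((S.G : ℤ) ^ 95 * S.s u) ≤ y u ∧ y u < (S.G : ℤ) ^ 95 * S.s u := by
  rw [fbx, mem_box]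
  refine forall_congr' fun u => and_congr Iff.rfl ?_
  have : S.hiF u = (S.G : ℤ) ^ 95 * S.s u - 1 := by
    simp only [hiF, loF, M]
    push_cast
    ring
  rw [this]
  omega

theorem Good.cor_mem (h : S.Good) {a o : U → ℤ} (ha : a ∈ S.cbox) (ho : o ∈ S.obox) :
    (fun u => S.cor a u + o u) ∈ S.fbx := by
  refine mem_box.2 fun u => ?_
  obtain ⟨h1, h2⟩ := mem_box.1 ha u
  obtain ⟨h3, h4⟩ := mem_box.1 ho u
  have h5 : (0 : ℤ) ≤ S.s u := Int.natCast_nonneg _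
  simp only [Pi.zero_apply] at h1 h3
  simp only [cor, hiF]
  constructor
  · nlinarith [mul_nonneg h5 h1]
  · nlinarith [mul_le_mul_of_nonneg_left h2 h5]

theorem Good.cor_mem' (h : S.Good) {a : U → ℤ} (ha : a ∈ S.cbox) : S.cor a ∈ S.fbx := by
  have := h.cor_mem ha (o := 0) (mem_box.2 fun u => ⟨le_rfl, by
    have := h.s_pos u
    simp only [Pi.zero_apply]
    omega⟩)
  simpa using this

theorem Good.a0_mem (h : S.Good) : S.a0 ∈ S.cbox := by
  refine mem_box.2 fun u => ?_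
  have hG := h.G_ge
  have h1 : (0 : ℤ) < (S.G : ℤ) ^ 95 := pow_pos (by omega) _
  simp only [a0, M, Pi.zero_apply]
  push_cast
  omega

theorem y_pt (S : Sys U E) (y : U → ℤ) : S.y (S.pt y) = y := by
  rw [Sys.y, pt, add_sub_cancel_left, Forest.sumD_unD]

theorem pt_y (S : Sys U E) (σ : U → ℤ) : S.pt (S.y σ) = σ := by
  rw [Sys.y, pt, Forest.unD_sumD, add_sub_cancel]

theorem pt_add_dl (S : Sys U E) (y : U → ℤ) (u : U) : S.pt (y + dl u) = S.pt y + S.F.ed u := by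
  rw [pt, pt, Forest.unD_add, Forest.unD_dl, add_assoc]

theorem pt_cor_a0 (S : Sys U E) : S.pt (S.cor S.a0) = S.x0 := by
  have : S.cor S.a0 = 0 := by
    funext u
    simp only [cor, loF, a0, Pi.zero_apply]
    ring
  simp [pt, this, Forest.unD]

theorem Good.level_pt (h : S.Good) (y : U → ℤ) : ∑ u, S.pt y u = ∑ C ∈ S.F.roots, y C := by
  simp only [pt, Pi.add_apply, sum_add_distrib]
  rw [h.x0.2.sum, zero_add, Forest.sum_unD]

/-- `|x0| ≤ 2 ^ G` (`abs_sum_le_of_below`), `abs_unD_le`, `2 G ^ 95 s = 2 G ^ 23 wd ≤ 4 G ^ 23 2 ^ G` -/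
theorem Good.abs_pt_le (h : S.Good) {y : U → ℤ} (hy : ∀ u, |y u| ≤ 2 * (S.G : ℤ) ^ 95 * S.s u)
    (u : U) : |S.pt y u| < 2 ^ (2 * S.G) := by
  have hG := h.G_ge
  have h1 : |S.x0 u| ≤ 2 ^ S.G := by
    simpa using abs_sum_le_of_below h.x0.1 h.x0.2.sum h.bd {u}
  have h2 : ∀ v, |y v| ≤ 4 * (S.G : ℤ) ^ 23 * 2 ^ S.G := by
    intro v
    have h3 : (S.s v : ℤ) * (S.G : ℤ) ^ 72 = S.wd v := by exact_mod_cast h.s_mul v
    have h4 : (S.wd v : ℤ) ≤ 2 ^ (S.G + 1) := by exact_mod_cast h.wd_le v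
    calc |y v| ≤ 2 * (S.G : ℤ) ^ 95 * S.s v := hy v
      _ = 2 * (S.G : ℤ) ^ 23 * S.wd v := by rw [← h3]; ring
      _ ≤ 2 * (S.G : ℤ) ^ 23 * 2 ^ (S.G + 1) := by gcongr
      _ = _ := by ring
  have h5 : |S.F.unD y u| ≤ 4 * (S.G : ℤ) ^ 24 * 2 ^ S.G := by
    have h6 : (Fintype.card U : ℤ) ≤ S.G := by exact_mod_cast h.cardU
    calc |S.F.unD y u| ≤ ∑ v, |y v| := S.F.abs_unD_le y u
      _ ≤ ∑ _v : U, 4 * (S.G : ℤ) ^ 23 * 2 ^ S.G := sum_le_sum fun v _ => h2 v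
      _ = Fintype.card U * (4 * (S.G : ℤ) ^ 23 * 2 ^ S.G) := by simp
      _ ≤ S.G * (4 * (S.G : ℤ) ^ 23 * 2 ^ S.G) := by gcongr
      _ = _ := by ring
  have h7 : (S.G : ℤ) ^ 25 ≤ 2 ^ S.G := by exact_mod_cast h.pow_le (k := 25) (by norm_num)
  have h8 : 1 + 4 * (S.G : ℤ) ^ 24 < 2 ^ S.G := by
    have h9 : (6 : ℤ) ≤ S.G := by omega
    have h10 : (1 : ℤ) ≤ (S.G : ℤ) ^ 24 := one_le_pow₀ (by omega)
    have h11 : 6 * (S.G : ℤ) ^ 24 ≤ S.G * (S.G : ℤ) ^ 24 := by gcongr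
    rw [pow_succ' _ 24] at h7
    linarith
  have h12 : (0 : ℤ) < 2 ^ S.G := by positivity
  calc |S.pt y u| ≤ |S.x0 u| + |S.F.unD y u| := abs_add_le _ _
    _ ≤ (1 + 4 * (S.G : ℤ) ^ 24) * 2 ^ S.G := by linarith
    _ < 2 ^ S.G * 2 ^ S.G := mul_lt_mul_of_pos_right h8 h12
    _ = _ := by rw [two_mul, pow_add]

theorem z_add (S : Sys U E) (σ σ' : U → ℤ) (e : E) : S.z (σ + σ') e = S.z σ e + S.z σ' e := by
  simp [z, sum_add_distrib]

theorem z_sub (S : Sys U E) (σ σ' : U → ℤ) (e : E) : S.z (σ - σ') e = S.z σ e - S.z σ' e := by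
  simp [z, sum_sub_distrib]

/-- `z σ` is `F'.sumD` of the fibre sums -/
theorem z_eq (S : Sys U E) (σ : U → ℤ) :
    S.z σ = S.F'.sumD fun e => ∑ u ∈ univ.filter (fun u => S.pr u = e), σ u := by
  funext e
  rw [Forest.sumD, sum_fiberwise_eq_sum_filter, z, SE]
  simp

theorem z_eq_zero_iff (S : Sys U E) (σ : U → ℤ) : S.z σ = 0 ↔ PZ S.pr σ := by
  rw [z_eq]
  constructor
  · intro h e
    have := congrArg S.F'.unD h
    rw [Forest.unD_sumD] at this
    simpa [Forest.unD] using congrFun this e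
  · intro h
    funext e
    exact sum_eq_zero fun e' _ => h e'

theorem sum_z_roots (S : Sys U E) (σ : U → ℤ) : ∑ e ∈ S.F'.roots, S.z σ e = ∑ u, σ u := by
  rw [z_eq, Forest.sum_roots, sum_fiberwise]

theorem par_z_sum {ι : Type} [Fintype ι] (S : Sys U E) (t : ι → ℤ) (v : ι → U → ℤ) (e : E) :
    S.z (∑ i, t i • v i) e = ∑ i, t i * S.z (v i) e := by
  simp only [z, Finset.sum_apply, Pi.smul_apply, smul_eq_mul, mul_sum]
  exact sum_comm

theorem par_z_dl (S : Sys U E) (u : U) : S.z (dl u) = S.F'.sumD (dl (S.pr u)) := by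
  funext e
  rw [Forest.sumD_dl]
  simp [z, SE, dl_apply]

theorem Good.z_pt (h : S.Good) (y : U → ℤ) (e : E) :
    S.z (S.pt y) e = ∑ u, y u * S.z (S.F.ed u) e := by
  rw [pt, z_add, (S.z_eq_zero_iff _).2 h.x0.2, Forest.unD, par_z_sum]
  simp

theorem abs_z_ed (S : Sys U E) (u : U) (e : E) : |S.z (S.F.ed u) e| ≤ 1 := by
  rw [z, Forest.sum_ed, Forest.df]
  cases S.F.par u with
  | none => simp only [chi, Option.elim]; split_ifs <;> simp
  | some p => simp only [chi, Option.elim]; split_ifs <;> simp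

/-- `cut` -/
theorem Good.z_ed_ne (h : S.Good) {u : U} {e : E} (hne : S.z (S.F.ed u) e ≠ 0) :
    S.F.par u = none ∨ (S.F'.par e ≠ none ∧ S.wd u ≤ S.wd (S.pc e)) := by
  rw [z, Forest.sum_ed, Forest.df] at hne
  cases hp : S.F.par u with
  | none => exact Or.inl rfl
  | some p =>
    refine Or.inr (h.cut u p hp e fun H => hne ?_)
    simp [hp, chi, SE, H]

/-- at a root of `F'` only the root coordinates matter -/
theorem Good.z_root_congr (h : S.Good) {y y' : U → ℤ} (hy : ∀ C, S.F.par C = none → y C = y' C)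
    {e : E} (he : S.F'.par e = none) : S.z (S.pt y) e = S.z (S.pt y') e := by
  rw [h.z_pt, h.z_pt]
  refine sum_congr rfl fun u _ => ?_
  by_cases h0 : S.z (S.F.ed u) e = 0
  · rw [h0, mul_zero, mul_zero]
  · rcases h.z_ed_ne h0 with h1 | h1
    · rw [hy u h1]
    · exact absurd he h1.1

theorem Good.abs_z_root (h : S.Good) {y : U → ℤ} (hy : y ∈ S.fbx) {e : E} (he : S.F'.par e = none) :
    |S.z (S.pt y) e| ≤ (S.G : ℤ) ^ 96 := by
  have h6 : (Fintype.card U : ℤ) ≤ S.G := by exact_mod_cast h.cardU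
  have key : ∀ u, |y u * S.z (S.F.ed u) e| ≤ (S.G : ℤ) ^ 95 := by
    intro u
    by_cases h0 : S.z (S.F.ed u) e = 0
    · rw [h0, mul_zero, abs_zero]
      positivity
    · rcases h.z_ed_ne h0 with h1 | h1
      · have h2 := mem_fbx.1 hy u
        rw [h.s_root h1, Nat.cast_one, mul_one] at h2
        rw [abs_mul]
        exact (mul_le_of_le_one_right (abs_nonneg _) (S.abs_z_ed u e)).trans
          (abs_le.2 ⟨h2.1, h2.2.le⟩)
      · exact absurd he h1.1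
  rw [h.z_pt]
  calc _ ≤ ∑ u, |y u * S.z (S.F.ed u) e| := abs_sum_le_sum_abs _ _
    _ ≤ ∑ _u : U, (S.G : ℤ) ^ 95 := sum_le_sum fun u _ => key u
    _ = Fintype.card U * (S.G : ℤ) ^ 95 := by simp
    _ ≤ S.G * (S.G : ℤ) ^ 95 := by gcongr
    _ = _ := by ring

/-- `pc_spec`, `z_eq`, `sumD_ed` -/
theorem Good.z_pe (h : S.Good) {e : E} (he : S.F'.par e ≠ none) : S.z (S.pe e) = dl e := by
  obtain ⟨e', he'⟩ := Option.ne_none_iff_exists'.1 he
  obtain ⟨p, hp, H⟩ := h.pc_spec e e' he'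
  rw [← S.F'.sumD_ed e, S.F'.ed_par he', pe, if_neg he, S.F.ed_par hp]
  funext r
  rw [Forest.sumD_sub]
  rcases H with ⟨h1, h2⟩ | ⟨h1, h2⟩
  · rw [if_pos h1, one_smul, z_sub, par_z_dl, par_z_dl, h1, h2]
  · rw [if_neg (h1 ▸ S.F'.par_ne he'), neg_smul, one_smul, neg_sub, z_sub, par_z_dl, par_z_dl,
      h1, h2]

theorem Good.z_out (h : S.Good) (σ : U → ℤ) (e : E) :
    S.z (S.out σ) e = if S.F'.par e = none then S.z σ e else 0 := by
  rw [out, z_sub, par_z_sum, sum_eq_single e]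
  · split_ifs with he
    · simp [pe, he, z]
    · rw [h.z_pe he]
      simp
  · intro e' _ hne
    by_cases he : S.F'.par e' = none
    · simp [pe, he, z]
    · rw [h.z_pe he, dl_ne hne.symm, mul_zero]
  · simp

theorem Good.inK_out (h : S.Good) (hσ : S.okO σ) : InK S.f S.pr (S.out σ) := by
  refine ⟨hσ.2, (S.z_eq_zero_iff _).1 (funext fun e => ?_)⟩
  rw [h.z_out]
  split_ifs with he
  · simpa [gz, he] using hσ.1 e
  · rfl

/-- `sumD (pe e)` is `± dl (pc e)` or `0` -/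
theorem Good.abs_sumD_pe (h : S.Good) (t : E → ℤ) (u : U) :
    |S.F.sumD (∑ e, t e • S.pe e) u| ≤
      ∑ e ∈ univ.filter (fun e => S.F'.par e ≠ none ∧ S.pc e = u), |t e| := by
  have e1 : S.F.sumD (∑ e, t e • S.pe e) u = ∑ e, t e * S.F.sumD (S.pe e) u := by
    simp only [Forest.sumD, Finset.sum_apply, Pi.smul_apply, smul_eq_mul, mul_sum]
    exact sum_comm
  rw [e1, sum_filter]
  refine (abs_sum_le_sum_abs _ _).trans (sum_le_sum fun e _ => ?_)
  by_cases he : S.F'.par e = none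
  · simp [pe, he, Forest.sumD]
  · rw [pe, if_neg he, Forest.sumD_smul, Forest.sumD_ed, dl_apply]
    by_cases hu : S.pc e = u
    · rw [if_pos hu.symm, if_pos (And.intro he hu)]
      split_ifs <;> simp
    · rw [if_neg (Ne.symm hu)]
      simp [hu]

end Sys

end Crest.Agent.R302
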