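import Crest.Agent.R302.Dat
import Crest.Agent.R302.Par
import Crest.Agent.R302.NuAlg

/-!
# R302/EnAlg: computing coordinates, the statistic and the energy

List programs (with `m = D.pl.length`, sums over `List.range m`): `pt` by `unD_apply`, `y` and `z` by sums over the elements whose ancestor lists contain the index, and so on.
For the energy we call `exists_nu` with `K = 2 G`; `Ent` is a minimum over a list.
-/

set_option autoImplicit false

namespace Crest.Agent.R302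

open Finset Crest.Agent.Lib.PT Crest.Agent.R309

/-! ### the programs -/

/-- block lengths -/
def eaS (D : Dat) (u : ℕ) : ℕ := D.wd.getD u 0 / D.G ^ 72

/-- `cor a + o` at an index -/
def eaCor (D : Dat) (a o : List ℤ) (u : ℕ) : ℤ :=
  - ((D.G : ℤ) ^ 95 * (eaS D u : ℕ)) + (eaS D u : ℕ) * a.getD u 0 + o.getD u 0

/-- the point `fine a o` -/
def eaFine (D : Dat) (a o : List ℤ) : List ℤ :=
  (List.range D.pl.length).map fun v => D.x0.getD v 0 + (eaCor D a o v -
    ((List.range D.pl.length).map fun u =>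
      if D.par.getD u none = some v then eaCor D a o u else 0).sum)

/-- one coordinate `z` -/
def eaZ (D : Dat) (σ : List ℤ) (e : ℕ) : ℤ :=
  ((List.range D.pl.length).map fun u =>
    if e ∈ D.an'.getD (D.pl.getD u 0) [] then σ.getD u 0 else 0).sum

/-- one coordinate `y` -/
def eaY (D : Dat) (σ : List ℤ) (r : ℕ) : ℤ :=
  ((List.range D.pl.length).map fun v =>
    if r ∈ D.an.getD v [] then σ.getD v 0 - D.x0.getD v 0 else 0).sum

/-- the level -/
def eaLev (D : Dat) (σ : List ℤ) : ℤ := ((List.range D.pl.length).map fun u => σ.getD u 0).sum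

/-- `cu` -/
def eaCu (D : Dat) (u : ℕ) : ℕ := 2 ^ (D.G + 1) / D.wd.getD u 0

/-- `lam` -/
def eaLam (D : Dat) : List ℕ :=
  (List.range D.pl.length).map fun u =>
    if D.par.getD u none = none then D.G ^ 14 * 2 ^ (D.G + 1) else D.G ^ 18 * eaCu D u

/-- `num2 σ 0` -/
def eaNum (D : Dat) (σ : List ℤ) : ℤ :=
  ((List.range D.pl.length).map fun u => ((eaCu D u : ℕ) * eaY D σ u) ^ 2).sum +
    ((List.range D.pl.length).map fun e => if D.par'.getD e none = none then
      (D.G : ℤ) ^ 31 * ((2 ^ (D.G + 1) : ℕ) : ℤ) ^ 2 *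
        (8 * (Nat.log 2 D.G : ℕ) * |eaZ D σ e| + eaZ D σ e ^ 2)
      else (D.G : ℤ) ^ 75 * ((eaCu D (D.pc.getD e 0) : ℕ) * eaZ D σ e) ^ 2).sum

/-- the field term -/
def eaFld (D : Dat) (φ σ : List ℤ) : ℤ :=
  ((List.range D.pl.length).map fun e =>
    if D.par'.getD e none = none then φ.getD e 0 * eaZ D σ e else 0).sum

/-- the energy, given the value `n` of `nu` -/
def eaEn (D : Dat) (φ σ : List ℤ) (n : ℤ) : ℤ :=
  ((D.G ^ 200 : ℕ) : ℤ) * (2 * (D.G : ℤ) ^ 31 * ((2 ^ (D.G + 1) : ℕ) : ℤ) * n + eaNum D σ) /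
    ((2 * D.G ^ 31 * (2 ^ (D.G + 1)) ^ 2 : ℕ) : ℤ) + eaFld D φ σ

/-- `σ + dl C` -/
def eaBump (D : Dat) (σ : List ℤ) (C : ℕ) : List ℤ :=
  (List.range D.pl.length).map fun u => σ.getD u 0 + if u = C then 1 else 0

/-- the roots of `F` -/
def eaRoots (D : Dat) : List ℕ :=
  (List.range D.pl.length).filter fun u => decide (D.par.getD u none = none)

/-! ### polynomial time -/

section pt

variable {α : Type} [Enc α] {D : α → Dat} {a o σ φ : α → List ℤ} {u : α → ℕ}

@[fun_prop] theorem eaS_pt (hD : PT D) (hu : PT u) : PT fun c => eaS (D c) (u c) := by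
  unfold eaS
  fun_prop

@[fun_prop] theorem eaCor_pt (hD : PT D) (ha : PT a) (ho : PT o) (hu : PT u) :
    PT fun c => eaCor (D c) (a c) (o c) (u c) := by
  unfold eaCor
  fun_prop

@[fun_prop] theorem eaFine_pt (hD : PT D) (ha : PT a) (ho : PT o) :
    PT fun c => eaFine (D c) (a c) (o c) := by
  unfold eaFine
  fun_prop

@[fun_prop] theorem eaZ_pt (hD : PT D) (hσ : PT σ) (hu : PT u) :
    PT fun c => eaZ (D c) (σ c) (u c) := by
  unfold eaZ
  fun_prop

@[fun_prop] theorem eaY_pt (hD : PT D) (hσ : PT σ) (hu : PT u) :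
    PT fun c => eaY (D c) (σ c) (u c) := by
  unfold eaY
  fun_prop

@[fun_prop] theorem eaLev_pt (hD : PT D) (hσ : PT σ) : PT fun c => eaLev (D c) (σ c) := by
  unfold eaLev
  fun_prop

@[fun_prop] theorem eaCu_pt (hD : PT D) (hu : PT u) : PT fun c => eaCu (D c) (u c) := by
  unfold eaCu
  fun_prop

@[fun_prop] theorem eaLam_pt (hD : PT D) : PT fun c => eaLam (D c) := by
  unfold eaLam
  fun_prop

@[fun_prop] theorem eaNum_pt (hD : PT D) (hσ : PT σ) : PT fun c => eaNum (D c) (σ c) := by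
  unfold eaNum
  fun_prop

@[fun_prop] theorem eaFld_pt (hD : PT D) (hφ : PT φ) (hσ : PT σ) :
    PT fun c => eaFld (D c) (φ c) (σ c) := by
  unfold eaFld
  fun_prop

@[fun_prop] theorem eaEn_pt {n : α → ℤ} (hD : PT D) (hφ : PT φ) (hσ : PT σ) (hn : PT n) :
    PT fun c => eaEn (D c) (φ c) (σ c) (n c) := by
  unfold eaEn
  fun_prop

@[fun_prop] theorem eaBump_pt (hD : PT D) (hσ : PT σ) (hu : PT u) :
    PT fun c => eaBump (D c) (σ c) (u c) := by
  unfold eaBump
  fun_prop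

@[fun_prop] theorem eaRoots_pt (hD : PT D) : PT fun c => eaRoots (D c) := by
  unfold eaRoots
  fun_prop

theorem ea_foldl_min_pt {l : α → List ℤ} {b : α → ℤ} (hl : PT l) (hb : PT b) :
    PT fun c => (l c).foldl min (b c) :=
  PT.foldl_select (f := fun _ x y => min x y) hl hb (by fun_prop) fun _ x y => min_choice x y

end pt

/-! ### correctness -/

section spec

variable {m : ℕ} {S : Sys (Fin m) (Fin m)} {D : Dat}

theorem FRep.par_none {F : Forest (Fin m)} {par : List (Option ℕ)} {an : List (List ℕ)}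
    (h : FRep F par an) (v : Fin m) : par.getD v.val none = none ↔ F.par v = none := by
  rw [h.par, Option.map_eq_none_iff]

theorem FRep.par_some {F : Forest (Fin m)} {par : List (Option ℕ)} {an : List (List ℕ)}
    (h : FRep F par an) (v w : Fin m) : par.getD v.val none = some w.val ↔ F.par v = some w := by
  rw [h.par]
  cases F.par v with
  | none => simp
  | some p => simp [Fin.val_inj]

theorem Rep.eaS (R : Rep D S) (u : Fin m) : eaS D u.val = S.s u := by
  rw [R302.eaS, R.wd, R.G, Sys.s]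

theorem Rep.eaCor (R : Rep D S) (a o : List ℤ) (u : Fin m) :
    eaCor D a o u.val = S.cor (vec m a) u + vec m o u := by
  rw [R302.eaCor, R.eaS, R.G]
  rfl

theorem Rep.eaFine (R : Rep D S) (a o : List ℤ) :
    vec m (eaFine D a o) = S.fine (vec m a) (vec m o) := by
  funext v
  rw [R302.eaFine, R.pl.1, vec_map_range, tl_sum_range, Sys.fine, Sys.pt, Pi.add_apply,
    Forest.unD_apply, sum_filter, R.eaCor, ← R.x0]
  congr 2
  refine sum_congr rfl fun u _ => ?_
  rw [R.eaCor]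
  exact if_congr (R.F.par_some u v) rfl rfl

theorem Rep.eaFine_nil (R : Rep D S) (a : List ℤ) :
    vec m (R302.eaFine D a []) = S.pt (S.cor (vec m a)) := by
  rw [R.eaFine, Sys.fine]
  congr 1
  funext u
  simp [vec]

theorem Rep.eaZ (R : Rep D S) (σ : List ℤ) (e : Fin m) : eaZ D σ e.val = S.z (vec m σ) e := by
  rw [R302.eaZ, R.pl.1, tl_sum_range, Sys.z, Sys.SE, sum_filter]
  refine sum_congr rfl fun u _ => ?_
  rw [R.pl.2]
  exact if_congr (R.F'.an _ _).symm rfl rfl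

theorem Rep.eaY (R : Rep D S) (σ : List ℤ) (r : Fin m) : eaY D σ r.val = S.y (vec m σ) r := by
  rw [R302.eaY, R.pl.1, tl_sum_range, Sys.y, Forest.sumD, Forest.D, sum_filter, ← R.x0]
  refine sum_congr rfl fun u _ => ?_
  exact if_congr (R.F.an _ _).symm rfl rfl

theorem Rep.eaLev (R : Rep D S) (σ : List ℤ) : eaLev D σ = ∑ u, vec m σ u := by
  rw [R302.eaLev, R.pl.1, tl_sum_range]
  rfl

theorem Rep.eaCu (R : Rep D S) (u : Fin m) : eaCu D u.val = S.cu u := by
  rw [R302.eaCu, R.wd, R.G, Sys.cu, Sys.Dn]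

theorem Rep.eaLam (R : Rep D S) (u : Fin m) : (eaLam D).getD u.val 0 = S.lam u := by
  rw [R302.eaLam, R.pl.1, getD_map_range _ _ u.2, R.eaCu, R.G, Sys.lam, Sys.Dn]
  exact if_congr (R.F.par_none u) rfl rfl

theorem Rep.eaNum (R : Rep D S) (σ : List ℤ) : eaNum D σ = S.num2 (vec m σ) 0 := by
  rw [R302.eaNum, R.pl.1, tl_sum_range, tl_sum_range, Sys.num2]
  congr 1
  · refine sum_congr rfl fun u _ => ?_
    rw [R.eaCu, R.eaY]
  · refine sum_congr rfl fun e _ => ?_
    rw [R.eaZ, R.G]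
    by_cases he : S.F'.par e = none
    · rw [if_pos ((R.F'.par_none e).2 he), if_pos he, Pi.zero_apply, sub_zero]
      rfl
    · rw [if_neg (mt (R.F'.par_none e).1 he), if_neg he, R.pc e he, R.eaCu, Sys.zt]

theorem Rep.eaFld (R : Rep D S) (φ σ : List ℤ) : eaFld D φ σ = S.fld (vec m φ) (vec m σ) := by
  rw [R302.eaFld, R.pl.1, tl_sum_range, Sys.fld, Forest.roots, sum_filter]
  refine sum_congr rfl fun e _ => ?_
  rw [R.eaZ]
  exact if_congr (R.F'.par_none e) rfl rfl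

theorem Rep.eaEn (R : Rep D S) (φ σ : List ℤ) :
    eaEn D φ σ (S.nu (vec m σ)) = S.En (vec m φ) (vec m σ) := by
  rw [R302.eaEn, R.eaNum, R.eaFld, R.G]
  rfl

theorem Rep.eaBump (R : Rep D S) (σ : List ℤ) (C : Fin m) :
    vec m (eaBump D σ C.val) = vec m σ + dl C := by
  funext u
  rw [R302.eaBump, R.pl.1, vec_map_range, Pi.add_apply, dl_apply]
  congr 1
  exact if_congr Fin.val_inj rfl rfl

theorem Rep.mem_eaRoots (R : Rep D S) (i : ℕ) :
    i ∈ eaRoots D ↔ ∃ C ∈ S.F.roots, C.val = i := by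
  rw [eaRoots, R.pl.1, List.mem_filter, List.mem_range, decide_eq_true_iff]
  constructor
  · rintro ⟨h1, h2⟩
    exact ⟨⟨i, h1⟩, S.F.mem_roots.2 ((R.F.par_none ⟨i, h1⟩).1 h2), rfl⟩
  · rintro ⟨C, hC, rfl⟩
    exact ⟨C.2, (R.F.par_none C).2 (S.F.mem_roots.1 hC)⟩

theorem ea_le_foldl_min (l : List ℤ) (b c : ℤ) : c ≤ l.foldl min b ↔ c ≤ b ∧ ∀ x ∈ l, c ≤ x := by
  induction l generalizing b with
  | nil => simp
  | cons y l ih => simp [ih, and_assoc]

theorem Sys.Good.ea_lam_le (h : S.Good) (u : Fin m) : S.lam u ≤ 2 ^ (2 * S.G) := by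
  have hG := h.G_ge
  have h1 : S.lam u ≤ S.G ^ 18 * S.Dn := by
    unfold Sys.lam
    split_ifs
    · exact Nat.mul_le_mul_right _ (Nat.pow_le_pow_right (by omega) (by norm_num))
    · exact Nat.mul_le_mul_left _ (Nat.div_le_self _ _)
  have h2 : S.G ^ 18 * 2 ≤ 2 ^ S.G := by
    refine le_trans ?_ (h.pow_le (k := 19) (by norm_num))
    rw [pow_succ _ 18]
    exact Nat.mul_le_mul_left _ (by omega)
  calc S.lam u ≤ S.G ^ 18 * S.Dn := h1
    _ = S.G ^ 18 * 2 * 2 ^ S.G := by rw [Sys.Dn]; ring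
    _ ≤ 2 ^ S.G * 2 ^ S.G := Nat.mul_le_mul_right _ h2
    _ = _ := by rw [two_mul, pow_add]

end spec

/-- the point `fine a o` -/
theorem exists_fine : ∃ alg : Dat × List ℤ × List ℤ → List ℤ, PT alg ∧
    ∀ (m : ℕ) (S : Sys (Fin m) (Fin m)) (D : Dat) (a o : List ℤ), Rep D S →
      vec m (alg (D, a, o)) = S.fine (vec m a) (vec m o) :=
  ⟨fun p => eaFine p.1 p.2.1 p.2.2, by fun_prop, fun _ _ _ a o R => R.eaFine a o⟩

/-- the coordinates `z` -/
theorem exists_z : ∃ alg : Dat × List ℤ → List ℤ, PT alg ∧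
    ∀ (m : ℕ) (S : Sys (Fin m) (Fin m)) (D : Dat) (σ : List ℤ), Rep D S →
      vec m (alg (D, σ)) = S.z (vec m σ) := by
  refine ⟨fun p => (List.range p.1.pl.length).map fun e => eaZ p.1 p.2 e, by fun_prop,
    fun m S D σ R => ?_⟩
  funext e
  change vec m ((List.range D.pl.length).map fun e => eaZ D σ e) e = _
  rw [R.pl.1, vec_map_range, R.eaZ]

theorem exists_stat : ∃ alg : Dat × List ℤ → List ℤ, PT alg ∧
    ∀ (m : ℕ) (S : Sys (Fin m) (Fin m)) (D : Dat) (a : List ℤ), Rep D S →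
      vec m (alg (D, a)) = S.stat (vec m a) := by
  refine ⟨fun p => (List.range p.1.pl.length).map fun e =>
    if p.1.par'.getD e none = none ∧ eaLev p.1 (eaFine p.1 p.2 []) = 0 then
      eaZ p.1 (eaFine p.1 p.2 []) e else 0, by fun_prop, fun m S D a R => ?_⟩
  funext e
  change vec m ((List.range D.pl.length).map fun e =>
    if D.par'.getD e none = none ∧ eaLev D (eaFine D a []) = 0 then
      eaZ D (eaFine D a []) e else 0) e = _
  rw [R.pl.1, vec_map_range, R.eaZ, R.eaLev, R.eaFine_nil, Sys.stat]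
  exact if_congr (and_congr_left' (R.F'.par_none e)) rfl rfl

/-- the energy of a configuration; inputs `(D, φ, σ)` -/
theorem exists_En : ∃ alg : (List Bool → ℤ) → Dat × List ℤ × List ℤ → ℤ, HOPT alg ∧
    ∀ (m : ℕ) (S : Sys (Fin m) (Fin m)) (D : Dat) (h : List Bool → ℤ) (φ σ : List ℤ), S.Good →
      Rep D S → Calls h S.f → (∀ u, |vec m σ u| ≤ 2 ^ (2 * S.G)) →
      alg h (D, φ, σ) = S.En (vec m φ) (vec m σ) := by
  obtain ⟨nu, H, hnu⟩ := exists_nu
  refine ⟨fun h p => eaEn p.1 p.2.1 p.2.2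
    (nu h (⟨p.1.pl.length⟩, ⟨2 * p.1.G⟩, p.1.par, eaLam p.1, p.2.2)), fun α _ h hh => ?_,
    fun m S D h φ σ hS R hc hσ => ?_⟩
  · refine OPT.cont (g := fun (c : α × Dat × List ℤ × List ℤ) n => eaEn c.2.1 c.2.2.1 c.2.2.2 n)
      ?_ (by fun_prop)
    exact H.app (h := fun O (c : α × Dat × List ℤ × List ℤ) l => h O c.1 l)
      (OPT.call hh (by fun_prop) (by fun_prop)) (OPT.pure (by fun_prop))
  · change eaEn D φ σ (nu h (⟨D.pl.length⟩, ⟨2 * D.G⟩, D.par, eaLam D, σ)) = _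
    have h1 : S.G ≤ 2 * S.G := by omega
    rw [R.pl.1, R.G, hnu m (2 * S.G) S.f h S.F D.par (eaLam D) σ hc hS.nice R.F.par
      ((Fintype.card_fin m ▸ hS.cardU).trans
        (Nat.lt_two_pow_self.le.trans (Nat.pow_le_pow_right (by norm_num) h1)))
      (fun A => (hS.bd A).trans (pow_le_pow_right₀ one_le_two h1))
      (fun u => by rw [R.eaLam]; exact hS.ea_lam_le u) hσ, ← R.eaEn, Sys.nu]
    congr 2
    funext u
    exact R.eaLam u

/-- the energy of a block; inputs `(D, φ, a)` -/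
theorem exists_enC : ∃ alg : (List Bool → ℤ) → Dat × List ℤ × List ℤ → ℤ, HOPT alg ∧
    ∀ (m : ℕ) (S : Sys (Fin m) (Fin m)) (D : Dat) (h : List Bool → ℤ) (φ a : List ℤ), S.Good →
      Rep D S → Calls h S.f → vec m a ∈ S.cbox →
      alg h (D, φ, a) = S.enC (vec m φ) (vec m a) := by
  obtain ⟨en, H, hen⟩ := exists_En
  refine ⟨fun h p => ((eaRoots p.1).map fun C =>
      en h (p.1, p.2.1, eaBump p.1 (eaFine p.1 p.2.2 []) C)).foldl min
      (min ((p.1.G : ℤ) ^ 3 * ((p.1.G ^ 200 : ℕ) : ℤ)) (en h (p.1, p.2.1, eaFine p.1 p.2.2 []))),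
    fun α _ h hh => ?_, fun m S D h φ a hS R hc ha => ?_⟩
  · refine OPT.cont₂ (g := fun (c : α × Dat × List ℤ × List ℤ) (l : List ℤ) (n : ℤ) =>
      l.foldl min (min ((c.2.1.G : ℤ) ^ 3 * ((c.2.1.G ^ 200 : ℕ) : ℤ)) n)) ?_ ?_
      (ea_foldl_min_pt (by fun_prop) (by fun_prop))
    · refine OPT.map (l := fun _ (c : α × Dat × List ℤ × List ℤ) => eaRoots c.2.1)
        (f := fun O c C => en (h O c.1) (c.2.1, c.2.2.1, eaBump c.2.1 (eaFine c.2.1 c.2.2.2 []) C))
        (OPT.pure (by fun_prop)) ?_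
      exact H.app (h := fun O (c : (α × Dat × List ℤ × List ℤ) × ℕ) l => h O c.1.1 l)
        (OPT.call hh (by fun_prop) (by fun_prop)) (OPT.pure (by fun_prop))
    · exact H.app (h := fun O (c : α × Dat × List ℤ × List ℤ) l => h O c.1 l)
        (OPT.call hh (by fun_prop) (by fun_prop)) (OPT.pure (by fun_prop))
  · change ((eaRoots D).map fun C => en h (D, φ, eaBump D (eaFine D a []) C)).foldl min
      (min ((D.G : ℤ) ^ 3 * ((D.G ^ 200 : ℕ) : ℤ)) (en h (D, φ, eaFine D a []))) = _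
    have hb : ∀ u, |S.pt (S.cor (vec m a)) u| < 2 ^ (2 * S.G) := by
      refine hS.abs_pt_le fun u => ?_
      have h1 := Sys.mem_fbx.1 (hS.cor_mem' ha) u
      have h2 : (0 : ℤ) ≤ (S.G : ℤ) ^ 95 * S.s u := by positivity
      rw [abs_le, mul_assoc]
      omega
    have e0 : en h (D, φ, eaFine D a []) = S.En (vec m φ) (S.pt (S.cor (vec m a))) := by
      rw [hen m S D h φ _ hS R hc fun u => by rw [R.eaFine_nil]; exact (hb u).le, R.eaFine_nil]
    have e1 : ∀ C : Fin m, en h (D, φ, eaBump D (eaFine D a []) C.val) =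
        S.En (vec m φ) (S.pt (S.cor (vec m a)) + dl C) := fun C => by
      rw [hen m S D h φ _ hS R hc fun u => ?_, R.eaBump, R.eaFine_nil]
      rw [R.eaBump, R.eaFine_nil, Pi.add_apply, dl_apply]
      have h1 := abs_lt.1 (hb u)
      rw [abs_le]
      split_ifs <;> omega
    refine eq_of_forall_le_iff fun c => ?_
    rw [ea_le_foldl_min, Sys.enC, Sys.Ent, le_fold_min, e0, R.G]
    refine and_congr Iff.rfl ⟨fun H1 C hC => ?_, fun H1 x hx => ?_⟩
    · rw [← e1]
      exact H1 _ (List.mem_map.2 ⟨C.val, (R.mem_eaRoots _).2 ⟨C, hC, rfl⟩, rfl⟩)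
    · obtain ⟨i, hi, rfl⟩ := List.mem_map.1 hx
      obtain ⟨C, hC, rfl⟩ := (R.mem_eaRoots i).1 hi
      rw [e1]
      exact H1 C hC

end Crest.Agent.R302
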