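import Crest.Agent.R302.Par

/-!
# R302/Ene: bounds on the energy (TASK)
-/

set_option autoImplicit false
set_option linter.unusedSectionVars false

namespace Crest.Agent.R302

open Finset Crest.Agent.R309

namespace Sys

variable {U E : Type} [Fintype U] [DecidableEq U] [Fintype E] [DecidableEq E] {S : Sys U E}
  {φ : E → ℤ} {σ : U → ℤ}

/-- the three nonnegative parts that do not involve the roots of `F'` -/
noncomputable def Amain (S : Sys U E) (σ : U → ℤ) : ℝ :=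
  (S.nu σ : ℝ) / S.Dn + ∑ u, (S.y σ u : ℝ) ^ 2 / (2 * (S.G : ℝ) ^ 31 * (S.wd u : ℝ) ^ 2) +
    ∑ e, if S.F'.par e = none then 0 else
      (S.G : ℝ) ^ 44 * (S.z σ e : ℝ) ^ 2 / (2 * (S.wd (S.pc e) : ℝ) ^ 2)

theorem Good.ene_Dn (_h : S.Good) : (0 : ℝ) < S.Dn := by
  unfold Dn
  positivity

theorem Good.ene_wd (h : S.Good) (u : U) : (0 : ℝ) < S.wd u := by
  obtain ⟨j, hj⟩ := h.wd_pow u
  rw [hj]
  positivity

theorem Good.ene_cu (h : S.Good) (u : U) : (S.cu u : ℝ) = S.Dn / S.wd u := by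
  rw [eq_div_iff (h.ene_wd u).ne']
  exact_mod_cast h.cu_mul u

theorem Good.ene_ell (h : S.Good) : S.ell ≤ 1 / 2 := by
  have hG := h.G_geR
  have h1 : (S.G : ℝ) ≤ S.L := by
    rw [L, Nat.cast_pow]
    exact le_self_pow₀ (by linarith) (by norm_num)
  have h2 := mul_le_mul_of_nonneg_left h1 h.ell_pos.le
  have h3 := mul_le_mul_of_nonneg_left hG h.ell_pos.le
  linarith [h.kap.2]

theorem Good.ene_p1 (h : S.Good) (σ : U → ℤ) : 0 ≤ (S.nu σ : ℝ) / S.Dn :=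
  div_nonneg (by exact_mod_cast S.F.nu_nonneg S.lam h.nice σ) (Nat.cast_nonneg _)

theorem ene_p2 (S : Sys U E) (σ : U → ℤ) :
    0 ≤ ∑ u, (S.y σ u : ℝ) ^ 2 / (2 * (S.G : ℝ) ^ 31 * (S.wd u : ℝ) ^ 2) :=
  sum_nonneg fun _ _ => by positivity

theorem ene_p3 (S : Sys U E) (σ : U → ℤ) (e : E) : 0 ≤ if S.F'.par e = none then 0 else
    (S.G : ℝ) ^ 44 * (S.z σ e : ℝ) ^ 2 / (2 * (S.wd (S.pc e) : ℝ) ^ 2) := by
  split_ifs <;> positivity

theorem Good.ene_big (h : S.Good) {y : U → ℤ} (hy : ∀ u, |y u| ≤ 2 * (S.G : ℤ) ^ 95 * S.s u) :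
    S.pt y ∈ S.big :=
  mem_box.2 fun u => abs_le.1 (h.abs_pt_le hy u).le

/-- `cu_mul` -/
theorem Good.Er_eq (h : S.Good) (φ : E → ℤ) (σ : U → ℤ) :
    S.Er φ σ = S.ell * S.L * S.Amain σ + ∑ e ∈ S.F'.roots,
      (S.ell * S.L * (4 * S.g * |(S.z σ e : ℝ)| + (S.z σ e : ℝ) ^ 2 / 2) +
        S.ell * (φ e * S.z σ e)) := by
  have hG : (0 : ℝ) < S.G := lt_of_lt_of_le (by norm_num) h.G_geR
  have hD := h.ene_Dn
  have hden : (S.den : ℝ) = 2 * (S.G : ℝ) ^ 31 * (S.Dn : ℝ) ^ 2 := by simp [den]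
  have h1 : ∀ u, ((S.cu u : ℝ) * S.y σ u) ^ 2 / S.den =
      (S.y σ u : ℝ) ^ 2 / (2 * (S.G : ℝ) ^ 31 * (S.wd u : ℝ) ^ 2) := fun u => by
    have := h.ene_wd u
    rw [hden, h.ene_cu]
    field_simp
  have h2 : ∀ e, ((if S.F'.par e = none then (S.G : ℤ) ^ 31 * (S.Dn : ℤ) ^ 2 *
      (8 * S.g * |S.z σ e - (0 : E → ℤ) e| + S.z σ e ^ 2) else S.zt e (S.z σ e) : ℤ) : ℝ) / S.den =
      (if S.F'.par e = none then 0 else
        (S.G : ℝ) ^ 44 * (S.z σ e : ℝ) ^ 2 / (2 * (S.wd (S.pc e) : ℝ) ^ 2)) +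
      if S.F'.par e = none then 4 * S.g * |(S.z σ e : ℝ)| + (S.z σ e : ℝ) ^ 2 / 2 else 0 := fun e => by
    have := h.ene_wd (S.pc e)
    split_ifs
    · rw [hden]
      push_cast
      simp only [Pi.zero_apply, Int.cast_zero, sub_zero]
      field_simp
      ring
    · rw [hden, zt]
      push_cast
      rw [h.ene_cu]
      field_simp
      ring
  have h3 : (S.num σ : ℝ) / S.den = S.Amain σ +
      ∑ e ∈ S.F'.roots, (4 * S.g * |(S.z σ e : ℝ)| + (S.z σ e : ℝ) ^ 2 / 2) := by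
    rw [num, num2, Int.cast_add, Int.cast_add, add_div, add_div, Int.cast_sum, Int.cast_sum, sum_div,
      sum_div, sum_congr rfl fun e _ => h2 e, sum_add_distrib, Amain, Forest.roots, sum_filter]
    push_cast
    rw [sum_congr rfl fun u _ => h1 u]
    have h4 : 2 * (S.G : ℝ) ^ 31 * S.Dn * S.nu σ / S.den = S.nu σ / S.Dn := by
      rw [hden]
      field_simp
    rw [h4]
    ring
  rw [sum_add_distrib, ← mul_sum, ← mul_sum, Er, mul_div_assoc, h3, fld]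
  push_cast
  ring

theorem Good.nu_nonneg (h : S.Good) (σ : U → ℤ) : 0 ≤ S.nu σ := by
  exact S.F.nu_nonneg S.lam h.nice σ

theorem Good.Amain_nonneg (h : S.Good) (σ : U → ℤ) : 0 ≤ S.Amain σ := by
  exact add_nonneg (add_nonneg (h.ene_p1 σ) (S.ene_p2 σ)) (sum_nonneg fun e _ => S.ene_p3 σ e)

theorem Good.nu_le_Amain (h : S.Good) (σ : U → ℤ) : (S.nu σ : ℝ) / S.Dn ≤ S.Amain σ := by
  have h2 := S.ene_p2 σ
  have h3 := sum_nonneg fun e (_ : e ∈ univ) => S.ene_p3 σ e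
  unfold Amain
  linarith

theorem Good.y_le_Amain (h : S.Good) (σ : U → ℤ) :
    ∑ u, (S.y σ u : ℝ) ^ 2 / (2 * (S.G : ℝ) ^ 31 * (S.wd u : ℝ) ^ 2) ≤ S.Amain σ := by
  have h1 := h.ene_p1 σ
  have h3 := sum_nonneg fun e (_ : e ∈ univ) => S.ene_p3 σ e
  unfold Amain
  linarith

theorem Good.z_le_Amain (h : S.Good) (σ : U → ℤ) {e : E} (he : S.F'.par e ≠ none) :
    (S.G : ℝ) ^ 44 * (S.z σ e : ℝ) ^ 2 / (2 * (S.wd (S.pc e) : ℝ) ^ 2) ≤ S.Amain σ := by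
  have h1 := h.ene_p1 σ
  have h2 := S.ene_p2 σ
  have h3 := single_le_sum (fun e (_ : e ∈ univ) => S.ene_p3 σ e) (mem_univ e)
  rw [if_neg he] at h3
  unfold Amain
  linarith

/-- rounding down costs at most one unit -/
theorem Good.En_Er (h : S.Good) (φ : E → ℤ) (σ : U → ℤ) :
    S.ell * S.En φ σ ≤ S.Er φ σ ∧ S.Er φ σ ≤ S.ell * S.En φ σ + S.ell := by
  have hd : (0 : ℤ) < S.den := by exact_mod_cast h.den_pos
  have hdR : (0 : ℝ) < S.den := by exact_mod_cast h.den_pos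
  have h1 : (((S.L * S.num σ / S.den : ℤ) : ℝ)) ≤ (S.L : ℝ) * S.num σ / S.den := by
    rw [le_div_iff₀ hdR]
    exact_mod_cast Int.ediv_mul_le _ hd.ne'
  have h2 : (S.L : ℝ) * S.num σ / S.den ≤ ((S.L * S.num σ / S.den : ℤ) : ℝ) + 1 := by
    rw [div_le_iff₀ hdR]
    exact_mod_cast (Int.lt_ediv_add_one_mul_self _ hd).le
  have he := h.ell_pos
  rw [En, Er, Int.cast_add]
  constructor <;> nlinarith

theorem Good.exp_le_q (h : S.Good) (φ : E → ℤ) (σ : U → ℤ) :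
    Real.exp (- S.Er φ σ) ≤ S.q ^ S.En φ σ ∧ S.q ^ S.En φ σ ≤ 2 * Real.exp (- S.Er φ σ) := by
  obtain ⟨h1, h2⟩ := h.En_Er φ σ
  rw [h.q_zpow]
  refine ⟨Real.exp_le_exp.2 (by linarith), ?_⟩
  have h3 := h.ene_ell
  have h4 := Real.log_two_gt_d9
  calc Real.exp (- (S.ell * S.En φ σ)) ≤ Real.exp (Real.log 2 + - S.Er φ σ) :=
        Real.exp_le_exp.2 (by linarith)
    _ = _ := by rw [Real.exp_add, Real.exp_log two_pos]

/-- at each root `κ (z² / 2 - G ^ 6 |z|) ≥ - G ^ 12` -/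
theorem Good.Er_ge (h : S.Good) (hφ : S.Adm φ) (σ : U → ℤ) :
    S.Amain σ - (S.G : ℝ) ^ 13 ≤ S.Er φ σ := by
  have hG := h.G_geR
  obtain ⟨k1, k2⟩ := h.kap
  have he := h.ell_pos
  have hA := h.Amain_nonneg σ
  have hL : (S.L : ℝ) = (S.G : ℝ) ^ 200 := by simp [L]
  have h1 : ∀ e ∈ S.F'.roots, - (S.G : ℝ) ^ 12 ≤
      S.ell * S.L * (4 * S.g * |(S.z σ e : ℝ)| + (S.z σ e : ℝ) ^ 2 / 2) +
        S.ell * (φ e * S.z σ e) := fun e _ => by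
    have h2 : |(φ e : ℝ)| ≤ (S.G : ℝ) ^ 206 := by exact_mod_cast hφ e
    have h3 : - ((S.G : ℝ) ^ 206 * |(S.z σ e : ℝ)|) ≤ φ e * S.z σ e := by
      refine le_trans ?_ (neg_abs_le _)
      rw [abs_mul, neg_le_neg_iff]
      gcongr
    have h4 : S.ell * L S * (- ((S.G : ℝ) ^ 6 * |(S.z σ e : ℝ)|)) ≤ S.ell * (φ e * S.z σ e) := by
      refine le_trans (le_of_eq ?_) (mul_le_mul_of_nonneg_left h3 he.le)
      rw [hL]
      ring
    have h5 : 0 ≤ 4 * S.g * |(S.z σ e : ℝ)| := by positivity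
    have h6 : - (S.G : ℝ) ^ 12 / 2 ≤ 4 * S.g * |(S.z σ e : ℝ)| + (S.z σ e : ℝ) ^ 2 / 2 +
        - ((S.G : ℝ) ^ 6 * |(S.z σ e : ℝ)|) := by
      rw [← sq_abs]
      nlinarith [sq_nonneg (|(S.z σ e : ℝ)| - (S.G : ℝ) ^ 6)]
    have h7 := mul_le_mul_of_nonneg_left h6 (by linarith : 0 ≤ S.ell * S.L)
    have h8 : (0 : ℝ) ≤ (S.G : ℝ) ^ 12 := by positivity
    nlinarith
  have h2 := card_nsmul_le_sum _ _ _ h1
  have h3 : (S.F'.roots.card : ℝ) ≤ S.G := by exact_mod_cast (card_le_univ _).trans h.cardE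
  have h4 : (S.F'.roots.card : ℝ) * (S.G : ℝ) ^ 12 ≤ (S.G : ℝ) ^ 13 := by
    rw [pow_succ' _ 12]
    gcongr
  rw [nsmul_eq_mul] at h2
  rw [h.Er_eq]
  nlinarith

theorem Good.Er_ge_of_roots (h : S.Good) (φ : E → ℤ) (h0 : ∀ e ∈ S.F'.roots, S.z σ e = 0) :
    S.Amain σ ≤ S.Er φ σ := by
  rw [h.Er_eq, sum_eq_zero fun e he => by simp [h0 e he], add_zero]
  exact le_mul_of_one_le_left (h.Amain_nonneg σ) h.kap.1

theorem Good.Er_le_of_gd (h : S.Good) (hσ : S.Gd φ σ) : S.Er φ σ ≤ 2 * (S.G : ℝ) ^ 3 := by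
  have h1 : S.En φ σ + 1 ≤ (S.G : ℤ) ^ 3 * S.L := hσ
  have h2 : (S.En φ σ : ℝ) + 1 ≤ (S.G : ℝ) ^ 3 * S.L := by exact_mod_cast h1
  have h3 := mul_le_mul_of_nonneg_left h2 h.ell_pos.le
  have h4 := (h.En_Er φ σ).2
  have h5 := mul_le_mul_of_nonneg_right h.kap.2 (by positivity : (0 : ℝ) ≤ (S.G : ℝ) ^ 3)
  nlinarith

theorem Good.le_Er_of_not_gd (h : S.Good) (hσ : ¬ S.Gd φ σ) : (S.G : ℝ) ^ 3 ≤ S.Er φ σ := by
  have h1 : (S.G : ℤ) ^ 3 * S.L ≤ S.En φ σ := not_lt.1 hσ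
  have h2 : (S.G : ℝ) ^ 3 * S.L ≤ (S.En φ σ : ℝ) := by exact_mod_cast h1
  have h3 := mul_le_mul_of_nonneg_left h2 h.ell_pos.le
  have h4 := (h.En_Er φ σ).1
  have h5 := mul_le_mul_of_nonneg_right h.kap.1 (by positivity : (0 : ℝ) ≤ (S.G : ℝ) ^ 3)
  nlinarith

theorem ene_A (h : S.Good) (hφ : S.Adm φ) (hσ : S.Gd φ σ) : S.Amain σ ≤ 2 * (S.G : ℝ) ^ 13 := by
  have hG := h.G_geR
  have h1 := h.Er_ge hφ σ
  have h2 := h.Er_le_of_gd hσ
  have h3 : (S.G : ℝ) ^ 4 ≤ (S.G : ℝ) ^ 13 := pow_le_pow_right₀ (by linarith) (by norm_num)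
  have h4 : (0 : ℝ) ≤ (S.G : ℝ) ^ 3 := by positivity
  nlinarith

/-- `Amain ≤ 2 G ^ 13 < G ^ 14` and `nu_ge_level` with `t = G ^ 14 Dn` -/
theorem Good.level_of_gd (h : S.Good) (hφ : S.Adm φ) (hσ : S.Gd φ σ) : ∑ u, σ u = 0 := by
  have hG := h.G_geR
  have h1 := (h.nu_le_Amain σ).trans (ene_A h hφ hσ)
  have hD := h.ene_Dn
  have h2 := S.F.nu_ge_level S.lam h.nice σ (t := (S.G : ℤ) ^ 14 * S.Dn) (by positivity)
    fun u hu => by simp [lam, hu]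
  by_contra hne
  have h3 : (S.G : ℤ) ^ 14 * S.Dn ≤ S.nu σ :=
    (le_mul_of_one_le_right (by positivity) (Int.one_le_abs hne)).trans h2
  have h4 : (S.G : ℝ) ^ 14 * S.Dn ≤ S.nu σ := by exact_mod_cast h3
  rw [← le_div_iff₀ hD, pow_succ] at h4
  have h5 : (0 : ℝ) < (S.G : ℝ) ^ 13 := by positivity
  nlinarith

/-- `y² ≤ 4 G ^ 44 wd²` -/
theorem Good.y_of_gd (h : S.Good) (hφ : S.Adm φ) (hσ : S.Gd φ σ) (u : U) :
    2 * |S.y σ u| ≤ (S.G : ℤ) ^ 95 * S.s u := by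
  have hG := h.G_geR
  have hw := h.ene_wd u
  have h1 := (single_le_sum (f := fun u => (S.y σ u : ℝ) ^ 2 / (2 * (S.G : ℝ) ^ 31 * (S.wd u : ℝ) ^ 2))
    (fun _ _ => by positivity) (mem_univ u)).trans ((h.y_le_Amain σ).trans (ene_A h hφ hσ))
  rw [div_le_iff₀ (by positivity)] at h1
  have h2 : |(S.y σ u : ℝ)| ≤ 2 * (S.G : ℝ) ^ 22 * S.wd u := by
    refine abs_le_of_sq_le_sq ?_ (by positivity)
    calc _ ≤ _ := h1
      _ = _ := by ring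
  have h3 : (S.s u : ℝ) * (S.G : ℝ) ^ 72 = S.wd u := by exact_mod_cast h.s_mul u
  have h4 : 2 * |(S.y σ u : ℝ)| ≤ (S.G : ℝ) ^ 95 * S.s u := by
    rw [← h3] at h2
    calc 2 * |(S.y σ u : ℝ)| ≤ 4 * ((S.G : ℝ) ^ 94 * S.s u) := by
          refine (mul_le_mul_of_nonneg_left h2 zero_le_two).trans (le_of_eq ?_)
          ring
      _ ≤ S.G * ((S.G : ℝ) ^ 94 * S.s u) := by gcongr; linarith
      _ = _ := by ring
  exact_mod_cast h4

theorem Good.big_of_gd (h : S.Good) (hφ : S.Adm φ) (hσ : S.Gd φ σ) : σ ∈ S.big := by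
  rw [← S.pt_y σ]
  refine h.ene_big fun u => ?_
  have h1 := h.y_of_gd hφ hσ u
  have h2 := abs_nonneg (S.y σ u)
  rw [mul_assoc]
  omega

theorem Good.fbx_of_gd (h : S.Good) (hφ : S.Adm φ) (hσ : S.Gd φ σ) : S.y σ ∈ S.fbx := by
  refine mem_fbx.2 fun u => ?_
  have h1 := h.y_of_gd hφ hσ u
  have h2 : 0 < S.G := lt_of_lt_of_le (by norm_num) h.G_ge
  have h3 := h.s_pos u
  have h4 : 0 < (S.G : ℤ) ^ 95 * S.s u := by positivity
  have h5 := le_abs_self (S.y σ u)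
  have h6 := neg_abs_le (S.y σ u)
  omega

theorem Good.pt_mem_big (h : S.Good) {y : U → ℤ} (hy : y ∈ S.fbx) : S.pt y ∈ S.big := by
  refine h.ene_big fun u => ?_
  have h1 := mem_fbx.1 hy u
  rw [mul_assoc, abs_le]
  omega

theorem Ent_le_NL (S : Sys U E) (φ : E → ℤ) (σ : U → ℤ) : S.Ent φ σ ≤ S.NL := by
  exact (fold_min_le _).2 (Or.inl (min_le_left _ _))

theorem Ent_le_En (S : Sys U E) (φ : E → ℤ) (σ : U → ℤ) : S.Ent φ σ ≤ S.En φ σ := by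
  exact (fold_min_le _).2 (Or.inl (min_le_right _ _))

theorem Ent_le_root (S : Sys U E) (φ : E → ℤ) (σ : U → ℤ) {C : U} (hC : S.F.par C = none) :
    S.Ent φ σ ≤ S.En φ (σ + dl C) := by
  exact (fold_min_le _).2 (Or.inr ⟨C, mem_filter.2 ⟨mem_univ _, hC⟩, le_rfl⟩)

theorem Ent_cases (S : Sys U E) (φ : E → ℤ) (σ : U → ℤ) :
    S.Ent φ σ = S.NL ∨ (S.Gd φ σ ∧ S.Ent φ σ = S.En φ σ) ∨
      ∃ C, S.F.par C = none ∧ S.Gd φ (σ + dl C) ∧ S.Ent φ σ = S.En φ (σ + dl C) := by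
  rcases (S.Ent_le_NL φ σ).eq_or_lt with h1 | h1
  · exact Or.inl h1
  have h2 := S.Ent_le_En φ σ
  rcases (fold_min_le _).1 (le_refl (S.Ent φ σ)) with h3 | ⟨C, hC, h3⟩
  · have h4 : S.En φ σ ≤ S.Ent φ σ := (min_le_iff.1 h3).resolve_left (not_le.2 h1)
    exact Or.inr (Or.inl ⟨h4.trans_lt h1, le_antisymm h2 h4⟩)
  · have hC' := (mem_filter.1 hC).2
    exact Or.inr (Or.inr ⟨C, hC', h3.trans_lt h1, le_antisymm (S.Ent_le_root φ σ hC') h3⟩)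

/-- at level `0` the configurations `σ + dl C` are not good -/
theorem Good.Ent_level (h : S.Good) (hφ : S.Adm φ) (h0 : ∑ u, σ u = 0) :
    S.Ent φ σ = min S.NL (S.En φ σ) := by
  refine le_antisymm (le_min (S.Ent_le_NL φ σ) (S.Ent_le_En φ σ)) ?_
  rcases S.Ent_cases φ σ with h1 | ⟨-, h1⟩ | ⟨C, -, h1, -⟩
  · rw [h1]
    exact min_le_left _ _
  · rw [h1]
    exact min_le_right _ _
  · have h2 := h.level_of_gd hφ h1
    simp [sum_add_distrib, h0, dl_apply] at h2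

theorem Good.q_Ent_level (h : S.Good) (hφ : S.Adm φ) (h0 : ∑ u, σ u = 0) :
    S.q ^ S.En φ σ ≤ S.q ^ S.Ent φ σ ∧
      S.q ^ S.Ent φ σ ≤ S.q ^ S.En φ σ + Real.exp (- (S.G : ℝ) ^ 3) := by
  refine ⟨h.q_anti (S.Ent_le_En φ σ), ?_⟩
  rw [h.Ent_level hφ h0]
  rcases le_total S.NL (S.En φ σ) with h1 | h1
  · rw [min_eq_left h1]
    exact h.q_NL.trans (le_add_of_nonneg_left (zpow_pos h.q_pos _).le)
  · rw [min_eq_right h1]
    exact le_add_of_nonneg_right (Real.exp_pos _).le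

theorem Good.En_ge (h : S.Good) (hφ : S.Adm φ) (σ : U → ℤ) : - (S.G : ℤ) ^ 213 - 1 ≤ S.En φ σ := by
  by_contra hne
  have h1 : S.En φ σ + 1 < - (S.G : ℤ) ^ 213 := by omega
  have h2 : (S.En φ σ : ℝ) + 1 < - (S.G : ℝ) ^ 213 := by exact_mod_cast h1
  have h3 := mul_lt_mul_of_pos_left h2 h.ell_pos
  have h4 := (h.En_Er φ σ).2
  have h5 := h.Er_ge hφ σ
  have h6 := h.Amain_nonneg σ
  have h7 := mul_le_mul_of_nonneg_right h.kap.1 (by positivity : (0 : ℝ) ≤ (S.G : ℝ) ^ 13)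
  have h8 : S.ell * S.L * (S.G : ℝ) ^ 13 = S.ell * (S.G : ℝ) ^ 213 := by
    rw [L]
    push_cast
    ring
  linarith

theorem Good.Ent_ge (h : S.Good) (hφ : S.Adm φ) (σ : U → ℤ) : - (S.G : ℤ) ^ 213 - 1 ≤ S.Ent φ σ := by
  rcases S.Ent_cases φ σ with h1 | ⟨-, h1⟩ | ⟨C, -, -, h1⟩ <;> rw [h1]
  · have h2 : 0 ≤ S.NL := by unfold NL; positivity
    have h3 : 0 ≤ (S.G : ℤ) ^ 213 := by positivity
    omega
  · exact h.En_ge hφ _
  · exact h.En_ge hφ _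

theorem Good.Ent_sub_le (h : S.Good) (hφ : S.Adm φ) (σ σ' : U → ℤ) :
    S.Ent φ σ - S.Ent φ σ' ≤ (S.G : ℤ) ^ 214 := by
  have h1 := S.Ent_le_NL φ σ
  have h2 := h.Ent_ge hφ σ'
  have hG : (1048576 : ℤ) ≤ S.G := by exact_mod_cast h.G_ge
  have h3 : S.NL ≤ (S.G : ℤ) ^ 213 := by
    rw [NL, L, Nat.cast_pow, ← pow_add]
    exact pow_le_pow_right₀ (by linarith) (by norm_num)
  have h4 : 1 ≤ (S.G : ℤ) ^ 213 := one_le_pow₀ (by linarith)
  rw [pow_succ _ 213]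
  nlinarith

theorem Good.En_x0 (h : S.Good) (φ : E → ℤ) : S.En φ S.x0 = 0 := by
  have h1 : S.nu S.x0 = 0 := S.F.nu_eq_zero S.lam h.nice h.x0.1 h.x0.2.sum
  have h2 : S.z S.x0 = 0 := (S.z_eq_zero_iff _).2 h.x0.2
  have h3 : S.y S.x0 = 0 := by
    funext u
    simp [y, Forest.sumD]
  simp [En, num, num2, fld, zt, h1, h2, h3]

theorem Good.En_zero_nonneg (h : S.Good) (σ : U → ℤ) : 0 ≤ S.En 0 σ := by
  have h1 := h.nu_nonneg σ
  have h2 : 0 ≤ S.num σ := by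
    refine add_nonneg (by positivity) (add_nonneg (sum_nonneg fun _ _ => sq_nonneg _)
      (sum_nonneg fun e _ => ?_))
    unfold zt
    split_ifs <;> positivity
  have h3 : S.fld 0 σ = 0 := by simp [fld]
  rw [En, h3, add_zero]
  exact Int.ediv_nonneg (by positivity) (by positivity)

theorem Good.piF_pos (h : S.Good) (φ : E → ℤ) (y : U → ℤ) : 0 < S.piF φ y := by
  exact zpow_pos h.q_pos _

theorem Good.piC_pos (h : S.Good) (φ : E → ℤ) (a : U → ℤ) : 0 < S.piC φ a := by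
  exact zpow_pos h.q_pos _

theorem Good.one_le_piC (h : S.Good) (φ : E → ℤ) : 1 ≤ S.piC φ S.a0 := by
  have h1 := S.Ent_le_En φ S.x0
  rw [h.En_x0] at h1
  have h2 := h.q_anti h1
  rwa [zpow_zero, ← S.pt_cor_a0] at h2

theorem Good.one_le_ZC (h : S.Good) (φ : E → ℤ) : 1 ≤ S.ZC φ := by
  exact (h.one_le_piC φ).trans (single_le_sum (fun a _ => (h.piC_pos φ a).le) h.a0_mem)

/-- each weight is at most `exp (2 G ^ 13 + 1)` (`Ent_ge`, `kap`); `card_cbox` -/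
theorem Good.ZC_le (h : S.Good) (hφ : S.Adm φ) : S.ZC φ ≤ Real.exp (3 * (S.G : ℝ) ^ 13) := by
  have hG := h.G_geR
  have h1 : ∀ a ∈ S.cbox, S.piC φ a ≤ Real.exp (2 * (S.G : ℝ) ^ 13 + 1) := fun a _ => by
    refine (h.q_anti (h.Ent_ge hφ _)).trans ?_
    rw [h.q_zpow, Real.exp_le_exp]
    have h7 := mul_le_mul_of_nonneg_right h.kap.2 (by positivity : (0 : ℝ) ≤ (S.G : ℝ) ^ 13)
    have h8 : S.ell * S.L * (S.G : ℝ) ^ 13 = S.ell * (S.G : ℝ) ^ 213 := by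
      rw [L]
      push_cast
      ring
    have h9 := h.ene_ell
    push_cast
    linarith
  have h2 := sum_le_card_nsmul _ _ _ h1
  rw [nsmul_eq_mul] at h2
  refine h2.trans ((mul_le_mul_of_nonneg_right h.card_cbox (Real.exp_pos _).le).trans ?_)
  rw [← Real.exp_add, Real.exp_le_exp]
  have h3 : (S.G : ℝ) ^ 3 ≤ (S.G : ℝ) ^ 13 := pow_le_pow_right₀ (by linarith) (by norm_num)
  nlinarith

/-- the contribution of the truncated weights -/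
theorem Good.junk (h : S.Good) :
    Real.exp (- (S.G : ℝ) ^ 3) * S.cbox.card ≤ Real.exp (- (S.G : ℝ) ^ 3 / 2) := by
  have hG := h.G_geR
  refine (mul_le_mul_of_nonneg_left h.card_cbox (Real.exp_pos _).le).trans ?_
  rw [← Real.exp_add, Real.exp_le_exp]
  nlinarith [sq_nonneg (S.G : ℝ)]

/-- a convenient smallness bound: `G ^ k ≤ 2 ^ G ≤ exp G` -/
theorem Good.tiny (h : S.Good) {k : ℕ} (hk : k ≤ 32768) :
    (S.G : ℝ) ^ k * 4 ^ (S.G + 1) * Real.exp (- (S.G : ℝ) ^ 3 / 8) ≤ 1 := by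
  have hG := h.G_geR
  have h1 : (S.G : ℝ) ^ k ≤ 2 ^ S.G := by exact_mod_cast h.pow_le hk
  have h2 : (2 : ℝ) ≤ Real.exp 1 := by linarith [Real.add_one_le_exp 1]
  have h3 : (2 : ℝ) ^ S.G ≤ Real.exp S.G := by
    rw [← Real.exp_one_pow]
    gcongr
  have h4 : (4 : ℝ) ^ (S.G + 1) ≤ Real.exp (2 * (S.G + 1)) := by
    have h5 := Real.exp_one_pow (2 * (S.G + 1))
    push_cast at h5
    rw [← h5, pow_mul]
    gcongr
    nlinarith
  calc (S.G : ℝ) ^ k * 4 ^ (S.G + 1) * Real.exp (- (S.G : ℝ) ^ 3 / 8)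
      ≤ Real.exp S.G * Real.exp (2 * (S.G + 1)) * Real.exp (- (S.G : ℝ) ^ 3 / 8) := by
        gcongr
        exact h1.trans h3
    _ ≤ 1 := by
        rw [← Real.exp_add, ← Real.exp_add, Real.exp_le_one_iff]
        nlinarith [mul_self_nonneg (S.G : ℝ), mul_le_mul hG hG (by norm_num) (by linarith)]

end Sys

end Crest.Agent.R302
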