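import Crest.Agent.R302.EstAux1

/-!
# R302/Est: counting by halving the box (compare `R309/Est.lean`, `EstAux1`, `EstAux2`)

State `(lo, hi, z)`, initially `(replicate n 0, replicate n R, 1)`; `G ^ 2` rounds (`iter`) on blocks of `G ^ e` bits.  A round: find the first `u < n` with `lo u < hi u` (if there is none keep the state);
`t = (lo u + hi u) / 2` (floor, so `lo u ≤ t < hi u`); `(c, c₁) = half …`.  If `c₁ ≤ 2 c` go to `(lo, hi.set u t, z * c₁ / c)`, else to `(lo.set u (t + 1), hi, z * c₁ / (c₁ - c))`.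
Deterministic invariant: lengths `n`, `0 ≤ lo ≤ hi ≤ R`, `0 ≤ z`, `∑_u size (hi u - lo u).toNat ≤ G ^ 2 - (number of rounds)` until `lo = hi` (both new widths are at most half of the old one), so at the end the box is a point.
Probabilistic invariant (`iter_good`, `δ = 2 / G ^ 3`): `CB` nonempty and `(1 - 2 ξ) ^ j T₀ ≤ z * card CB ≤ (1 + 2 ξ) ^ j T₀`, `ξ = G ^ (-4)`: the chosen side has empirical frequency `≥ 1 / 2` and true frequency within `ξ` of it.
Finally `card CB = 1`, `(1 ± 2 ξ) ^ (G ^ 2)` is within `1 ± 1 / G` (`R309.est_final`), and `G ^ 2 * 2 / G ^ 3 ≤ 1 / 16`.  Sizes: `ratH z` is multiplied by at most `(G ^ 18 + 1) ^ 2` in a round.  Take `e' = e + 2`.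
-/

set_option autoImplicit false

namespace Crest.Agent.R302

open Finset Crest.Agent.Lib.PT Crest.Agent.R309

/-- The potential: total number of bits of the widths. -/
def esPot (n : ℕ) (s : EsSt) : ℕ := ∑ u : Fin n, (vec n s.2.1 u - vec n s.1 u).toNat.size

theorem es_size_half {b b' : ℕ} (hb : 0 < b) (h : 2 * b' ≤ b) : b'.size + 1 ≤ b.size := by
  obtain ⟨m, hm⟩ : ∃ m, b.size = m + 1 := ⟨b.size - 1, by have := Nat.size_pos.2 hb; omega⟩
  have h1 : b < 2 ^ (m + 1) := hm ▸ Nat.lt_size_self b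
  rw [hm, Nat.add_le_add_iff_right, Nat.size_le]
  rw [pow_succ] at h1; omega

theorem es_pot_lt {n : ℕ} {w w' : Fin n → ℤ} (u : Fin n) (h : ∀ v, v ≠ u → w' v = w v)
    (h0 : 0 < w u) (h1 : 2 * w' u ≤ w u) :
    ∑ v, (w' v).toNat.size + 1 ≤ ∑ v, (w v).toNat.size := by
  rw [← add_sum_erase _ _ (mem_univ u), ← add_sum_erase _ _ (mem_univ u)]
  have h2 : ∑ x ∈ univ.erase u, (w' x).toNat.size = ∑ x ∈ univ.erase u, (w x).toNat.size :=
    sum_congr rfl fun x hx => by rw [h x (ne_of_mem_erase hx)]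
  have := es_size_half (b := (w u).toNat) (b' := (w' u).toNat) (by omega) (by omega)
  omega

theorem es_ratio {T B c N ξ : ℝ} (hT : 0 < T) (hN : 0 < N) (hc : N ≤ 2 * c) (hξ : 0 ≤ ξ)
    (h : |c / N - B / T| ≤ ξ) : (1 - 2 * ξ) * T ≤ N / c * B ∧ N / c * B ≤ (1 + 2 * ξ) * T := by
  have hc0 : 0 < c := by linarith
  obtain ⟨h1, h2⟩ := abs_le.1 h
  have h3 : ξ ≤ 2 * ξ * (c / N) := by
    have : 1 ≤ 2 * (c / N) := by
      rw [← mul_div_assoc, le_div_iff₀ hN]; linarith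
    nlinarith
  have e : N / c * B = (B / T) / (c / N) * T := by field_simp
  have hp : 0 < c / N := by positivity
  rw [e]
  constructor
  · gcongr
    rw [le_div_iff₀ hp]; linarith
  · gcongr
    rw [div_le_iff₀ hp]; linarith

theorem es_mul {z T T₀ r ξ : ℝ} {j : ℕ} (hz : 0 ≤ z) (hξ : 0 ≤ ξ) (hξ' : 2 * ξ ≤ 1)
    (h1 : (1 - 2 * ξ) ^ j * T₀ ≤ z * T) (h2 : z * T ≤ (1 + 2 * ξ) ^ j * T₀)
    (h : (1 - 2 * ξ) * T ≤ r ∧ r ≤ (1 + 2 * ξ) * T) :
    (1 - 2 * ξ) ^ (j + 1) * T₀ ≤ z * r ∧ z * r ≤ (1 + 2 * ξ) ^ (j + 1) * T₀ := by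
  constructor
  · calc (1 - 2 * ξ) ^ (j + 1) * T₀ = (1 - 2 * ξ) * ((1 - 2 * ξ) ^ j * T₀) := by ring
      _ ≤ (1 - 2 * ξ) * (z * T) := mul_le_mul_of_nonneg_left h1 (by linarith)
      _ = z * ((1 - 2 * ξ) * T) := by ring
      _ ≤ z * r := mul_le_mul_of_nonneg_left h.1 hz
  · calc z * r ≤ z * ((1 + 2 * ξ) * T) := mul_le_mul_of_nonneg_left h.2 hz
      _ = (1 + 2 * ξ) * (z * T) := by ring
      _ ≤ (1 + 2 * ξ) * ((1 + 2 * ξ) ^ j * T₀) := mul_le_mul_of_nonneg_left h2 (by linarith)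
      _ = (1 + 2 * ξ) ^ (j + 1) * T₀ := by ring

theorem es_final {z T y x : ℝ} {H : ℕ} (hT : 0 ≤ T) (hy : y ≤ 1 / 4) (hx : 0 ≤ x) (hx1 : x ≤ 1)
    (hH : H * x ≤ y) (h1 : (1 - x) ^ H * T ≤ z) (h2 : z ≤ (1 + x) ^ H * T) :
    |z - T| ≤ 4 * y * T := by
  have hy0 : 0 ≤ y := le_trans (by positivity) hH
  have hb : 1 - y ≤ (1 - x) ^ H := by
    have := one_add_mul_le_pow (a := -x) (by linarith) H
    rw [mul_neg, ← sub_eq_add_neg, ← sub_eq_add_neg] at this
    linarith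
  have hc : (1 + x) ^ H ≤ 1 + 4 * y := by
    have h3 : (1 + x) ^ H * (1 - x) ^ H ≤ 1 := by
      rw [← mul_pow]
      exact pow_le_one₀ (mul_nonneg (by linarith) (by linarith)) (by nlinarith)
    have h4 : (1 + x) ^ H * (1 - y) ≤ 1 :=
      (mul_le_mul_of_nonneg_left hb (by positivity)).trans h3
    generalize (1 + x) ^ H = w at *
    by_contra hw
    push Not at hw
    nlinarith
  rw [abs_le]
  constructor
  · nlinarith
  · nlinarith

section cb

variable {n R : ℕ} {r₁ r₂ : Finset (Fin n) → ℤ} {lo hi : Fin n → ℤ} {u : Fin n} {t : ℤ}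

theorem es_CB_lower (h : t ≤ hi u) :
    CB R r₁ r₂ lo (Function.update hi u t) = (CB R r₁ r₂ lo hi).filter fun x => x u ≤ t := by
  ext x
  rw [mem_filter, mem_CB, mem_CB]
  constructor
  · rintro ⟨h1, h2⟩
    have h3 := h1 u
    rw [Function.update_self] at h3
    refine ⟨⟨fun j => ?_, h2⟩, h3.2⟩
    by_cases hj : j = u
    · subst hj; omega
    · have := h1 j
      rwa [Function.update_of_ne hj] at this
  · rintro ⟨⟨h1, h2⟩, h3⟩
    refine ⟨fun j => ?_, h2⟩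
    by_cases hj : j = u
    · subst hj
      rw [Function.update_self]
      exact ⟨(h1 j).1, h3⟩
    · rw [Function.update_of_ne hj]; exact h1 j

theorem es_CB_upper (h : lo u ≤ t) :
    CB R r₁ r₂ (Function.update lo u (t + 1)) hi =
      (CB R r₁ r₂ lo hi).filter fun x => ¬ x u ≤ t := by
  ext x
  rw [mem_filter, mem_CB, mem_CB]
  constructor
  · rintro ⟨h1, h2⟩
    have h3 := h1 u
    rw [Function.update_self] at h3
    refine ⟨⟨fun j => ?_, h2⟩, by omega⟩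
    by_cases hj : j = u
    · subst hj; omega
    · have := h1 j
      rwa [Function.update_of_ne hj] at this
  · rintro ⟨⟨h1, h2⟩, h3⟩
    refine ⟨fun j => ?_, h2⟩
    by_cases hj : j = u
    · subst hj
      rw [Function.update_self]
      exact ⟨by omega, (h1 j).2⟩
    · rw [Function.update_of_ne hj]; exact h1 j

theorem es_CB_card (h : ∀ j, hi j ≤ lo j) (hne : (CB R r₁ r₂ lo hi).Nonempty) :
    (CB R r₁ r₂ lo hi).card = 1 := by
  obtain ⟨x, hx⟩ := hne
  refine card_eq_one.2 ⟨x, eq_singleton_iff_unique_mem.2 ⟨hx, fun y hy => funext fun j => ?_⟩⟩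
  have h1 := (mem_CB.1 hx).1 j
  have h2 := (mem_CB.1 hy).1 j
  have h3 := h j
  omega

end cb

/-- The invariant after `j` rounds. -/
structure EsInv {n : ℕ} (G R : ℕ) (r₁ r₂ : Finset (Fin n) → ℤ) (T₀ ξ : ℝ) (j : ℕ) (s : EsSt) :
    Prop where
  box : EsBox n R s
  ne : (CB R r₁ r₂ (vec n s.1) (vec n s.2.1)).Nonempty
  pot : esPot n s ≤ G ^ 2 - j
  nonneg : 0 ≤ s.2.2
  lo : (1 - 2 * ξ) ^ j * T₀ ≤ s.2.2 * (CB R r₁ r₂ (vec n s.1) (vec n s.2.1)).card
  hi : (s.2.2 : ℝ) * (CB R r₁ r₂ (vec n s.1) (vec n s.2.1)).card ≤ (1 + 2 * ξ) ^ j * T₀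

theorem es_ne {β : Type} {S : Finset β} {T ξ a : ℝ} (hT : 0 < T) (hξ : 2 * ξ < 1)
    (h : (1 - 2 * ξ) * T ≤ a * S.card) : S.Nonempty := by
  rw [nonempty_iff_ne_empty]
  rintro rfl
  have : 0 < (1 - 2 * ξ) * T := mul_pos (by linarith) hT
  simp only [card_empty, Nat.cast_zero, mul_zero] at h
  linarith

theorem EsInv.stay {n G R : ℕ} {r₁ r₂ : Finset (Fin n) → ℤ} {T₀ ξ : ℝ} {j : ℕ} {s : EsSt}
    (h : EsInv G R r₁ r₂ T₀ ξ j s) (hξ : 0 ≤ ξ) (hξ' : 2 * ξ < 1) (hu : ¬ esU n s < n) (c : ℕ × ℕ) :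
    EsInv G R r₁ r₂ T₀ ξ (j + 1) (esUpd n s c) := by
  have hT : (0 : ℝ) < (CB R r₁ r₂ (vec n s.1) (vec n s.2.1)).card :=
    Nat.cast_pos.2 (card_pos.2 h.ne)
  have hz : (0 : ℝ) ≤ s.2.2 := by exact_mod_cast h.nonneg
  have h1 := es_mul (r := (CB R r₁ r₂ (vec n s.1) (vec n s.2.1)).card) hz hξ hξ'.le h.lo h.hi
    ⟨by nlinarith, by nlinarith⟩
  rw [esUpd, if_neg hu]
  refine ⟨h.box, h.ne, ?_, h.nonneg, h1.1, h1.2⟩
  have : esPot n s = 0 := sum_eq_zero fun u _ => by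
    have := esU_none hu u
    rw [Int.toNat_eq_zero.2 (by omega), Nat.size_zero]
  omega

theorem EsInv.upd {n G R : ℕ} {r₁ r₂ : Finset (Fin n) → ℤ} {T₀ ξ : ℝ} {j : ℕ} {s : EsSt}
    (h : EsInv G R r₁ r₂ T₀ ξ j s) (hξ : 0 ≤ ξ) (hξ' : 2 * ξ < 1) (hu : esU n s < n) {c : ℕ × ℕ}
    (hcl : c.1 ≤ c.2) (hN : 0 < c.2)
    (hc : |(c.1 : ℝ) / c.2 -
      (cnt (CB R r₁ r₂ (vec n s.1) (vec n s.2.1)) fun x => x ⟨_, hu⟩ ≤ esT n s : ℕ) /
        ((CB R r₁ r₂ (vec n s.1) (vec n s.2.1)).card : ℝ)| ≤ ξ) :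
    EsInv G R r₁ r₂ T₀ ξ (j + 1) (esUpd n s c) := by
  have hT : (0 : ℝ) < (CB R r₁ r₂ (vec n s.1) (vec n s.2.1)).card :=
    Nat.cast_pos.2 (card_pos.2 h.ne)
  have hN' : (0 : ℝ) < c.2 := Nat.cast_pos.2 hN
  have hz : (0 : ℝ) ≤ s.2.2 := by exact_mod_cast h.nonneg
  have hnn := esUpd_nonneg (n := n) h.nonneg c
  have hbox := h.box.upd c
  have hpot := h.pot
  obtain ⟨t1, t2, t3, t4⟩ := esT_spec hu
  rw [cnt_eq] at hc
  unfold esUpd at hnn hbox ⊢
  rw [if_pos hu] at hnn hbox ⊢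
  split_ifs at hnn hbox ⊢ with hc2
  · have h0 := es_ratio hT hN' (by exact_mod_cast hc2) hξ hc
    have h1 := es_mul hz hξ hξ'.le h.lo h.hi h0
    have e := es_vec_set h.box.l2 ⟨_, hu⟩ (esT n s)
    rw [← es_CB_lower t2.le, ← e] at h0 h1
    refine ⟨hbox, es_ne hT hξ' h0.1, ?_, hnn, ?_, ?_⟩
    · have := es_pot_lt (w := fun v => vec n s.2.1 v - vec n s.1 v)
        (w' := fun v => vec n (s.2.1.set (esU n s) (esT n s)) v - vec n s.1 v) ⟨_, hu⟩
        (fun v hv => by rw [e, Function.update_of_ne hv]) (by omega)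
        (by rw [e, Function.update_self]; exact t3)
      unfold esPot at hpot ⊢
      dsimp only
      omega
    · refine h1.1.trans_eq ?_
      push_cast; ring
    · refine le_of_eq_of_le ?_ h1.2
      push_cast; ring
  · have hsum := card_filter_add_card_filter_not (s := CB R r₁ r₂ (vec n s.1) (vec n s.2.1))
      (fun x => x ⟨_, hu⟩ ≤ esT n s)
    have hc' : |((c.2 - c.1 : ℕ) : ℝ) / c.2 -
        (((CB R r₁ r₂ (vec n s.1) (vec n s.2.1)).filter fun x => ¬ x ⟨_, hu⟩ ≤ esT n s).card : ℝ) /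
          (CB R r₁ r₂ (vec n s.1) (vec n s.2.1)).card| ≤ ξ := by
      rw [abs_sub_comm] at hc
      refine le_of_eq_of_le ?_ hc
      congr 1
      have e : (((CB R r₁ r₂ (vec n s.1) (vec n s.2.1)).filter
          fun x => ¬ x ⟨_, hu⟩ ≤ esT n s).card : ℝ) = (CB R r₁ r₂ (vec n s.1) (vec n s.2.1)).card -
          ((CB R r₁ r₂ (vec n s.1) (vec n s.2.1)).filter fun x => x ⟨_, hu⟩ ≤ esT n s).card := by
        rw [← hsum]; push_cast; ring
      rw [e, Nat.cast_sub hcl]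
      field_simp
      ring
    have h0 := es_ratio hT hN' (by exact_mod_cast (by omega : c.2 ≤ 2 * (c.2 - c.1))) hξ hc'
    have h1 := es_mul hz hξ hξ'.le h.lo h.hi h0
    have e := es_vec_set h.box.l1 ⟨_, hu⟩ (esT n s + 1)
    rw [← es_CB_upper t1, ← e] at h0 h1
    refine ⟨hbox, es_ne hT hξ' h0.1, ?_, hnn, ?_, ?_⟩
    · have := es_pot_lt (w := fun v => vec n s.2.1 v - vec n s.1 v)
        (w' := fun v => vec n s.2.1 v - vec n (s.1.set (esU n s) (esT n s + 1)) v) ⟨_, hu⟩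
        (fun v hv => by rw [e, Function.update_of_ne hv]) (by omega)
        (by rw [e, Function.update_self]; exact t4)
      unfold esPot at hpot ⊢
      dsimp only
      omega
    · refine h1.1.trans_eq ?_
      simp only [Rat.cast_div, Rat.cast_mul, Rat.cast_natCast]; ring
    · refine le_of_eq_of_le ?_ h1.2
      simp only [Rat.cast_div, Rat.cast_mul, Rat.cast_natCast]; ring

theorem exists_est {half : (Bool × List Bool → ℤ) →
    (Un × Un × ℕ) × (List ℤ × List ℤ) × (ℕ × ℤ) × List Bool → ℕ × ℕ} {e : ℕ}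
    (h : HalfSpec half e) : ∃ est e', EstSpec est e' := by
  refine ⟨fun o a => (esRun half e o a).2.2, e + 2,
    fun α _ o ho => OPT.post (g := fun s : EsSt => s.2.2) (by fun_prop) (esRun_pt h α o ho),
    fun o a => ?_, fun n G R r₁ r₂ o hG hP ho hne => ?_⟩
  · exact iter_inv' _ _ (J := fun _ (s : EsSt) => 0 ≤ s.2.2) (fun _ _ _ hs => esUpd_nonneg hs _)
      (by simp) _ _
  · have hG0 : 1024 ≤ G := by
      rw [hG.pow]; exact le_trans (by norm_num) (Nat.pow_le_pow_right (by norm_num) hG.big)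
    have hG1 : (1024 : ℝ) ≤ G := by exact_mod_cast hG0
    have hG2 : (0 : ℝ) < G := by linarith
    have hG3 : (G : ℝ) ≤ (G : ℝ) ^ 4 := le_self_pow₀ (by linarith) (by norm_num)
    have hξ : (0 : ℝ) ≤ 1 / (G : ℝ) ^ 4 := by positivity
    have hξ' : 2 * (1 / (G : ℝ) ^ 4) < 1 := by
      rw [mul_one_div, div_lt_one (by positivity)]; linarith
    have h1 := iter_good (esStep half o (⟨n⟩, ⟨G⟩, R)) (G ^ e)
      (J := EsInv G R r₁ r₂ (CB R r₁ r₂ 0 fun _ => R).card (1 / (G : ℝ) ^ 4))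
      (δ := 2 / (G : ℝ) ^ 3) (by positivity) (t := G ^ 2) (fun j _ s hs => ?_)
      (s := (List.replicate n 0, List.replicate n (R : ℤ), 1)) ?_
    · have e1 : (15 : ℝ) / 16 ≤ 1 - ((G ^ 2 : ℕ) : ℝ) * (2 / (G : ℝ) ^ 3) := by
        have : ((G ^ 2 : ℕ) : ℝ) * (2 / (G : ℝ) ^ 3) = 2 / G := by push_cast; field_simp
        have h2 : (2 : ℝ) / G ≤ 1 / 16 := by rw [div_le_iff₀ hG2]; linarith
        linarith
      rw [← pow_add, add_comm 2 e] at h1
      refine e1.trans (h1.trans (Pr_mono fun l _ hl => ?_))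
      have h2 := es_CB_card (fun j => ?_) hl.ne
      · have h3 := hl.lo
        have h4 := hl.hi
        rw [h2, Nat.cast_one, mul_one] at h3 h4
        have h5 := es_final (y := 1 / (4 * G)) (Nat.cast_nonneg _)
          (by rw [div_le_div_iff₀ (by positivity) (by positivity)]; linarith) (by positivity) hξ'.le
          (by
            have : ((G ^ 2 : ℕ) : ℝ) * (2 * (1 / (G : ℝ) ^ 4)) = 2 / (G * G) := by
              push_cast; field_simp
            rw [this, div_le_div_iff₀ (by positivity) (by positivity)]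
            nlinarith) h3 h4
        exact h5.trans_eq (by field_simp)
      · have h3 := hl.pot
        rw [Nat.sub_self, Nat.le_zero] at h3
        have h4 := Nat.size_eq_zero.1 (sum_eq_zero_iff.1 h3 j (mem_univ j))
        omega
    · by_cases hu : esU n s < n
      · refine (h.good n G R r₁ r₂ o s.1 s.2.1 ⟨_, hu⟩ (esT n s) hG hP ho
          (fun j => by have := hs.box.bd j; omega) hs.ne).trans (Pr_mono fun l _ hl => ?_)
        exact hs.upd hξ hξ' hu (h.le _ _).1 hl.1 hl.2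
      · refine le_trans ?_ (Pr_true fun l _ => hs.stay hξ hξ' hu _).ge
        have : (0 : ℝ) ≤ 2 / (G : ℝ) ^ 3 := by positivity
        linarith
    · have e0 : CB R r₁ r₂ (vec n (List.replicate n 0)) (vec n (List.replicate n (R : ℤ))) =
          CB R r₁ r₂ 0 fun _ => R := by
        rw [es_vec_replicate, es_vec_replicate]; rfl
      refine ⟨esBox_init _ _ _, e0 ▸ hne, ?_, by simp, by simp [e0], by simp [e0]⟩
      have h2 : R.size ≤ G := Nat.size_le.2 hG.bd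
      have h3 := hG.card
      simp only [esPot, es_vec_replicate, sub_zero, Int.toNat_natCast, sum_const, card_univ,
        Fintype.card_fin, smul_eq_mul, Nat.sub_zero, sq]
      exact Nat.mul_le_mul (by omega) h2

end Crest.Agent.R302
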