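import Crest.Agent.R302.Ifc

/-!
# R302/EstAux1: the estimator and its running time
-/

set_option autoImplicit false

namespace Crest.Agent.R302

open Finset Crest.Agent.Lib.PT Crest.Agent.R309

/-- States `(lo, hi, z)` of the estimator. -/
abbrev EsSt : Type := List ℤ × List ℤ × ℚ

/-- The first coordinate with `lo < hi` (`n` if there is none). -/
def esU (n : ℕ) (s : EsSt) : ℕ :=
  (List.range n).findIdx fun u => decide (s.1.getD u 0 < s.2.1.getD u 0)

/-- The splitting point. -/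
def esT (n : ℕ) (s : EsSt) : ℤ := (s.1.getD (esU n s) 0 + s.2.1.getD (esU n s) 0) / 2

/-- One round, given the estimate. -/
def esUpd (n : ℕ) (s : EsSt) (c : ℕ × ℕ) : EsSt :=
  if esU n s < n then
    if c.2 ≤ 2 * c.1 then (s.1, s.2.1.set (esU n s) (esT n s), s.2.2 * c.2 / (c.1 : ℕ))
    else (s.1.set (esU n s) (esT n s + 1), s.2.1, s.2.2 * c.2 / (c.2 - c.1 : ℕ))
  else s

/-- One round. -/
def esStep (half : (Bool × List Bool → ℤ) →
    (Un × Un × ℕ) × (List ℤ × List ℤ) × (ℕ × ℤ) × List Bool → ℕ × ℕ) (h : Bool × List Bool → ℤ)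
    (x : Un × Un × ℕ) (s : EsSt) (ω : List Bool) : EsSt :=
  esUpd x.1.n s (half h (x, (s.1, s.2.1), (esU x.1.n s, esT x.1.n s), ω))

/-- The whole run. -/
def esRun (half : (Bool × List Bool → ℤ) →
    (Un × Un × ℕ) × (List ℤ × List ℤ) × (ℕ × ℤ) × List Bool → ℕ × ℕ) (e : ℕ)
    (h : Bool × List Bool → ℤ) (a : (Un × Un × ℕ) × List Bool) : EsSt :=
  iter (esStep half h a.1) (a.1.2.1.n ^ e) (a.1.2.1.n ^ 2)
    (List.replicate a.1.1.n 0, List.replicate a.1.1.n (a.1.2.2 : ℤ), 1) a.2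

theorem esU_spec {n : ℕ} {s : EsSt} (h : esU n s < n) :
    s.1.getD (esU n s) 0 < s.2.1.getD (esU n s) 0 := by
  have h' : (List.range n).findIdx (fun u => decide (s.1.getD u 0 < s.2.1.getD u 0)) <
      (List.range n).length := by
    rw [List.length_range]; exact h
  have := List.findIdx_getElem (w := h')
  rw [List.getElem_range, decide_eq_true_iff] at this
  exact this

theorem esU_none {n : ℕ} {s : EsSt} (h : ¬ esU n s < n) (u : Fin n) :
    vec n s.2.1 u ≤ vec n s.1 u := by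
  by_contra hb
  apply h
  have : (List.range n).findIdx (fun u => decide (s.1.getD u 0 < s.2.1.getD u 0)) <
      (List.range n).length :=
    List.findIdx_lt_length_of_exists ⟨u, List.mem_range.2 u.2, decide_eq_true (not_le.1 hb)⟩
  rwa [List.length_range] at this

theorem esT_spec {n : ℕ} {s : EsSt} (h : esU n s < n) :
    vec n s.1 ⟨_, h⟩ ≤ esT n s ∧ esT n s < vec n s.2.1 ⟨_, h⟩ ∧
      2 * (esT n s - vec n s.1 ⟨_, h⟩) ≤ vec n s.2.1 ⟨_, h⟩ - vec n s.1 ⟨_, h⟩ ∧
      2 * (vec n s.2.1 ⟨_, h⟩ - (esT n s + 1)) ≤ vec n s.2.1 ⟨_, h⟩ - vec n s.1 ⟨_, h⟩ := by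
  have := esU_spec h
  unfold esT vec
  dsimp only
  omega

theorem es_vec_set {n : ℕ} {l : List ℤ} (hl : l.length = n) (u : Fin n) (t : ℤ) :
    vec n (l.set u.val t) = Function.update (vec n l) u t := by
  funext j
  by_cases h : j = u
  · subst h
    simp [vec, List.getD_eq_getElem?_getD, hl]
  · rw [Function.update_of_ne h]
    have : u.val ≠ j.val := fun e => h (Fin.ext e.symm)
    simp [vec, List.getD_eq_getElem?_getD, List.getElem?_set_ne this]

theorem es_vec_replicate (n : ℕ) (t : ℤ) : vec n (List.replicate n t) = fun _ => t := by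
  funext j
  simp [vec, List.getD_eq_getElem?_getD]

section pt

variable {α : Type} [Enc α] {n : α → ℕ} {s : α → EsSt}

@[fun_prop] theorem esU_pt (hn : PT n) (hb : PB n) (hs : PT s) : PT fun a => esU (n a) (s a) := by
  unfold esU; fun_prop

@[fun_prop] theorem esT_pt (hn : PT n) (hb : PB n) (hs : PT s) : PT fun a => esT (n a) (s a) := by
  unfold esT; fun_prop

attribute [local irreducible] esU esT

theorem esUpd_pt {c : α → ℕ × ℕ} (hn : PT n) (hb : PB n) (hs : PT s) (hc : PT c) :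
    PT fun a => esUpd (n a) (s a) (c a) := by
  unfold esUpd; fun_prop

end pt

/-- the box stays inside `[0, R]` -/
structure EsBox (n R : ℕ) (s : EsSt) : Prop where
  l1 : s.1.length = n
  l2 : s.2.1.length = n
  bd : ∀ j, 0 ≤ vec n s.1 j ∧ vec n s.1 j ≤ vec n s.2.1 j ∧ vec n s.2.1 j ≤ R

theorem esBox_init (n R : ℕ) (z : ℚ) :
    EsBox n R (List.replicate n 0, List.replicate n (R : ℤ), z) :=
  ⟨List.length_replicate, List.length_replicate, fun j => by simp [es_vec_replicate]⟩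

theorem EsBox.upd {n R : ℕ} {s : EsSt} (h : EsBox n R s) (c : ℕ × ℕ) : EsBox n R (esUpd n s c) := by
  unfold esUpd
  split_ifs with hu hc
  · obtain ⟨h1, h2, -⟩ := esT_spec hu
    refine ⟨h.l1, by simpa using h.l2, fun j => ?_⟩
    have h3 := h.bd j
    dsimp only
    rw [es_vec_set h.l2 ⟨_, hu⟩]
    by_cases hj : j = ⟨_, hu⟩
    · subst hj
      rw [Function.update_self]
      omega
    · rwa [Function.update_of_ne hj]
  · obtain ⟨h1, h2, -⟩ := esT_spec hu
    refine ⟨by simpa using h.l1, h.l2, fun j => ?_⟩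
    have h3 := h.bd j
    dsimp only
    rw [es_vec_set h.l1 ⟨_, hu⟩]
    by_cases hj : j = ⟨_, hu⟩
    · subst hj
      rw [Function.update_self]
      omega
    · rwa [Function.update_of_ne hj]
  · exact h

theorem es_ratH_step {z : ℚ} {N c m : ℕ} (hc : c ≤ N) (hz : ratH z < 2 ^ m) :
    ratH (z * N / (c : ℕ)) < 2 ^ (m + 2 * N) := by
  have h1 := ratH_div_le (z * N) c
  have h2 := ratH_mul_le z N
  rw [ratH_natCast] at h1 h2
  have h3 : N + 1 ≤ 2 ^ N := Nat.lt_two_pow_self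
  have h4 : ratH (z * N / (c : ℕ)) ≤ ratH z * 2 ^ N * 2 ^ N :=
    h1.trans (Nat.mul_le_mul (h2.trans (Nat.mul_le_mul_left _ h3)) (by omega))
  calc ratH (z * N / (c : ℕ)) ≤ ratH z * 2 ^ N * 2 ^ N := h4
    _ < 2 ^ m * 2 ^ N * 2 ^ N := by gcongr
    _ = 2 ^ (m + 2 * N) := by rw [two_mul, pow_add, pow_add, mul_assoc]

theorem es_ratH_upd {n N m : ℕ} {s : EsSt} {c : ℕ × ℕ} (h1 : c.1 ≤ c.2) (h2 : c.2 ≤ N)
    (hz : ratH s.2.2 < 2 ^ m) : ratH (esUpd n s c).2.2 < 2 ^ (m + 2 * N) := by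
  have h3 : 2 ^ (m + 2 * c.2) ≤ 2 ^ (m + 2 * N) := Nat.pow_le_pow_right (by norm_num) (by omega)
  unfold esUpd
  split_ifs
  · exact (es_ratH_step h1 hz).trans_le h3
  · exact (es_ratH_step (Nat.sub_le _ _) hz).trans_le h3
  · exact hz.trans_le (Nat.pow_le_pow_right (by norm_num) (by omega))

theorem esUpd_nonneg {n : ℕ} {s : EsSt} (h : 0 ≤ s.2.2) (c : ℕ × ℕ) : 0 ≤ (esUpd n s c).2.2 := by
  unfold esUpd
  split_ifs
  · positivity
  · positivity
  · exact h

theorem es_sz_list {n R : ℕ} {l : List ℤ} (hl : l.length = n)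
    (h : ∀ j, 0 ≤ vec n l j ∧ vec n l j ≤ R) : sz l ≤ n * (2 * sz R + 5) + 1 := by
  rw [← hl]
  refine sz_list_le (B := 2 * sz R + 4) fun a ha => sz_int_le_of_le ?_
  obtain ⟨i, hi, rfl⟩ := List.getElem_of_mem ha
  have h1 := h ⟨i, hl ▸ hi⟩
  simp only [vec, List.getD_eq_getElem?_getD, List.getElem?_eq_getElem hi, Option.getD_some] at h1
  omega

attribute [local irreducible] esUpd

theorem esRun_pt {half : (Bool × List Bool → ℤ) →
    (Un × Un × ℕ) × (List ℤ × List ℤ) × (ℕ × ℤ) × List Bool → ℕ × ℕ} {e : ℕ}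
    (H : HalfSpec half e) : HOPT (esRun half e) := by
  intro α _ h hh
  unfold esRun
  refine OPT.iter (f := fun O (a : α × (Un × Un × ℕ) × List Bool) => esStep half (h O a.1) a.2.1)
    ?_ (by fun_prop) (by fun_prop) (by fun_prop) (OPT.pure (by fun_prop)) (by fun_prop)
    (fun _ a k s => EsBox a.2.1.1.n a.2.1.2.2 s ∧ ratH s.2.2 < 2 ^ (2 + 2 * a.2.1.2.1.n ^ 18 * k))
    (fun O a => ⟨esBox_init _ _ _, by simp⟩) (fun O a k c ω hc => ⟨hc.1.upd _, ?_⟩)
    (B := fun a => 2 * (a.2.1.1.n * (2 * sz a.2.1.2.2 + 5) + 1) +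
      (8 * (2 + 2 * a.2.1.2.1.n ^ 18 * a.2.1.2.1.n ^ 2) + 7) + 2) ?_ fun O a k c hk hc => ?_
  · unfold esStep
    refine OPT.cont (g := fun (p : (α × (Un × Un × ℕ) × List Bool) × EsSt × List Bool) c =>
      esUpd p.1.2.1.1.n p.2.1 c) ?_
      (esUpd_pt (by fun_prop) (by fun_prop) (by fun_prop) (by fun_prop))
    exact H.pt.app (h := fun O (p : (α × (Un × Un × ℕ) × List Bool) × EsSt × List Bool) => h O p.1.1)
      (OPT.call hh
        (e := fun c : ((α × (Un × Un × ℕ) × List Bool) × EsSt × List Bool) × Bool × List Bool =>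
          c.1.1.1) (q := fun c => c.2) (by fun_prop) (by fun_prop)) (OPT.pure (by fun_prop))
  · rw [Nat.mul_succ, ← add_assoc]
    exact es_ratH_upd (H.le _ _).1 (H.le _ _).2 hc.2
  · have h1 : PB fun a : α × (Un × Un × ℕ) × List Bool => sz a.2.1.2.2 := PB.sz (by fun_prop)
    fun_prop
  · obtain ⟨h1, h2⟩ := hc
    have h3 := es_sz_list (R := a.2.1.2.2) h1.l1 fun j => by have := h1.bd j; omega
    have h4 := es_sz_list (R := a.2.1.2.2) h1.l2 fun j => by have := h1.bd j; omega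
    have h5 := sz_rat_le_of_lt h2
    have h6 : 2 * a.2.1.2.1.n ^ 18 * k ≤ 2 * a.2.1.2.1.n ^ 18 * a.2.1.2.1.n ^ 2 := by gcongr
    rw [sz_prod c, sz_prod c.2]
    omega

end Crest.Agent.R302
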