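import Crest.Agent.R302.Tools

/-!
# R302/Feas: a point between a supermodular and a submodular function (TASK)

Fix the coordinates `e = 0, 1, …, n-1` one after the other.  With `S = {j < e}` and values `x j`, `j ∈ S`, the invariant is
`Inv S x : ∀ B disjoint from S, ∀ X Y ⊆ S, p (B ∪ Y) - x Y ≤ b (B ∪ X) - x X`.  For `S = ∅` it is the hypothesis `p ≤ b`; for `S = univ` (`B = ∅`, and `Y = ∅` or `X = ∅`) it is the claim.
The next value is `t = min over (B, X, Y)` of `b (B ∪ {e} ∪ X) - x X - p (B ∪ Y) + x Y` (`B` disjoint from `S ∪ {e}`).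
Write `b' B = min_X (b (B ∪ X) - x X)`, `p' B = max_Y (p (B ∪ Y) - x Y)`.  Needed: `p' B ≤ b' (B + e) - t` (definition of `t`) and `p' (C + e) - t ≤ b' C`; with `t = b' (B + e) - p' B` this is
`p' (C + e) + p' B ≤ p' (B ∪ C + e) + p' (B ∩ C) ≤ b' (B ∪ C + e) + b' (B ∩ C) ≤ b' (B + e) + b' C` (argue with explicit `X, X', Y, Y'` and their unions and intersections).
The minimum is one call of `exists_minv` on the ground set `Fin (n + n)`: a set `Z` encodes `B = {j > e | j ∈ Z}`, `X = {j < e | j ∈ Z}`, `Y = {j < e | n + j ∈ Z}`; so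
`B ∪ {e} ∪ X = {j | j = e ∨ j ∈ Z}` and `B ∪ Y = {j | j > e ∧ j ∈ Z ∨ j < e ∧ n + j ∈ Z}` are lattice homomorphisms of `Z` (`Submod.comp`).
The invariant gives `p {j} ≤ x j ≤ b {j}`, so `|x j| ≤ 2 ^ K` and the function is bounded by `(2 n + 2) 2 ^ K ≤ 2 ^ (K + n + 2)`.  For the size bound on all inputs clamp `t` to `[-2^K, 2^K]`
(`OPT.foldl` over `List.range n`, appending).
-/

set_option autoImplicit false

namespace Crest.Agent.R302

open Finset Crest.Agent.Lib.PT Crest.Agent.R309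

namespace Feas

/-- the upper set -/
def lQ (n e : ℕ) (z : List Bool) : List Bool :=
  (List.range n).map fun j => decide (j = e ∨ z.getD j false = true)

/-- the lower set -/
def lP (n e : ℕ) (z : List Bool) : List Bool :=
  (List.range n).map fun j =>
    decide (e < j ∧ z.getD j false = true ∨ j < e ∧ z.getD (n + j) false = true)

/-- the sum over a set -/
def dotL (n : ℕ) (l : List ℤ) (z : List Bool) : ℤ :=
  ((List.range n).map fun j => if z.getD j false = true then l.getD j 0 else 0).sum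

/-- the function that is minimised -/
def gF (h : Bool × List Bool → ℤ) (n : ℕ) (l : List ℤ) (z : List Bool) : ℤ :=
  h (false, lQ n l.length z) - dotL n l (lQ n l.length z) +
    (-h (true, lP n l.length z) + dotL n l (lP n l.length z))

/-- clamping -/
def cl (K : ℕ) (t : ℤ) : ℤ := max (-2 ^ K) (min (2 ^ K) t)

theorem abs_cl (K : ℕ) (t : ℤ) : |cl K t| ≤ 2 ^ K := by
  have : (0 : ℤ) ≤ 2 ^ K := by positivity
  unfold cl
  rw [abs_le]
  omega

theorem cl_eq {K : ℕ} {t : ℤ} (h : -2 ^ K ≤ t) (h' : t ≤ 2 ^ K) : cl K t = t := by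
  unfold cl
  omega

theorem dotL_eq (n : ℕ) (l : List ℤ) (z : List Bool) : dotL n l z = ∑ u ∈ sOf n z, vec n l u := by
  rw [dotL, sOf, sum_filter]
  exact sum_range_vec _

section pt

variable {α : Type} [Enc α]

theorem lQ_pt {n e : α → ℕ} {z : α → List Bool} (hn : PT n) (hb : PB n) (he : PT e) (hz : PT z) :
    PT fun a => lQ (n a) (e a) (z a) := by
  unfold lQ; fun_prop

theorem lP_pt {n e : α → ℕ} {z : α → List Bool} (hn : PT n) (hb : PB n) (he : PT e) (hz : PT z) :
    PT fun a => lP (n a) (e a) (z a) := by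
  unfold lP; fun_prop

theorem dotL_pt {n : α → ℕ} {l : α → List ℤ} {z : α → List Bool} (hn : PT n) (hb : PB n)
    (hl : PT l) (hz : PT z) : PT fun a => dotL (n a) (l a) (z a) := by
  unfold dotL; fun_prop

theorem gF_opt {γ : Type} [Enc γ] {h : Orc → α → Bool × List Bool → ℤ}
    (hh : OPT fun O (p : α × Bool × List Bool) => h O p.1 p.2) {e : γ → α} {n : γ → ℕ}
    {l : γ → List ℤ} {z : γ → List Bool} (he : PT e) (hn : PT n) (hb : PB n) (hl : PT l)
    (hz : PT z) : OPT fun O c => gF (h O (e c)) (n c) (l c) (z c) := by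
  have h1 := lQ_pt hn hb hl.length hz
  have h2 := lP_pt hn hb hl.length hz
  have h3 := dotL_pt hn hb hl h1
  have h4 := dotL_pt hn hb hl h2
  exact OPT.cont₂ (g := fun c x y => x - dotL (n c) (l c) (lQ (n c) (l c).length (z c)) +
      (-y + dotL (n c) (l c) (lP (n c) (l c).length (z c))))
    (OPT.call hh he ((PT.const false).pair h1)) (OPT.call hh he ((PT.const true).pair h2))
    ((PT.id.snd.fst.int_sub (h3.comp PT.id.fst)).int_add
      (PT.id.snd.snd.int_neg.int_add (h4.comp PT.id.fst)))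

end pt

variable {n : ℕ}

/-- the invariant -/
def Inv (b p : Finset (Fin n) → ℤ) (l : List ℤ) : Prop :=
  ∀ P Q : Finset (Fin n), (∀ j : Fin n, l.length ≤ j → (j ∈ P ↔ j ∈ Q)) →
    p P - ∑ u ∈ P, vec n l u ≤ b Q - ∑ u ∈ Q, vec n l u

theorem sum_snoc {l : List ℤ} {e : Fin n} (he : l.length = e) (t : ℤ) (A : Finset (Fin n)) :
    ∑ u ∈ A, vec n (l ++ [t]) u = ∑ u ∈ A, vec n l u + if e ∈ A then t else 0 := by
  rw [← sum_ite_eq A e fun _ => t, ← sum_add_distrib]
  refine sum_congr rfl fun u _ => ?_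
  simp only [vec, List.getD_eq_getElem?_getD, Fin.ext_iff, ← he]
  rcases lt_trichotomy l.length u with h | h | h
  · rw [List.getElem?_eq_none (by simp; omega), List.getElem?_eq_none h.le, if_neg h.ne, add_zero]
  · simp [← h]
  · rw [List.getElem?_append_left h, if_neg h.ne', add_zero]

theorem inv_step {b p : Finset (Fin n) → ℤ} (hb : Submod b) (hp : Submod fun A => -p A)
    {l : List ℤ} {e : Fin n} (he : l.length = e) (h : Inv b p l) {t : ℤ}
    (h1 : ∃ P Q : Finset (Fin n), (∀ j, e < j → (j ∈ P ↔ j ∈ Q)) ∧ e ∉ P ∧ e ∈ Q ∧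
      t = b Q - ∑ u ∈ Q, vec n l u + (-p P + ∑ u ∈ P, vec n l u))
    (h2 : ∀ P Q : Finset (Fin n), (∀ j, e < j → (j ∈ P ↔ j ∈ Q)) → e ∉ P → e ∈ Q →
      t ≤ b Q - ∑ u ∈ Q, vec n l u + (-p P + ∑ u ∈ P, vec n l u)) : Inv b p (l ++ [t]) := by
  have key : ∀ P Q : Finset (Fin n), (∀ j, e < j → (j ∈ P ↔ j ∈ Q)) → (e ∈ P ↔ e ∈ Q) →
      p P - ∑ u ∈ P, vec n l u ≤ b Q - ∑ u ∈ Q, vec n l u := fun P Q h3 h4 =>
    h P Q fun j hj => by
      rcases (show e ≤ j by rwa [he] at hj).eq_or_lt with rfl | hj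
      exacts [h4, h3 j hj]
  intro P Q hPQ
  have h3 : ∀ j, e < j → (j ∈ P ↔ j ∈ Q) := fun j hj => hPQ j (by
    rw [List.length_append, he]; exact hj)
  rw [sum_snoc he, sum_snoc he]
  split_ifs with hP hQ hQ
  · have := key P Q h3 (iff_of_true hP hQ)
    omega
  · obtain ⟨P', Q', h4, h5, h6, h7⟩ := h1
    have a1 := key (P ∪ P') (Q ∪ Q') (fun j hj => by rw [mem_union, mem_union, h3 j hj, h4 j hj])
      (by simp [hP, h6])
    have a2 := key (P ∩ P') (Q ∩ Q') (fun j hj => by rw [mem_inter, mem_inter, h3 j hj, h4 j hj])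
      (by simp [hQ, h5])
    have a3 := hb Q Q'
    have a4 := hp P P'
    have a5 := sum_union_inter (s₁ := P) (s₂ := P') (f := vec n l)
    have a6 := sum_union_inter (s₁ := Q) (s₂ := Q') (f := vec n l)
    simp only at a4
    omega
  · have := h2 P Q h3 hP hQ
    omega
  · have := key P Q h3 (iff_of_false hP hQ)
    omega

/-- the upper set -/
def sQ (e : Fin n) (Z : Finset (Fin (n + n))) : Finset (Fin n) :=
  univ.filter fun j => j = e ∨ Fin.castAdd n j ∈ Z

/-- the lower set -/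
def sP (e : Fin n) (Z : Finset (Fin (n + n))) : Finset (Fin n) :=
  univ.filter fun j => e < j ∧ Fin.castAdd n j ∈ Z ∨ j < e ∧ Fin.natAdd n j ∈ Z

theorem sOf_lQ (e : Fin n) (z : List Bool) : sOf n (lQ n e z) = sQ e (sOf (n + n) z) := by
  ext j
  rw [lQ, mem_sOf_map_range]
  simp [sQ, Fin.ext_iff]

theorem sOf_lP (e : Fin n) (z : List Bool) : sOf n (lP n e z) = sP e (sOf (n + n) z) := by
  ext j
  rw [lP, mem_sOf_map_range]
  simp [sP, Nat.add_comm]

theorem abs_sum_le {K : ℕ} {l : List ℤ} (hl : ∀ x ∈ l, |x| ≤ 2 ^ K) (A : Finset (Fin n)) :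
    |∑ u ∈ A, vec n l u| ≤ n * 2 ^ K := by
  refine (abs_sum_le_sum_abs _ _).trans ((sum_le_card_nsmul _ _ (2 ^ K) fun u _ => ?_).trans ?_)
  · rw [vec, List.getD_eq_getElem?_getD]
    cases h : l[u.val]? with
    | none => simp
    | some x => exact hl x (List.mem_of_getElem? h)
  · rw [nsmul_eq_mul]
    have : (A.card : ℤ) ≤ n := by exact_mod_cast (card_le_univ A).trans_eq (Fintype.card_fin n)
    exact mul_le_mul_of_nonneg_right this (by positivity)

theorem step {K : ℕ} {b p : Finset (Fin n) → ℤ} {h : Bool × List Bool → ℤ}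
    (c1 : Calls (fun l => h (false, l)) b) (c2 : Calls (fun l => h (true, l)) p) (hb : Submod b)
    (hp : Submod fun A => -p A) (hK : ∀ A, |b A| ≤ 2 ^ K ∧ |p A| ≤ 2 ^ K) {l : List ℤ}
    (hl : ∀ x ∈ l, |x| ≤ 2 ^ K) {e : Fin n} (he : l.length = e) (hI : Inv b p l) {t : ℤ}
    (ht : ∀ f : Finset (Fin (n + n)) → ℤ, Calls (gF h n l) f → Submod f →
      (∀ A, |f A| ≤ 2 ^ (K + n + 1)) → (∃ A, t = f A) ∧ ∀ B, t ≤ f B) : Inv b p (l ++ [t]) := by
  classical
  obtain ⟨⟨Z, h1⟩, h2⟩ := ht (fun Z => b (sQ e Z) - ∑ u ∈ sQ e Z, vec n l u +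
      (-p (sP e Z) + ∑ u ∈ sP e Z, vec n l u))
    (fun z => by
      rw [gF, he, dotL_eq, dotL_eq, show h (false, _) = _ from c1 _, show h (true, _) = _ from c2 _,
        sOf_lQ, sOf_lP])
    (((hb.slack (vec n l)).comp (sQ e) (fun A B => by ext j; simp only [sQ]; grind)
      fun A B => by ext j; simp only [sQ]; grind).add
      ((hp.add (f := fun A => -p A) (g := fun A => ∑ u ∈ A, vec n l u)
        (by simpa using submod_sum (vec n l) 0)).comp (sP e)
        (fun A B => by ext j; simp only [sP]; grind) fun A B => by ext j; simp only [sP]; grind))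
    fun Z => by
      have a1 := abs_le.1 (hK (sQ e Z)).1
      have a2 := abs_le.1 (hK (sP e Z)).2
      have a3 := abs_le.1 (abs_sum_le hl (sQ e Z))
      have a4 := abs_le.1 (abs_sum_le hl (sP e Z))
      have a5 : (n + 1 : ℤ) ≤ 2 ^ n := by exact_mod_cast Nat.lt_two_pow_self
      have a6 := mul_le_mul_of_nonneg_right a5 (show (0 : ℤ) ≤ 2 ^ K by positivity)
      rw [pow_succ, pow_add, abs_le]
      constructor <;> linarith
  refine inv_step hb hp he hI ⟨sP e Z, sQ e Z, fun j hj => ?_, by simp [sP], by simp [sQ], h1⟩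
    fun P Q h3 h4 h5 => ?_
  · simp [sP, sQ, hj, hj.ne', hj.not_gt]
  · have := h2 (univ.filter fun k => Fin.addCases (motive := fun _ => Prop) (· ∈ Q) (· ∈ P) k)
    rwa [show sQ e _ = Q from ?_, show sP e _ = P from ?_] at this
    · ext j
      simp only [sP, mem_filter, mem_univ, true_and, Fin.addCases_left, Fin.addCases_right]
      rcases lt_trichotomy e j with h | rfl | h
      · simp [h, h.not_gt, h3 j h]
      · simp [h4]
      · simp [h, h.not_gt]
    · ext j
      simp only [sQ, mem_filter, mem_univ, true_and, Fin.addCases_left]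
      exact or_iff_right_of_imp fun e => e ▸ h5

theorem fold_spec (K : ℕ) (m : List ℤ → ℤ) (pre : List ℕ) :
    (pre.foldl (fun l _ => l ++ [cl K (m l)]) []).length = pre.length ∧
      ∀ x ∈ pre.foldl (fun l _ => l ++ [cl K (m l)]) [], |x| ≤ 2 ^ K := by
  induction pre using List.reverseRecOn with
  | nil => simp
  | append_singleton pre a ih =>
    rw [List.foldl_append, List.foldl_cons, List.foldl_nil, List.length_append, List.length_append,
      ih.1]
    refine ⟨rfl, fun x hx => (List.mem_append.1 hx).elim (ih.2 x) fun h => ?_⟩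
    rw [List.mem_singleton.1 h]
    exact abs_cl _ _

end Feas

open Feas

theorem exists_feas : ∃ alg : (Bool × List Bool → ℤ) → Un × Un → List ℤ, HOPT alg ∧
    ∀ (n K : ℕ) (b p : Finset (Fin n) → ℤ) (h : Bool × List Bool → ℤ),
      Calls (fun l => h (false, l)) b → Calls (fun l => h (true, l)) p → Submod b →
      Submod (fun A => - p A) → b ∅ = 0 → p ∅ = 0 → (∀ A, |b A| ≤ 2 ^ K ∧ |p A| ≤ 2 ^ K) →
      (∀ A, p A ≤ b A) →
      ∀ A, p A ≤ ∑ u ∈ A, vec n (alg h (⟨n⟩, ⟨K⟩)) u ∧ ∑ u ∈ A, vec n (alg h (⟨n⟩, ⟨K⟩)) u ≤ b A := by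
  obtain ⟨mv, H, hmv⟩ := exists_minv
  refine ⟨fun h q => (List.range q.1.n).foldl (fun l _ => l ++ [cl q.2.n
    (mv (gF h q.1.n l) (⟨q.1.n + q.1.n⟩, ⟨q.2.n + q.1.n + 1⟩))]) [], fun α _ h hh => ?_,
    fun n K b p h c1 c2 hb hp b0 p0 hK hpb => ?_⟩
  · refine OPT.foldl (l := fun _ (a : α × Un × Un) => List.range a.2.1.n) (OPT.pure (by fun_prop))
      (OPT.pure (PT.const [])) (OPT.cont (g := fun (c : (α × Un × Un) × List ℤ × ℕ) t =>
        c.2.1 ++ [cl c.1.2.2.n t]) (H.app (h := fun O (c : (α × Un × Un) × List ℤ × ℕ) =>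
          gF (h O c.1.1) c.1.2.1.n c.2.1)
        (gF_opt hh (by fun_prop) (by fun_prop) (by fun_prop) (by fun_prop) (by fun_prop))
        (OPT.pure (by fun_prop))) (by unfold cl; fun_prop))
      (B := fun a => a.2.1.n * (4 * (a.2.2.n + 1) + 5 + 1) + 1) (by fun_prop) fun O a pre hp => ?_
    obtain ⟨h1, h2⟩ := fold_spec a.2.2.n (fun l => mv (gF (h O a.1) a.2.1.n l)
      (⟨a.2.1.n + a.2.1.n⟩, ⟨a.2.2.n + a.2.1.n + 1⟩)) pre
    refine (sz_list_le (B := 4 * (a.2.2.n + 1) + 5) fun x hx => sz_int_le_of_lt ?_).trans ?_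
    · have h3 : ((x.natAbs : ℕ) : ℤ) ≤ 2 ^ a.2.2.n := by rw [Int.natCast_natAbs]; exact h2 x hx
      exact lt_of_le_of_lt (by exact_mod_cast h3) (Nat.pow_lt_pow_succ one_lt_two)
    · rw [h1]
      exact Nat.add_le_add_right (Nat.mul_le_mul_right _ (by simpa using hp.length_le)) 1
  · have key : ∀ k ≤ n, Inv b p ((List.range k).foldl (fun l _ => l ++ [cl K
        (mv (gF h n l) (⟨n + n⟩, ⟨K + n + 1⟩))]) []) := by
      intro k hk
      induction k with
      | zero =>
        intro P Q hPQ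
        obtain rfl : P = Q := Finset.ext fun j => hPQ j (Nat.zero_le _)
        simpa using hpb P
      | succ k ih =>
        obtain ⟨h1, h2⟩ := fold_spec K (fun l => mv (gF h n l) (⟨n + n⟩, ⟨K + n + 1⟩)) (List.range k)
        rw [List.range_succ, List.foldl_append, List.foldl_cons, List.foldl_nil]
        have ih := ih (by omega)
        generalize (List.range k).foldl _ [] = l at h1 h2 ih ⊢
        rw [List.length_range] at h1
        have he : l.length = (⟨k, hk⟩ : Fin n) := h1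
        have h3 := step c1 c2 hb hp hK h2 he ih fun f => hmv _ _ f _
        have h4 : ∀ j : Fin n, (l ++ [mv (gF h n l) (⟨n + n⟩, ⟨K + n + 1⟩)]).length ≤ j →
            j ≠ ⟨k, hk⟩ := fun j hj e => by
          rw [List.length_append, h1, e] at hj
          simp at hj
        have h5 := h3 ∅ {⟨k, hk⟩} fun j hj => by simp [h4 j hj]
        have h6 := h3 {⟨k, hk⟩} ∅ fun j hj => by simp [h4 j hj]
        have h7 : vec n l ⟨k, hk⟩ = 0 := by
          rw [vec, List.getD_eq_getElem?_getD, List.getElem?_eq_none he.le, Option.getD_none]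
        rw [sum_snoc he, sum_snoc he, sum_singleton, sum_empty, h7, if_pos (mem_singleton_self _),
          if_neg (notMem_empty _)] at h5 h6
        have h8 := abs_le.1 (hK {⟨k, hk⟩}).1
        have h9 := abs_le.1 (hK {⟨k, hk⟩}).2
        rwa [cl_eq (by omega) (by omega)]
    have h1 := (fold_spec K (fun l => mv (gF h n l) (⟨n + n⟩, ⟨K + n + 1⟩)) (List.range n)).1
    rw [List.length_range] at h1
    intro A
    have h2 := key n le_rfl A ∅ fun j hj => absurd (h1.symm.trans_le hj) j.2.not_ge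
    have h3 := key n le_rfl ∅ A fun j hj => absurd (h1.symm.trans_le hj) j.2.not_ge
    rw [sum_empty] at h2 h3
    exact ⟨by linarith, by linarith⟩

end Crest.Agent.R302
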