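import Crest.Agent.R302.Ram
import Crest.Agent.R302.Driver
import Crest.Agent.R309.RamProb

/-!
# R302/ORam: an `OPT` function on the oracle word RAM (TASK)

Combine `exists_omac` and `OMac.ram`.  Let `S = sizeParam n R ε δ`, `M = n + R + … + 2` the argument of `clog`, `ℓ = clog 2 M ≥ 1`.
`sz (inpOf …) ≤ 30 (S + 1)` (`den / num ≤ ⌈ε⁻¹⌉₊`, `sz_nat_le_of_lt`, `Nat.le_pow_clog`), `S + 1 ≤ 8 M ≤ 8 * 2 ^ ℓ`, and `ℓ ≤ 3 (S + 1)` or so
(`M ≤ 2 ^ (S + 3)`).  Put `B = c (sz + w) ^ d`, `w = c₀ ℓ`; then `B + 1 ≤ (c + 1) (30 + 3 c₀) ^ d (S + 1) ^ d` and one needs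
`c' (B + 1) ^ d' ≤ 2 ^ (w - 1)`, `B < 2 ^ (w-1)`: true for `c₀` large, since `A (1 + c₀) ^ D ≤ 2 ^ (c₀ - D - 1)` for some `c₀ > D`
(exponential beats polynomial, e.g. `tendsto_pow_const_div_const_pow_of_one_lt`, or take `c₀ = 2 ^ j` by hand) and `(2 ^ ℓ) ^ D * 2 ^ (c₀ - D) ≤ 2 ^ (c₀ ℓ)`.
The run time `c' (B+1)^d' (B+1)` is at most `C (S+1)^e`; a halted configuration does not change.  Probability: `uniformProb_low`
(`lowBits w (streamOf tab) B`), `rp_uniformProb_mono`, and `Ex_take_drop` / `Pr_take` to pass from `(l.drop t₀).take len` to a tape of length `len`.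
-/

set_option autoImplicit false

namespace Crest.Agent.R302

open Crest.Agent.Lib.PT Crest.Agent.R309 Crest.OracleRAM Crest.Polymatroid

/-- the word length of the statements -/
def wlen (c₀ n R : ℕ) (ε δ : ℚ) : ℕ :=
  c₀ * Nat.clog 2 (n + R + ε.num.natAbs + ε.den + δ.num.natAbs + δ.den + 2)

theorem oram_halted {P : OProgram} {n : ℕ} {O : Bool → Finset (Fin n) → ℕ} {w : ℕ} {ρ : ℕ → ℕ}
    {inp : List ℕ} {T T' : ℕ} (h : (orun P n O w ρ inp T).cfg.halted = true) (hT : T ≤ T') :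
    orun P n O w ρ inp T' = orun P n O w ρ inp T := by
  induction T', hT using Nat.le_induction with
  | base => rfl
  | succ k _ ih =>
    have : orun P n O w ρ inp (k + 1) = ostep P n O w ρ (orun P n O w ρ inp k) :=
      Function.iterate_succ_apply' _ _ _
    rw [this, ih, ostep, if_pos h]

theorem oram_exists_k (A E D : ℕ) : ∃ k, 4 ≤ k ∧ A * (E + 3 * k) ^ D ≤ 2 ^ k := by
  have h := tendsto_pow_const_div_const_pow_of_one_lt D (r := 2) (by norm_num)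
  have h1 := h.eventually (gt_mem_nhds (show (0 : ℝ) < 1 / (A * 4 ^ D + 1) by positivity))
  obtain ⟨k, hk, hk1, hk2⟩ := (h1.and ((Filter.eventually_ge_atTop 4).and
    (Filter.eventually_ge_atTop E))).exists
  refine ⟨k, hk1, ?_⟩
  rw [div_lt_div_iff₀ (by positivity) (by positivity), one_mul] at hk
  have h2 : k ^ D * (A * 4 ^ D + 1) < 2 ^ k := by exact_mod_cast hk
  calc A * (E + 3 * k) ^ D ≤ A * (4 * k) ^ D := by gcongr; omega
    _ = k ^ D * (A * 4 ^ D) := by rw [mul_pow]; ring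
    _ ≤ k ^ D * (A * 4 ^ D + 1) := by gcongr; omega
    _ ≤ _ := h2.le

theorem oram_clog_le (x : ℕ) : Nat.clog 2 (x + 2) ≤ x + 1 := by
  refine Nat.clog_le_of_le_pow ?_
  have := Nat.lt_two_pow_self (n := x + 1)
  omega

theorem oram_le_pow (x : ℕ) : x + 2 ≤ 2 ^ Nat.clog 2 (x + 2) := Nat.le_pow_clog (by norm_num) _

theorem oram_sz (x : ℕ) : sz x ≤ 4 * Nat.clog 2 (x + 2) + 1 :=
  sz_nat_le_of_lt (by have := oram_le_pow x; omega)

theorem oram_inv {ε : ℚ} (hε : 0 < ε) : ε⁻¹ = (ε.den : ℚ) / (ε.num.natAbs : ℕ) := by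
  have h : 0 < ε.num := Rat.num_pos.2 hε
  have h1 : ((ε.num.natAbs : ℕ) : ℚ) = ε.num := by
    rw [Nat.cast_natAbs, abs_of_pos h]
  rw [h1, ← inv_div, Rat.num_div_den]

theorem oram_div_le {ε : ℚ} (hε : 0 < ε) : ε.den / ε.num.natAbs ≤ ⌈ε⁻¹⌉₊ := by
  have h1 : ((ε.den / ε.num.natAbs : ℕ) : ℚ) ≤ (⌈ε⁻¹⌉₊ : ℕ) :=
    (Nat.cast_div_le.trans (oram_inv hε).ge).trans (Nat.le_ceil _)
  exact_mod_cast h1

theorem oram_ceil_le {ε : ℚ} (hε : 0 < ε) : ⌈ε⁻¹⌉₊ ≤ ε.den := by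
  have h : 0 < ε.num := Rat.num_pos.2 hε
  have h1 : (1 : ℚ) ≤ (ε.num.natAbs : ℕ) := by
    have : 1 ≤ ε.num.natAbs := by omega
    exact_mod_cast this
  rw [Nat.ceil_le, oram_inv hε]
  exact div_le_self (by positivity) h1

theorem oram_sz_inp (n R : ℕ) {ε : ℚ} (hε : 0 < ε) (δ : ℚ) :
    sz (inpOf n R ε δ) ≤ 15 * (sizeParam n R ε δ + 1) := by
  have h1 := sz_nat_le_self n
  have h2 := oram_sz R
  have h3 := oram_sz ε.num.natAbs
  have h4 := oram_sz ε.den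
  have h5 := oram_sz δ.num.natAbs
  have h6 := oram_sz δ.den
  have h7 := oram_div_le hε
  simp only [inpOf, countInput, sz_mk, sz_un, sz_cons, sz_nil, sizeParam]
  omega

theorem oram_size_le (n R : ℕ) {ε : ℚ} (hε : 0 < ε) (δ : ℚ) :
    sizeParam n R ε δ + 1 ≤ 4 * (n + R + ε.num.natAbs + ε.den + δ.num.natAbs + δ.den + 2) := by
  have h2 := oram_clog_le R
  have h3 := oram_clog_le ε.num.natAbs
  have h4 := oram_clog_le ε.den
  have h5 := oram_clog_le δ.num.natAbs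
  have h6 := oram_clog_le δ.den
  have h7 := oram_ceil_le hε
  unfold sizeParam
  omega

theorem oram_clog_le_size (n R : ℕ) (ε δ : ℚ) :
    Nat.clog 2 (n + R + ε.num.natAbs + ε.den + δ.num.natAbs + δ.den + 2) ≤
      3 * (sizeParam n R ε δ + 1) := by
  have key : ∀ k, k ≤ sizeParam n R ε δ → 2 ^ k ≤ 2 ^ sizeParam n R ε δ := fun k hk =>
    Nat.pow_le_pow_right (by norm_num) hk
  have h1 := (Nat.lt_two_pow_self (n := n)).le.trans (key n (by unfold sizeParam; omega))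
  have h2 := (oram_le_pow R).trans (key _ (by unfold sizeParam; omega))
  have h3 := (oram_le_pow ε.num.natAbs).trans (key _ (by unfold sizeParam; omega))
  have h4 := (oram_le_pow ε.den).trans (key _ (by unfold sizeParam; omega))
  have h5 := (oram_le_pow δ.num.natAbs).trans (key _ (by unfold sizeParam; omega))
  have h6 := (oram_le_pow δ.den).trans (key _ (by unfold sizeParam; omega))
  have : Nat.clog 2 (n + R + ε.num.natAbs + ε.den + δ.num.natAbs + δ.den + 2) ≤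
      sizeParam n R ε δ + 3 := by
    refine Nat.clog_le_of_le_pow ?_
    rw [pow_add]
    omega
  omega

/-- the choice of the constants -/
theorem oram_consts (c d c' d' : ℕ) : ∃ c₀ C D : ℕ, 4 ≤ c₀ ∧ ∀ S z ℓ : ℕ, 1 ≤ ℓ →
    z ≤ 15 * (S + 1) → S + 1 ≤ 4 * 2 ^ ℓ → ℓ ≤ 3 * (S + 1) →
    (c' + 1) * (c * (z + c₀ * ℓ) ^ d + c₀ * ℓ + 1) ^ (d' + 1) ≤ C * (S + 1) ^ D ∧
      C * (S + 1) ^ D ≤ 2 ^ (c₀ * ℓ - 1) := by
  obtain ⟨A, hA⟩ : ∃ A, A = (c' + 1) * (c + 2) ^ (d' + 1) := ⟨_, rfl⟩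
  obtain ⟨D, hD⟩ : ∃ D, D = (d + 1) * (d' + 1) := ⟨_, rfl⟩
  obtain ⟨k, hk, hk2⟩ := oram_exists_k (2 * A) (15 + 9 * D) D
  refine ⟨3 * D + k, A * (15 + 9 * D + 3 * k) ^ D, D, by omega, fun S z ℓ h1 h2 h3 h4 => ⟨?_, ?_⟩⟩
  · obtain ⟨X, hX⟩ : ∃ X, X = (15 + 9 * D + 3 * k) * (S + 1) := ⟨_, rfl⟩
    have e1 : z + (3 * D + k) * ℓ ≤ X := by
      have : (3 * D + k) * ℓ ≤ (3 * D + k) * (3 * (S + 1)) := Nat.mul_le_mul_left _ h4
      rw [hX]; nlinarith
    have e2 : 1 ≤ X := by rw [hX]; nlinarith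
    have e3 : X ^ d ≤ X ^ (d + 1) := Nat.pow_le_pow_right e2 (by omega)
    have e4 : X ≤ X ^ (d + 1) := Nat.le_self_pow (by omega) X
    have e5 : (z + (3 * D + k) * ℓ) ^ d ≤ X ^ (d + 1) := (Nat.pow_le_pow_left e1 d).trans e3
    have e6 : c * (z + (3 * D + k) * ℓ) ^ d + (3 * D + k) * ℓ + 1 ≤ (c + 2) * X ^ (d + 1) := by
      have := Nat.mul_le_mul_left c e5
      nlinarith
    calc (c' + 1) * (c * (z + (3 * D + k) * ℓ) ^ d + (3 * D + k) * ℓ + 1) ^ (d' + 1)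
        ≤ (c' + 1) * ((c + 2) * X ^ (d + 1)) ^ (d' + 1) := by gcongr
      _ = A * X ^ D := by rw [mul_pow, ← pow_mul, hA, hD, mul_assoc]
      _ = _ := by rw [hX, mul_pow, mul_assoc]
  · have e1 : S + 1 ≤ 2 ^ (3 * ℓ) := by
      refine h3.trans ?_
      calc 4 * 2 ^ ℓ = 2 ^ (ℓ + 2) := by ring
        _ ≤ _ := Nat.pow_le_pow_right (by norm_num) (by omega)
    have e2 : (S + 1) ^ D ≤ 2 ^ (3 * ℓ * D) := by
      rw [pow_mul]; exact Nat.pow_le_pow_left e1 D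
    have e3 : k + 3 * ℓ * D ≤ (3 * D + k) * ℓ - 1 + 1 := by
      have : k ≤ k * ℓ := Nat.le_mul_of_pos_right _ h1
      have : (3 * D + k) * ℓ = 3 * ℓ * D + k * ℓ := by ring
      omega
    have e4 : 2 * (A * (15 + 9 * D + 3 * k) ^ D * (S + 1) ^ D) ≤ 2 * 2 ^ ((3 * D + k) * ℓ - 1) := by
      calc 2 * (A * (15 + 9 * D + 3 * k) ^ D * (S + 1) ^ D)
          = 2 * A * (15 + 9 * D + 3 * k) ^ D * (S + 1) ^ D := by ring
        _ ≤ 2 ^ k * 2 ^ (3 * ℓ * D) := Nat.mul_le_mul hk2 e2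
        _ = 2 ^ (k + 3 * ℓ * D) := by rw [pow_add]
        _ ≤ 2 ^ ((3 * D + k) * ℓ - 1 + 1) := Nat.pow_le_pow_right (by norm_num) e3
        _ = _ := by rw [pow_succ']
    omega

theorem oram_Pr {t k B : ℕ} (h : t + k ≤ B) (G : List Bool → Prop) :
    Pr B (fun l => G ((l.drop t).take k)) = Pr k G := by
  rw [← Pr_take (k := k) (n := B - t) (by omega) G]
  exact Ex_drop (k := t) (by omega) fun l => ind (G (l.take k))

theorem exists_oram (F : Orc → (Un × List ℕ) × List Bool → ℚ) (hF : OPT F) (h0 : ∀ O a, 0 ≤ F O a)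
    (len : Un × List ℕ → ℕ) (hl : PT len) (hb : PB len) :
    ∃ (P : OProgram) (c₀ C d : ℕ), ∀ (n R : ℕ) (ε δ : ℚ) (O : Bool → Finset (Fin n) → ℕ),
      0 < ε → (∀ b A, O b A ≤ R + 1) →
      (∀ ρ : ℕ → ℕ, (orun P n O (wlen c₀ n R ε δ) ρ (countInput n R ε δ)
          (C * (sizeParam n R ε δ + 1) ^ d)).cfg.halted = true ∧
        ∃ l : List Bool, decodeRat (wlen c₀ n R ε δ) (orun P n O (wlen c₀ n R ε δ) ρ
          (countInput n R ε δ) (C * (sizeParam n R ε δ + 1) ^ d)).cfg.output =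
            some (F (orcOf O) (inpOf n R ε δ, l))) ∧
      ∀ E : ℚ → Prop, Pr (len (inpOf n R ε δ)) (fun l => E (F (orcOf O) (inpOf n R ε δ, l))) ≤
        oprobAfter P n O (wlen c₀ n R ε δ) (countInput n R ε δ) (C * (sizeParam n R ε δ + 1) ^ d)
          fun c => ∃ z : ℚ, decodeRat (wlen c₀ n R ε δ) c.cfg.output = some z ∧ E z := by
  obtain ⟨σ, _, m, hnx, hrd, hwr, hfin, c, d, H⟩ := exists_omac F hF h0 len hl hb
  obtain ⟨P, c', d', H'⟩ := m.ram hnx hrd hwr hfin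
  obtain ⟨c₀, C, D, hc₀, hC⟩ := oram_consts c d c' d'
  refine ⟨P, c₀, C, D, fun n R ε δ O hε hO => ?_⟩
  have h1 := oram_sz_inp n R hε δ
  have h2 := oram_size_le n R hε δ
  have h3 := oram_clog_le_size n R ε δ
  have h4 : n + R + ε.num.natAbs + ε.den + δ.num.natAbs + δ.den + 2 ≤ 2 ^ _ :=
    Nat.le_pow_clog (b := 2) (by norm_num) _
  have h5 : 1 ≤ Nat.clog 2 (n + R + ε.num.natAbs + ε.den + δ.num.natAbs + δ.den + 2) :=
    Nat.clog_pos (by norm_num) (by omega)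
  unfold wlen
  generalize Nat.clog 2 (n + R + ε.num.natAbs + ε.den + δ.num.natAbs + δ.den + 2) = ℓ at *
  obtain ⟨h6, h7⟩ := hC (sizeParam n R ε δ) _ ℓ h5 h1 (by omega) h3
  have hw : 4 * ℓ ≤ c₀ * ℓ := Nat.mul_le_mul_right _ hc₀
  generalize c₀ * ℓ = w at *
  generalize C * (sizeParam n R ε δ + 1) ^ D = T at *
  have h8 : 2 ^ ℓ ≤ 2 ^ w := Nat.pow_le_pow_right (by norm_num) (by omega)
  have h9 : 2 ^ 3 ≤ 2 ^ (w - 1) := Nat.pow_le_pow_right (by norm_num) (by omega)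
  obtain ⟨B, hB⟩ : ∃ B, B = c * (sz (inpOf n R ε δ) + w) ^ d + w := ⟨_, rfl⟩
  rw [← hB] at h6
  have e1 : c' * (B + 1) ^ d' * (B + 1) ≤ T := by
    refine le_trans ?_ h6
    rw [pow_succ, mul_assoc]
    exact Nat.mul_le_mul_right _ (by omega)
  have e2 : B + 1 ≤ T := by
    refine le_trans ?_ h6
    exact (Nat.le_self_pow (by omega) _).trans (Nat.le_mul_of_pos_left _ (by omega))
  have e3 : c' * (B + 1) ^ d' ≤ 2 ^ (w - 1) :=
    ((Nat.le_mul_of_pos_right _ (by omega)).trans e1).trans h7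
  have hO' : ∀ b A, O b A < 2 ^ w := fun b A => by have := hO b A; omega
  obtain ⟨t₀, ht₀, H1⟩ := H n R ε δ O w B (by omega) hO' (by omega) (by omega)
  have key : ∀ ρ : ℕ → ℕ, (orun P n O w ρ (countInput n R ε δ) T).cfg.halted = true ∧
      decodeRat w (orun P n O w ρ (countInput n R ε δ) T).cfg.output = some (F (orcOf O)
        (inpOf n R ε δ, ((lowBits w ρ B).drop t₀).take (len (inpOf n R ε δ)))) := by
    intro ρ
    obtain ⟨out, ho, hd⟩ := (H1 (lowBits w ρ B)).2 (by simp [lowBits])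
    obtain ⟨h10, h11⟩ := H' n O (countInput n R ε δ) B B w ρ
      (by simp only [countInput, List.mem_cons, List.not_mem_nil, or_false]; omega)
      (by simp only [countInput, List.length_cons, List.length_nil]; omega) hO' (by omega) e3
      (fun k _ => (H1 _).1) out ho
    rw [oram_halted h10 e1, h11]
    exact ⟨h10, hd⟩
  refine ⟨fun ρ => ⟨(key ρ).1, _, (key ρ).2⟩, fun E => ?_⟩
  rw [← oram_Pr ht₀, ← uniformProb_low w T B (by omega) (by omega)]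
  exact rp_uniformProb_mono fun tab ht => ⟨_, (key _).2, ht⟩

end Crest.Agent.R302
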