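import Crest.Agent.R302.Ifc
import Crest.Agent.R302.ORam

/-!
# R302/Fin: the two statements, given the approximation scheme
-/

set_option autoImplicit false

namespace Crest.Agent.R302

open Finset Crest.Agent.Lib.PT Crest.Agent.R309 Crest.OracleRAM Crest.Polymatroid

/-- the conclusion of both statements, for the oracle `O` and the count `N` -/
def Concl (P : OProgram) (c₀ C d n R : ℕ) (ε δ : ℚ) (O : Bool → Finset (Fin n) → ℕ) (N : ℕ) : Prop :=
  (∀ ρ : ℕ → ℕ, (orun P n O (wlen c₀ n R ε δ) ρ (countInput n R ε δ)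
      (C * (sizeParam n R ε δ + 1) ^ d)).cfg.halted = true) ∧
  (∀ ρ : ℕ → ℕ, ∃ z : ℚ, 0 ≤ z ∧ decodeRat (wlen c₀ n R ε δ) (orun P n O (wlen c₀ n R ε δ) ρ
      (countInput n R ε δ) (C * (sizeParam n R ε δ + 1) ^ d)).cfg.output = some z) ∧
  (N = 0 → ∀ ρ : ℕ → ℕ, decodeRat (wlen c₀ n R ε δ) (orun P n O (wlen c₀ n R ε δ) ρ
      (countInput n R ε δ) (C * (sizeParam n R ε δ + 1) ^ d)).cfg.output = some 0) ∧
  1 - (δ : ℝ) ≤ oprobAfter P n O (wlen c₀ n R ε δ) (countInput n R ε δ)
      (C * (sizeParam n R ε δ + 1) ^ d)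
      fun c => ∃ z : ℚ, decodeRat (wlen c₀ n R ε δ) c.cfg.output = some z ∧
        (1 - ε) * N ≤ z ∧ z ≤ (1 + ε) * N

variable {ct : (Bool × List Bool → ℤ) → (Un × List ℕ) × List Bool → ℚ} {len : Un × List ℕ → ℕ}

/-- `exists_oram` for `F O a = ct (h O a.1) a` (`HOPT.app`) -/
theorem fin_gen (H : CountSpec ct len) (h : Orc → Un × List ℕ → Qy → ℤ)
    (hh : OPT fun O (p : (Un × List ℕ) × Qy) => h O p.1 p.2) :
    ∃ (P : OProgram) (c₀ C d : ℕ), ∀ (n R : ℕ) (ε δ : ℚ) (O : Bool → Finset (Fin n) → ℕ)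
      (r₁ r₂ : Finset (Fin n) → ℤ), 0 < ε → 0 < δ → (∀ b A, O b A ≤ R + 1) → PM R r₁ r₂ →
      Calls₂ (h (orcOf O) (inpOf n R ε δ)) r₁ r₂ →
      Concl P c₀ C d n R ε δ O (CB R r₁ r₂ 0 fun _ => R).card := by
  have hF : OPT fun O (a : (Un × List ℕ) × List Bool) => ct (h O a.1) a :=
    H.pt.app (h := fun O (c : (Un × List ℕ) × List Bool) i => h O c.1 i)
      (OPT.call hh (e := fun c : ((Un × List ℕ) × List Bool) × Qy => c.1.1) (q := fun c => c.2)
        (by fun_prop) (by fun_prop)) (OPT.pure PT.id)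
  obtain ⟨P, c₀, C, d, hP⟩ := exists_oram _ hF (fun O a => H.nonneg _ _) len H.len_pt H.len_pb
  refine ⟨P, c₀, C, d, fun n R ε δ O r₁ r₂ hε hδ hO hPM hc => ?_⟩
  obtain ⟨h1, h2⟩ := hP n R ε δ O hε hO
  refine ⟨fun ρ => (h1 ρ).1, fun ρ => ?_, fun hN ρ => ?_, ?_⟩
  · obtain ⟨l, hl⟩ := (h1 ρ).2
    exact ⟨_, H.nonneg _ _, hl⟩
  · obtain ⟨l, hl⟩ := (h1 ρ).2
    rw [hl]
    exact congrArg some (H.zero n R ε δ r₁ r₂ _ hPM hc hN l)
  · exact (H.good n R ε δ r₁ r₂ _ hPM hc hε hδ).trans (h2 fun z =>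
      (1 - ε) * (CB R r₁ r₂ 0 fun _ => R).card ≤ z ∧ z ≤ (1 + ε) * (CB R r₁ r₂ 0 fun _ => R).card)

theorem fin_card61 {n R : ℕ} (r₁ r₂ : Finset (Fin n) → ℕ) :
    numCommonIntBases R r₁ r₂ =
      (CB R (fun A => (r₁ A : ℤ)) (fun A => (r₂ A : ℤ)) 0 fun _ => R).card := by
  unfold numCommonIntBases
  refine card_bij (fun x _ j => ((x j : ℕ) : ℤ)) (fun x hx => ?_) (fun x _ y _ e => ?_)
    fun y hy => ?_
  · obtain ⟨-, h1, h2⟩ := mem_filter.1 hx
    refine mem_CB.2 ⟨fun j => ⟨by simp, ?_⟩, fun A => ?_, fun A => ?_, ?_⟩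
    · have := (x j).2
      omega
    · beta_reduce; exact_mod_cast (h2 A).1
    · beta_reduce; exact_mod_cast (h2 A).2
    · exact_mod_cast h1
  · funext j
    have := congrFun e j
    exact Fin.ext (by exact_mod_cast this)
  · obtain ⟨h1, h2, h3, h4⟩ := mem_CB.1 hy
    have h0 : ∀ j, 0 ≤ y j := fun j => (h1 j).1
    have e : ∀ j, ((y j).toNat : ℤ) = y j := fun j => Int.toNat_of_nonneg (h0 j)
    refine ⟨fun j => ⟨(y j).toNat, by have := (h1 j).2; omega⟩, mem_filter.2 ⟨mem_univ _, ?_,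
      fun A => ⟨?_, ?_⟩⟩, funext e⟩
    · zify; simpa only [e] using h4
    · zify; simpa only [e] using h2 A
    · zify; simpa only [e] using h3 A

/-- `h O a q = min (O q) R` (`OPT.ask`); the bijection `x ↦ (x j : ℤ)` -/
theorem fin61 (H : CountSpec ct len) :
    ∃ (P : OProgram) (c₀ C d : ℕ), ∀ (n R : ℕ) (r₁ r₂ : Finset (Fin n) → ℕ) (ε δ : ℚ),
      IsPolymatroidRank r₁ → IsPolymatroidRank r₂ → r₁ Finset.univ = R → r₂ Finset.univ = R →
      0 < ε → 0 < δ →
      Concl P c₀ C d n R ε δ (fun b => if b then r₂ else r₁) (numCommonIntBases R r₁ r₂) := by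
  have hh : OPT fun O (p : (Un × List ℕ) × Qy) => ((min (O p.2) (p.1.2.getD 1 0) : ℕ) : ℤ) :=
    OPT.post (g := fun z : ℕ => (z : ℤ)) (by fun_prop)
      (OPT.ask.pre (f := fun p : (Un × List ℕ) × Qy => (p.2, p.1.2.getD 1 0)) (by fun_prop))
  obtain ⟨P, c₀, C, d, hP⟩ := fin_gen H (fun O a q => ((min (O q) (a.2.getD 1 0) : ℕ) : ℤ)) hh
  refine ⟨P, c₀, C, d, fun n R r₁ r₂ ε δ h₁ h₂ e₁ e₂ hε hδ => ?_⟩
  have b₁ : ∀ A, r₁ A ≤ R := fun A => e₁ ▸ h₁.2.1 A univ (subset_univ A)
  have b₂ : ∀ A, r₂ A ≤ R := fun A => e₂ ▸ h₂.2.1 A univ (subset_univ A)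
  rw [fin_card61]
  refine hP n R ε δ _ _ _ hε hδ (fun b A => ?_) ⟨fun A B => ?_, fun A B => ?_, by simp [h₁.1],
    by simp [h₂.1], by simp [e₁], by simp [e₂], fun A => ?_⟩ ⟨fun l => ?_, fun l => ?_⟩
  · cases b
    · exact (b₁ A).trans (Nat.le_succ R)
    · exact (b₂ A).trans (Nat.le_succ R)
  · exact_mod_cast h₁.2.2 A B
  · exact_mod_cast h₂.2.2 A B
  · have := b₁ A
    have := b₂ A
    omega
  · exact congrArg Nat.cast (min_eq_left (b₁ (sOf n l)))
  · exact congrArg Nat.cast (min_eq_left (b₂ (sOf n l)))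

/-- one step of the greedy algorithm -/
def finStep (O : Orc) (b : Bool) (q I : List Bool) : List Bool :=
  I ++ [q.getD I.length false && decide (min (O (b, I ++ [true])) 1 = 1)]

/-- the rank by the greedy algorithm -/
def finRank (O : Orc) (n : ℕ) (b : Bool) (q : List Bool) : ℤ :=
  ((((finStep O b q)^[n] []).count true : ℕ) : ℤ)

theorem fin_length (O : Orc) (b : Bool) (q : List Bool) (k : ℕ) :
    ((finStep O b q)^[k] []).length = k := by
  induction k with
  | zero => rfl
  | succ k ih => rw [Function.iterate_succ_apply', finStep, List.length_append, ih]; rfl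

theorem finRank_opt : OPT fun O (p : (Un × List ℕ) × Qy) =>
    finRank O (min (p.1.2.getD 0 0) p.1.1.n) p.2.1 p.2.2 := by
  unfold finRank
  refine OPT.post (g := fun I : List Bool => ((I.count true : ℕ) : ℤ)) (by fun_prop) ?_
  refine OPT.iterate (f := fun O (p : (Un × List ℕ) × Qy) => finStep O p.2.1 p.2.2)
    (by fun_prop) (PB.min_right _ (by fun_prop)) (OPT.pure (PT.const [])) ?_
    (B := fun p => 4 * p.1.1.n + 1) (by fun_prop) fun O a k hk => ?_
  · unfold finStep
    exact OPT.cont (g := fun (p : ((Un × List ℕ) × Qy) × List Bool) (z : ℕ) =>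
        p.2 ++ [p.1.2.2.getD p.2.length false && decide (z = 1)])
      (OPT.ask.pre (f := fun p : ((Un × List ℕ) × Qy) × List Bool =>
        ((p.1.2.1, p.2 ++ [true]), 1)) (by fun_prop)) (by fun_prop)
  · have h1 := sz_boolList_le ((finStep O a.2.1 a.2.2)^[k] [])
    rw [fin_length] at h1
    have := min_le_right (a.1.2.getD 0 0) a.1.1.n
    omega

theorem fin_mem_snoc {n : ℕ} (I : List Bool) (x : Bool) (j : Fin n) :
    j ∈ sOf n (I ++ [x]) ↔ j ∈ sOf n I ∨ (j.val = I.length ∧ x = true) := by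
  rw [mem_sOf, mem_sOf]
  rcases lt_trichotomy j.val I.length with h | h | h
  · rw [List.getD_append _ _ _ _ h]
    simp [h.ne]
  · rw [List.getD_append_right _ _ _ _ h.ge, List.getD_eq_default _ _ h.ge]
    simp [h]
  · rw [List.getD_eq_default _ _ (by simp; omega), List.getD_eq_default _ _ h.le]
    simp [h.ne']

theorem fin_snoc_false {n : ℕ} (I : List Bool) : sOf n (I ++ [false]) = sOf n I := by
  ext j; simp only [fin_mem_snoc]; simp

theorem fin_snoc_true {n : ℕ} (I : List Bool) (h : I.length < n) :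
    sOf n (I ++ [true]) = insert ⟨I.length, h⟩ (sOf n I) := by
  ext j; simp only [fin_mem_snoc, mem_insert, Fin.ext_iff]; tauto

theorem fin_not_mem {n : ℕ} (I : List Bool) (h : I.length < n) :
    (⟨I.length, h⟩ : Fin n) ∉ sOf n I := by
  rw [mem_sOf, List.getD_eq_default _ _ le_rfl]; simp

theorem fin_greedy {n : ℕ} {M : Matroid (Fin n)} (hM : M.E = Set.univ) {O : Orc} {b : Bool}
    (hO : ∀ l, min (O (b, l)) 1 = 1 ↔ M.Indep (sOf n l : Set (Fin n))) (q : List Bool) (k : ℕ)
    (hk : k ≤ n) :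
    ((finStep O b q)^[k] []).count true = (sOf n ((finStep O b q)^[k] [])).card ∧
      M.IsBasis (sOf n ((finStep O b q)^[k] []) : Set (Fin n)) {j | j ∈ sOf n q ∧ j.val < k} := by
  induction k with
  | zero =>
    have e : sOf n [] = ∅ := by ext j; simp
    simp [e]
  | succ k ih =>
    obtain ⟨h1, h2⟩ := ih (by omega)
    have h3 := fin_length O b q k
    rw [Function.iterate_succ_apply']
    generalize (finStep O b q)^[k] [] = I at h1 h2 h3
    subst h3
    have hl : I.length < n := hk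
    unfold finStep
    by_cases hq : q.getD I.length false = true
    · have e : {j : Fin n | j ∈ sOf n q ∧ j.val < I.length + 1} =
          insert ⟨I.length, hl⟩ {j : Fin n | j ∈ sOf n q ∧ j.val < I.length} := by
        ext j
        simp only [Set.mem_ofPred_eq, Set.mem_insert_iff, Fin.ext_iff, mem_sOf]
        constructor
        · rintro ⟨h4, h5⟩
          rcases Nat.lt_succ_iff_lt_or_eq.1 h5 with h | h
          · exact Or.inr ⟨h4, h⟩
          · exact Or.inl h
        · rintro (h | ⟨h4, h5⟩)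
          · exact ⟨h ▸ hq, by omega⟩
          · exact ⟨h4, by omega⟩
      rw [e]
      by_cases hi : min (O (b, I ++ [true])) 1 = 1
      · rw [hq, decide_eq_true hi, Bool.and_self, fin_snoc_true I hl,
          card_insert_of_notMem (fin_not_mem I hl)]
        rw [hO, fin_snoc_true I hl, coe_insert] at hi
        exact ⟨by simp [h1], by rw [coe_insert]; exact h2.insert_isBasis_insert hi⟩
      · rw [decide_eq_false hi, Bool.and_false, fin_snoc_false]
        rw [hO, fin_snoc_true I hl, coe_insert] at hi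
        refine ⟨by simp [h1], ?_⟩
        have h4 := h2.isBasis_union (h2.indep.isBasis_insert_iff.2
          (Or.inl ⟨hi, by rw [hM]; exact Set.subset_univ _⟩))
        rwa [Set.union_insert, Set.union_eq_self_of_subset_right h2.subset] at h4
    · have e : {j : Fin n | j ∈ sOf n q ∧ j.val < I.length + 1} =
          {j : Fin n | j ∈ sOf n q ∧ j.val < I.length} := by
        ext j
        simp only [Set.mem_ofPred_eq, mem_sOf]
        refine and_congr_right fun h4 => ⟨fun h5 => ?_, fun h5 => by omega⟩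
        rcases Nat.lt_succ_iff_lt_or_eq.1 h5 with h | h
        · exact h
        · exact absurd (h ▸ h4) hq
      rw [e, Bool.eq_false_iff.2 hq, Bool.false_and, fin_snoc_false]
      exact ⟨by simp [h1], h2⟩

/-- the rank function -/
noncomputable def finRk {n : ℕ} (M : Matroid (Fin n)) (A : Finset (Fin n)) : ℕ :=
  (M.eRk (A : Set (Fin n))).toNat

theorem finRk_cast {n : ℕ} (M : Matroid (Fin n)) (A : Finset (Fin n)) :
    (finRk M A : ℕ∞) = M.eRk (A : Set (Fin n)) :=
  ENat.natCast_toNat (ne_top_of_le_ne_top (A.finite_toSet.encard_lt_top.ne) (M.eRk_le_encard _))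

theorem finRank_eq {n : ℕ} {M : Matroid (Fin n)} (hM : M.E = Set.univ) {O : Orc} {b : Bool}
    (hO : ∀ l, min (O (b, l)) 1 = 1 ↔ M.Indep (sOf n l : Set (Fin n))) (q : List Bool) :
    finRank O n b q = finRk M (sOf n q) := by
  obtain ⟨h1, h2⟩ := fin_greedy hM hO q n le_rfl
  have e : {j : Fin n | j ∈ sOf n q ∧ j.val < n} = (sOf n q : Set (Fin n)) := by
    ext j; simp
  rw [e] at h2
  have h3 := h2.encard_eq_eRk
  rw [← finRk_cast, Set.encard_coe_eq_coe_finsetCard] at h3
  unfold finRank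
  rw [h1]
  exact_mod_cast h3

theorem finRk_sub {n : ℕ} (M : Matroid (Fin n)) : Submod fun A => (finRk M A : ℤ) := by
  intro A B
  have h := M.eRk_inter_add_eRk_union_le A B
  rw [← coe_inter, ← coe_union, ← finRk_cast, ← finRk_cast, ← finRk_cast, ← finRk_cast] at h
  have h' : finRk M (A ∩ B) + finRk M (A ∪ B) ≤ finRk M A + finRk M B := by exact_mod_cast h
  beta_reduce
  omega

theorem finRk_le {n r : ℕ} {M : Matroid (Fin n)} (hr : M.eRank = r) (A : Finset (Fin n)) :
    finRk M A ≤ r := by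
  have h := M.eRk_le_eRank A
  rw [← finRk_cast, hr] at h
  exact_mod_cast h

theorem finRk_univ {n r : ℕ} {M : Matroid (Fin n)} (hr : M.eRank = r) : finRk M univ = r := by
  have h := finRk_cast M univ
  rw [coe_univ, M.eRk_univ_eq, hr] at h
  exact_mod_cast h

theorem fin_sum_chi {n : ℕ} (A B : Finset (Fin n)) : ∑ u ∈ A, chi B u = ((A ∩ B).card : ℤ) := by
  simp [chi]

theorem fin_base_iff {n r : ℕ} {M : Matroid (Fin n)} (hr : M.eRank = r) (B : Finset (Fin n)) :
    M.IsBase (B : Set (Fin n)) ↔ Below (fun A => (finRk M A : ℤ)) (chi B) ∧ B.card = r := by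
  constructor
  · intro h
    refine ⟨fun A => ?_, ?_⟩
    · have h1 := (h.indep.subset (I := ((A ∩ B : Finset (Fin n)) : Set (Fin n)))
        (by simp)).encard_le_eRk_of_subset (X := A) (by simp)
      rw [← finRk_cast, Set.encard_coe_eq_coe_finsetCard] at h1
      rw [fin_sum_chi]
      beta_reduce
      exact_mod_cast h1
    · have h1 := h.encard_eq_eRank
      rw [hr, Set.encard_coe_eq_coe_finsetCard] at h1
      exact_mod_cast h1
  · rintro ⟨h1, h2⟩
    have h3 := h1 B
    rw [fin_sum_chi, inter_self] at h3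
    beta_reduce at h3
    have h4 : (B : Set (Fin n)).encard ≤ M.eRk B := by
      rw [← finRk_cast, Set.encard_coe_eq_coe_finsetCard]
      exact_mod_cast h3
    have h5 := (M.isRkFinite_of_finite B.finite_toSet).indep_of_encard_le_eRk h4
    refine h5.isBase_of_eRk_ge B.finite_toSet (le_trans (le_of_eq ?_) h4)
    rw [hr, Set.encard_coe_eq_coe_finsetCard, h2]

theorem fin_card62 {n r : ℕ} {M₁ M₂ : Matroid (Fin n)} (h₁ : M₁.eRank = r) (h₂ : M₂.eRank = r) :
    numCommonBases M₁ M₂ =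
      (CB r (fun A => (finRk M₁ A : ℤ)) (fun A => (finRk M₂ A : ℤ)) 0 fun _ => r).card := by
  classical
  unfold numCommonBases
  refine card_bij (fun B _ => chi B) (fun B hB => ?_) (fun B _ B' _ e => ?_) fun y hy => ?_
  · obtain ⟨-, h3, h4⟩ := mem_filter.1 hB
    rw [fin_base_iff h₁] at h3
    rw [fin_base_iff h₂] at h4
    refine mem_CB.2 ⟨fun j => ?_, h3.1, h4.1, by rw [fin_sum_chi, univ_inter, h3.2]⟩
    unfold chi
    split_ifs with h
    · have := card_pos.2 ⟨j, h⟩
      have := h3.2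
      simp only [Pi.zero_apply]
      omega
    · simp
  · ext j
    have := congrFun e j
    unfold chi at this
    by_cases h : j ∈ B <;> by_cases h' : j ∈ B' <;> simp_all
  · obtain ⟨h3, h4, h5, h6⟩ := mem_CB.1 hy
    have e : chi (univ.filter fun j => y j = 1) = y := by
      funext j
      have h7 : 0 ≤ y j := (h3 j).1
      have h8 := h4 {j}
      have h9 := M₁.eRk_singleton_le j
      rw [← coe_singleton, ← finRk_cast] at h9
      have h10 : finRk M₁ {j} ≤ 1 := by exact_mod_cast h9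
      simp only [sum_singleton] at h8
      simp only [chi, mem_filter, mem_univ, true_and]
      split_ifs <;> omega
    have hc : (univ.filter fun j => y j = 1).card = r := by
      rw [← e, fin_sum_chi, univ_inter] at h6
      exact_mod_cast h6
    refine ⟨_, mem_filter.2 ⟨mem_univ _, ?_, ?_⟩, e⟩
    · rw [fin_base_iff h₁, e]; exact ⟨h4, hc⟩
    · rw [fin_base_iff h₂, e]; exact ⟨h5, hc⟩

/-- The rank functions are `A ↦ (M.eRk A).toNat`.  `h O a (b, q)` runs the greedy algorithm: fold over `j < n` (`n = min inp[0] v`, unary) a list `I` of `n` bits, putting `j` into `I` if `q.getD j false` and the oracle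
accepts `I ∪ {j}`; at each stage `I` is a basis of `A ∩ {< j}`, and the result is the number of elements.  A vector in `CB` has entries `0 ≤ x j ≤ rank {j} ≤ 1`, so it is the indicator of a set `B` with
`|B| ≤ rank B` and `|B| = r`: a common base; conversely for a base `B`, `|B ∩ A| ≤ rank A`. -/
theorem fin62 (H : CountSpec ct len) :
    ∃ (P : OProgram) (c₀ C d : ℕ), ∀ (n r : ℕ) (M₁ M₂ : Matroid (Fin n)) (ε δ : ℚ),
      M₁.E = Set.univ → M₂.E = Set.univ → M₁.eRank = r → M₂.eRank = r → 0 < ε → 0 < δ →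
      Concl P c₀ C d n r ε δ (indepOracle M₁ M₂) (numCommonBases M₁ M₂) := by
  obtain ⟨P, c₀, C, d, hP⟩ := fin_gen H
    (fun O a q => finRank O (min (a.2.getD 0 0) a.1.n) q.1 q.2) finRank_opt
  refine ⟨P, c₀, C, d, fun n r M₁ M₂ ε δ g₁ g₂ e₁ e₂ hε hδ => ?_⟩
  rw [fin_card62 e₁ e₂]
  have hn : min ((inpOf n r ε δ).2.getD 0 0) (inpOf n r ε δ).1.n = n :=
    min_eq_left (Nat.le_add_right _ _)
  have hO : ∀ (b : Bool) (l : List Bool), min (orcOf (indepOracle M₁ M₂) (b, l)) 1 = 1 ↔
      (if b then M₂ else M₁).Indep (sOf n l : Set (Fin n)) := by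
    intro b l
    change min (indepOracle M₁ M₂ b (sOf n l)) 1 = 1 ↔ _
    unfold indepOracle
    generalize (if b then M₂ else M₁).Indep (sOf n l : Set (Fin n)) = p
    by_cases hp : p <;> simp [hp]
  refine hP n r ε δ _ _ _ hε hδ (fun b A => ?_) ⟨finRk_sub M₁, finRk_sub M₂, by simp [finRk],
    by simp [finRk], by simp [finRk_univ e₁], by simp [finRk_univ e₂], fun A => ?_⟩
    ⟨fun l => ?_, fun l => ?_⟩
  · unfold indepOracle
    generalize (if b then M₂ else M₁).Indep (A : Set (Fin n)) = p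
    by_cases hp : p <;> simp [hp]
  · have := finRk_le e₁ A
    have := finRk_le e₂ A
    omega
  · simp only [hn]
    exact finRank_eq g₁ (hO false) l
  · simp only [hn]
    exact finRank_eq g₂ (hO true) l

end Crest.Agent.R302
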