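import Crest.Agent.R302.Ifc
import Crest.Agent.R309.Tape2

/-!
# R302/Frac: estimating a fraction (TASK)

Let `Q = G ^ e`, `N = G ^ 18`.  Split the tape `l` into `l.take Q` and the `N` blocks `chunks Q N (l.drop Q)`; run one shot on each block (`OPT.map`); `c₁` counts the shots with an output,
`c` those with an output `y` such that `y.getD u 0 ≤ t`.  Take `e' = e + 19`.  For a good preprocessing tape, with the constant `κ`: by `cheb_chunks` (`a = N / G ^ 7`, failure `G ^ 14 / N = G ^ (-4)` each)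
`|c / N - κ S| ≤ η`, `|c₁ / N - κ T| ≤ η` with `η = G ^ (-7) + G ^ (-10) ≤ 2 G ^ (-7)`, `κ T ≥ G ^ (-2)`, `0 ≤ S ≤ T`; so `c₁ > 0` and `|c / c₁ - S / T| ≤ 2 η / (κ T - η) ≤ G ^ (-4)`.
Total failure probability `≤ G ^ (-3) + 2 G ^ (-4)` (`Ex_take_drop`, `chunks_take`, `Pr_take`).
-/

set_option autoImplicit false

namespace Crest.Agent.R302

open Finset Crest.Agent.Lib.PT Crest.Agent.R309

theorem fr_count (b : List Bool → Bool) (L : List (List Bool)) :
    (L.map fun ω => ind (b ω = true)).sum = (L.countP b : ℝ) := by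
  induction L with
  | nil => simp
  | cons ω L ih =>
    rw [List.map_cons, List.sum_cons, ih, List.countP_cons]
    cases b ω <;> simp [ind, add_comm]

theorem fr_cheb (Q N : ℕ) (b : List Bool → Bool) {a : ℝ} (ha : 0 < a) :
    Pr (N * Q) (fun l => a ≤ |((chunks Q N l).countP b : ℝ) - N * Pr Q fun ω => b ω = true|) ≤
      N / a ^ 2 := by
  have := cheb_chunks Q N (fun ω => ind (b ω = true)) 1
    (fun ω _ => by rw [abs_of_nonneg (ind_nonneg _)]; exact ind_le_one _) a ha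
  simp only [fr_count, one_pow, mul_one] at this
  exact this

theorem fr_num {x y A r η δ : ℝ} (hr0 : 0 ≤ r) (hr1 : r ≤ 1) (hx : |x - r * A| ≤ η)
    (hy : |y - A| ≤ η) (hδ : 0 ≤ δ) (h : 2 * η ≤ δ * (A - η)) (h0 : η < A) :
    0 < y ∧ |x / y - r| ≤ δ := by
  obtain ⟨x1, x2⟩ := abs_le.1 hx
  obtain ⟨y1, y2⟩ := abs_le.1 hy
  have hy0 : 0 < y := by linarith
  have hη : 0 ≤ η := (abs_nonneg _).trans hx
  refine ⟨hy0, ?_⟩
  rw [div_sub' hy0.ne', abs_div, abs_of_pos hy0, div_le_iff₀ hy0, abs_le]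
  have h1 : δ * (A - η) ≤ δ * y := mul_le_mul_of_nonneg_left (by linarith) hδ
  have h2 : r * (y - A) ≤ η := by nlinarith
  have h3 : -η ≤ r * (y - A) := by nlinarith
  constructor <;> nlinarith

theorem fr_near {g c p q : ℝ} (hg : 0 < g) (h1 : ¬ g ^ 11 ≤ |c - g ^ 18 * p|)
    (h2 : |p - q| ≤ 1 / g ^ 10) : |c - g ^ 18 * q| ≤ g ^ 11 + g ^ 8 := by
  have h3 : |g ^ 18 * (p - q)| ≤ g ^ 8 := by
    rw [abs_mul, abs_of_pos (by positivity)]
    refine (mul_le_mul_of_nonneg_left h2 (by positivity)).trans (le_of_eq ?_)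
    field_simp
  have h4 := abs_add_le (c - g ^ 18 * p) (g ^ 18 * (p - q))
  rw [show c - g ^ 18 * p + g ^ 18 * (p - q) = c - g ^ 18 * q by ring] at h4
  linarith [not_le.1 h1]

theorem fr_main {G Q : ℕ} (hG : 8 ≤ G) (b b₁ : List Bool → Bool) {κ S T : ℝ} (hS : 0 ≤ S)
    (hT : S ≤ T) (hκ : 1 / (G : ℝ) ^ 2 ≤ κ * T)
    (h : |Pr Q (fun ω => b ω = true) - κ * S| ≤ 1 / (G : ℝ) ^ 10)
    (h₁ : |Pr Q (fun ω => b₁ ω = true) - κ * T| ≤ 1 / (G : ℝ) ^ 10) :
    1 - 2 / (G : ℝ) ^ 4 ≤ Pr (G ^ 18 * Q) fun l => 0 < (chunks Q (G ^ 18) l).countP b₁ ∧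
      |((chunks Q (G ^ 18) l).countP b : ℝ) / ((chunks Q (G ^ 18) l).countP b₁ : ℝ) - S / T| ≤
        1 / (G : ℝ) ^ 4 := by
  have hg : (8 : ℝ) ≤ G := by exact_mod_cast hG
  have hg0 : (0 : ℝ) < G := by linarith
  have hT0 : 0 < T := by
    refine lt_of_le_of_ne (hS.trans hT) fun h0 => ?_
    rw [← h0, mul_zero] at hκ
    exact absurd hκ (not_le.2 (by positivity))
  have c := fr_cheb Q (G ^ 18) b (a := (G : ℝ) ^ 11) (by positivity)
  have c₁ := fr_cheb Q (G ^ 18) b₁ (a := (G : ℝ) ^ 11) (by positivity)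
  have e : ((G ^ 18 : ℕ) : ℝ) / ((G : ℝ) ^ 11) ^ 2 = 1 / (G : ℝ) ^ 4 := by
    push_cast; field_simp
  rw [e, Nat.cast_pow] at c c₁
  have hu := (Pr_or_le _ _ _).trans (add_le_add c c₁)
  have hn := Pr_not (G ^ 18 * Q) fun l =>
    (G : ℝ) ^ 11 ≤ |((chunks Q (G ^ 18) l).countP b : ℝ) -
      (G : ℝ) ^ 18 * Pr Q fun ω => b ω = true| ∨
    (G : ℝ) ^ 11 ≤ |((chunks Q (G ^ 18) l).countP b₁ : ℝ) -
      (G : ℝ) ^ 18 * Pr Q fun ω => b₁ ω = true|
  have e2 : 2 / (G : ℝ) ^ 4 = 1 / (G : ℝ) ^ 4 + 1 / (G : ℝ) ^ 4 := by ring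
  refine le_trans (by linarith) (hn.ge.trans (Pr_mono fun l _ hl => ?_))
  rw [not_or] at hl
  have n := fr_near hg0 hl.1 h
  have n₁ := fr_near hg0 hl.2 h₁
  have hA : (G : ℝ) ^ 16 ≤ (G : ℝ) ^ 18 * (κ * T) := by
    refine le_trans (le_of_eq ?_) (mul_le_mul_of_nonneg_left hκ (by positivity))
    field_simp
  have p1 : (G : ℝ) ^ 8 ≤ (G : ℝ) ^ 11 := pow_le_pow_right₀ (by linarith) (by norm_num)
  have p2 : (G : ℝ) ^ 11 ≤ (G : ℝ) ^ 15 := pow_le_pow_right₀ (by linarith) (by norm_num)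
  have p3 : (G : ℝ) ^ 12 ≤ (G : ℝ) ^ 15 := pow_le_pow_right₀ (by linarith) (by norm_num)
  have p4 : 8 * (G : ℝ) ^ 15 ≤ (G : ℝ) ^ 16 := by
    rw [pow_succ' (G : ℝ) 15]; exact mul_le_mul_of_nonneg_right hg (by positivity)
  have p5 : (0 : ℝ) < (G : ℝ) ^ 15 := by positivity
  have := fr_num (x := ((chunks Q (G ^ 18) l).countP b : ℝ)) (r := S / T)
    (δ := 1 / (G : ℝ) ^ 4) (div_nonneg hS hT0.le) ((div_le_one hT0).2 hT)
    (by rw [show S / T * ((G : ℝ) ^ 18 * (κ * T)) = (G : ℝ) ^ 18 * (κ * S) by field_simp]; exact n)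
    n₁ (by positivity) (by
      rw [one_div, le_inv_mul_iff₀ (by positivity)]
      have : (G : ℝ) ^ 4 * (2 * ((G : ℝ) ^ 11 + (G : ℝ) ^ 8)) =
        2 * (G : ℝ) ^ 15 + 2 * (G : ℝ) ^ 12 := by ring
      linarith) (by linarith)
  exact ⟨by exact_mod_cast this.1, this.2⟩

/-- the test on the output of a shot -/
def frOk (u : ℕ) (t : ℤ) (o : Option (List ℤ)) : Bool :=
  o.elim false fun y => decide (y.getD u 0 ≤ t)

/-- the outputs of the shots -/
def frShots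
    (shot : (List Bool → ℤ) → (Un × List ℕ × List ℤ) × List Bool × List Bool → Option (List ℤ))
    (e : ℕ) (h : List Bool → ℤ) (a : (Un × List ℕ × List ℤ) × (ℕ × ℤ) × List Bool) :
    List (Option (List ℤ)) :=
  (chunks (a.1.1.n ^ e) (a.1.1.n ^ 18) (a.2.2.drop (a.1.1.n ^ e))).map fun ω =>
    shot h (a.1, a.2.2.take (a.1.1.n ^ e), ω)

theorem frShots_pt
    {shot : (List Bool → ℤ) → (Un × List ℕ × List ℤ) × List Bool × List Bool → Option (List ℤ)}
    (e : ℕ) (H : HOPT shot) : HOPT (frShots shot e) := by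
  intro α _ h hh
  refine OPT.map (l := fun _ (c : α × (Un × List ℕ × List ℤ) × (ℕ × ℤ) × List Bool) =>
      chunks (c.2.1.1.n ^ e) (c.2.1.1.n ^ 18) (c.2.2.2.drop (c.2.1.1.n ^ e)))
    (f := fun O c ω => shot (h O c.1) (c.2.1, c.2.2.2.take (c.2.1.1.n ^ e), ω))
    (OPT.pure (by fun_prop)) ?_
  exact (H α h hh).pre
    (f := fun c : (α × (Un × List ℕ × List ℤ) × (ℕ × ℤ) × List Bool) × List Bool =>
      (c.1.1, c.1.2.1, c.1.2.2.2.take (c.1.2.1.1.n ^ e), c.2)) (by fun_prop)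

theorem exists_frac
    {shot : (List Bool → ℤ) → (Un × List ℕ × List ℤ) × List Bool × List Bool → Option (List ℤ)}
    {e : ℕ} (h : CoreSpec shot e) : ∃ frac e', FracSpec frac e' := by
  refine ⟨fun h a => ((frShots shot e h a).countP (frOk a.2.1.1 a.2.1.2),
    (frShots shot e h a).countP Option.isSome), e + 19, fun α _ g hg => ?_, fun g a => ⟨?_, ?_⟩,
    fun m G f pr g pl x1 u t hF hC hP hK => ?_⟩
  · refine OPT.cont (g := fun (c : α × (Un × List ℕ × List ℤ) × (ℕ × ℤ) × List Bool)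
      (L : List (Option (List ℤ))) =>
        (L.countP (frOk c.2.2.1.1 c.2.2.1.2), L.countP Option.isSome))
      (frShots_pt e h.pt α g hg) ?_
    unfold frOk
    fun_prop
  · refine List.countP_mono_left fun o _ ho => ?_
    cases o with
    | none => exact ho
    | some y => rfl
  · refine List.countP_le_length.trans (le_of_eq ?_)
    rw [frShots, List.length_map, length_chunks]
  · have hG : 8 ≤ G := by
      rw [hF.pow]
      exact le_trans (by norm_num) (Nat.pow_le_pow_right two_pos hF.big)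
    have hg : (8 : ℝ) ≤ G := by exact_mod_cast hG
    have hlen : G ^ e + G ^ 18 * G ^ e ≤ G ^ (e + 19) := by
      have h1 : 1 ≤ G ^ 18 := Nat.one_le_pow _ _ (by omega)
      have h2 : 1 + G ^ 18 ≤ G ^ 19 := by rw [pow_succ G 18]; nlinarith
      calc G ^ e + G ^ 18 * G ^ e = (1 + G ^ 18) * G ^ e := by ring
        _ ≤ G ^ 19 * G ^ e := Nat.mul_le_mul_right _ h2
        _ = _ := by ring
    let E : List Bool → List Bool → Prop := fun l₀ l =>
      0 < (chunks (G ^ e) (G ^ 18) l).countP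
        (fun ω => (shot g ((⟨G⟩, pl, x1), l₀, ω)).isSome) ∧
      |((chunks (G ^ e) (G ^ 18) l).countP
          (fun ω => frOk u.val t (shot g ((⟨G⟩, pl, x1), l₀, ω))) : ℝ) /
        ((chunks (G ^ e) (G ^ 18) l).countP
          (fun ω => (shot g ((⟨G⟩, pl, x1), l₀, ω)).isSome) : ℝ) -
        (cnt (KK f pr) fun x => x u ≤ t : ℕ) / ((KK f pr).card : ℝ)| ≤ 1 / (G : ℝ) ^ 4
    have h0 := h.good m G f pr g pl x1 hF hC hP hK
    have h1 := Ex_take_drop (k := G ^ e) (n := G ^ (e + 19)) (by omega)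
      fun l₀ l => ind (E l₀ l)
    have h2 : ∀ l₀, Ex (G ^ (e + 19) - G ^ e) (fun l => ind (E l₀ l)) =
        Pr (G ^ 18 * G ^ e) (E l₀) := fun l₀ => by
      rw [← Pr_take (k := G ^ 18 * G ^ e) (n := G ^ (e + 19) - G ^ e) (by omega)]
      simp only [E, chunks_take le_rfl, Pr]
    simp only [h2] at h1
    simp only [frShots, List.countP_map]
    refine le_trans ?_ h1.ge
    have e2 : 2 / (G : ℝ) ^ 4 ≤ 1 / (G : ℝ) ^ 3 := by
      rw [div_le_div_iff₀ (by positivity) (by positivity), pow_succ' (G : ℝ) 3, one_mul]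
      exact mul_le_mul_of_nonneg_right (by linarith) (by positivity)
    have e3 : 2 / (G : ℝ) ^ 3 = 1 / (G : ℝ) ^ 3 + 1 / (G : ℝ) ^ 3 := by ring
    refine le_trans (b := _ - 2 / (G : ℝ) ^ 4) (le_trans (by linarith) (sub_le_sub_right h0 _)) ?_
    rw [Pr, ← Ex_const (G ^ e) (2 / (G : ℝ) ^ 4), ← Ex_sub]
    refine Ex_mono fun l₀ _ => ?_
    rw [ind]
    split_ifs with hl
    · obtain ⟨κ, hκ, hP⟩ := hl
      refine fr_main hG _ _ (Nat.cast_nonneg _) ?_ hκ ?_ ?_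
      · rw [cnt_eq]; exact_mod_cast card_filter_le _ _
      · refine le_trans (le_of_eq ?_) (hP fun x => x u ≤ t)
        congr 2
        refine Pr_congr fun ω _ => ?_
        cases shot g ((⟨G⟩, pl, x1), l₀, ω) <;> simp [frOk, vec]
      · refine le_trans (le_of_eq ?_) (hP fun _ => True)
        rw [cnt_true]
        congr 2
        refine Pr_congr fun ω _ => ?_
        cases shot g ((⟨G⟩, pl, x1), l₀, ω) <;> simp
    · have := Pr_nonneg (G ^ 18 * G ^ e) (E l₀)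
      have : 0 ≤ 2 / (G : ℝ) ^ 4 := by positivity
      linarith

end Crest.Agent.R302
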