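import Crest.Agent.R302.Core
import Crest.Agent.R302.Frac
import Crest.Agent.R302.Est
import Crest.Agent.R302.Count
import Crest.Agent.R302.Fin

/-!
# R302/Final: the approximation scheme exists
-/

set_option autoImplicit false

namespace Crest.Agent.R302

theorem exists_countSpec : ∃ ct len, CountSpec ct len := by
  obtain ⟨shot, e, h1⟩ := exists_core
  obtain ⟨frac, e', h2⟩ := exists_frac h1
  obtain ⟨half, h3⟩ := exists_half h2
  obtain ⟨est, e'', h4⟩ := exists_est h3
  exact exists_count h4

end Crest.Agent.R302
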