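import Crest.Agent.R302.Tools

/-!
# R302/LMin: minimising a translation submodular function
-/

set_option autoImplicit false

namespace Crest.Agent.R302

open Finset Crest.Agent.Lib.PT Crest.Agent.R309

section gap

variable {U : Type} [Fintype U] [DecidableEq U] {γ : (U → ℤ) → ℤ}

/-- one step of length `s` over an interval free of values of `x` -/
theorem lm_step (hγ : TSub γ) (p x : U → ℤ) {j s : ℤ} (hj : 0 ≤ j) (hs : 0 ≤ s)
    (hx : ∀ u, x u ≤ j ∨ j + s ≤ x u) :
    γ (fun u => p u + min (x u) j) - γ (fun u => p u + min (x u) (j + s)) ≤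
      γ p - γ (fun u => p u + s * chi (univ.filter fun v => j + s ≤ x v) u) := by
  have h := hγ (fun u => p u + min (x u) (j + s)) p j hj
  have e1 : (fun u => min (p u + min (x u) (j + s)) (p u + j)) = fun u => p u + min (x u) j := by
    funext u; omega
  have e2 : (fun u => max (p u + min (x u) (j + s) - j) (p u)) =
      fun u => p u + s * chi (univ.filter fun v => j + s ≤ x v) u := by
    funext u
    have := hx u
    by_cases h1 : j + s ≤ x u
    · simp only [chi, mem_filter, mem_univ, true_and, h1, if_true]; omega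
    · simp only [chi, mem_filter, mem_univ, true_and, h1, if_false]; omega
  rw [e1, e2] at h
  omega

/-- a gap of length `< 2 ^ k` is cut along its binary digits -/
theorem lm_gap (hγ : TSub γ) (p x : U → ℤ) {Δ : ℤ} (hΔ : 0 ≤ Δ) (k : ℕ)
    (hs : ∀ i < k, ∀ A : Finset U, γ p - γ (fun u => p u + 2 ^ i * chi A u) ≤ Δ) :
    ∀ j g : ℤ, 0 ≤ j → 0 ≤ g → g < 2 ^ k → (∀ u, x u ≤ j ∨ j + g ≤ x u) →
      γ (fun u => p u + min (x u) j) - γ (fun u => p u + min (x u) (j + g)) ≤ k * Δ := by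
  induction k with
  | zero =>
    intro j g _ h1 h2 _
    have : g = 0 := by omega
    simp [this]
  | succ k ih =>
    intro j g hj h1 h2 hx
    have ih' := ih fun i hi => hs i (by omega)
    have h3 : (0 : ℤ) < 2 ^ k := by positivity
    rw [pow_succ] at h2
    push_cast
    rcases lt_or_ge g (2 ^ k) with h | h
    · have := ih' j g hj h1 h hx
      linarith
    · have h4 := lm_step hγ p x hj h3.le fun u => (hx u).imp id fun h5 => by omega
      have h5 := ih' (j + 2 ^ k) (g - 2 ^ k) (by omega) (by omega) (by omega)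
        fun u => (hx u).imp (fun h5 => by omega) fun h5 => by omega
      have h6 := hs k (by omega) (univ.filter fun v => j + 2 ^ k ≤ x v)
      rw [show j + 2 ^ k + (g - 2 ^ k) = j + g by ring] at h5
      linarith

theorem lm_up_aux (hγ : TSub γ) (p x : U → ℤ) {Δ : ℤ} (hΔ : 0 ≤ Δ) {k : ℕ} (hx : ∀ u, x u < 2 ^ k)
    (hs : ∀ i < k, ∀ A : Finset U, γ p - γ (fun u => p u + 2 ^ i * chi A u) ≤ Δ) (n : ℕ) :
    ∀ j : ℤ, 0 ≤ j → (univ.filter fun u => j < x u).card ≤ n →
      γ (fun u => p u + min (x u) j) - γ (fun u => p u + x u) ≤ n * (k * Δ) := by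
  have h0 : ∀ j : ℤ, (univ.filter fun u => j < x u) = ∅ →
      γ (fun u => p u + min (x u) j) - γ (fun u => p u + x u) = 0 := by
    intro j h
    have : (fun u => p u + min (x u) j) = fun u => p u + x u := by
      funext u
      have := filter_eq_empty_iff.1 h (mem_univ u)
      omega
    rw [this, sub_self]
  have hk : (0 : ℤ) ≤ k * Δ := by positivity
  induction n with
  | zero =>
    intro j _ h
    rw [h0 j (card_eq_zero.1 (Nat.le_zero.1 h))]
    simp
  | succ n ih =>
    intro j hj h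
    rcases (univ.filter fun u => j < x u).eq_empty_or_nonempty with h1 | h1
    · rw [h0 j h1]; positivity
    · obtain ⟨u, hu, hm⟩ := exists_min_image _ x h1
      have hu' := (mem_filter.1 hu).2
      have h2 := lm_gap hγ p x hΔ k hs j (x u - j) hj (by omega) (by have := hx u; omega) fun v => by
        by_cases h3 : j < x v
        · have := hm v (mem_filter.2 ⟨mem_univ _, h3⟩); omega
        · omega
      have h3 := ih (x u) (by omega) (by
        have : (univ.filter fun v => x u < x v) ⊆ (univ.filter fun v => j < x v).erase u := by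
          intro v hv
          have hv' := (mem_filter.1 hv).2
          refine mem_erase.2 ⟨?_, mem_filter.2 ⟨mem_univ _, by omega⟩⟩
          rintro rfl
          exact lt_irrefl _ hv'
        have h4 := card_le_card this
        rw [card_erase_of_mem hu] at h4
        omega)
      rw [show j + (x u - j) = x u by ring] at h2
      push_cast
      linarith

theorem lm_up (hγ : TSub γ) (p x : U → ℤ) {Δ : ℤ} (hΔ : 0 ≤ Δ) {k : ℕ} (h0 : ∀ u, 0 ≤ x u)
    (hx : ∀ u, x u < 2 ^ k)
    (hs : ∀ i < k, ∀ A : Finset U, γ p - γ (fun u => p u + 2 ^ i * chi A u) ≤ Δ) :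
    γ p - γ (fun u => p u + x u) ≤ Fintype.card U * (k * Δ) := by
  have h := lm_up_aux hγ p x hΔ hx hs (Fintype.card U) 0 le_rfl (card_le_univ _)
  have e : (fun u => p u + min (x u) 0) = p := by
    funext u
    have := h0 u
    omega
  rwa [e] at h

omit [Fintype U] [DecidableEq U] in
theorem TSub.neg (hγ : TSub γ) : TSub fun p => γ fun u => - p u := by
  intro p q α hα
  have h := hγ (fun u => - q u) (fun u => - p u) α hα
  have e1 : (fun u => min (- q u) (- p u + α)) = fun u => - max (p u - α) (q u) := by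
    funext u; omega
  have e2 : (fun u => max (- q u - α) (- p u)) = fun u => - min (p u) (q u + α) := by
    funext u; omega
  rw [e1, e2] at h
  simp only []
  omega

end gap

/-- Let `d = q - p`.  `γ p - γ q ≤ (γ p - γ (p + d⁺)) + (γ p - γ (p - d⁻))` (`α = 0`).  For `x = d⁺ ≥ 0`: if no value of `x` lies strictly between `j` and `j + s` then with `A = {x ≥ j + s}`, `TSub` for
`(p + min x (j + s), p, j)` gives `γ (p + min x j) + γ (p + s chi A) ≤ γ (p + min x (j + s)) + γ p`.  Cut `[0, max x]` into at most `m * Kb` such intervals whose lengths are powers of two below `2 ^ Kb`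
(binary expansion of the gaps between consecutive values; e.g. induct on the number of distinct positive values, and for one gap on its binary digits).  For `x = d⁻` use `(p, p - min x (j + s), j)`. -/
theorem tsub_gap {U : Type} [Fintype U] [DecidableEq U] {γ : (U → ℤ) → ℤ} (hγ : TSub γ)
    (p q : U → ℤ) {Kb : ℕ} (h : ∀ u, |q u - p u| < 2 ^ Kb) {Δ : ℤ} (hΔ : 0 ≤ Δ)
    (hs : ∀ k < Kb, ∀ A : Finset U, γ p - γ (fun u => p u + 2 ^ k * chi A u) ≤ Δ ∧
      γ p - γ (fun u => p u + (- 2 ^ k) * chi A u) ≤ Δ) :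
    γ p - γ q ≤ 2 * Fintype.card U * Kb * Δ := by
  have hp : (0 : ℤ) < 2 ^ Kb := by positivity
  have h1 := lm_up hγ p (fun u => max (q u - p u) 0) hΔ (k := Kb) (fun u => le_max_right _ _)
    (fun u => max_lt (abs_lt.1 (h u)).2 hp) fun i hi A => (hs i hi A).1
  have h2 := lm_up hγ.neg (fun u => - p u) (fun u => max (p u - q u) 0) hΔ (k := Kb)
    (fun u => le_max_right _ _)
    (fun u => max_lt (by have := (abs_lt.1 (h u)).1; omega) hp) fun i hi A => by
      have e : (fun u => - (- p u + 2 ^ i * chi A u)) = fun u => p u + (- 2 ^ i) * chi A u := by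
        funext u; ring
      simp only [neg_neg, e]
      exact (hs i hi A).2
  have h3 := hγ p q 0 le_rfl
  have e1 : (fun u => min (p u) (q u + 0)) = fun u => - (- p u + max (p u - q u) 0) := by
    funext u; omega
  have e2 : (fun u => max (p u - 0) (q u)) = fun u => p u + max (q u - p u) 0 := by
    funext u; omega
  rw [e1, e2] at h3
  simp only [neg_neg] at h2
  linarith

/-- `N` rounds halve the gap -/
theorem lm_halve {a : ℕ → ℤ} {N : ℕ} (hN : 0 < N) (h1 : ∀ t, a (t + 1) ≤ a t)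
    (h2 : ∀ t, a t ≤ N * (a t - a (t + 1))) (t : ℕ) : 2 * a (t + N) ≤ a t := by
  have h3 : ∀ i : ℕ, i * a (t + i) ≤ N * (a t - a (t + i)) := by
    intro i
    induction i with
    | zero => simp
    | succ i ih =>
      have h4 := h1 (t + i)
      have h5 := h2 (t + i)
      have h6 : ((i : ℤ) + 1) * a (t + i + 1) ≤ (i + 1) * a (t + i) :=
        mul_le_mul_of_nonneg_left h4 (by positivity)
      rw [← add_assoc]
      push_cast
      linarith
  have h4 := le_of_mul_le_mul_left (h3 N) (by exact_mod_cast hN)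
  omega

theorem lm_zero {a : ℕ → ℤ} {N K : ℕ} (hN : 0 < N) (h1 : ∀ t, a (t + 1) ≤ a t)
    (h2 : ∀ t, a t ≤ N * (a t - a (t + 1))) (h0 : a 0 < 2 ^ K) : a (N * K) ≤ 0 := by
  have h3 : ∀ j : ℕ, 2 ^ j * a (N * j) ≤ a 0 := by
    intro j
    induction j with
    | zero => simp
    | succ j ih =>
      have h4 := lm_halve hN h1 h2 (N * j)
      have h5 : (2 : ℤ) ^ j * (2 * a (N * j + N)) ≤ 2 ^ j * a (N * j) :=
        mul_le_mul_of_nonneg_left h4 (by positivity)
      rw [Nat.mul_succ, pow_succ]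
      linarith
  by_contra h
  have h4 : (2 : ℤ) ^ K * 1 ≤ 2 ^ K * a (N * K) :=
    mul_le_mul_of_nonneg_left (by omega) (by positivity)
  have := h3 K
  omega

/-- the list of `p + s chi A` -/
def lmMv (m : ℕ) (p : List ℤ) (s : ℤ) (l : List Bool) : List ℤ :=
  (List.range m).map fun i => p.getD i 0 + if l.getD i false = true then s else 0

@[fun_prop] theorem lmMv_pt {α : Type} [Enc α] {m : α → ℕ} {p : α → List ℤ} {s : α → ℤ}
    {l : α → List Bool} (hm : PT m) (hb : PB m) (hp : PT p) (hs : PT s) (hl : PT l) :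
    PT fun c => lmMv (m c) (p c) (s c) (l c) := by
  unfold lmMv
  refine PT.map (hm.range hb) (PT.int_add (by fun_prop) ?_)
  exact PT.ite (PT.eq_true (by fun_prop)) (by fun_prop) (by fun_prop)

theorem vec_lmMv (m : ℕ) (p : List ℤ) (s : ℤ) (l : List Bool) :
    vec m (lmMv m p s l) = fun u => vec m p u + s * chi (sOf m l) u := by
  funext u
  rw [lmMv, vec_map_range]
  simp only [chi, mem_sOf, vec]
  split_ifs <;> simp

/-- the step lengths -/
def lmSteps (K : ℕ) : List ℤ :=
  ((List.range (K + 1)).map fun k => (2 : ℤ) ^ k) ++ (List.range (K + 1)).map fun k => - (2 : ℤ) ^ k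

@[fun_prop] theorem lmSteps_pt {α : Type} [Enc α] {K : α → ℕ} (hK : PT K) (hb : PB K) :
    PT fun c => lmSteps (K c) := by
  unfold lmSteps
  have h1 : PT fun c => K c + 1 := by fun_prop
  have h2 : PB fun c => K c + 1 := by fun_prop
  have h3 : PT fun p : {p : α × ℕ // p.2 < K p.1 + 1} => (2 : ℤ) ^ p.1.2 :=
    PT.int_pow (PT.const 2) (by fun_prop) (PB.idx h2)
  exact PT.append (PT.map_range h1 h2 h3) (PT.map_range h1 h2 h3.int_neg)

theorem abs_le_of_mem_lmSteps {K : ℕ} {s : ℤ} (h : s ∈ lmSteps K) : |s| ≤ 2 ^ K := by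
  simp only [lmSteps, List.mem_append, List.mem_map, List.mem_range] at h
  rcases h with ⟨k, hk, rfl⟩ | ⟨k, hk, rfl⟩
  · rw [abs_of_nonneg (by positivity)]
    exact pow_le_pow_right₀ (by norm_num) (by omega)
  · rw [abs_neg, abs_of_nonneg (by positivity)]
    exact pow_le_pow_right₀ (by norm_num) (by omega)

theorem mem_lmSteps {K k : ℕ} (h : k < K + 1) :
    (2 : ℤ) ^ k ∈ lmSteps K ∧ - (2 : ℤ) ^ k ∈ lmSteps K := by
  simp only [lmSteps, List.mem_append, List.mem_map, List.mem_range]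
  exact ⟨Or.inl ⟨k, h, rfl⟩, Or.inr ⟨k, h, rfl⟩⟩

/-- the entry with the least second component -/
def lmBest (l : List (List ℤ × ℤ)) (b : List ℤ × ℤ) : List ℤ × ℤ :=
  l.foldl (fun b c => if c.2 < b.2 then c else b) b

theorem lmBest_spec (l : List (List ℤ × ℤ)) (b : List ℤ × ℤ) :
    (lmBest l b = b ∨ lmBest l b ∈ l) ∧ (lmBest l b).2 ≤ b.2 ∧ ∀ c ∈ l, (lmBest l b).2 ≤ c.2 := by
  unfold lmBest
  induction l using List.reverseRecOn with
  | nil => simp
  | append_singleton l c ih =>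
    obtain ⟨h1, h2, h3⟩ := ih
    rw [List.foldl_append, List.foldl_cons, List.foldl_nil]
    split_ifs with h
    · refine ⟨Or.inr (by simp), by omega, fun d hd => ?_⟩
      rcases List.mem_append.1 hd with hd | hd
      · have := h3 d hd; omega
      · rw [List.mem_singleton.1 hd]
    · refine ⟨h1.imp id (List.mem_append_left _), h2, fun d hd => ?_⟩
      rcases List.mem_append.1 hd with hd | hd
      · exact h3 d hd
      · rw [List.mem_singleton.1 hd]; omega

theorem lmBest_pt {α : Type} [Enc α] {l : α → List (List ℤ × ℤ)} {b : α → List ℤ × ℤ}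
    (hl : PT l) (hb : PT b) : PT fun c => lmBest (l c) (b c) := by
  unfold lmBest
  refine PT.foldl_grow (f := fun _ (b c : List ℤ × ℤ) => if c.2 < b.2 then c else b) hl hb
    (PT.ite (by fun_prop) (by fun_prop) (by fun_prop)) (G := fun p => sz p.2) (PB.sz PT.id.snd)
    fun a c d _ => ?_
  dsimp only
  split_ifs <;> omega

/-- the best set step of length `s` -/
theorem exists_lmCand : ∃ alg : (List ℤ → ℤ) → Un × Un × List ℤ × ℤ → List ℤ × ℤ, HOPT alg ∧
    ∀ (m K' : ℕ) (γ : (Fin m → ℤ) → ℤ) (h : List ℤ → ℤ) (p : List ℤ) (s : ℤ),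
      (∀ l, h l = γ (vec m l)) → TSub γ →
      (∀ A, |γ fun u => vec m p u + s * chi A u| ≤ 2 ^ K') →
      (alg h (⟨m⟩, ⟨K'⟩, p, s)).1.length = m ∧
      (alg h (⟨m⟩, ⟨K'⟩, p, s)).2 = γ (vec m (alg h (⟨m⟩, ⟨K'⟩, p, s)).1) ∧
      ∀ A, (alg h (⟨m⟩, ⟨K'⟩, p, s)).2 ≤ γ fun u => vec m p u + s * chi A u := by
  obtain ⟨sfm, H, hs⟩ := exists_sfm
  refine ⟨fun h x => (fun c => (c, h c)) (lmMv x.1.n x.2.2.1 x.2.2.2
      (sfm (fun l => h (lmMv x.1.n x.2.2.1 x.2.2.2 l)) (x.1, x.2.1))),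
    fun α _ h hh => ?_, fun m K' γ h p s hc hγ hb => ?_⟩
  · refine OPT.bind (g := fun O (x : α × Un × Un × List ℤ × ℤ) (c : List ℤ) => (c, h O x.1 c)) ?_ ?_
    · refine OPT.cont (g := fun (x : α × Un × Un × List ℤ × ℤ) l =>
        lmMv x.2.1.n x.2.2.2.1 x.2.2.2.2 l) ?_ (by fun_prop)
      refine H.app (h := fun O (x : α × Un × Un × List ℤ × ℤ) l =>
        h O x.1 (lmMv x.2.1.n x.2.2.2.1 x.2.2.2.2 l)) ?_ (OPT.pure (by fun_prop))
      exact OPT.call hh (e := fun c : (α × Un × Un × List ℤ × ℤ) × List Bool => c.1.1)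
        (q := fun c => lmMv c.1.2.1.n c.1.2.2.2.1 c.1.2.2.2.2 c.2) (by fun_prop) (by fun_prop)
    · exact OPT.pair (OPT.pure PT.id.snd)
        (OPT.call hh (e := fun c : (α × Un × Un × List ℤ × ℤ) × List ℤ => c.1.1) (q := fun c => c.2)
          (by fun_prop) (by fun_prop))
  · have h1 := hs m K' (fun A => γ fun u => vec m p u + s * chi A u) (fun l => h (lmMv m p s l))
      (fun l => by beta_reduce; rw [hc, vec_lmMv]) (hγ.submod _ _) hb
    refine ⟨by simp [lmMv], hc _, fun A => ?_⟩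
    refine le_trans (le_of_eq ?_) (h1 A)
    change h (lmMv m p s _) = _
    rw [hc, vec_lmMv]

/-- one round -/
theorem exists_lmRound : ∃ alg : (List ℤ → ℤ) → (Un × Un × Un) × List ℤ → List ℤ, HOPT alg ∧
    ∀ (m K K' : ℕ) (γ : (Fin m → ℤ) → ℤ) (h : List ℤ → ℤ) (p : List ℤ),
      (∀ l, h l = γ (vec m l)) → TSub γ → (∀ u, |vec m p u| ≤ 2 ^ K) →
      (∀ p, (∀ u, |p u| ≤ 2 * 2 ^ K) → |γ p| ≤ 2 ^ K') → p.length ≤ m →
      (alg h ((⟨m⟩, ⟨K⟩, ⟨K'⟩), p)).length ≤ m ∧
      γ (vec m (alg h ((⟨m⟩, ⟨K⟩, ⟨K'⟩), p))) ≤ γ (vec m p) ∧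
      ∀ s ∈ lmSteps K, ∀ A, γ (vec m (alg h ((⟨m⟩, ⟨K⟩, ⟨K'⟩), p))) ≤
        γ fun u => vec m p u + s * chi A u := by
  obtain ⟨cd, H, hs⟩ := exists_lmCand
  refine ⟨fun h x => (lmBest ((lmSteps x.1.2.1.n).map fun s => cd h (x.1.1, x.1.2.2, x.2, s))
      (x.2, h x.2)).1, fun α _ h hh => ?_, fun m K K' γ h p hc hγ hp hb hl => ?_⟩
  · refine OPT.cont₂ (g := fun (x : α × (Un × Un × Un) × List ℤ) (l : List (List ℤ × ℤ)) (z : ℤ) =>
      (lmBest l (x.2.2, z)).1) ?_
      (OPT.call hh (e := fun c : α × (Un × Un × Un) × List ℤ => c.1) (q := fun c => c.2.2)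
          (by fun_prop) (by fun_prop)) (PT.fst (lmBest_pt (by fun_prop) (by fun_prop)))
    refine OPT.map (l := fun _ (x : α × (Un × Un × Un) × List ℤ) => lmSteps x.2.1.2.1.n)
      (f := fun O x s => cd (h O x.1) (x.2.1.1, x.2.1.2.2, x.2.2, s)) (OPT.pure (by fun_prop)) ?_
    exact H.app (h := fun O (c : (α × (Un × Un × Un) × List ℤ) × ℤ) => h O c.1.1)
      (OPT.call hh (e := fun c : ((α × (Un × Un × Un) × List ℤ) × ℤ) × List ℤ => c.1.1.1)
        (q := fun c => c.2) (by fun_prop) (by fun_prop)) (OPT.pure (by fun_prop))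
  · have h1 : ∀ s ∈ lmSteps K, _ := fun s hs' => hs m K' γ h p s hc hγ fun A => hb _ fun u => by
      have h2 := abs_le.1 (hp u)
      have h3 := abs_le.1 (abs_le_of_mem_lmSteps hs')
      rw [abs_le]
      unfold chi
      split_ifs <;> constructor <;> omega
    obtain ⟨h2, h3, h4⟩ := lmBest_spec
      ((lmSteps K).map fun s => cd h (⟨m⟩, ⟨K'⟩, p, s)) (p, h p)
    change (lmBest ((lmSteps K).map fun s => cd h (⟨m⟩, ⟨K'⟩, p, s)) (p, h p)).1.length ≤ m ∧
      γ (vec m (lmBest ((lmSteps K).map fun s => cd h (⟨m⟩, ⟨K'⟩, p, s)) (p, h p)).1) ≤ _ ∧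
      ∀ s ∈ lmSteps K, ∀ A, γ (vec m
        (lmBest ((lmSteps K).map fun s => cd h (⟨m⟩, ⟨K'⟩, p, s)) (p, h p)).1) ≤ _
    generalize lmBest ((lmSteps K).map fun s => cd h (⟨m⟩, ⟨K'⟩, p, s)) (p, h p) = b at h2 h3 h4
    have h5 : b.1.length ≤ m ∧ b.2 = γ (vec m b.1) := by
      rcases h2 with rfl | h2
      · exact ⟨hl, hc p⟩
      · obtain ⟨s, hs', rfl⟩ := List.mem_map.1 h2
        exact ⟨(h1 s hs').1.le, (h1 s hs').2.1⟩
    refine ⟨h5.1, by rw [← h5.2, ← hc p]; exact h3, fun s hs' A => ?_⟩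
    rw [← h5.2]
    exact (h4 _ (List.mem_map_of_mem hs')).trans ((h1 s hs').2.2 A)

theorem lm_sz_le {m K : ℕ} {p : List ℤ} (hl : p.length ≤ m) (hp : ∀ u, |vec m p u| < 2 ^ K) :
    sz p ≤ m * (4 * K + 6) + 1 := by
  refine (sz_list_le (B := 4 * K + 5) fun a ha => ?_).trans
    (Nat.add_le_add_right (Nat.mul_le_mul_right _ hl) 1)
  obtain ⟨i, hi, rfl⟩ := List.getElem_of_mem ha
  have h1 := hp ⟨i, by omega⟩
  simp only [vec, List.getD_eq_getElem?_getD, List.getElem?_eq_getElem hi, Option.getD_some] at h1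
  refine sz_int_le_of_lt ?_
  have : ((p[i].natAbs : ℕ) : ℤ) < ((2 ^ K : ℕ) : ℤ) := by
    rw [Int.natCast_natAbs]; push_cast; exact h1
  exact_mod_cast this

/-- Start at `p = 0`.  One round: for each `k ≤ K` and both signs `s = ± 2 ^ k` minimise `A ↦ γ (p + s chi A)` (`exists_sfm`, `TSub.submod`; the points are bounded by `2 * 2 ^ K`, the values by `2 ^ K'`), and move to the best of
these points (`A = ∅` is allowed, so `γ` does not increase and `|p u| < 2 ^ K` persists).  By `tsub_gap` with `Kb = K + 1` the gap to the minimum `γ q` (which exists on the finite sublevel set) is multiplied by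
at most `1 - 1 / (2 m (K + 1))` (for `m = 0` there is nothing to do); it starts at most `2 ^ (K' + 1)`, so it is `< 1` after `2 m (K + 1) (K' + 2)` rounds.  Output `h p`.  Use `OPT.iterC` or clamp the entries. -/
theorem exists_lmin : ∃ alg : (List ℤ → ℤ) → Un × Un × Un → ℤ, HOPT alg ∧
    ∀ (m K K' : ℕ) (γ : (Fin m → ℤ) → ℤ) (h : List ℤ → ℤ), (∀ l, h l = γ (vec m l)) → TSub γ →
      (∀ p, γ p ≤ γ 0 → ∀ u, |p u| < 2 ^ K) →
      (∀ p, (∀ u, |p u| ≤ 2 * 2 ^ K) → |γ p| ≤ 2 ^ K') →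
      (∃ p, alg h (⟨m⟩, ⟨K⟩, ⟨K'⟩) = γ p) ∧ ∀ p, alg h (⟨m⟩, ⟨K⟩, ⟨K'⟩) ≤ γ p := by
  obtain ⟨rd, H, hs⟩ := exists_lmRound
  refine ⟨fun h x => h (iterC (x.1.n * (4 * x.2.1.n + 6) + 1) (fun p => rd h (x, p))
      ((2 * x.1.n * (x.2.1.n + 1) + 1) * (x.2.2.n + 2)) []),
    fun α _ h hh => ?_, fun m K K' γ h hc hγ hK hb => ⟨⟨_, hc _⟩, fun q => ?_⟩⟩
  · refine OPT.bind (g := fun O (x : α × Un × Un × Un) (c : List ℤ) => h O x.1 c) ?_
      (OPT.call hh (e := fun c : (α × Un × Un × Un) × List ℤ => c.1.1) (q := fun c => c.2)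
        (by fun_prop) (by fun_prop))
    refine OPT.iterC (f := fun O (x : α × Un × Un × Un) p => rd (h O x.1) (x.2, p))
      (by fun_prop) (by fun_prop) (by fun_prop) (by fun_prop) (OPT.pure (PT.const [])) ?_
    exact H.app (h := fun O (c : (α × Un × Un × Un) × List ℤ) => h O c.1.1)
      (OPT.call hh (e := fun c : ((α × Un × Un × Un) × List ℤ) × List ℤ => c.1.1.1)
        (q := fun c => c.2) (by fun_prop) (by fun_prop)) (OPT.pure (by fun_prop))
  · change h (iterC (m * (4 * K + 6) + 1) (fun p => rd h ((⟨m⟩, ⟨K⟩, ⟨K'⟩), p))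
      ((2 * m * (K + 1) + 1) * (K' + 2)) []) ≤ _
    set F : List ℤ → List ℤ := fun p => rd h ((⟨m⟩, ⟨K⟩, ⟨K'⟩), p) with hF
    have e0 : vec m [] = 0 := by funext u; simp [vec]
    have h1 : ∀ t, (F^[t] []).length ≤ m ∧ γ (vec m (F^[t] [])) ≤ γ 0 := by
      intro t
      induction t with
      | zero => exact ⟨Nat.zero_le _, by rw [Function.iterate_zero_apply, e0]⟩
      | succ t ih =>
        rw [Function.iterate_succ_apply']
        obtain ⟨h2, h3, -⟩ := hs m K K' γ h _ hc hγ (fun u => (hK _ ih.2 u).le) hb ih.1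
        exact ⟨h2, h3.trans ih.2⟩
    rw [iterC_eq fun k _ => lm_sz_le (h1 _).1 (hK _ (h1 _).2), hc]
    rcases le_or_gt (γ q) (γ 0) with hq | hq
    swap
    · exact (h1 _).2.trans hq.le
    have h2 : ∀ t, _ := fun t =>
      (hs m K K' γ h _ hc hγ (fun u => (hK _ (h1 t).2 u).le) hb (h1 t).1).2
    have h3 := lm_zero (a := fun t => γ (vec m (F^[t] [])) - γ q) (N := 2 * m * (K + 1) + 1)
      (K := K' + 2) (by omega) (fun t => ?_) (fun t => ?_) ?_
    · exact sub_nonpos.1 h3
    · have := (h2 t).1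
      rw [Function.iterate_succ_apply']
      exact sub_le_sub_right this _
    · obtain ⟨h4, h5⟩ := h2 t
      have h6 := tsub_gap hγ (vec m (F^[t] [])) q (Kb := K + 1) (fun u => by
          have h6 := abs_lt.1 (hK _ (h1 t).2 u)
          have h7 := abs_lt.1 (hK _ hq u)
          rw [abs_lt, pow_succ]
          constructor <;> omega) (sub_nonneg.2 h4)
        fun k hk A => ⟨sub_le_sub_left (h5 _ (mem_lmSteps hk).1 A) _,
          sub_le_sub_left (h5 _ (mem_lmSteps hk).2 A) _⟩
      rw [Fintype.card_fin] at h6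
      rw [Function.iterate_succ_apply']
      push_cast at h6 ⊢
      change _ ≤ _ * (_ - γ (vec m (F (F^[t] [])))) at h6
      change γ (vec m (F (F^[t] []))) ≤ _ at h4
      linarith
    · have hp : (0 : ℤ) < 2 ^ K := by positivity
      have h4 := abs_le.1 (hb 0 fun u => by simp)
      have h5 := abs_le.1 (hb q fun u => by have := hK q hq u; omega)
      have hp' : (0 : ℤ) < 2 ^ K' := by positivity
      simp only [Function.iterate_zero_apply, e0]
      rw [pow_add]
      omega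

end Crest.Agent.R302
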