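import Crest.Agent.R302.Fst

/-!
# R302/Ultra: two quadratic form inequalities (TASK)
-/

set_option autoImplicit false
set_option linter.unusedSectionVars false

namespace Crest.Agent.R302

open Finset Crest.Agent.R309

variable {U : Type} [Fintype U] [DecidableEq U]

private theorem ultra_per (R : U → U → Prop) [∀ a b, Decidable (R a b)]
    (hs : ∀ a b, R a b → R b a) (ht : ∀ a b c, R a c → R b c → R a b) (x : U → ℝ) :
    0 ≤ ∑ a, ∑ b, x a * x b * if R a b then 1 else 0 := by
  have h1 : ∀ a b, (if R a b then (1 : ℝ) else 0) =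
      ∑ c, ((univ.filter fun e => R e c).card : ℝ)⁻¹ *
        ((if R a c then 1 else 0) * if R b c then 1 else 0) := by
    intro a b
    split_ifs with h
    · have h2 : ∀ c, ((univ.filter fun e => R e c).card : ℝ)⁻¹ *
          ((if R a c then 1 else 0) * if R b c then 1 else 0) =
          if c ∈ univ.filter fun e => R e b then
            ((univ.filter fun e => R e b).card : ℝ)⁻¹ else 0 := by
        intro c
        by_cases hc : R c b
        · have e : (univ.filter fun e => R e c) = univ.filter fun e => R e b :=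
            filter_congr fun e _ => ⟨fun h' => ht _ _ _ h' (hs _ _ hc), fun h' => ht _ _ _ h' hc⟩
          rw [e, if_pos (ht _ _ _ h hc), if_pos (hs _ _ hc), if_pos (by simpa using hc)]
          ring
        · have h3 : ¬ R b c := fun h' => hc (hs _ _ h')
          have h4 : c ∉ univ.filter fun e => R e b := by simpa using hc
          rw [if_neg h3, if_neg h4]
          ring
      simp only [h2]
      rw [sum_ite_mem, univ_inter, sum_const, nsmul_eq_mul, mul_inv_cancel₀]
      exact Nat.cast_ne_zero.2 (card_pos.2 ⟨a, by simpa using h⟩).ne'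
    · refine (sum_eq_zero fun c _ => ?_).symm
      by_cases ha : R a c
      · rw [if_neg (fun hb => h (ht _ _ _ ha hb))]
        ring
      · rw [if_neg ha]
        ring
  have h2 : ∑ a, ∑ b, x a * x b * (if R a b then (1 : ℝ) else 0) =
      ∑ c, ((univ.filter fun e => R e c).card : ℝ)⁻¹ *
        (∑ a, x a * if R a c then 1 else 0) ^ 2 := by
    calc ∑ a, ∑ b, x a * x b * (if R a b then (1 : ℝ) else 0)
        = ∑ a, ∑ b, ∑ c, ((univ.filter fun e => R e c).card : ℝ)⁻¹ *
          ((x a * if R a c then 1 else 0) * (x b * if R b c then 1 else 0)) := by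
          refine sum_congr rfl fun a _ => sum_congr rfl fun b _ => ?_
          rw [h1 a b, mul_sum]
          exact sum_congr rfl fun c _ => by ring
      _ = ∑ a, ∑ c, ∑ b, ((univ.filter fun e => R e c).card : ℝ)⁻¹ *
          ((x a * if R a c then 1 else 0) * (x b * if R b c then 1 else 0)) :=
          sum_congr rfl fun a _ => sum_comm
      _ = _ := by
          rw [sum_comm]
          refine sum_congr rfl fun c _ => ?_
          rw [sq, sum_mul_sum, mul_sum]
          exact sum_congr rfl fun a _ => by rw [mul_sum]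
  rw [h2]
  exact sum_nonneg fun c _ => mul_nonneg (inv_nonneg.2 (Nat.cast_nonneg _)) (sq_nonneg _)

private theorem ultra_lip {s t dm : ℝ} (ht : 0 ≤ t) (h : t ≤ s) (hs : s ≤ dm) :
    |s - 1 + Real.exp (- s) - (t - 1 + Real.exp (- t))| ≤ dm * |s - t| := by
  have h1 : Real.exp (- t) = Real.exp (- s) * Real.exp (s - t) := by
    rw [← Real.exp_add]; congr 1; ring
  have h2 : Real.exp (- s) = Real.exp (- t) * Real.exp (- (s - t)) := by
    rw [← Real.exp_add]; congr 1; ring
  have h3 := Real.add_one_le_exp (s - t)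
  have h4 := Real.add_one_le_exp (- (s - t))
  have h5 := Real.add_one_le_exp (- s)
  have h6 := Real.exp_pos (- s)
  have h7 := Real.exp_pos (- t)
  have h8 : Real.exp (- t) ≤ 1 := Real.exp_le_one_iff.2 (by linarith)
  have h9 : 0 ≤ s - t := by linarith
  have a1 := mul_le_mul_of_nonneg_left h3 h6.le
  have a2 := mul_le_mul_of_nonneg_left h4 h7.le
  have a3 := mul_le_mul_of_nonneg_left h8 h9
  have a4 := mul_le_mul_of_nonneg_left h5 h9
  have a5 := mul_le_mul_of_nonneg_left hs h9
  rw [abs_of_nonneg h9, abs_of_nonneg (by linarith)]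
  linarith

/-- Ultrametric matrices are positive semidefinite.  Layer cake: for each level `t > 0` the relation `t ≤ M a b` is symmetric and transitive, so its indicator matrix is a sum of squares of
indicator vectors of classes; `M = ∑_i (t_i - t_(i-1)) 1[t_i ≤ M]` over the sorted values (induct on the number of nonzero values: subtract the least positive value `t` times the indicator of `0 < M`;
compare `R309/Lor.lean`). -/
theorem ultra_psd (M : U → U → ℝ) (hs : ∀ a b, M a b = M b a) (h0 : ∀ a b, 0 ≤ M a b)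
    (hu : ∀ a b c, min (M a c) (M b c) ≤ M a b) (x : U → ℝ) :
    0 ≤ ∑ a, ∑ b, x a * x b * M a b := by
  classical
  obtain ⟨n, hn⟩ : ∃ n, (univ.filter fun p : U × U => 0 < M p.1 p.2).card = n := ⟨_, rfl⟩
  induction n using Nat.strong_induction_on generalizing M with
  | _ n ih =>
    rcases (univ.filter fun p : U × U => 0 < M p.1 p.2).eq_empty_or_nonempty with he | he
    · refine le_of_eq (sum_eq_zero fun a _ => sum_eq_zero fun b _ => ?_).symm
      have : ¬ 0 < M a b := fun h => (filter_eq_empty_iff.1 he (mem_univ (a, b))) h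
      rw [le_antisymm (not_lt.1 this) (h0 a b), mul_zero]
    · obtain ⟨p, hp, hmin⟩ := exists_min_image _ (fun p : U × U => M p.1 p.2) he
      have ht : 0 < M p.1 p.2 := (mem_filter.1 hp).2
      set t := M p.1 p.2 with htd
      have h1 := ih _ ?_ (fun a b => max (M a b - t) 0) (fun a b => by rw [hs a b])
        (fun a b => le_max_right _ _) (fun a b c => ?_) rfl
      · have h2 := ultra_per (fun a b => 0 < M a b) (fun a b h => hs a b ▸ h)
          (fun a b c h h' => lt_of_lt_of_le (lt_min h h') (hu a b c)) x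
        have h3 : ∀ a b, M a b = max (M a b - t) 0 + t * if 0 < M a b then 1 else 0 := by
          intro a b
          split_ifs with h
          · have := hmin (a, b) (mem_filter.2 ⟨mem_univ _, h⟩)
            rw [max_eq_left (by linarith)]
            ring
          · have := h0 a b
            rw [max_eq_right (by linarith)]
            linarith
        have h4 : ∑ a, ∑ b, x a * x b * M a b = ∑ a, ∑ b, x a * x b * max (M a b - t) 0 +
            t * ∑ a, ∑ b, x a * x b * if 0 < M a b then 1 else 0 := by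
          simp only [mul_sum, ← sum_add_distrib]
          refine sum_congr rfl fun a _ => sum_congr rfl fun b _ => ?_
          conv_lhs => rw [h3 a b]
          ring
        rw [h4]
        exact add_nonneg h1 (mul_nonneg ht.le h2)
      · rw [← hn]
        refine card_lt_card ⟨fun q hq => mem_filter.2 ⟨mem_univ _, ?_⟩, fun h => ?_⟩
        · have := (mem_filter.1 hq).2
          rw [lt_max_iff] at this
          rcases this with h | h
          · linarith
          · exact absurd h (lt_irrefl _)
        · have := (mem_filter.1 (h hp)).2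
          simp [← htd] at this
      · rcases min_le_iff.1 (hu a b c) with h | h
        · exact (min_le_left _ _).trans (max_le_max (by linarith) le_rfl)
        · exact (min_le_right _ _).trans (max_le_max (by linarith) le_rfl)

/-- `ultra_psd` for `1 - exp (- w)`, an increasing function of `w` -/
theorem ultra_exp (w : U → U → ℝ) (hs : ∀ a b, w a b = w b a) (h0 : ∀ a b, 0 ≤ w a b)
    (hu : ∀ a b c, min (w a c) (w b c) ≤ w a b) (x : U → ℝ) :
    0 ≤ ∑ a, ∑ b, x a * x b * (1 - Real.exp (- w a b)) := by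
  refine ultra_psd (fun a b => 1 - Real.exp (- w a b)) (fun a b => by rw [hs a b])
    (fun a b => ?_) (fun a b c => ?_) x
  · have := Real.exp_le_one_iff.2 (neg_nonpos.2 (h0 a b))
    linarith
  · rcases min_le_iff.1 (hu a b c) with h | h
    · have := Real.exp_le_exp.2 (neg_le_neg h)
      exact (min_le_left _ _).trans (by linarith)
    · have := Real.exp_le_exp.2 (neg_le_neg h)
      exact (min_le_right _ _).trans (by linarith)

/-- Let `r t = t - 1 + exp (- t)`; `r 0 = 0` and `|r s - r t| ≤ dm |s - t|` on `[0, dm]`.  Abel summation (`Forest.abel`) in both variables gives `∑_{u, v} X u X v Δ u v` with `X = sumD x`,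
`Δ u v = df (fun a => df (fun b => r (d a b)) v) u`; `|Δ u v| ≤ 2 dm δ u` and `≤ 2 dm δ v`, so `X u X v Δ u v ≤ dm (δ u X u² + δ v X v²)`. -/
theorem Forest.rem_le (F : Forest U) (d : U → U → ℝ) (hs : ∀ a b, d a b = d b a) {dm : ℝ}
    (h0 : ∀ a b, 0 ≤ d a b ∧ d a b ≤ dm) (δ : U → ℝ) (hδ : ∀ u b, |F.df (fun a => d a b) u| ≤ δ u)
    (x : U → ℝ) :
    ∑ a, ∑ b, x a * x b * (d a b - 1 + Real.exp (- d a b)) ≤
      2 * dm * Fintype.card U * ∑ u, δ u * F.sumD x u ^ 2 := by
  set r : ℝ → ℝ := fun t => t - 1 + Real.exp (- t) with hr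
  have hlip : ∀ s t, 0 ≤ s → s ≤ dm → 0 ≤ t → t ≤ dm → |r s - r t| ≤ dm * |s - t| := by
    intro s t h1 h2 h3 h4
    rcases le_total t s with h | h
    · exact ultra_lip h3 h h2
    · rw [abs_sub_comm, abs_sub_comm s t]
      exact ultra_lip h1 h h4
  set Δ : U → U → ℝ := fun u v => F.df (fun a => F.df (fun b => r (d a b)) v) u with hΔ
  have hg : ∀ u b, |F.df (fun a => r (d a b)) u| ≤ dm * δ u := by
    intro u b
    have hdm : 0 ≤ dm := (h0 u b).1.trans (h0 u b).2
    refine le_trans ?_ (mul_le_mul_of_nonneg_left (hδ u b) hdm)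
    unfold Forest.df
    cases F.par u with
    | none =>
      have := hlip (d u b) 0 (h0 u b).1 (h0 u b).2 le_rfl hdm
      simpa [hr] using this
    | some p => exact hlip _ _ (h0 u b).1 (h0 u b).2 (h0 p b).1 (h0 p b).2
  have hcomm : ∀ u v, Δ u v = F.df (fun b => F.df (fun a => r (d a b)) u) v := by
    intro u v
    simp only [hΔ, Forest.df]
    cases F.par u <;> cases F.par v <;> simp only [Option.elim_none, Option.elim_some] <;> ring
  have hsym : ∀ u v, Δ u v = Δ v u := by
    intro u v
    rw [hcomm]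
    simp only [hΔ, hs]
  have hb : ∀ u v, |Δ u v| ≤ 2 * (dm * δ u) := by
    intro u v
    rw [hcomm, Forest.df]
    have h1 := hg u v
    cases F.par v with
    | none =>
      have := (abs_nonneg _).trans h1
      rw [Option.elim_none, sub_zero]
      linarith
    | some p =>
      have h2 := hg u p
      rw [Option.elim_some]
      exact (abs_sub _ _).trans (by linarith)
  have he : ∑ a, ∑ b, x a * x b * r (d a b) =
      ∑ v, ∑ u, F.sumD x v * (F.sumD x u * Δ u v) := by
    calc ∑ a, ∑ b, x a * x b * r (d a b)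
        = ∑ a, ∑ v, F.sumD x v * (x a * F.df (fun b => r (d a b)) v) := by
          refine sum_congr rfl fun a _ => ?_
          simp only [mul_assoc]
          rw [← mul_sum, F.abel x (fun b => r (d a b)), mul_sum]
          exact sum_congr rfl fun v _ => by ring
      _ = _ := by
          rw [sum_comm]
          refine sum_congr rfl fun v _ => ?_
          rw [← mul_sum, F.abel x (fun a => F.df (fun b => r (d a b)) v), mul_sum]
  show ∑ a, ∑ b, x a * x b * r (d a b) ≤ _
  rw [he]
  calc ∑ v, ∑ u, F.sumD x v * (F.sumD x u * Δ u v)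
      ≤ ∑ v, ∑ u, (dm * (δ u * F.sumD x u ^ 2) + dm * (δ v * F.sumD x v ^ 2)) := by
        refine sum_le_sum fun v _ => sum_le_sum fun u _ => ?_
        have h1 := hb u v
        have h2 := hb v u
        rw [← hsym] at h2
        have h3 := mul_le_mul_of_nonneg_right h1 (sq_nonneg (F.sumD x u))
        have h4 := mul_le_mul_of_nonneg_right h2 (sq_nonneg (F.sumD x v))
        rcases abs_cases (Δ u v) with ⟨h5, h6⟩ | ⟨h5, h6⟩
        · rw [h5] at h3 h4
          nlinarith [mul_nonneg h6 (sq_nonneg (F.sumD x u - F.sumD x v))]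
        · rw [h5] at h3 h4
          nlinarith [mul_nonneg (neg_nonneg.2 h6.le) (sq_nonneg (F.sumD x u + F.sumD x v))]
    _ = _ := by
        simp only [sum_add_distrib, sum_const, card_univ, nsmul_eq_mul, ← mul_sum]
        ring

/-- The margin.  `d a b = ∑_u η u 1[a, b ∈ D u] + ∑_i θ i 1[a, b ∈ S i]`, so `∑ x a x b d a b = ∑ η u (sumD x u)² + ∑ θ i (x (S i))² ≥ ∑ η u (sumD x u)²`; subtract `rem_le`. -/
theorem Forest.margin {ι : Type} [Fintype ι] (F : Forest U) (η : U → ℝ) (hη : ∀ u, 0 ≤ η u)
    (S : ι → Finset U) (θ : ι → ℝ) (hθ : ∀ i, 0 ≤ θ i) (d : U → U → ℝ)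
    (hd : ∀ a b, d a b = ∑ u, (if a ∈ F.D u ∧ b ∈ F.D u then η u else 0) +
      ∑ i, (if a ∈ S i ∧ b ∈ S i then θ i else 0))
    {dm : ℝ} (hdm : ∀ a b, d a b ≤ dm) (δ : U → ℝ) (hδ : ∀ u b, |F.df (fun a => d a b) u| ≤ δ u)
    (hs : ∀ u, 4 * dm * Fintype.card U * δ u ≤ η u) (x : U → ℝ) :
    ∑ u, η u / 2 * F.sumD x u ^ 2 ≤ ∑ a, ∑ b, x a * x b * (1 - Real.exp (- d a b)) := by
  have hsq : ∀ (T : Finset U) (c : ℝ),
      ∑ a, ∑ b, x a * x b * (if a ∈ T ∧ b ∈ T then c else 0) = c * (∑ a ∈ T, x a) ^ 2 := by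
    intro T c
    have e : ∑ a ∈ T, x a = ∑ a, if a ∈ T then x a else 0 := by rw [sum_ite_mem, univ_inter]
    rw [e, sq, sum_mul_sum, mul_sum]
    refine sum_congr rfl fun a _ => ?_
    rw [mul_sum]
    refine sum_congr rfl fun b _ => ?_
    by_cases ha : a ∈ T <;> by_cases hb : b ∈ T <;> simp [ha, hb]
    ring
  have hsw : ∀ {κ : Type} [Fintype κ] (T : κ → Finset U) (c : κ → ℝ),
      ∑ a, ∑ b, x a * x b * (∑ k, if a ∈ T k ∧ b ∈ T k then c k else 0) =
        ∑ k, c k * (∑ a ∈ T k, x a) ^ 2 := by
    intro κ _ T c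
    simp only [← hsq, mul_sum]
    rw [sum_comm (s := (univ : Finset κ))]
    exact sum_congr rfl fun a _ => sum_comm
  have h0 : ∀ a b, 0 ≤ d a b := by
    intro a b
    rw [hd]
    refine add_nonneg (sum_nonneg fun u _ => ?_) (sum_nonneg fun i _ => ?_)
    · split_ifs
      · exact hη u
      · exact le_rfl
    · split_ifs
      · exact hθ i
      · exact le_rfl
  have h1 := F.rem_le d (fun a b => by simp only [hd, and_comm]) (fun a b => ⟨h0 a b, hdm a b⟩)
    δ hδ x
  have h2 : ∑ a, ∑ b, x a * x b * d a b =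
      ∑ u, η u * F.sumD x u ^ 2 + ∑ i, θ i * (∑ a ∈ S i, x a) ^ 2 := by
    simp only [hd, mul_add, sum_add_distrib, hsw, Forest.sumD]
  have h3 : 0 ≤ ∑ i, θ i * (∑ a ∈ S i, x a) ^ 2 :=
    sum_nonneg fun i _ => mul_nonneg (hθ i) (sq_nonneg _)
  have h4 : ∑ a, ∑ b, x a * x b * (1 - Real.exp (- d a b)) = ∑ a, ∑ b, x a * x b * d a b -
      ∑ a, ∑ b, x a * x b * (d a b - 1 + Real.exp (- d a b)) := by
    simp only [← sum_sub_distrib]
    exact sum_congr rfl fun a _ => sum_congr rfl fun b _ => by ring
  have h5 : 2 * dm * Fintype.card U * ∑ u, δ u * F.sumD x u ^ 2 ≤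
      ∑ u, η u / 2 * F.sumD x u ^ 2 := by
    rw [mul_sum]
    refine sum_le_sum fun u _ => ?_
    have := mul_le_mul_of_nonneg_right (hs u) (sq_nonneg (F.sumD x u))
    linarith
  have h6 : ∑ u, η u * F.sumD x u ^ 2 = 2 * ∑ u, η u / 2 * F.sumD x u ^ 2 := by
    rw [mul_sum]
    exact sum_congr rfl fun u _ => by ring
  linarith

end Crest.Agent.R302
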