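import Crest.Agent.R302.Ene
import Crest.Agent.R302.Ultra

/-!
# R302/Marg: the link matrices of the energy have a margin
-/

set_option autoImplicit false
set_option linter.unusedSectionVars false

namespace Crest.Agent.R302

open Finset Crest.Agent.R309

variable {U E : Type} [Fintype U] [DecidableEq U] [Fintype E] [DecidableEq E]

private theorem marg_blk (F : Forest U) (blk : U → E)
    (hblk : ∀ u p, F.par u = some p → blk u = blk p) {v u : U} (h : F.A v u = true) :
    blk v = blk u := by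
  induction v using F.induction with
  | h v ih =>
    rcases (F.step v u).1 h with rfl | ⟨p, hp, h1⟩
    · rfl
    · rw [hblk v p hp, ih p hp h1]

private theorem marg_one (d : U → U → ℝ) (x : U → ℝ) {α γ ρ m w : ℝ} (hα : 0 ≤ α) (hγ : 0 ≤ γ)
    (hm0 : 0 ≤ m) (hρ : ρ ≤ Real.exp (- (α + γ)))
    (hm : m ≤ ∑ a, ∑ b, x a * x b * (1 - Real.exp (- d a b))) :
    ρ * m ≤ ∑ a, ∑ b, x a * x b * (1 - Real.exp (- (α + γ + d a b))) +
      2 * ∑ a, x a * w * (1 - Real.exp (- α)) + w ^ 2 * (1 - Real.exp (- α)) := by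
  have h1 : Real.exp (- α) ≤ 1 := Real.exp_le_one_iff.2 (by linarith)
  have h2 : Real.exp (- γ) ≤ 1 := Real.exp_le_one_iff.2 (by linarith)
  have h3 := Real.exp_pos (- α)
  have h4 := Real.exp_pos (- γ)
  have h5 : Real.exp (- (α + γ)) = Real.exp (- α) * Real.exp (- γ) := by
    rw [← Real.exp_add]; congr 1; ring
  have h6 : ∑ a, ∑ b, x a * x b * (1 - Real.exp (- (α + γ + d a b))) =
      (1 - Real.exp (- α) * Real.exp (- γ)) * (∑ a, x a) ^ 2 +
        Real.exp (- α) * Real.exp (- γ) * ∑ a, ∑ b, x a * x b * (1 - Real.exp (- d a b)) := by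
    rw [sq, sum_mul_sum]
    simp only [mul_sum, ← sum_add_distrib]
    refine sum_congr rfl fun a _ => sum_congr rfl fun b _ => ?_
    have : Real.exp (- (α + γ + d a b)) =
        Real.exp (- α) * Real.exp (- γ) * Real.exp (- d a b) := by
      rw [← Real.exp_add, ← Real.exp_add]; congr 1; ring
    rw [this]
    ring
  have h7 : ∑ a, x a * w * (1 - Real.exp (- α)) = (∑ a, x a) * w * (1 - Real.exp (- α)) := by
    rw [sum_mul, sum_mul]
  rw [h6, h7]
  rw [h5] at hρ
  have a1 := mul_le_mul_of_nonneg_right hρ hm0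
  have a2 := mul_le_mul_of_nonneg_left hm (mul_pos h3 h4).le
  have a3 := mul_nonneg (sub_nonneg.2 h1) (sq_nonneg ((∑ a, x a) + w))
  have a4 := mul_nonneg (mul_nonneg h3.le (sub_nonneg.2 h2)) (sq_nonneg (∑ a, x a))
  nlinarith

/-- Block by block.  For a block `Q` let `x^Q = x` on the block and `0` elsewhere, `X = ∑ x^Q`, `ρ₁ = exp (- α Q)`, `ρ₂ = exp (- γ Q)`.  As
`1 - ρ₁ ρ₂ exp (- d) = (1 - ρ₁) + ρ₁ (1 - ρ₂) + ρ₁ ρ₂ (1 - exp (- d))`, the contribution of `Q` is
`(1 - ρ₁) (X + w Q)² + ρ₁ (1 - ρ₂) X² + ρ₁ ρ₂ ∑ x^Q x^Q (1 - exp (- d)) ≥ ρ ∑_u η u (sumD x^Q u)²`, and `sumD x^Q u = sumD x u` if `blk u = Q` (all descendants of `u` lie in the block of `u`, `Forest.induction`). -/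
theorem marg_blocks (F : Forest U) (blk : U → E) (hblk : ∀ u p, F.par u = some p → blk u = blk p)
    (d : U → U → ℝ) (η : U → ℝ) (hη : ∀ u, 0 ≤ η u)
    (hm : ∀ x : U → ℝ, ∑ u, η u * F.sumD x u ^ 2 ≤ ∑ a, ∑ b, x a * x b * (1 - Real.exp (- d a b)))
    (α γ : E → ℝ) (hα : ∀ Q, 0 ≤ α Q) (hγ : ∀ Q, 0 ≤ γ Q) {ρ : ℝ} (hρ0 : 0 ≤ ρ)
    (hρ : ∀ Q, ρ ≤ Real.exp (- (α Q + γ Q))) (x : U → ℝ) (w : E → ℝ) :
    ρ * ∑ u, η u * F.sumD x u ^ 2 ≤
      ∑ a, ∑ b, x a * x b * (1 - Real.exp (- if blk a = blk b then α (blk a) + γ (blk a) + d a b else 0)) +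
        2 * ∑ a, x a * w (blk a) * (1 - Real.exp (- α (blk a))) +
        ∑ Q, w Q ^ 2 * (1 - Real.exp (- α Q)) := by
  have key : ∀ Q, ρ * ∑ u, η u * F.sumD (fun a => if blk a = Q then x a else 0) u ^ 2 ≤ _ :=
    fun Q => marg_one (w := w Q) d (fun a => if blk a = Q then x a else 0) (hα Q) (hγ Q)
      (sum_nonneg fun u _ => mul_nonneg (hη u) (sq_nonneg _)) (hρ Q) (hm _)
  have h1 := sum_le_sum fun Q (_ : Q ∈ univ) => key Q
  have e1 : ∑ Q, ∑ a, ∑ b, (if blk a = Q then x a else 0) * (if blk b = Q then x b else 0) *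
      (1 - Real.exp (- (α Q + γ Q + d a b))) = ∑ a, ∑ b, x a * x b *
        (1 - Real.exp (- if blk a = blk b then α (blk a) + γ (blk a) + d a b else 0)) := by
    rw [sum_comm]
    refine sum_congr rfl fun a _ => ?_
    rw [sum_comm]
    refine sum_congr rfl fun b _ => ?_
    rw [sum_eq_single (blk a) (fun Q _ hQ => by rw [if_neg (Ne.symm hQ)]; ring) (by simp),
      if_pos rfl]
    by_cases hab : blk a = blk b
    · rw [if_pos hab, if_pos hab.symm]
    · rw [if_neg hab, if_neg (Ne.symm hab)]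
      simp
  have e2 : ∑ Q, ∑ a, (if blk a = Q then x a else 0) * w Q * (1 - Real.exp (- α Q)) =
      ∑ a, x a * w (blk a) * (1 - Real.exp (- α (blk a))) := by
    rw [sum_comm]
    refine sum_congr rfl fun a _ => ?_
    rw [sum_eq_single (blk a) (fun Q _ hQ => by rw [if_neg (Ne.symm hQ)]; ring) (by simp),
      if_pos rfl]
  have e3 : ∑ u, η u * F.sumD x u ^ 2 ≤
      ∑ Q, ∑ u, η u * F.sumD (fun a => if blk a = Q then x a else 0) u ^ 2 := by
    rw [sum_comm]
    refine sum_le_sum fun u _ => ?_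
    have e4 : F.sumD x u = F.sumD (fun a => if blk a = blk u then x a else 0) u :=
      sum_congr rfl fun v hv => (if_pos (marg_blk F blk hblk (F.mem_D.1 hv))).symm
    rw [e4]
    exact single_le_sum (f := fun Q => η u * F.sumD (fun a => if blk a = Q then x a else 0) u ^ 2)
      (fun Q _ => mul_nonneg (hη u) (sq_nonneg _)) (mem_univ _)
  rw [sum_add_distrib, sum_add_distrib, ← mul_sum, ← mul_sum, e1, e2] at h1
  exact (mul_le_mul_of_nonneg_left e3 hρ0).trans h1

namespace Sys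

variable {S : Sys U E}

theorem Phi_diag (S : Sys U E) (φ : E → ℤ) (σ : U → ℤ) : S.Phi φ (diag σ) = S.Er φ σ := by
  simp only [Phi, Er, num, diag_X, diag_Y, diag_T, neg_neg]
  rfl

/-- the quadratic part of the second differences in the `Y` elements -/
noncomputable def dq (S : Sys U E) (a b : U) : ℝ :=
  ∑ u, (if a ∈ S.F.D u ∧ b ∈ S.F.D u then S.ell * S.L / ((S.G : ℝ) ^ 31 * (S.wd u : ℝ) ^ 2) else 0) +
    ∑ e, if a ∈ S.SE e ∧ b ∈ S.SE e then
      (if S.F'.par e = none then 0 else S.ell * S.L * (S.G : ℝ) ^ 44 / (S.wd (S.pc e) : ℝ) ^ 2) else 0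

/-- `Forest.margin` with `η u = κ / (G ^ 31 wd²)`, `dm = 4 / G ^ 99` (all widths are `≥ G ^ 72`), `δ u = 2 G ^ 76 η u`: passing from `u` to its parent changes only the term `u` of the first sum and the terms `e` of
the second sum that separate them, which have `wd u ≤ wd (pc e)` (`cut`); at a root `u`, `wd u = G ^ 72` is the least width. -/
theorem Good.dq_margin (h : S.Good) (x : U → ℝ) :
    ∑ u, 1 / (2 * (S.G : ℝ) ^ 31 * (S.wd u : ℝ) ^ 2) * S.F.sumD x u ^ 2 ≤
      ∑ a, ∑ b, x a * x b * (1 - Real.exp (- S.dq a b)) := by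
  have hG := h.G_geR
  have hG0 : (0 : ℝ) < S.G := by linarith
  have hG1 : (1 : ℝ) ≤ S.G := by linarith
  obtain ⟨hk1, hk2⟩ := h.kap
  have hU : (Fintype.card U : ℝ) ≤ S.G := by exact_mod_cast h.cardU
  have hE : (Fintype.card E : ℝ) ≤ S.G := by exact_mod_cast h.cardE
  have hw : ∀ u, (S.G : ℝ) ^ 72 ≤ S.wd u := fun u => by exact_mod_cast h.wd_ge u
  set κ := S.ell * S.L with hκ
  set η : U → ℝ := fun u => κ / ((S.G : ℝ) ^ 31 * (S.wd u : ℝ) ^ 2) with hη
  set θ : E → ℝ := fun e =>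
    if S.F'.par e = none then 0 else κ * (S.G : ℝ) ^ 44 / (S.wd (S.pc e) : ℝ) ^ 2 with hθ
  have hη0 : ∀ u, 0 ≤ η u := fun u => by
    simp only [hη]
    positivity
  have hθ0 : ∀ e, 0 ≤ θ e := fun e => by
    simp only [hθ]
    split_ifs <;> positivity
  have hθη : ∀ u e, S.wd u ≤ S.wd (S.pc e) → θ e ≤ (S.G : ℝ) ^ 75 * η u := fun u e hue => by
    have h1 := h.ene_wd u
    have h2 : (S.wd u : ℝ) ≤ S.wd (S.pc e) := by exact_mod_cast hue
    have h3 : (S.G : ℝ) ^ 75 * η u = κ * (S.G : ℝ) ^ 44 / (S.wd u : ℝ) ^ 2 := by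
      simp only [hη]
      field_simp
    rw [h3]
    simp only [hθ]
    split_ifs
    · positivity
    · exact div_le_div_of_nonneg_left (by positivity) (by positivity) (by gcongr)
  have hηb : ∀ u, (S.G : ℝ) ^ 75 * η u ≤ 2 / (S.G : ℝ) ^ 100 := fun u => by
    have h1 := h.ene_wd u
    have h3 : (S.G : ℝ) ^ 75 * η u = κ * (S.G : ℝ) ^ 44 / (S.wd u : ℝ) ^ 2 := by
      simp only [hη]
      field_simp
    have h4 : 2 / (S.G : ℝ) ^ 100 = 2 * (S.G : ℝ) ^ 44 / ((S.G : ℝ) ^ 72) ^ 2 := by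
      field_simp
    rw [h3, h4]
    have := hw u
    gcongr
  have h75 : ∀ u, η u ≤ (S.G : ℝ) ^ 75 * η u := fun u =>
    le_mul_of_one_le_left (hη0 u) (one_le_pow₀ hG1)
  have hd : ∀ a b, S.dq a b = ∑ u, (if a ∈ S.F.D u ∧ b ∈ S.F.D u then η u else 0) +
      ∑ e, (if a ∈ S.SE e ∧ b ∈ S.SE e then θ e else 0) := fun a b => rfl
  have hmain := S.F.margin η hη0 S.SE θ hθ0 S.dq hd (dm := 4 / (S.G : ℝ) ^ 99) (fun a b => ?_)
    (fun u => 2 * (S.G : ℝ) ^ 76 * η u) (fun u b => ?_) (fun u => ?_) x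
  · refine le_trans (sum_le_sum fun u _ => mul_le_mul_of_nonneg_right ?_ (sq_nonneg _)) hmain
    have h1 := h.ene_wd u
    have h2 : η u / 2 = κ / (2 * (S.G : ℝ) ^ 31 * (S.wd u : ℝ) ^ 2) := by
      simp only [hη]
      field_simp
    rw [h2]
    gcongr
  · have h1 : ∑ u, (if a ∈ S.F.D u ∧ b ∈ S.F.D u then η u else 0) ≤
        Fintype.card U * (2 / (S.G : ℝ) ^ 100) := by
      rw [← nsmul_eq_mul, ← card_univ]
      refine sum_le_card_nsmul _ _ _ fun u _ => ?_
      split_ifs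
      · exact (h75 u).trans (hηb u)
      · positivity
    have h2 : ∑ e, (if a ∈ S.SE e ∧ b ∈ S.SE e then θ e else 0) ≤
        Fintype.card E * (2 / (S.G : ℝ) ^ 100) := by
      rw [← nsmul_eq_mul, ← card_univ]
      refine sum_le_card_nsmul _ _ _ fun e _ => ?_
      split_ifs
      · exact (hθη _ e le_rfl).trans (hηb _)
      · positivity
    have h3 : 4 / (S.G : ℝ) ^ 99 =
        S.G * (2 / (S.G : ℝ) ^ 100) + S.G * (2 / (S.G : ℝ) ^ 100) := by
      field_simp
      ring
    have h4 : (0 : ℝ) ≤ 2 / (S.G : ℝ) ^ 100 := by positivity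
    rw [hd, h3]
    exact add_le_add (h1.trans (mul_le_mul_of_nonneg_right hU h4))
      (h2.trans (mul_le_mul_of_nonneg_right hE h4))
  · have key : ∀ (f : U → ℝ) (g : E → ℝ), (∀ r, |f r| ≤ if r = u then η u else 0) →
        (∀ e, |g e| ≤ (S.G : ℝ) ^ 75 * η u) →
        |∑ r, f r + ∑ e, g e| ≤ 2 * (S.G : ℝ) ^ 76 * η u := by
      intro f g hf hg
      have h1 : |∑ r, f r| ≤ η u := by
        refine (abs_sum_le_sum_abs _ _).trans ((sum_le_sum fun r _ => hf r).trans ?_)
        simp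
      have h2 : |∑ e, g e| ≤ Fintype.card E * ((S.G : ℝ) ^ 75 * η u) := by
        rw [← nsmul_eq_mul, ← card_univ]
        exact (abs_sum_le_sum_abs _ _).trans (sum_le_card_nsmul _ _ _ fun e _ => hg e)
      have h3 : (0 : ℝ) ≤ (S.G : ℝ) ^ 75 * η u := mul_nonneg (by positivity) (hη0 u)
      have h4 := mul_le_mul_of_nonneg_right hE h3
      have h5 := mul_le_mul_of_nonneg_right hG1 h3
      have h6 := h75 u
      have h7 := abs_add_le (∑ r, f r) (∑ e, g e)
      have h8 : 2 * (S.G : ℝ) ^ 76 * η u = 2 * (S.G * ((S.G : ℝ) ^ 75 * η u)) := by ring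
      linarith
    have h9 : ∀ e, 0 ≤ (S.G : ℝ) ^ 75 * η u := fun _ : E => mul_nonneg (by positivity) (hη0 u)
    unfold Forest.df
    beta_reduce
    cases hu : S.F.par u with
    | none =>
      rw [Option.elim_none, sub_zero, hd]
      refine key _ _ (fun r => ?_) (fun e => ?_)
      · by_cases hr : r = u
        · subst hr
          rw [if_pos rfl]
          split_ifs
          · exact (abs_of_nonneg (hη0 r)).le
          · simpa using hη0 r
        · rw [if_neg hr, if_neg fun h' => hr ((S.F.of_root hu).1 (S.F.mem_D.1 h'.1)), abs_zero]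
      · split_ifs
        · rw [abs_of_nonneg (hθ0 e)]
          exact hθη u e (by rw [h.wd_root u hu]; exact h.wd_ge _)
        · simpa using h9 e
    | some p =>
      rw [Option.elim_some, hd, hd, add_sub_add_comm, ← sum_sub_distrib, ← sum_sub_distrib]
      refine key _ _ (fun r => ?_) (fun e => ?_)
      · by_cases hr : r = u
        · subst hr
          have hp : ¬ (p ∈ S.F.D r ∧ b ∈ S.F.D r) := fun h' => by
            have := S.F.mem_D.1 h'.1
            rw [S.F.acyc r p hu] at this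
            exact Bool.false_ne_true this
          rw [if_pos rfl, if_neg hp, sub_zero]
          split_ifs
          · exact (abs_of_nonneg (hη0 r)).le
          · simpa using hη0 r
        · have hp : u ∈ S.F.D r ↔ p ∈ S.F.D r := by
            rw [S.F.mem_D, S.F.mem_D, S.F.of_par hu]
            simp [hr]
          simp [hp, hr]
      · by_cases he : S.F'.A (S.pr u) e = true ↔ S.F'.A (S.pr p) e = true
        · have hp : u ∈ S.SE e ↔ p ∈ S.SE e := by simpa [SE] using he
          simpa [hp] using h9 e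
        · have h1 := hθη u e (h.cut u p hu e he).2
          have h2 := hθ0 e
          rw [abs_le]
          constructor <;> split_ifs <;> linarith
  · have h1 : 4 * (4 / (S.G : ℝ) ^ 99) * S.G * (2 * (S.G : ℝ) ^ 76) = 32 / (S.G : ℝ) ^ 22 := by
      field_simp
      ring
    have h2 : 32 / (S.G : ℝ) ^ 22 ≤ 1 := by
      rw [div_le_one (by positivity)]
      exact le_trans (by linarith) (le_self_pow₀ hG1 (by norm_num))
    have h3 : 4 * (4 / (S.G : ℝ) ^ 99) * Fintype.card U * (2 * (S.G : ℝ) ^ 76) ≤ 1 := by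
      refine le_trans ?_ (h1.le.trans h2)
      gcongr
    have h4 := mul_le_mul_of_nonneg_right h3 (hη0 u)
    linarith

private theorem marg_sum {T : Type} [Fintype T] (f : El U T → ℝ) :
    ∑ a, f a = ∑ u, f (eX u) + ∑ u, f (eY u) + ∑ t, f (Sum.inr t) := by
  rw [Fintype.sum_sum_type, Fintype.sum_prod_type]
  simp only [Fintype.sum_bool, sum_add_distrib]

/-- the change of the `X` counts -/
private def mX (a : El U (Option E)) : U → ℤ := fun u => dl a (eX u)

/-- the change of the `Y` counts -/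
private def mY (a : El U (Option E)) : U → ℤ := fun u => - dl a (eY u)

/-- the change of the argument of the absolute values -/
private def mT (S : Sys U E) (a : El U (Option E)) (e : E) : ℤ :=
  S.z (mY a) e - dl a (Sum.inr (some e))

private theorem mX_X (a : U) : mX (E := E) (eX a) = dl a := by
  funext u
  simp [mX, dl_apply]

private theorem mX_Y (a : U) : mX (E := E) (eY a) = 0 := by
  funext u
  simp [mX, dl_apply]

private theorem mX_T (t : Option E) : mX (U := U) (Sum.inr t) = 0 := by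
  funext u
  simp [mX, dl_apply]

private theorem mY_X (a : U) : mY (E := E) (eX a) = 0 := by
  funext u
  simp [mY, dl_apply]

private theorem mY_T (t : Option E) : mY (U := U) (Sum.inr t) = 0 := by
  funext u
  simp [mY, dl_apply]

private theorem sum_mY_Y (a : U) (A : Finset U) :
    ∑ u ∈ A, mY (E := E) (eY a) u = if a ∈ A then -1 else 0 := by
  simp only [mY, dl_apply, Sum.inl.injEq, Prod.mk.injEq, and_true, sum_neg_distrib, sum_ite_eq']
  split_ifs <;> simp

private theorem marg_z0 (S : Sys U E) (e : E) : S.z 0 e = 0 := by simp [z]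

private theorem marg_y0 (S : Sys U E) (u : U) : S.F.sumD (0 : U → ℤ) u = 0 := by
  simp [Forest.sumD]

private theorem mT_X (S : Sys U E) (a : U) (e : E) : mT S (eX a) e = 0 := by
  simp [mT, mY_X, marg_z0, dl_apply]

private theorem mT_Y (S : Sys U E) (a : U) (e : E) :
    mT S (eY a) e = if a ∈ S.SE e then -1 else 0 := by
  rw [mT, z, sum_mY_Y]
  simp [dl_apply]

private theorem mT_T (S : Sys U E) (t : Option E) (e : E) :
    mT S (Sum.inr t) e = if some e = t then -1 else 0 := by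
  rw [mT, mY_T, marg_z0, dl_apply]
  simp only [Sum.inr.injEq]
  split_ifs <;> simp

private theorem mT_cases (S : Sys U E) (a : El U (Option E)) (e : E) :
    mT S a e = 0 ∨ mT S a e = -1 := by
  rcases a with ⟨a, _ | _⟩ | t
  · rw [mT_Y]
    split_ifs <;> simp
  · exact Or.inl (mT_X S a e)
  · rw [mT_T]
    split_ifs <;> simp

private theorem marg_abs (t i j : ℤ) (hi : i = 0 ∨ i = -1) (hj : j = 0 ∨ j = -1) :
    |t + i + j| + |t| - |t + i| - |t + j| = i * j * (|t - 2| + |t| - 2 * |t - 1|) := by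
  rcases hi with rfl | rfl <;> rcases hj with rfl | rfl
  · simp
  · simp
  · simp
  · rw [show t + -1 + -1 = t - 2 by ring, show t + -1 = t - 1 by ring]
    ring

/-- the coefficient of the absolute values -/
private noncomputable def mA (S : Sys U E) (c : El U (Option E) → ℤ) (e : E) : ℝ :=
  if S.F'.par e = none then S.ell * S.L * (4 * S.g) *
    ((|S.z (fun u => - c (eY u)) e - c (Sum.inr (some e)) - 2| +
      |S.z (fun u => - c (eY u)) e - c (Sum.inr (some e))| -
      2 * |S.z (fun u => - c (eY u)) e - c (Sum.inr (some e)) - 1| : ℤ) : ℝ) else 0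

/-- the coefficient of the squares at the roots -/
private noncomputable def mG (S : Sys U E) (e : E) : ℝ :=
  if S.F'.par e = none then S.ell * S.L else 0

private theorem marg_num2 (S : Sys U E) (β i j : U → ℤ) (τ k l : E → ℤ)
    (hi : ∀ e, S.z i e - k e = 0 ∨ S.z i e - k e = -1)
    (hj : ∀ e, S.z j e - l e = 0 ∨ S.z j e - l e = -1) :
    S.num2 (β + i + j) (τ + k + l) + S.num2 β τ - S.num2 (β + i) (τ + k) - S.num2 (β + j) (τ + l) =
      ∑ u, 2 * (S.cu u : ℤ) ^ 2 * (S.F.sumD i u * S.F.sumD j u) +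
        ∑ e, if S.F'.par e = none then (S.G : ℤ) ^ 31 * (S.Dn : ℤ) ^ 2 *
          (8 * S.g * ((S.z i e - k e) * (S.z j e - l e) *
            (|S.z β e - τ e - 2| + |S.z β e - τ e| - 2 * |S.z β e - τ e - 1|)) +
            2 * (S.z i e * S.z j e))
          else 2 * (S.G : ℤ) ^ 75 * (S.cu (S.pc e) : ℤ) ^ 2 * (S.z i e * S.z j e) := by
  have hy : ∀ (σ v : U → ℤ) (u : U), S.y (σ + v) u = S.y σ u + S.F.sumD v u := fun σ v u => by
    rw [y, y, ← Forest.sumD_add, add_sub_right_comm]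
  have h0 : ∀ a1 a2 a3 a4 b1 b2 b3 b4 : ℤ, a1 + b1 + (a2 + b2) - (a3 + b3) - (a4 + b4) =
      (a1 + a2 - a3 - a4) + (b1 + b2 - b3 - b4) := fun _ _ _ _ _ _ _ _ => by ring
  simp only [num2]
  rw [h0]
  simp only [← sum_add_distrib, ← sum_sub_distrib]
  congr 1
  · refine sum_congr rfl fun u _ => ?_
    simp only [hy]
    ring
  · refine sum_congr rfl fun e _ => ?_
    simp only [z_add, Pi.add_apply, zt]
    split_ifs
    · rw [← marg_abs _ _ _ (hi e) (hj e),
        show S.z β e + S.z i e + S.z j e - (τ e + k e + l e) =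
          S.z β e - τ e + (S.z i e - k e) + (S.z j e - l e) by ring,
        show S.z β e + S.z i e - (τ e + k e) = S.z β e - τ e + (S.z i e - k e) by ring,
        show S.z β e + S.z j e - (τ e + l e) = S.z β e - τ e + (S.z j e - l e) by ring]
      ring
    · ring

private theorem Good.marg_dd (h : S.Good) (φ : E → ℤ) (c : El U (Option E) → ℤ)
    (a b : El U (Option E)) :
    dd (S.Phi φ) c a b = S.ell * S.L / S.Dn *
      ((S.nu ((fun u => c (eX u)) + mX a + mX b) + S.nu (fun u => c (eX u)) -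
        S.nu ((fun u => c (eX u)) + mX a) - S.nu ((fun u => c (eX u)) + mX b) : ℤ) : ℝ) +
      ∑ u, S.ell * S.L / ((S.G : ℝ) ^ 31 * (S.wd u : ℝ) ^ 2) *
        ((S.F.sumD (mY a) u * S.F.sumD (mY b) u : ℤ) : ℝ) +
      ∑ e, (mA S c e * ((mT S a e * mT S b e : ℤ) : ℝ) +
        (mG S e + if S.F'.par e = none then 0 else
          S.ell * S.L * (S.G : ℝ) ^ 44 / (S.wd (S.pc e) : ℝ) ^ 2) *
          ((S.z (mY a) e * S.z (mY b) e : ℤ) : ℝ)) := by
  have hG : (0 : ℝ) < S.G := lt_of_lt_of_le (by norm_num) h.G_geR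
  have hD := h.ene_Dn
  have hden : (S.den : ℝ) = 2 * (S.G : ℝ) ^ 31 * (S.Dn : ℝ) ^ 2 := by simp [den]
  have hX : ∀ (c : El U (Option E) → ℤ) (a : El U (Option E)),
      (fun u => (c + dl a) (eX u)) = (fun u => c (eX u)) + mX a := fun c a => rfl
  have hY : ∀ (c : El U (Option E) → ℤ) (a : El U (Option E)),
      (fun u => - (c + dl a) (eY u)) = (fun u => - c (eY u)) + mY a := fun c a => by
    funext u
    simp only [Pi.add_apply, mY]
    ring
  have hT : ∀ (c : El U (Option E) → ℤ) (a : El U (Option E)),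
      (fun e => (c + dl a) (Sum.inr (some e))) =
        (fun e => c (Sum.inr (some e))) + fun e => dl a (Sum.inr (some e)) := fun c a => rfl
  have hf : ∀ σ v : U → ℤ, S.fld φ (σ + v) = S.fld φ σ + S.fld φ v := fun σ v => by
    simp only [fld, z_add, mul_add, sum_add_distrib]
  have hn := marg_num2 S (fun u => - c (eY u)) (mY a) (mY b) (fun e => c (Sum.inr (some e)))
    (fun e => dl a (Sum.inr (some e))) (fun e => dl b (Sum.inr (some e)))
    (mT_cases S a) (mT_cases S b)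
  have h1 : ∀ u, S.ell * S.L / S.den *
      ((2 * (S.cu u : ℤ) ^ 2 * (S.F.sumD (mY a) u * S.F.sumD (mY b) u) : ℤ) : ℝ) =
      S.ell * S.L / ((S.G : ℝ) ^ 31 * (S.wd u : ℝ) ^ 2) *
        ((S.F.sumD (mY a) u * S.F.sumD (mY b) u : ℤ) : ℝ) := fun u => by
    have := h.ene_wd u
    push_cast
    rw [hden, h.ene_cu]
    field_simp
  have h2 : ∀ e, S.ell * S.L / S.den * ((if S.F'.par e = none then (S.G : ℤ) ^ 31 * (S.Dn : ℤ) ^ 2 *
      (8 * S.g * (mT S a e * mT S b e *
        (|S.z (fun u => - c (eY u)) e - c (Sum.inr (some e)) - 2| +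
          |S.z (fun u => - c (eY u)) e - c (Sum.inr (some e))| -
          2 * |S.z (fun u => - c (eY u)) e - c (Sum.inr (some e)) - 1|)) +
        2 * (S.z (mY a) e * S.z (mY b) e))
      else 2 * (S.G : ℤ) ^ 75 * (S.cu (S.pc e) : ℤ) ^ 2 * (S.z (mY a) e * S.z (mY b) e) : ℤ) : ℝ) =
      mA S c e * ((mT S a e * mT S b e : ℤ) : ℝ) +
        (mG S e + if S.F'.par e = none then 0 else
          S.ell * S.L * (S.G : ℝ) ^ 44 / (S.wd (S.pc e) : ℝ) ^ 2) *
          ((S.z (mY a) e * S.z (mY b) e : ℤ) : ℝ) := fun e => by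
    have := h.ene_wd (S.pc e)
    unfold mA mG
    split_ifs
    · generalize (|S.z (fun u => - c (eY u)) e - c (Sum.inr (some e)) - 2| +
          |S.z (fun u => - c (eY u)) e - c (Sum.inr (some e))| -
          2 * |S.z (fun u => - c (eY u)) e - c (Sum.inr (some e)) - 1|) = t
      push_cast
      rw [hden]
      field_simp
      ring
    · push_cast
      rw [hden, h.ene_cu]
      field_simp
      ring
  have h3 : S.ell * S.L / S.Dn = S.ell * S.L / S.den * (2 * (S.G : ℝ) ^ 31 * S.Dn) := by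
    rw [hden]
    field_simp
  rw [← sum_congr rfl fun u _ => h1 u, ← sum_congr rfl fun e _ => h2 e, ← mul_sum, ← mul_sum,
    ← Int.cast_sum, ← Int.cast_sum, add_assoc, ← mul_add, ← Int.cast_add]
  simp only [mT]
  rw [← hn, h3]
  simp only [dd, Phi, hX, hY, hT, hf]
  push_cast
  ring

private theorem marg_ite (P Q : Prop) [Decidable P] [Decidable Q] (r : ℝ) :
    r * (((if P then -1 else 0 : ℤ) * (if Q then -1 else 0 : ℤ) : ℤ) : ℝ) =
      if P ∧ Q then r else 0 := by
  by_cases hP : P <;> by_cases hQ : Q <;> simp [hP, hQ]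

private theorem Good.mA_bd (h : S.Good) (c : El U (Option E) → ℤ) (e : E) :
    0 ≤ mA S c e ∧ mA S c e ≤ 16 * S.g := by
  obtain ⟨hk1, hk2⟩ := h.kap
  have hg : (0 : ℝ) ≤ S.g := Nat.cast_nonneg _
  unfold mA
  split_ifs
  · generalize S.z (fun u => - c (eY u)) e - c (Sum.inr (some e)) = t
    have h1 : 0 ≤ |t - 2| + |t| - 2 * |t - 1| ∧ |t - 2| + |t| - 2 * |t - 1| ≤ 2 := by
      rcases abs_cases (t - 2) with h1 | h1 <;> rcases abs_cases t with h2 | h2 <;>
        rcases abs_cases (t - 1) with h3 | h3 <;> omega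
    generalize |t - 2| + |t| - 2 * |t - 1| = k at h1
    have h2 : (0 : ℝ) ≤ k := by exact_mod_cast h1.1
    have h3 : (k : ℝ) ≤ 2 := by exact_mod_cast h1.2
    refine ⟨by positivity, ?_⟩
    calc S.ell * S.L * (4 * S.g) * k ≤ 2 * (4 * S.g) * 2 := by gcongr
      _ = _ := by ring
  · exact ⟨le_rfl, by positivity⟩

private theorem Good.mG_bd (h : S.Good) (e : E) : 0 ≤ mG S e ∧ mG S e ≤ 2 := by
  obtain ⟨hk1, hk2⟩ := h.kap
  unfold mG
  split_ifs
  · exact ⟨by linarith, hk2⟩
  · exact ⟨le_rfl, by norm_num⟩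

private theorem Good.marg_rho (h : S.Good) :
    1 / (S.G : ℝ) ^ 24 ≤ Real.exp (- (16 * S.g + 2)) := by
  have hg : (20 : ℝ) ≤ S.g := by exact_mod_cast h.par_g
  have h1 : (S.G : ℝ) ^ 24 = Real.exp (Real.log 2 * (S.g * 24)) := by
    rw [Real.exp_mul, Real.exp_log (by norm_num), h.par_G, ← h.par_G]
    rw [show ((S.g : ℝ) * 24) = ((S.g * 24 : ℕ) : ℝ) by push_cast; ring, Real.rpow_natCast, pow_mul]
    congr 1
    exact_mod_cast h.par_G
  rw [h1, one_div, ← Real.exp_neg, Real.exp_le_exp]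
  have := Real.log_two_gt_d9
  nlinarith

/-- Split the double sum (`sum_El`, `Fintype.sum_option`).  `dd` vanishes between an `X` element and a `Y` element or terminal, and whenever the neutral terminal `none` or a terminal `some e` with `e` not a root is involved.
`X X`: `dd = κ / Dn * dd nu`, use `ultra_exp` (`nu_dd_nonneg`, `nu_ultra`).  `Y` and terminals: let `blk a` be the root of `F'` above `pr a` (`exists_root`; `cut` gives `hblk`), `t Q = z β Q - c (some Q)`,
`α Q = κ 4 g (|t - 2| + |t| - 2 |t - 1|) ∈ {0, 8 g κ}` and `γ Q = κ` for roots `Q` (`0` otherwise).  Then `dd (eY a) (eY b) = if blk a = blk b then α + γ + dq a b else 0` (`dq a b = 0` for different blocks),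
`dd (eY a) (some Q) = if blk a = Q then α Q else 0`, `dd (some Q) (some Q') = if Q = Q' then α Q else 0`.  Apply `marg_blocks` with `ρ = G ^ (-24) ≤ exp (- 16 g - 2)` (`Real.log_two_gt_d9`). -/
theorem Good.margin (h : S.Good) (φ : E → ℤ) (c : El U (Option E) → ℤ) (x : El U (Option E) → ℝ) :
    ∑ u, S.F.sumD (fun v => x (eY v)) u ^ 2 / (2 * (S.G : ℝ) ^ 55 * (S.wd u : ℝ) ^ 2) ≤
      ∑ a, ∑ b, x a * x b * (1 - Real.exp (- dd (S.Phi φ) c a b)) := by
  have hG : (0 : ℝ) < S.G := lt_of_lt_of_le (by norm_num) h.G_geR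
  choose rt hr1 hr2 hr3 using S.F'.exists_root
  have hSE : ∀ a e, a ∈ S.SE e ↔ S.F'.A (S.pr a) e = true := fun a e => by simp [SE]
  have hroot : ∀ a e, S.F'.par e = none → (a ∈ S.SE e ↔ e = rt (S.pr a)) := fun a e he =>
    ⟨fun ha => hr3 _ _ he ((hSE a e).1 ha), fun ha => (hSE a e).2 (ha ▸ hr2 _)⟩
  have hblk : ∀ u p, S.F.par u = some p → rt (S.pr u) = rt (S.pr p) := fun u p hp => by
    refine hr3 _ _ (hr1 _) ?_
    by_contra hne
    exact (h.cut u p hp (rt (S.pr u)) fun H => hne (H.1 (hr2 _))).1 (hr1 _)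
  have hSE' : ∀ a e, a ∈ S.SE e → rt (S.pr a) = rt e := fun a e ha =>
    (hr3 _ _ (hr1 e) (S.F'.trans ((hSE a e).1 ha) (hr2 e))).symm
  -- functions that vanish outside the roots
  have hsum : ∀ (f : E → ℝ), (∀ e, S.F'.par e ≠ none → f e = 0) → ∀ (a : U) (P : E → Prop)
      [DecidablePred P], ∑ e, (if a ∈ S.SE e ∧ P e then f e else 0) =
        if P (rt (S.pr a)) then f (rt (S.pr a)) else 0 := by
    intro f hf a P _
    rw [sum_eq_single (rt (S.pr a)) (fun e _ hne => ?_) (by simp)]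
    · simp [(hroot a _ (hr1 _)).2 rfl]
    · by_cases he : S.F'.par e = none
      · exact if_neg fun h' => hne ((hroot a e he).1 h'.1)
      · rw [hf e he, ite_self]
  have hA0 : ∀ e, S.F'.par e ≠ none → mA S c e = 0 := fun e he => if_neg he
  have hG0 : ∀ e, S.F'.par e ≠ none → mG S e = 0 := fun e he => if_neg he
  have hcomm : ∀ a b, dd (S.Phi φ) c a b = dd (S.Phi φ) c b a := fun a b => by
    simp only [dd, add_right_comm c (dl a) (dl b)]
    ring
  have dXX : ∀ a b, dd (S.Phi φ) c (eX a) (eX b) =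
      S.ell * S.L / S.Dn * ((dd (S.F.nu S.f S.lam) (fun u => c (eX u)) a b : ℤ) : ℝ) := fun a b => by
    rw [h.marg_dd]
    simp only [mX_X, mY_X, mT_X, marg_z0, marg_y0, mul_zero, Int.cast_zero, add_zero,
      sum_const_zero]
    rfl
  have dXY : ∀ a b, dd (S.Phi φ) c (eX a) (eY b) = 0 := fun a b => by
    rw [h.marg_dd]
    simp [mX_Y, mY_X, mT_X, marg_z0, marg_y0]
  have dXT : ∀ a t, dd (S.Phi φ) c (eX a) (Sum.inr t) = 0 := fun a t => by
    rw [h.marg_dd]
    simp [mX_T, mY_X, mT_X, marg_z0, marg_y0]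
  have dYT : ∀ a t, dd (S.Phi φ) c (eY a) (Sum.inr t) =
      if some (rt (S.pr a)) = t then mA S c (rt (S.pr a)) else 0 := fun a t => by
    rw [h.marg_dd, ← hsum _ hA0 a fun e => some e = t]
    simp only [mX_T, mX_Y, mY_T, mT_Y, mT_T, marg_z0, marg_y0, marg_ite]
    simp
  have dTT : ∀ t t', dd (S.Phi φ) c (Sum.inr t) (Sum.inr t') =
      ∑ e, if some e = t ∧ some e = t' then mA S c e else 0 := fun t t' => by
    rw [h.marg_dd]
    simp only [mX_T, mY_T, mT_T, marg_z0, marg_y0, marg_ite]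
    simp
  have dYY : ∀ a b, dd (S.Phi φ) c (eY a) (eY b) = if rt (S.pr a) = rt (S.pr b) then
      mA S c (rt (S.pr a)) + mG S (rt (S.pr a)) + S.dq a b else 0 := fun a b => by
    have e1 : ∀ f : E → ℝ, (∀ e, S.F'.par e ≠ none → f e = 0) →
        ∑ e, (if a ∈ S.SE e ∧ b ∈ S.SE e then f e else 0) =
          if rt (S.pr a) = rt (S.pr b) then f (rt (S.pr a)) else 0 := fun f hf => by
      rw [hsum f hf a fun e => b ∈ S.SE e]
      simp only [hroot b _ (hr1 _)]
    have e2 : rt (S.pr a) ≠ rt (S.pr b) → S.dq a b = 0 := fun hne => by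
      rw [dq, sum_eq_zero fun u _ => if_neg fun h' => hne ?_,
        sum_eq_zero fun e _ => if_neg fun h' => hne ((hSE' a e h'.1).trans (hSE' b e h'.2).symm),
        add_zero]
      exact (marg_blk S.F (fun a => rt (S.pr a)) hblk (S.F.mem_D.1 h'.1)).trans
        (marg_blk S.F (fun a => rt (S.pr a)) hblk (S.F.mem_D.1 h'.2)).symm
    have e3 : dd (S.Phi φ) c (eY a) (eY b) =
        ∑ e, (if a ∈ S.SE e ∧ b ∈ S.SE e then mA S c e else 0) +
          ∑ e, (if a ∈ S.SE e ∧ b ∈ S.SE e then mG S e else 0) + S.dq a b := by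
      rw [h.marg_dd, dq]
      simp only [mX_Y, mT_Y, z, Forest.sumD, sum_mY_Y, add_mul, marg_ite, sum_add_distrib,
        add_zero, add_sub_cancel_right, sub_self, Int.cast_zero, mul_zero, zero_add]
      ring
    rw [e3, e1 _ hA0, e1 _ hG0]
    split_ifs with hab
    · rfl
    · rw [e2 hab, add_zero, add_zero]
  have hκ : 0 ≤ S.ell * S.L / S.Dn := div_nonneg (by linarith [h.kap.1]) h.ene_Dn.le
  have h1 := ultra_exp
    (fun a b => S.ell * S.L / S.Dn * ((dd (S.F.nu S.f S.lam) (fun u => c (eX u)) a b : ℤ) : ℝ))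
    (fun a b => by rw [← dXX, ← dXX, hcomm])
    (fun a b => mul_nonneg hκ (by exact_mod_cast S.F.nu_dd_nonneg S.lam h.nice _ a b))
    (fun a b d => by
      rw [← mul_min_of_nonneg _ _ hκ, ← Int.cast_min]
      exact mul_le_mul_of_nonneg_left
        (by exact_mod_cast S.F.nu_ultra S.lam h.nice _ a b d) hκ) (fun a => x (eX a))
  have h2 := marg_blocks S.F (fun a => rt (S.pr a)) hblk S.dq
    (fun u => 1 / (2 * (S.G : ℝ) ^ 31 * (S.wd u : ℝ) ^ 2)) (fun u => by positivity) h.dq_margin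
    (mA S c) (mG S) (fun Q => (h.mA_bd c Q).1) (fun Q => (h.mG_bd Q).1)
    (ρ := 1 / (S.G : ℝ) ^ 24) (by positivity)
    (fun Q => h.marg_rho.trans (Real.exp_le_exp.2 (by
      linarith [(h.mA_bd c Q).2, (h.mG_bd Q).2])))
    (fun a => x (eY a)) (fun Q => x (Sum.inr (some Q)))
  have h3 : ∑ u, S.F.sumD (fun v => x (eY v)) u ^ 2 / (2 * (S.G : ℝ) ^ 55 * (S.wd u : ℝ) ^ 2) =
      1 / (S.G : ℝ) ^ 24 * ∑ u, 1 / (2 * (S.G : ℝ) ^ 31 * (S.wd u : ℝ) ^ 2) *
        S.F.sumD (fun v => x (eY v)) u ^ 2 := by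
    rw [mul_sum]
    refine sum_congr rfl fun u _ => ?_
    have := h.ene_wd u
    field_simp
  have sYT : ∀ a, ∑ t, x (eY a) * x (Sum.inr t) *
      (1 - Real.exp (- dd (S.Phi φ) c (eY a) (Sum.inr t))) =
      x (eY a) * x (Sum.inr (some (rt (S.pr a)))) * (1 - Real.exp (- mA S c (rt (S.pr a)))) := by
    intro a
    rw [sum_eq_single (some (rt (S.pr a))) (fun t _ hne => ?_) (by simp), dYT, if_pos rfl]
    rw [dYT, if_neg (Ne.symm hne)]
    simp
  have sTY : ∑ t, ∑ a, x (Sum.inr t) * x (eY a) *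
      (1 - Real.exp (- dd (S.Phi φ) c (Sum.inr t) (eY a))) =
      ∑ a, x (eY a) * x (Sum.inr (some (rt (S.pr a)))) *
        (1 - Real.exp (- mA S c (rt (S.pr a)))) := by
    rw [sum_comm]
    refine sum_congr rfl fun a _ => ?_
    rw [← sYT]
    exact sum_congr rfl fun t _ => by rw [hcomm, mul_comm (x _) (x _)]
  have sTT : ∑ t, ∑ t', x (Sum.inr t) * x (Sum.inr t') *
      (1 - Real.exp (- dd (S.Phi φ) c (Sum.inr t) (Sum.inr t'))) =
      ∑ Q, x (Sum.inr (some Q)) ^ 2 * (1 - Real.exp (- mA S c Q)) := by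
    rw [Fintype.sum_option, sum_eq_zero fun t _ => by rw [dTT]; simp, zero_add]
    refine sum_congr rfl fun Q _ => ?_
    rw [sum_eq_single (some Q) (fun t _ hne => ?_) (by simp), dTT, sq]
    · simp
    · rw [dTT, sum_eq_zero fun e _ => if_neg fun h' => hne (h'.2.symm.trans h'.1)]
      simp
  have dYX : ∀ a b, dd (S.Phi φ) c (eY a) (eX b) = 0 := fun a b => by rw [hcomm, dXY]
  have dTX : ∀ t b, dd (S.Phi φ) c (Sum.inr t) (eX b) = 0 := fun a b => by rw [hcomm, dXT]
  rw [h3]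
  simp only [marg_sum, sum_add_distrib, sYT, sTY, sTT, dXX, dXY, dXT, dYX, dTX, dYY, neg_zero,
    Real.exp_zero, sub_self, mul_zero, sum_const_zero]
  linarith

end Sys

end Crest.Agent.R302
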