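import Crest.Agent.R302.Bas
import Crest.Agent.R309.Mix

/-!
# R302/Mix: mixing from a weak Poincaré inequality (TASK, short)
-/

set_option autoImplicit false

namespace Crest.Agent.R302

open Finset Crest.Agent.Lib.PT Crest.Agent.R309

theorem wmix_jensen {σ : Type} (Ω : Finset σ) (w g : σ → ℝ) (h0 : ∀ y ∈ Ω, 0 ≤ w y) (h1 : ∑ y ∈ Ω, w y = 1) :
    (∑ y ∈ Ω, w y * g y) ^ 2 ≤ ∑ y ∈ Ω, w y * g y ^ 2 := by
  obtain ⟨q, hq⟩ : ∃ q, q = ∑ y ∈ Ω, w y * g y := ⟨_, rfl⟩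
  have h : 0 ≤ ∑ y ∈ Ω, w y * (g y - q) ^ 2 :=
    sum_nonneg fun y hy => mul_nonneg (h0 y hy) (sq_nonneg _)
  have e : ∑ y ∈ Ω, w y * (g y - q) ^ 2 =
      ∑ y ∈ Ω, w y * g y ^ 2 - 2 * q * ∑ y ∈ Ω, w y * g y + q ^ 2 * ∑ y ∈ Ω, w y := by
    rw [mul_sum, mul_sum, ← sum_sub_distrib, ← sum_add_distrib]
    exact sum_congr rfl fun y _ => by ring
  rw [e, h1, ← hq] at h
  rw [← hq]
  nlinarith

theorem wmix_stat {σ : Type} (Ω : Finset σ) (P : σ → σ → ℝ) (π : σ → ℝ)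
    (h1 : ∀ x ∈ Ω, ∑ y ∈ Ω, P x y = 1)
    (hrev : ∀ x ∈ Ω, ∀ y ∈ Ω, π x * P x y = π y * P y x) (g : σ → ℝ) :
    ∑ x ∈ Ω, π x * ∑ y ∈ Ω, P x y * g y = ∑ y ∈ Ω, π y * g y := by
  simp only [mul_sum]
  rw [sum_comm]
  refine sum_congr rfl fun y hy => ?_
  calc ∑ x ∈ Ω, π x * (P x y * g y) = ∑ x ∈ Ω, π y * g y * P y x :=
        sum_congr rfl fun x hx => by rw [← mul_assoc, hrev x hx y hy]; ring
    _ = π y * g y := by rw [← mul_sum, h1 y hy, mul_one]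

theorem wmix_contr {σ : Type} [DecidableEq σ] (Ω : Finset σ) (P : σ → σ → ℝ) (π : σ → ℝ)
    (Γ ε : ℝ) (hΓ : 1 ≤ Γ)
    (hπ : ∀ x ∈ Ω, 0 < π x) (h0 : ∀ x y, 0 ≤ P x y) (h1 : ∀ x ∈ Ω, ∑ y ∈ Ω, P x y = 1)
    (hlazy : ∀ x ∈ Ω, 1 / 2 ≤ P x x) (hrev : ∀ x ∈ Ω, ∀ y ∈ Ω, π x * P x y = π y * P y x)
    (g : σ → ℝ) (c : ℝ) (hc : ∑ x ∈ Ω, π x * (g x - c) ^ 2 ≤
      Γ / 2 * ∑ x ∈ Ω, ∑ y ∈ Ω, π x * P x y * (g x - g y) ^ 2 + ε)
    (hg : ∑ x ∈ Ω, π x * g x = 0) :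
    ∑ x ∈ Ω, π x * (∑ y ∈ Ω, P x y * g y) ^ 2 - ε ≤
      (1 - 1 / Γ) * (∑ x ∈ Ω, π x * g x ^ 2 - ε) := by
  set N := ∑ x ∈ Ω, π x * g x ^ 2 with hN
  set B := ∑ x ∈ Ω, π x * (g x * ∑ y ∈ Ω, P x y * g y) with hB
  have hst := wmix_stat Ω P π h1 hrev fun y => g y ^ 2
  -- `‖P g‖² ≤ ⟨g, P g⟩`
  have hA : ∑ x ∈ Ω, π x * (∑ y ∈ Ω, P x y * g y) ^ 2 ≤ B := by
    have hx : ∀ x ∈ Ω, π x * (∑ y ∈ Ω, P x y * g y) ^ 2 ≤
        π x * (g x * ∑ y ∈ Ω, P x y * g y) +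
          (π x * (∑ y ∈ Ω, P x y * g y ^ 2) - π x * g x ^ 2) / 2 := by
      intro x hx
      have hj := wmix_jensen Ω (fun y => 2 * P x y - if y = x then 1 else 0) g (by
        intro y _
        split_ifs with h
        · subst h
          have := hlazy y hx
          linarith
        · have := h0 x y
          linarith) (by
        rw [sum_sub_distrib, ← mul_sum, h1 x hx, sum_ite_eq', if_pos hx]
        norm_num)
      simp only [sub_mul, sum_sub_distrib, ite_mul, one_mul, zero_mul, sum_ite_eq', if_pos hx,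
        mul_assoc, ← mul_sum] at hj
      have := mul_le_mul_of_nonneg_left hj (hπ x hx).le
      nlinarith
    refine (sum_le_sum hx).trans ?_
    rw [sum_add_distrib, ← sum_div, sum_sub_distrib, hst]
    simp [hB]
  have hE : ∑ x ∈ Ω, ∑ y ∈ Ω, π x * P x y * (g x - g y) ^ 2 = 2 * (N - B) := by
    have hx : ∀ x ∈ Ω, ∑ y ∈ Ω, π x * P x y * (g x - g y) ^ 2 =
        π x * g x ^ 2 - 2 * (π x * (g x * ∑ y ∈ Ω, P x y * g y)) +
          π x * ∑ y ∈ Ω, P x y * g y ^ 2 := by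
      intro x hx
      calc _ = ∑ y ∈ Ω, (π x * g x ^ 2 * P x y - 2 * (π x * (g x * (P x y * g y))) +
            π x * (P x y * g y ^ 2)) := sum_congr rfl fun y _ => by ring
        _ = _ := by
          rw [sum_add_distrib, sum_sub_distrib, ← mul_sum, ← mul_sum, ← mul_sum, ← mul_sum,
            ← mul_sum, h1 x hx, mul_one]
    rw [sum_congr rfl hx, sum_add_distrib, sum_sub_distrib, ← mul_sum, hst]
    ring
  have hNc : N ≤ ∑ x ∈ Ω, π x * (g x - c) ^ 2 := by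
    have e : ∑ x ∈ Ω, π x * (g x - c) ^ 2 =
        N - 2 * c * ∑ x ∈ Ω, π x * g x + ∑ x ∈ Ω, π x * c ^ 2 := by
      rw [hN, mul_sum, ← sum_sub_distrib, ← sum_add_distrib]
      exact sum_congr rfl fun y _ => by ring
    have : 0 ≤ ∑ x ∈ Ω, π x * c ^ 2 := sum_nonneg fun x hx => mul_nonneg (hπ x hx).le (sq_nonneg _)
    rw [e, hg]
    linarith
  rw [hE] at hc
  have hΓ0 : 0 < Γ := by linarith
  have h2 : (N - ε) / Γ ≤ N - B := by
    rw [div_le_iff₀ hΓ0]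
    linarith
  have : (1 - 1 / Γ) * (N - ε) = N - ε - (N - ε) / Γ := by ring
  linarith

/-- Compare `R309.mix` (copy `mix_jensen`, `mix_stat`, `mix_contr` for a general state type).  Let `h t x = Ex (t ρ) (g (iter st ρ t x ·)) - mean`, extended by `0` outside `Ω`; `|h t| ≤ 1`, `∑ π h t = 0`,
`h (t+1) = P (h t)`.  With `N t = ∑ π (h t)²` and `B = ⟨h, P h⟩`: `N (t+1) ≤ B` (laziness), `N t ≤ Γ (N t - B) + ε`, so `N (t+1) - ε ≤ (1 - 1/Γ) (N t - ε)`; `N 0 ≤ Z`. -/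
theorem wmix {σ : Type} [DecidableEq σ] (Ω : Finset σ) (st : σ → List Bool → σ) (ρ : ℕ) (π : σ → ℝ)
    (Γ ε : ℝ) (hΓ : 1 ≤ Γ) (hε : 0 ≤ ε) (hπ : ∀ x ∈ Ω, 0 < π x)
    (hcl : ∀ x ∈ Ω, ∀ ω, ω.length = ρ → st x ω ∈ Ω)
    (hlazy : ∀ x ∈ Ω, 1 / 2 ≤ Pr ρ fun ω => st x ω = x)
    (hrev : ∀ x ∈ Ω, ∀ y ∈ Ω,
      π x * Pr ρ (fun ω => st x ω = y) = π y * Pr ρ fun ω => st y ω = x)
    (hP : ∀ f : σ → ℝ, (∀ x, |f x| ≤ 1) → ∃ c : ℝ, ∑ x ∈ Ω, π x * (f x - c) ^ 2 ≤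
      Γ / 2 * ∑ x ∈ Ω, ∑ y ∈ Ω, π x * Pr ρ (fun ω => st x ω = y) * (f x - f y) ^ 2 + ε)
    (g : σ → ℝ) (hg : ∀ x ∈ Ω, 0 ≤ g x ∧ g x ≤ 1) (t : ℕ) (x : σ) (hx : x ∈ Ω) :
    π x * (Ex (t * ρ) (fun l => g (iter st ρ t x l)) - (∑ y ∈ Ω, π y * g y) / ∑ y ∈ Ω, π y) ^ 2 ≤
      Real.exp (- (t / Γ)) * ∑ y ∈ Ω, π y + ε := by
  set Z := ∑ z ∈ Ω, π z with hZ
  have hZ0 : 0 < Z := sum_pos hπ ⟨x, hx⟩
  set μ := (∑ y ∈ Ω, π y * g y) / Z with hμ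
  have hμ0 : 0 ≤ μ := div_nonneg (sum_nonneg fun y hy => mul_nonneg (hπ y hy).le (hg y hy).1) hZ0.le
  have hμ1 : μ ≤ 1 := (div_le_one hZ0).2
    (sum_le_sum fun y hy => mul_le_of_le_one_right (hπ y hy).le (hg y hy).2)
  set P : σ → σ → ℝ := fun x y => Pr ρ fun ω => st x ω = y with hPdef
  have h1 : ∀ x ∈ Ω, ∑ y ∈ Ω, P x y = 1 := by
    intro x hx
    have := Ex_comp (n := ρ) (g := st x) (hcl x hx) fun _ => 1
    simp only [Ex_const, mul_one] at this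
    exact this.symm
  set h : ℕ → σ → ℝ := fun t x =>
    if x ∈ Ω then Ex (t * ρ) (fun l => g (iter st ρ t x l)) - μ else 0 with hh
  have hmem : ∀ t, ∀ x ∈ Ω, h t x = Ex (t * ρ) (fun l => g (iter st ρ t x l)) - μ :=
    fun t x hx => if_pos hx
  have hbd : ∀ t x, |h t x| ≤ 1 := by
    intro t x
    by_cases hx : x ∈ Ω
    · have a : ∀ l : List Bool, l.length = t * ρ → iter st ρ t x l ∈ Ω := fun l hl =>
        iter_inv st ρ (J := fun s => s ∈ Ω) (fun s ω hω hs => hcl s hs ω hω) hx hl.ge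
      have a0 : 0 ≤ Ex (t * ρ) fun l => g (iter st ρ t x l) := Ex_nonneg fun l hl => (hg _ (a l hl)).1
      have a1 : Ex (t * ρ) (fun l => g (iter st ρ t x l)) ≤ 1 := Ex_le fun l hl => (hg _ (a l hl)).2
      rw [hmem t x hx, abs_le]
      constructor <;> linarith
    · simp only [hh, if_neg hx, abs_zero, zero_le_one]
  have hstep : ∀ t, ∀ x ∈ Ω, h (t + 1) x = ∑ z ∈ Ω, P x z * h t z := by
    intro t x hx
    have e1 := Ex_iter_succ st ρ t x g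
    have e2 := Ex_comp (n := ρ) (g := st x) (hcl x hx)
      fun s => Ex (t * ρ) fun l => g (iter st ρ t s l)
    rw [hmem _ x hx, sum_congr rfl fun z hz => by rw [hmem t z hz], e1, e2]
    simp only [mul_sub, sum_sub_distrib, ← sum_mul, h1 x hx, one_mul]
    rfl
  have hΓ0 : 0 < Γ := by linarith
  have hθ : 0 ≤ 1 - 1 / Γ := by
    rw [sub_nonneg, div_le_one hΓ0]; exact hΓ
  have hind : ∀ t, ∑ x ∈ Ω, π x * h t x = 0 ∧
      ∑ x ∈ Ω, π x * h t x ^ 2 - ε ≤ (1 - 1 / Γ) ^ t * Z := by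
    intro t
    induction t with
    | zero =>
      constructor
      · rw [sum_congr rfl fun x hx => by rw [hmem 0 x hx]]
        simp only [iter_zero, Ex_const, mul_sub, sum_sub_distrib, ← sum_mul, ← hZ]
        rw [hμ, mul_div_cancel₀ _ hZ0.ne', sub_self]
      · have : ∑ x ∈ Ω, π x * h 0 x ^ 2 ≤ Z := sum_le_sum fun y hy =>
          mul_le_of_le_one_right (hπ y hy).le (sq_le_one_iff_abs_le_one _ |>.2 (hbd 0 y))
        rw [pow_zero, one_mul]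
        linarith
    | succ t ih =>
      constructor
      · rw [sum_congr rfl fun x hx => by rw [hstep t x hx], wmix_stat Ω P π h1 hrev, ih.1]
      · rw [sum_congr rfl fun x hx => by rw [hstep t x hx]]
        obtain ⟨c, hc⟩ := hP (h t) (hbd t)
        refine (wmix_contr Ω P π Γ ε hΓ hπ (fun _ _ => Pr_nonneg _ _) h1 hlazy hrev _ c hc
          ih.1).trans ?_
        rw [pow_succ', mul_assoc]
        exact mul_le_mul_of_nonneg_left ih.2 hθ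
  have h2 : π x * h t x ^ 2 ≤ ∑ x ∈ Ω, π x * h t x ^ 2 :=
    single_le_sum (f := fun x => π x * h t x ^ 2)
      (fun z hz => mul_nonneg (hπ z hz).le (sq_nonneg _)) hx
  have h3 : (1 - 1 / Γ) ^ t ≤ Real.exp (-(t / Γ)) := by
    have a : 1 - 1 / Γ ≤ Real.exp (-(1 / Γ)) := by
      have := Real.add_one_le_exp (-(1 / Γ))
      linarith
    refine (pow_le_pow_left₀ hθ a t).trans ?_
    rw [← Real.exp_nat_mul]
    exact le_of_eq (congrArg _ (by ring))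
  have h4 := mul_le_mul_of_nonneg_right h3 hZ0.le
  have h5 := (hind t).2
  rw [← hmem t x hx]
  linarith

end Crest.Agent.R302
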