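import Crest.Agent.R302.Opt
import Crest.Prelude.Def_OracleRAM

/-!
# R302/OMac: macro machines with an oracle (definitions)

One step looks at `rd s = (kind, address)`, obtains a value (kind `0`: the memory cell; kinds `1`, `2`: the answer of the oracle
`false`, `true` about the set written in the `n` cells from the address on; other kinds: the number `2 ^ (w - 1)`), draws one random bit, moves to
the state `s' = nx s value bit` and writes `(wr s').2` at the address `(wr s').1`.  It has halted when `fin s = some k`; its
output is then the content of the cells `0, …, k-1`.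
-/

set_option autoImplicit false

namespace Crest.Agent.R302

/-- Macro machines with an oracle. -/
structure OMac (σ : Type) where
  /-- initial state -/
  s0 : σ
  /-- next state, from the value and a random bit -/
  nx : σ → ℕ → Bool → σ
  /-- kind of the value, and address -/
  rd : σ → ℕ × ℕ
  /-- address and value to write on entering the state -/
  wr : σ → ℕ × ℕ
  /-- halting test and output length -/
  fin : σ → Option ℕ

namespace OMac

variable {σ : Type} (m : OMac σ) (n : ℕ) (O : Bool → Finset (Fin n) → ℕ) (w : ℕ)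

/-- The value obtained in a configuration. -/
def val (c : σ × (ℕ → ℕ)) : ℕ :=
  if (m.rd c.1).1 = 0 then c.2 (m.rd c.1).2
  else if (m.rd c.1).1 = 1 then
    O false (Finset.univ.filter fun j : Fin n => c.2 ((m.rd c.1).2 + j.val) ≠ 0)
  else if (m.rd c.1).1 = 2 then
    O true (Finset.univ.filter fun j : Fin n => c.2 ((m.rd c.1).2 + j.val) ≠ 0)
  else 2 ^ (w - 1)

/-- One step. -/
def step (c : σ × (ℕ → ℕ)) (b : Bool) : σ × (ℕ → ℕ) :=
  if (m.fin c.1).isSome then c else
    (m.nx c.1 (m.val n O w c) b, Function.update c.2 (m.wr (m.nx c.1 (m.val n O w c) b)).1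
      (m.wr (m.nx c.1 (m.val n O w c) b)).2)

/-- The run from a configuration, one random bit per step. -/
def go (c : σ × (ℕ → ℕ)) (l : List Bool) : σ × (ℕ → ℕ) := l.foldl (m.step n O w) c

/-- The initial configuration. -/
def init (inp : List ℕ) : σ × (ℕ → ℕ) := (m.s0, fun i => inp.getD i 0)

/-- The configuration has halted with the given output. -/
def Out (c : σ × (ℕ → ℕ)) (out : List ℕ) : Prop :=
  ∃ k, m.fin c.1 = some k ∧ out = (List.range k).map c.2

/-- The state is small and uses only the lower half of the memory. -/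
def Small (B : ℕ) [Lib.PT.Enc σ] (s : σ) : Prop :=
  Lib.PT.sz s ≤ B ∧ (m.wr s).1 < 2 ^ (w - 1) ∧ (m.wr s).2 < 2 ^ w ∧ (m.rd s).2 + n < 2 ^ (w - 1) ∧
    ∀ k, m.fin s = some k → k < 2 ^ (w - 1)

@[simp] theorem go_nil (c : σ × (ℕ → ℕ)) : m.go n O w c [] = c := rfl

@[simp] theorem go_cons (c : σ × (ℕ → ℕ)) (b : Bool) (l : List Bool) :
    m.go n O w c (b :: l) = m.go n O w (m.step n O w c b) l := rfl

theorem go_append (c : σ × (ℕ → ℕ)) (l l' : List Bool) :
    m.go n O w c (l ++ l') = m.go n O w (m.go n O w c l) l' := List.foldl_append ..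

theorem step_of_fin {c : σ × (ℕ → ℕ)} (h : m.fin c.1 ≠ none) (b : Bool) : m.step n O w c b = c := by
  unfold step; rw [if_pos (Option.isSome_iff_ne_none.2 h)]

theorem go_of_fin {c : σ × (ℕ → ℕ)} (h : m.fin c.1 ≠ none) (l : List Bool) :
    m.go n O w c l = c := by
  induction l with
  | nil => rfl
  | cons b l ih => rw [go_cons, m.step_of_fin n O w h, ih]

end OMac

/-- The low bits of the first `T` random words. -/
def lowBits (w : ℕ) (ρ : ℕ → ℕ) (T : ℕ) : List Bool := (List.range T).map fun i => (ρ i % 2 ^ w).bodd

end Crest.Agent.R302
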