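import Crest.Agent.R302.Lip
import Crest.Agent.R302.Ifc

/-!
# R302/OutM: the output is uniform
-/

set_option autoImplicit false
set_option linter.unusedSectionVars false

namespace Crest.Agent.R302

open Finset Crest.Agent.R309

namespace Sys

variable {U E : Type} [Fintype U] [DecidableEq U] [Fintype E] [DecidableEq E] {S : Sys U E}
  {φ : E → ℤ}

/-- the configuration with projection `x` and coordinates `t` -/
def lift (S : Sys U E) (x : U → ℤ) (t : E → ℤ) : U → ℤ := x + ∑ e, t e • S.pe e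

theorem lift_out (S : Sys U E) (σ : U → ℤ) : S.lift (S.out σ) (S.z σ) = σ := by
  rw [lift, out, sub_add_cancel]

theorem outm_mem_zbox {t : E → ℤ} : t ∈ S.zbox ↔ ∀ e, |t e| ≤ S.gz e := by
  simp only [zbox, mem_box, abs_le]

theorem outm_root {t : E → ℤ} (ht : t ∈ S.zbox) {e : E} (he : S.F'.par e = none) : t e = 0 := by
  simpa [gz, he] using outm_mem_zbox.1 ht e

theorem outm_wd {t : E → ℤ} (ht : t ∈ S.zbox) {e : E} (he : S.F'.par e ≠ none) :
    |t e| * (S.G : ℤ) ^ 20 ≤ S.wd (S.pc e) := by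
  have h1 := outm_mem_zbox.1 ht e
  rw [gz, if_neg he] at h1
  have h2 : ((S.wd (S.pc e) / S.G ^ 20 : ℕ) : ℤ) * (S.G : ℤ) ^ 20 ≤ S.wd (S.pc e) := by
    exact_mod_cast Nat.div_mul_le_self (S.wd (S.pc e)) (S.G ^ 20)
  exact (mul_le_mul_of_nonneg_right h1 (by positivity)).trans h2

theorem Good.outm_cu (h : S.Good) {t : E → ℤ} (ht : t ∈ S.zbox) {e : E} (he : S.F'.par e ≠ none) :
    S.cu (S.pc e) * |t e| * (S.G : ℤ) ^ 20 ≤ S.Dn := by
  have h1 : (S.cu (S.pc e) : ℤ) * S.wd (S.pc e) = S.Dn := by exact_mod_cast h.cu_mul _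
  rw [← h1, mul_assoc]
  exact mul_le_mul_of_nonneg_left (outm_wd ht he) (Int.natCast_nonneg _)

theorem Good.outm_G (h : S.Good) : (1048576 : ℤ) ≤ S.G := by exact_mod_cast h.G_ge

theorem Good.z_lift (h : S.Good) {x : U → ℤ} (hx : PZ S.pr x) {t : E → ℤ} (ht : t ∈ S.zbox) :
    S.z (S.lift x t) = t ∧ S.out (S.lift x t) = x := by
  have h1 : S.z (S.lift x t) = t := by
    funext r
    rw [lift, z_add, (S.z_eq_zero_iff _).2 hx, par_z_sum, sum_eq_single r]
    · by_cases he : S.F'.par r = none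
      · simp [outm_root ht he]
      · rw [h.z_pe he]
        simp
    · intro e _ hne
      by_cases he : S.F'.par e = none
      · simp [outm_root ht he]
      · rw [h.z_pe he, dl_ne hne.symm, mul_zero]
    · simp
  exact ⟨h1, by rw [out, h1, lift, add_sub_cancel_right]⟩

/-- `range` and `abs_sumD_pe`: `|y u| ≤ G ^ 14 wd u + G wd u / G ^ 20 ≤ 2 G ^ 14 wd u` -/
theorem Good.y_lift (h : S.Good) {x : U → ℤ} (hx : InK S.f S.pr x) {t : E → ℤ} (ht : t ∈ S.zbox)
    (u : U) : |S.y (S.lift x t) u| ≤ 2 * (S.G : ℤ) ^ 14 * S.wd u := by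
  have hG := h.outm_G
  have h1 := h.range x hx u
  have h2 : |S.F.sumD (∑ e, t e • S.pe e) u| ≤ (S.G : ℤ) ^ 14 * S.wd u := by
    have h3 : (Fintype.card E : ℤ) ≤ S.G := by exact_mod_cast h.cardE
    have h4 : (S.G : ℤ) ≤ (S.G : ℤ) ^ 14 := le_self_pow₀ (by linarith) (by norm_num)
    calc _ ≤ _ := h.abs_sumD_pe t u
      _ ≤ ∑ _e ∈ univ.filter (fun e => S.F'.par e ≠ none ∧ S.pc e = u), (S.wd u : ℤ) := by
        refine sum_le_sum fun e he => ?_
        obtain ⟨h5, rfl⟩ := (mem_filter.1 he).2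
        exact (le_mul_of_one_le_right (abs_nonneg _) (one_le_pow₀ (by linarith))).trans
          (outm_wd ht h5)
      _ ≤ ∑ _e : E, (S.wd u : ℤ) :=
        sum_le_sum_of_subset_of_nonneg (filter_subset _ _) fun _ _ _ => Int.natCast_nonneg _
      _ = Fintype.card E * (S.wd u : ℤ) := by simp
      _ ≤ _ := mul_le_mul_of_nonneg_right (h3.trans h4) (Int.natCast_nonneg _)
  rw [y, lift, add_sub_right_comm, Forest.sumD_add]
  have := abs_add_le (S.F.sumD (x - S.x0) u) (S.F.sumD (∑ e, t e • S.pe e) u)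
  linarith

/-- All root sums vanish, so `En = L num / den`.  `nu ≤ ∑ lam u |sumD (σ - x) u| ≤ G * G ^ 18 Dn / G ^ 20` (`nu_lip`, `nu_eq_zero`; sum over `e`, `pc e` is not a root), i.e. `2 G ^ 31 Dn nu ≤ den / G`; and
`∑ (cu y)² ≤ G * 4 G ^ 28 Dn² ≤ 2 den / G²`.  So `num ≤ ∑ zt + den / 2`. -/
theorem Good.En_lift (h : S.Good) (φ : E → ℤ) {x : U → ℤ} (hx : InK S.f S.pr x) {t : E → ℤ}
    (ht : t ∈ S.zbox) : S.En φ (S.lift x t) ≤ S.Ez t + (S.L - 1) := by
  have hG := h.outm_G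
  have hz := (h.z_lift hx.2 ht).1
  have hfld : S.fld φ (S.lift x t) = 0 :=
    sum_eq_zero fun e he => by rw [hz, outm_root ht (S.F'.mem_roots.1 he), mul_zero]
  set Z : ℤ := ∑ e, if S.F'.par e = none then 0 else S.zt e (t e) with hZ
  have hnum : S.num (S.lift x t) = 2 * (S.G : ℤ) ^ 31 * S.Dn * S.nu (S.lift x t) +
      (∑ u, (S.cu u * S.y (S.lift x t) u) ^ 2 + Z) := by
    rw [num, num2, hz, hZ]
    congr 2
    refine sum_congr rfl fun e _ => ?_
    split_ifs with he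
    · simp [outm_root ht he]
    · rfl
  have hnu : S.G * S.nu (S.lift x t) ≤ S.Dn := by
    have h1 := S.F.nu_lip (f := S.f) S.lam (S.lift x t) x
    rw [S.F.nu_eq_zero S.lam h.nice hx.1 hx.2.sum, sub_zero, lift, add_sub_cancel_left] at h1
    have h2 : (S.G : ℤ) ^ 2 * ∑ u, (S.lam u : ℤ) * |S.F.sumD (∑ e, t e • S.pe e) u| ≤
        S.G * S.Dn := by
      have h3 : (Fintype.card E : ℤ) ≤ S.G := by exact_mod_cast h.cardE
      calc _ = ∑ u, (S.G : ℤ) ^ 2 * S.lam u * |S.F.sumD (∑ e, t e • S.pe e) u| := by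
            rw [mul_sum]
            exact sum_congr rfl fun u _ => by ring
        _ ≤ ∑ u, ∑ _e ∈ univ.filter (fun e => S.pc e = u), (S.Dn : ℤ) := by
          refine sum_le_sum fun u _ => ?_
          refine (mul_le_mul_of_nonneg_left (h.abs_sumD_pe t u) (by positivity)).trans ?_
          rw [mul_sum]
          refine le_trans (sum_le_sum (g := fun _ => (S.Dn : ℤ)) fun e he => ?_)
            (sum_le_sum_of_subset_of_nonneg (fun e he => ?_) fun _ _ _ => Int.natCast_nonneg _)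
          · obtain ⟨h5, rfl⟩ := (mem_filter.1 he).2
            obtain ⟨e', he'⟩ := Option.ne_none_iff_exists'.1 h5
            obtain ⟨p, hp, -⟩ := h.pc_spec e e' he'
            refine le_trans (le_of_eq ?_) (h.outm_cu ht h5)
            rw [lam, if_neg (by simp [hp])]
            push_cast
            ring
          · exact mem_filter.2 ⟨mem_univ _, (mem_filter.1 he).2.2⟩
        _ = Fintype.card E * (S.Dn : ℤ) := by
          rw [sum_fiberwise]
          simp
        _ ≤ _ := mul_le_mul_of_nonneg_right h3 (Int.natCast_nonneg _)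
    have h4 := mul_le_mul_of_nonneg_left ((le_abs_self _).trans h1)
      (by positivity : (0 : ℤ) ≤ (S.G : ℤ) ^ 2)
    refine le_of_mul_le_mul_left (a := (S.G : ℤ)) ?_ (by linarith)
    rw [← mul_assoc, ← sq]
    exact h4.trans h2
  have hy : ∑ u, (S.cu u * S.y (S.lift x t) u) ^ 2 ≤ 4 * (S.G : ℤ) ^ 29 * (S.Dn : ℤ) ^ 2 := by
    have h3 : (Fintype.card U : ℤ) ≤ S.G := by exact_mod_cast h.cardU
    calc _ ≤ ∑ _u : U, (2 * (S.G : ℤ) ^ 14 * S.Dn) ^ 2 := by
          refine sum_le_sum fun u _ => ?_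
          have h1 : (S.cu u : ℤ) * S.wd u = S.Dn := by exact_mod_cast h.cu_mul u
          rw [← sq_abs, abs_mul, Nat.abs_cast]
          refine pow_le_pow_left₀ (by positivity) ?_ 2
          refine (mul_le_mul_of_nonneg_left (h.y_lift hx ht u) (Int.natCast_nonneg _)).trans
            (le_of_eq ?_)
          rw [← h1]
          ring
      _ = Fintype.card U * (2 * (S.G : ℤ) ^ 14 * S.Dn) ^ 2 := by simp
      _ ≤ S.G * (2 * (S.G : ℤ) ^ 14 * S.Dn) ^ 2 := mul_le_mul_of_nonneg_right h3 (by positivity)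
      _ = _ := by ring
  have hden : (S.den : ℤ) = 2 * (S.G : ℤ) ^ 31 * (S.Dn : ℤ) ^ 2 := by
    rw [den]
    push_cast
    ring
  have h2 : 2 * S.num (S.lift x t) ≤ 2 * Z + S.den := by
    have h3 := mul_le_mul_of_nonneg_left hnu
      (by positivity : (0 : ℤ) ≤ 2 * (S.G : ℤ) ^ 30 * S.Dn)
    have h4 : (0 : ℤ) ≤ (S.G : ℤ) ^ 29 * (S.Dn : ℤ) ^ 2 := by positivity
    have h5 : 2 * (S.G : ℤ) + 4 ≤ (S.G : ℤ) ^ 2 := by nlinarith
    have h6 := mul_le_mul_of_nonneg_right h5 h4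
    rw [hnum, hden]
    linarith
  have hd : (0 : ℤ) < S.den := by exact_mod_cast h.den_pos
  have hL : (2 : ℤ) ≤ S.L := by exact_mod_cast h.par_L
  rw [En, hfld, add_zero, Ez, ← hZ, ← Int.lt_add_one_iff, Int.ediv_lt_iff_lt_mul hd]
  have h3 := Int.lt_ediv_add_one_mul_self (S.L * Z) hd
  have h4 := mul_le_mul_of_nonneg_left h2 (by linarith : (0 : ℤ) ≤ S.L)
  have h5 := mul_le_mul_of_nonneg_right hL hd.le
  linarith

/-- `zt e t ≤ G ^ 75 Dn² / G ^ 40` -/
theorem Good.Ez_le (h : S.Good) {t : E → ℤ} (ht : t ∈ S.zbox) :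
    0 ≤ S.Ez t ∧ S.Ez t ≤ (S.G : ℤ) ^ 205 := by
  have hG := h.outm_G
  have hd : (0 : ℤ) < S.den := by exact_mod_cast h.den_pos
  constructor
  · refine Int.ediv_nonneg (mul_nonneg (Int.natCast_nonneg _) (sum_nonneg fun e _ => ?_)) hd.le
    unfold zt
    split_ifs <;> positivity
  · have h3 : (Fintype.card E : ℤ) ≤ S.G := by exact_mod_cast h.cardE
    have h1 : (∑ e, if S.F'.par e = none then 0 else S.zt e (t e)) ≤
        (S.G : ℤ) ^ 36 * (S.Dn : ℤ) ^ 2 := by
      calc _ ≤ ∑ _e : E, (S.G : ℤ) ^ 35 * (S.Dn : ℤ) ^ 2 := by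
            refine sum_le_sum fun e _ => ?_
            split_ifs with he
            · positivity
            · have h2 := pow_le_pow_left₀ (by positivity) (h.outm_cu ht he) 2
              refine le_trans (le_of_eq ?_) (mul_le_mul_of_nonneg_left h2 (by positivity))
              rw [zt, mul_pow, mul_pow, mul_pow, sq_abs]
              ring
        _ = Fintype.card E * ((S.G : ℤ) ^ 35 * (S.Dn : ℤ) ^ 2) := by simp
        _ ≤ S.G * ((S.G : ℤ) ^ 35 * (S.Dn : ℤ) ^ 2) := mul_le_mul_of_nonneg_right h3 (by positivity)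
        _ = _ := by ring
    refine Int.ediv_le_of_le_mul hd ?_
    refine (mul_le_mul_of_nonneg_left h1 (Int.natCast_nonneg _)).trans ?_
    rw [L, den]
    push_cast
    have h4 : (0 : ℤ) ≤ (S.G : ℤ) ^ 236 * (S.Dn : ℤ) ^ 2 := by positivity
    linarith

/-- If the test is passed, `σ = fine a o = lift x t`; `enC φ a ≤ En (pt (cor a)) ≤ En σ + L ≤ Ez t + 2 L` (`En_lip'`), and `2 L + Ez t - enC ≤ G ^ 214` (`Ent_ge`). -/
theorem Good.piC_accE (h : S.Good) (hφ : S.Adm φ) {a o : U → ℤ} (ha : a ∈ S.cbox) (ho : o ∈ S.obox)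
    (hok : S.okO (S.fine a o)) :
    S.piC φ a * S.q ^ S.accE (S.enC φ a) (S.fine a o) =
      S.q ^ (2 * S.L + S.Ez (S.z (S.fine a o)) : ℤ) := by
  have hG := h.outm_G
  have ht : S.z (S.fine a o) ∈ S.zbox := outm_mem_zbox.2 hok.1
  have h1 := h.En_lift φ (h.inK_out hok) ht
  rw [lift_out] at h1
  have hb : ∀ y ∈ S.fbx, ∀ u, |y u| ≤ 2 * (S.G : ℤ) ^ 95 * S.s u := by
    intro y hy u
    have h2 := mem_fbx.1 hy u
    have h3 : (0 : ℤ) ≤ (S.G : ℤ) ^ 95 * S.s u := by positivity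
    rw [abs_le]
    constructor <;> linarith
  have h2 : S.En φ (S.pt (S.cor a)) ≤ S.En φ (S.fine a o) + S.L := by
    refine h.En_lip' φ fun u => ⟨hb _ (h.cor_mem' ha) u, hb _ (h.cor_mem ha ho) u, ?_, fun hu => ?_⟩
    · obtain ⟨h3, h4⟩ := mem_box.1 ho u
      simp only [Pi.zero_apply] at h3
      rw [abs_le]
      constructor <;> linarith
    · obtain ⟨h3, h4⟩ := mem_box.1 ho u
      simp only [Pi.zero_apply] at h3
      rw [h.s_root hu] at h4
      push_cast at h4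
      linarith
  have h3 : S.enC φ a ≤ S.En φ (S.pt (S.cor a)) := S.Ent_le_En φ _
  have h4 : - (S.G : ℤ) ^ 213 - 1 ≤ S.enC φ a := h.Ent_ge hφ _
  have h5 := (h.Ez_le ht).2
  have h6 : (S.L : ℤ) ≤ (S.G : ℤ) ^ 213 := by
    rw [L, Nat.cast_pow]
    exact pow_le_pow_right₀ (by linarith) (by norm_num)
  have h7 : (S.G : ℤ) ^ 205 ≤ (S.G : ℤ) ^ 213 := pow_le_pow_right₀ (by linarith) (by norm_num)
  have h8 : 1 ≤ (S.G : ℤ) ^ 213 := one_le_pow₀ (by linarith)
  have h9 : 5 * (S.G : ℤ) ^ 213 ≤ (S.G : ℤ) ^ 214 := by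
    rw [pow_succ' _ 213]
    exact mul_le_mul_of_nonneg_right (by linarith) (by positivity)
  have h10 : (S.accE (S.enC φ a) (S.fine a o) : ℤ) =
      2 * S.L + S.Ez (S.z (S.fine a o)) - S.enC φ a := by
    rw [accE, Nat.cast_min, Int.toNat_of_nonneg (by linarith), min_eq_left]
    push_cast
    linarith
  rw [piC, ← zpow_natCast, h10, ← zpow_add₀ h.q_pos.ne', add_sub_cancel]

theorem Good.outP_mem (h : S.Good) (k : ℤ) (a : U → ℤ) (P : (U → ℤ) → Prop) :
    0 ≤ S.outP k a P ∧ S.outP k a P ≤ 1 := by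
  have hv : (0 : ℝ) < S.vol := by exact_mod_cast h.vol_pos
  constructor
  · exact div_nonneg (sum_nonneg fun o _ => mul_nonneg (ind_nonneg _) (pow_nonneg h.q_pos.le _)) hv.le
  · rw [outP, div_le_one hv, ← S.card_obox]
    refine (sum_le_card_nsmul _ _ 1 fun o _ => ?_).trans (by simp)
    exact mul_le_one₀ (ind_le_one _) (pow_nonneg h.q_pos.le _) (pow_le_one₀ h.q_pos.le h.q_le)

/-- By `piC_accE` and `sum_fbx` the left side is `(1 / vol) ∑_{y ∈ fbx} ind (okO (pt y) ∧ P (out (pt y))) q ^ (2 L + Ez (z (pt y)))`; the map `(x, t) ↦ y (lift x t)` is a bijection from `K × zbox` onto `{y ∈ fbx | okO (pt y)}`. -/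
theorem Good.out_sum (h : S.Good) (hφ : S.Adm φ) (P : (U → ℤ) → Prop) :
    (∑ a ∈ S.cbox, S.piC φ a * S.outP (S.enC φ a) a P) / S.ZC φ =
      S.cst φ * cnt (KK S.f S.pr) P := by
  classical
  have hG := h.outm_G
  have h1 : ∑ a ∈ S.cbox, S.piC φ a * S.outP (S.enC φ a) a P =
      (∑ y ∈ S.fbx, ind (S.okO (S.pt y) ∧ P (S.out (S.pt y))) *
        S.q ^ (2 * S.L + S.Ez (S.z (S.pt y)) : ℤ)) / S.vol := by
    rw [h.sum_fbx, sum_div]
    refine sum_congr rfl fun a ha => ?_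
    rw [outP, ← mul_div_assoc, mul_sum]
    congr 1
    refine sum_congr rfl fun o ho => ?_
    by_cases hok : S.okO (S.fine a o)
    · rw [mul_left_comm, h.piC_accE hφ ha ho hok]
      rfl
    · have : ind (S.okO (S.fine a o) ∧ P (S.out (S.fine a o))) = 0 := ind_neg fun H => hok H.1
      rw [this]
      change _ = ind (S.okO (S.fine a o) ∧ P (S.out (S.fine a o))) * _
      rw [this]
      simp
  have h2 : ∑ y ∈ S.fbx, ind (S.okO (S.pt y) ∧ P (S.out (S.pt y))) *
      S.q ^ (2 * S.L + S.Ez (S.z (S.pt y)) : ℤ) =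
      ∑ p ∈ KK S.f S.pr ×ˢ S.zbox, ind (P p.1) * S.q ^ (2 * S.L + S.Ez p.2 : ℤ) := by
    rw [← sum_filter_of_ne (p := fun y => S.okO (S.pt y))
      (fun y _ hy => by_contra fun H => hy (by rw [ind_neg fun H' => H H'.1, zero_mul]))]
    refine sum_nbij' (fun y => (S.out (S.pt y), S.z (S.pt y))) (fun p => S.y (S.lift p.1 p.2))
      (fun y hy => ?_) (fun p hp => ?_) (fun y _ => ?_) (fun p hp => ?_) (fun y hy => ?_)
    · have hok := (mem_filter.1 hy).2
      exact mem_product.2 ⟨mem_KK.2 (h.inK_out hok), outm_mem_zbox.2 hok.1⟩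
    · obtain ⟨hx, ht⟩ := mem_product.1 hp
      rw [mem_KK] at hx
      refine mem_filter.2 ⟨mem_fbx.2 fun u => ?_, ?_⟩
      · have h3 := abs_le.1 (h.y_lift hx ht u)
        have h4 : (S.s u : ℤ) * (S.G : ℤ) ^ 72 = S.wd u := by exact_mod_cast h.s_mul u
        have h5 : (0 : ℤ) < S.s u := by exact_mod_cast h.s_pos u
        have h6 : 2 < (S.G : ℤ) ^ 9 :=
          lt_of_lt_of_le (by linarith) (le_self_pow₀ (by linarith) (by norm_num))
        have h7 : (0 : ℤ) < (S.G : ℤ) ^ 86 * S.s u := mul_pos (pow_pos (by linarith) _) h5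
        have h8 := mul_lt_mul_of_pos_right h6 h7
        rw [← h4] at h3
        constructor <;> linarith [h3.1, h3.2]
      · rw [pt_y, okO, (h.z_lift hx.2 ht).1, (h.z_lift hx.2 ht).2]
        exact ⟨outm_mem_zbox.1 ht, hx.1⟩
    · rw [lift_out, y_pt]
    · obtain ⟨hx, ht⟩ := mem_product.1 hp
      rw [mem_KK] at hx
      rw [pt_y, (h.z_lift hx.2 ht).1, (h.z_lift hx.2 ht).2]
    · rw [ind_and, ind_pos (mem_filter.1 hy).2, one_mul]
  have h3 : ∑ x ∈ KK S.f S.pr, ind (P x) = (R302.cnt (KK S.f S.pr) P : ℝ) := by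
    rw [cnt_eq, card_filter]
    push_cast
    exact sum_congr rfl fun x _ => ind_eq _
  rw [h1, h2, sum_product, ← sum_mul_sum (KK S.f S.pr) S.zbox (fun x => ind (P x))
    fun t => S.q ^ (2 * S.L + S.Ez t : ℤ), h3, cst, SZ]
  ring

end Sys

end Crest.Agent.R302
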