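import Crest.Agent.R302.RamAux1

/-!
# R302: numbers between registers and stacks; calls; the main loop
-/

set_option autoImplicit false

namespace Crest.Agent.R302.RamAux

open Crest.Agent.Lib.PT Crest.WordRAM Crest.OracleRAM
open Crest.Agent.R309.RamAux (vec reg At at_cons at_append at_self get_set set_set length_get_le
  tot_pop)

theorem exec_outW' (l : List Bool) (rest : List Bool) : ∀ a : List Bool,
    Exec outW ⟨(enc l).bits ++ rest, a, [], []⟩ ⟨rest, l.reverse ++ a, [], []⟩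
      (7 * l.length + 1) := by
  induction l with
  | nil => intro a; exact Exec.whF rfl
  | cons x l ih =>
    intro a
    rw [List.reverse_cons, List.append_assoc]
    cases x
    · refine Exec.mono (Exec.whT rfl (Exec.caseF rfl (Exec.push _ _ _)) (ih (false :: a))) ?_
      simp; omega
    · refine Exec.mono (Exec.whT rfl (Exec.caseT rfl
        (Exec.seq (Exec.caseF rfl (Exec.skip _)) (Exec.seq (Exec.caseF rfl (Exec.skip _))
          (Exec.push _ _ _)))) (ih (true :: a))) ?_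
      simp; omega

/-- A number computed from the state is put on stack `a`; the state is kept. -/
theorem exists_qcall {σ : Type} [Enc σ] {g : σ → ℕ} (hg : PT g) :
    ∃ (p : Prog) (c k : ℕ), ∀ s : σ,
      Exec p ⟨toBits s, [], [], []⟩ ⟨toBits s, (g s).bits.reverse, [], []⟩ (c * sz s ^ k) := by
  obtain ⟨T, hT, p, hp⟩ := id hg
  have h0 : PB fun s : σ => sz s := PB.sz_self
  obtain ⟨c, k, hck⟩ : PB fun s : σ => (12 * sz s + 6 + T s) + (7 * (g s).size + 1) := by
    fun_prop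
  refine ⟨.seq (.seq dupP p) outW, c, k, fun s => Exec.mono ?_ (hck s)⟩
  have e1 := ((run_dup (enc s)).seq ((hp s).frame (enc s).bits)) []
  have e2 := exec_outW' (g s).bits (toBits s) []
  simp only [List.append_nil, Nat.size_eq_bits_len] at e1 e2
  exact Exec.seq e1 e2

/-- The value of a stack, most significant bit on top. -/
def msb (l : List Bool) (v : ℕ) : ℕ := l.foldl (fun v b => 2 * v + b.toNat) v

theorem le_msb (l : List Bool) : ∀ v, v ≤ msb l v := by
  induction l with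
  | nil => exact fun _ => le_rfl
  | cons x l ih => exact fun v => le_trans (by omega) (ih (2 * v + x.toNat))

theorem msb_bits (v : ℕ) : msb v.bits.reverse 0 = v := by
  rw [msb, List.foldl_reverse]
  conv_rhs => rw [← ofBits_bits v, ofBits]
  congr 1
  funext b u
  exact (Nat.bit_val b u).symm

/-- Read stack `a` into register `11`. -/
def readNum (o : ℕ) : List (Instr 12) :=
  .const 11 0 :: (popI .a (o + 10) (o + 6) ++
    [.sub 7 7 2, .add 11 11 11, .add 11 11 7, .jump (o + 1)])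

/-- Push register `11` on stack `a`. -/
def pushNum (o : ℕ) : List (Instr 12) :=
  .jumpIfZero 11 (o + 7) :: .and 7 11 2 :: .add 7 7 2 :: (pushT .a ++ [.shr 11 11 2, .jump o])

/-- Call a four-stack program and read its result. -/
def qcall (p : Prog) (o : ℕ) (tl : List (Instr 12)) : List (Instr 12) :=
  rcode p o ++ (readNum (o + len p) ++ tl)

theorem length_readNum (o : ℕ) : (readNum o).length = 10 := rfl

theorem length_pushNum (o : ℕ) : (pushNum o).length = 7 := rfl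

theorem length_qcall (p : Prog) (o : ℕ) (tl : List (Instr 12)) :
    (qcall p o tl).length = len p + 10 + tl.length := by
  simp [qcall, length_readNum, Nat.add_assoc]

variable {L : List (Instr 12)} {n : ℕ} {O : Bool → Finset (Fin n) → ℕ} {w : ℕ} {ρ : ℕ → ℕ}
  {o k H X D : ℕ} {M : ℕ → ℕ}

theorem rch_readLoop (hA : At L o (readNum o)) (s0 : List Bool) (l : List Bool) :
    ∀ t v, msb l v < 2 ^ w → Rch (stp L O w ρ) (9 * l.length + 2)
      (cf (o + 1) k H ⟨s0, l, [], []⟩ t X v M D)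
      (cf (o + 10) k H ⟨s0, [], [], []⟩ 0 X (msb l v) M D) := by
  obtain ⟨-, hA⟩ := hA
  rw [at_append, length_popI] at hA
  obtain ⟨a1, a2, a3, a4, a5, -⟩ := hA
  induction l with
  | nil => exact fun t v _ => r_popE a1 rfl
  | cons x l ih =>
    intro t v hv
    have h1 : 2 * v + x.toNat < 2 ^ w := (le_msb l _).trans_lt hv
    have r1 : Rch (stp L O w ρ) 5 (cf (o + 1) k H ⟨s0, x :: l, [], []⟩ t X v M D)
        (cf (o + 1 + 5) k H ⟨s0, l, [], []⟩ (x.toNat + 1) X v M D) :=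
      (r_pop a1 rfl).congr (by rw [show o + 6 = o + 1 + 5 by omega, ite_self]; rfl)
    have r2 : Rch (stp L O w ρ) (1 + 1 + 1 + 1)
        (cf (o + 1 + 5) k H ⟨s0, l, [], []⟩ (x.toNat + 1) X v M D)
        (cf (o + 1) k H ⟨s0, l, [], []⟩ x.toNat X (2 * v + x.toNat) M D) := by
      refine ((((r_sub a2).trans (r_add a3 ?_)).trans (r_add a4 ?_)).trans (r_jump a5)).congr ?_
      · simp only [put7, put2, wr_put7, put11]; omega
      · simp only [put7, put2, wr_put7, put11, wr_put11]; omega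
      · simp only [put7, put2, wr_put7, put11, wr_put11, Nat.add_sub_cancel, two_mul, cf]
    exact ((r1.trans r2).trans (ih _ _ hv)).mono (by rw [List.length_cons]; omega)

theorem rch_readNum (hA : At L o (readNum o)) (s0 : List Bool) {v : ℕ} (hv : v < 2 ^ w)
    (t Y : ℕ) : Rch (stp L O w ρ) (9 * v.bits.length + 3)
      (cf o k H ⟨s0, v.bits.reverse, [], []⟩ t X Y M D)
      (cf (o + 10) k H ⟨s0, [], [], []⟩ 0 X v M D) := by
  have r1 : Rch (stp L O w ρ) 1 (cf o k H ⟨s0, v.bits.reverse, [], []⟩ t X Y M D)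
      (cf (o + 1) k H ⟨s0, v.bits.reverse, [], []⟩ t X 0 M D) :=
    (r_const hA.1 (Nat.two_pow_pos w)).congr (by simp only [wr_put11, cf])
  have r2 := rch_readLoop (O := O) (ρ := ρ) (k := k) (H := H) (X := X) (D := D) (M := M) hA s0
    v.bits.reverse t 0 (by rwa [msb_bits])
  rw [msb_bits, List.length_reverse] at r2
  exact (r1.trans r2).mono (by omega)

theorem rch_pushNum (hH : 2 * H = 2 ^ w) (hw : 1 < w) (hA : At L o (pushNum o))
    (s0 : List Bool) (v : ℕ) : ∀ (a : List Bool) (t : ℕ),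
      4 * (a.length + v.bits.length + 1) ≤ H → ∃ t', Rch (stp L O w ρ) (7 * v.bits.length + 1)
      (cf o k H ⟨s0, a, [], []⟩ t X v M D)
      (cf (o + 7) k H ⟨s0, v.bits.reverse ++ a, [], []⟩ t' X 0 M D) := by
  obtain ⟨a1, a2, a3, hA⟩ := hA
  rw [at_append, length_pushT] at hA
  obtain ⟨a4, a5, a6, -⟩ := hA
  induction v using Nat.binaryRec' with
  | zero => exact fun a t _ => ⟨t, (r_jz a1).congr (by simp [cf])⟩
  | bit b u h ih =>
    intro a t hb
    have hne : Nat.bit b u ≠ 0 := Nat.bit_ne_zero_iff.2 h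
    rw [Nat.bits_append_bit _ _ h] at hb ⊢
    rw [List.length_cons] at hb ⊢
    have hb1 : b.toNat ≤ 1 := Bool.toNat_le b
    have e1 : Nat.bit b u &&& 1 = b.toNat := by
      rw [Nat.and_one_is_mod, Nat.bit_val]; omega
    have e2 : Nat.bit b u >>> 1 = u := by
      rw [Nat.shiftRight_one, Nat.bit_val]; omega
    have r1 : Rch (stp L O w ρ) 1 (cf o k H ⟨s0, a, [], []⟩ t X (Nat.bit b u) M D)
        (cf (o + 1) k H ⟨s0, a, [], []⟩ t X (Nat.bit b u) M D) :=
      (r_jz a1).congr (by simp only [put11, hne, if_false, cf])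
    have r2 : Rch (stp L O w ρ) (1 + 1) (cf (o + 1) k H ⟨s0, a, [], []⟩ t X (Nat.bit b u) M D)
        (cf (o + 1 + 1 + 1) k H ⟨s0, a, [], []⟩ (b.toNat + 1) X (Nat.bit b u) M D) := by
      refine ((r_and a2).trans (r_add a3 ?_)).congr ?_
      · simp only [put7, put2, wr_put7, put11, e1]; omega
      · simp only [put7, put2, wr_put7, put11, e1, cf]
    have r3 := r_pushT (O := O) (ρ := ρ) (k := k) (X := X) (Y := Nat.bit b u) (D := D) (M := M)
      (s := ⟨s0, a, [], []⟩) (x := b) hH a4 (by simp only [St.get_a]; omega)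
    have r4 : Rch (stp L O w ρ) (1 + 1)
        (cf (o + 1 + 1 + 1 + 2) k H ⟨s0, b :: a, [], []⟩ (b.toNat + 1) X (Nat.bit b u) M D)
        (cf o k H ⟨s0, b :: a, [], []⟩ (b.toNat + 1) X u M D) := by
      refine ((r_shr a5 (by simpa using hw)).trans (r_jump a6)).congr ?_
      simp only [put2, put11, e2, wr_put11, cf]
    obtain ⟨t', r5⟩ := ih (b :: a) (b.toNat + 1) (by rw [List.length_cons]; omega)
    refine ⟨t', (((((r1.trans r2).trans r3).trans r4).trans r5).congr ?_).mono (by omega)⟩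
    rw [List.reverse_cons, List.append_assoc]
    rfl

theorem rch_qcall (hH : 2 * H = 2 ^ w) {p : Prog} {s0 : List Bool} {v T : ℕ}
    {tl : List (Instr 12)} (h : Exec p ⟨s0, [], [], []⟩ ⟨s0, v.bits.reverse, [], []⟩ T)
    (hv : v < 2 ^ w) (hA : At L o (qcall p o tl)) (hb : 4 * (s0.length + T + 1) ≤ H)
    (k t X Y : ℕ) (M : ℕ → ℕ) (D : ℕ) :
    ∃ o', At L o' tl ∧ Rch (stp L O w ρ) (15 * T + 3) (cf o k H ⟨s0, [], [], []⟩ t X Y M D)
      (cf o' k H ⟨s0, [], [], []⟩ 0 X v M D) := by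
  rw [qcall, at_append, at_append, length_rcode, length_readNum] at hA
  obtain ⟨t', r⟩ := rch_of_exec (O := O) (ρ := ρ) (M := M) (D := D) (k := k) (X := X) (Y := Y)
    hH h o t hA.1 (by simpa [St.tot] using hb)
  have h1 := h.tot_le
  simp only [St.tot, List.length_nil, List.length_reverse] at h1
  exact ⟨_, hA.2.2, (r.trans (rch_readNum hA.2.1 s0 hv t' Y)).mono (by omega)⟩

/-- The layout of the simulating program. -/
structure Layout (L : List (Instr 12)) (p0 p1 p2 p3 p4 p5 p6 : Prog)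
    (o1 o2 o3 od o4 o5 o6 : ℕ) : Prop where
  b0 : At L 0 ([.const 2 1, .const 8 4, .const 9 1, .add 7 9 9, .jumpIfZero 7 7, .copy 9 7,
    .jump 3, .copy 3 9, .add 4 3 2, .add 5 4 2, .add 6 5 2] ++ (rcode p0 11 ++ [.jump o1]))
  b1 : At L o1 (qcall p1 o1 [.jumpIfZero 11 o2, .sub 0 11 2, .halt])
  b2 : At L o2 (qcall p2 o2 [.copy 10 11, .jump o3])
  b3 : At L o3 (qcall p3 o3 [.jump od])
  bd : At L od [.jumpIfZero 11 (od + 7), .sub 11 11 2, .jumpIfZero 11 (od + 9), .sub 11 11 2,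
    .jumpIfZero 11 (od + 11), .copy 11 9, .jump o4, .load 11 10, .jump o4, .mul 11 10 0, .jump o4,
    .quot 11 10 0, .jump o4]
  b4 : At L o4 (pushNum o4 ++ ([.rand 7, .and 7 7 2, .add 7 7 2] ++ (pushT .a ++
    (rcode p4 (o4 + 7 + 3 + 2) ++ [.jump o5]))))
  b5 : At L o5 (qcall p5 o5 [.copy 10 11, .jump o6])
  b6 : At L o6 (qcall p6 o6 [.store 11 10, .jump o1])

theorem exists_layout (p0 p1 p2 p3 p4 p5 p6 : Prog) :
    ∃ L o1 o2 o3 od o4 o5 o6, Layout L p0 p1 p2 p3 p4 p5 p6 o1 o2 o3 od o4 o5 o6 := by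
  let o1 := 0 + (11 + (len p0 + 1))
  let o2 := o1 + (len p1 + 10 + 3)
  let o3 := o2 + (len p2 + 10 + 2)
  let od := o3 + (len p3 + 10 + 1)
  let o4 := od + 13
  let o5 := o4 + (7 + (3 + (2 + (len p4 + 1))))
  let o6 := o5 + (len p5 + 10 + 2)
  let c0 : List (Instr 12) := [.const 2 1, .const 8 4, .const 9 1, .add 7 9 9, .jumpIfZero 7 7,
    .copy 9 7, .jump 3, .copy 3 9, .add 4 3 2, .add 5 4 2, .add 6 5 2] ++
      (rcode p0 11 ++ [.jump o1])
  let c4 : List (Instr 12) := pushNum o4 ++ ([.rand 7, .and 7 7 2, .add 7 7 2] ++ (pushT .a ++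
    (rcode p4 (o4 + 7 + 3 + 2) ++ [.jump o5])))
  have l0 : c0.length = 11 + (len p0 + 1) := by
    simp only [c0, List.length_append, length_rcode]; rfl
  have l4 : c4.length = 7 + (3 + (2 + (len p4 + 1))) := by
    simp only [c4, List.length_append, length_rcode]; rfl
  have h := at_self (c0 ++
    (qcall p1 o1 [.jumpIfZero 11 o2, .sub 0 11 2, .halt] ++
    (qcall p2 o2 [.copy 10 11, .jump o3] ++
    (qcall p3 o3 [.jump od] ++
    ([.jumpIfZero 11 (od + 7), .sub 11 11 2, .jumpIfZero 11 (od + 9), .sub 11 11 2,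
      .jumpIfZero 11 (od + 11), .copy 11 9, .jump o4, .load 11 10, .jump o4, .mul 11 10 0, .jump o4,
      .quot 11 10 0, .jump o4] ++
    (c4 ++ (qcall p5 o5 [.copy 10 11, .jump o6] ++ qcall p6 o6 [.store 11 10, .jump o1])))))))
  obtain ⟨h0, h⟩ := at_append.1 h
  obtain ⟨h1, h⟩ := at_append.1 h
  obtain ⟨h2, h⟩ := at_append.1 h
  obtain ⟨h3, h⟩ := at_append.1 h
  obtain ⟨hd, h⟩ := at_append.1 h
  obtain ⟨h4, h⟩ := at_append.1 h
  obtain ⟨h5, h6⟩ := at_append.1 h
  simp only [length_qcall, l0, l4] at h1 h2 h3 hd h4 h5 h6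
  exact ⟨_, o1, o2, o3, od, o4, o5, o6, h0, h1, h2, h3, hd, h4, h5, h6⟩

section main
variable {p0 p1 p2 p3 p4 p5 p6 : Prog} {o1 o2 o3 od o4 o5 o6 : ℕ}

theorem rch_double (a3 : L[3]? = some (.add 7 9 9)) (a4 : L[4]? = some (.jumpIfZero 7 7))
    (a5 : L[5]? = some (.copy 9 7)) (a6 : L[6]? = some (.jump 3)) (d : ℕ) :
    ∀ j t, j + d + 1 = w → Rch (stp L O w ρ) (4 * d + 2)
      ⟨3, false, vec k 0 0 0 0 t 4 (2 ^ j) 0 0, M, D⟩
      ⟨7, false, vec k 0 0 0 0 0 4 (2 ^ (w - 1)) 0 0, M, D⟩ := by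
  induction d with
  | zero =>
    intro j t hj
    subst hj
    refine ((r_add' a3).trans (r_jz a4)).congr ?_
    have e : (2 ^ j + 2 ^ j) % 2 ^ (j + 0 + 1) = 0 := by
      rw [Nat.add_zero, pow_succ, mul_two, Nat.mod_self]
    simp only [R309.RamAux.vec9, e, R309.RamAux.wr7, R309.RamAux.vec7, if_true,
      Nat.add_zero, Nat.add_sub_cancel]
  | succ d ih =>
    intro j t hj
    have e : 2 ^ j + 2 ^ j = 2 ^ (j + 1) := by rw [pow_succ, mul_two]
    have h1 : 2 ^ (j + 1) < 2 ^ w := Nat.pow_lt_pow_right (by omega) (by omega)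
    have h2 : 2 ^ (j + 1) ≠ 0 := (Nat.two_pow_pos _).ne'
    have r1 : Rch (stp L O w ρ) (1 + 1) ⟨3, false, vec k 0 0 0 0 t 4 (2 ^ j) 0 0, M, D⟩
        ⟨5, false, vec k 0 0 0 0 (2 ^ (j + 1)) 4 (2 ^ j) 0 0, M, D⟩ := by
      refine ((r_add a3 (by simpa only [R309.RamAux.vec9, e] using h1)).trans (r_jz a4)).congr ?_
      simp only [R309.RamAux.vec9, e, R309.RamAux.wr7, R309.RamAux.vec7, h2, if_false]
    have r2 : Rch (stp L O w ρ) (1 + 1)
        ⟨5, false, vec k 0 0 0 0 (2 ^ (j + 1)) 4 (2 ^ j) 0 0, M, D⟩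
        ⟨3, false, vec k 0 0 0 0 (2 ^ (j + 1)) 4 (2 ^ (j + 1)) 0 0, M, D⟩ :=
      ((r_copy a5).trans (r_jump a6)).congr (by simp only [R309.RamAux.wr9, R309.RamAux.vec7])
    exact ((r1.trans r2).trans (ih (j + 1) _ (by omega))).mono (by omega)

theorem Layout.start (h : Layout L p0 p1 p2 p3 p4 p5 p6 o1 o2 o3 od o4 o5 o6)
    (hH : H = 2 ^ (w - 1)) (hw : 1 ≤ w) {s : List Bool} {T : ℕ}
    (e0 : Exec p0 ⟨[], [], [], []⟩ ⟨s, [], [], []⟩ T) (hb : 4 * (T + 1) ≤ H) (inp : List ℕ)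
    (h1 : ∀ a ∈ inp, a < 2 ^ w) (h2 : inp.length < H) :
    ∃ t, Rch (stp L O w ρ) (6 * T + 4 * w + 10) (init ⟨12, []⟩ w inp)
      (cf o1 (inp.length % 2 ^ w) H ⟨s, [], [], []⟩ t 0 0 (fun i => inp.getD i 0) 0) := by
  have hH' : 2 * H = 2 ^ w := by
    rw [hH, ← pow_succ', Nat.sub_add_cancel hw]
  have hb0 := h.b0
  rw [at_append, at_append, length_rcode] at hb0
  obtain ⟨⟨a0, a1, a2, a3, a4, a5, a6, a7, a8, a9, a10, -⟩, a11, a12, -⟩ := hb0
  have r1 : Rch (stp L O w ρ) (1 + 1 + 1) (init ⟨12, []⟩ w inp)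
      ⟨3, false, vec (inp.length % 2 ^ w) 0 0 0 0 0 4 (2 ^ 0) 0 0,
        fun i => inp[i]?.getD 0 % 2 ^ w, 0⟩ := by
    refine (((r_const a0 (by omega)).trans (r_const a1 (by omega))).trans
      (r_const a2 (by omega))).congr ?_
    congr 1
    funext j
    fin_cases j <;> rfl
  have r2 := rch_double (O := O) (w := w) (ρ := ρ) (k := inp.length % 2 ^ w) (D := 0)
    (M := fun i => inp[i]?.getD 0 % 2 ^ w) a3 a4 a5 a6 (w - 1) 0 0 (by omega)
  rw [← hH] at r2
  have r3 : Rch (stp L O w ρ) (1 + 1 + 1 + 1)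
      ⟨7, false, vec (inp.length % 2 ^ w) 0 0 0 0 0 4 H 0 0, fun i => inp[i]?.getD 0 % 2 ^ w, 0⟩
      (cf 11 (inp.length % 2 ^ w) H ⟨[], [], [], []⟩ 0 0 0 (fun i => inp.getD i 0) 0) := by
    refine ((((r_copy a7).trans (r_add a8 ?_)).trans (r_add a9 ?_)).trans (r_add a10 ?_)).congr ?_
    · simp; omega
    · simp; omega
    · simp; omega
    · unfold cf
      congr 1
      · simp [put, ptr, idx]
      · funext i
        rw [mem, List.getD_eq_getElem?_getD]
        cases hi : inp[i]? with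
        | none =>
          have : ∀ r, St.get ⟨[], [], [], []⟩ r = [] := fun r => by cases r <;> rfl
          simp [this, cell]
        | some a =>
          have h3 := h1 a (List.mem_of_getElem? hi)
          have h4 : i < inp.length := (List.getElem?_eq_some_iff.1 hi).1
          rw [if_pos (by omega)]
          exact Nat.mod_eq_of_lt h3
  obtain ⟨t, r4⟩ := rch_of_exec (O := O) (ρ := ρ) (M := fun i => inp.getD i 0) (D := 0)
    (k := inp.length % 2 ^ w) (X := 0) (Y := 0) hH' e0 11 0 a11 (by simpa [St.tot] using hb)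
  exact ⟨t, ((((r1.trans r2).trans r3).trans r4).trans (r_jump' a12)).mono (by omega)⟩

theorem Layout.stop (h : Layout L p0 p1 p2 p3 p4 p5 p6 o1 o2 o3 od o4 o5 o6)
    (hH : 2 * H = 2 ^ w) {s : List Bool} {T q : ℕ}
    (e1 : Exec p1 ⟨s, [], [], []⟩ ⟨s, (q + 1).bits.reverse, [], []⟩ T) (hq : q < H)
    (hb : 4 * (s.length + T + 1) ≤ H) (k t X Y : ℕ) (M : ℕ → ℕ) (D : ℕ) :
    ∃ c : Cfg 12, c.halted = true ∧ c.output = (List.range q).map M ∧
      Rch (stp L O w ρ) (15 * T + 6) (cf o1 k H ⟨s, [], [], []⟩ t X Y M D) c := by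
  obtain ⟨o', ⟨a1, a2, a3, -⟩, r⟩ :=
    rch_qcall (O := O) (ρ := ρ) hH e1 (by omega) h.b1 hb k t X Y M D
  have r1 : Rch (stp L O w ρ) (1 + 1) (cf o' k H ⟨s, [], [], []⟩ 0 X (q + 1) M D)
      (cf (o' + 1 + 1) q H ⟨s, [], [], []⟩ 0 X (q + 1) M D) := by
    have r2 : Rch (stp L O w ρ) 1 (cf o' k H ⟨s, [], [], []⟩ 0 X (q + 1) M D)
        (cf (o' + 1) k H ⟨s, [], [], []⟩ 0 X (q + 1) M D) := (r_jz a1).congr (by simp [cf])
    exact (r2.trans (r_sub a2)).congr (by simp [cf])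
  refine ⟨_, ?_, ?_, ((r.trans r1).trans (r_halt a3)).mono (by omega)⟩
  · rfl
  · show (List.range q).map (fun i => mem H M ⟨s, [], [], []⟩ (0 + i)) = _
    refine List.map_congr_left fun i hi => ?_
    rw [Nat.zero_add, mem_low ((List.mem_range.1 hi).trans hq)]

/-- The value obtained by one macro step. -/
def value {n : ℕ} (O : Bool → Finset (Fin n) → ℕ) (H : ℕ) (M : ℕ → ℕ) (kind a : ℕ) : ℕ :=
  if kind = 0 then M a
  else if kind = 1 then O false (Finset.univ.filter fun j : Fin n => M (a + j.val) ≠ 0)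
  else if kind = 2 then O true (Finset.univ.filter fun j : Fin n => M (a + j.val) ≠ 0)
  else H

theorem Layout.dispatch (h : Layout L p0 p1 p2 p3 p4 p5 p6 o1 o2 o3 od o4 o5 o6)
    (hO : ∀ b A, O b A < 2 ^ w) {s : St} {kind a t : ℕ} (ha : a + n < H) :
    Rch (stp L O w ρ) 7 (cf od k H s t a kind M D)
      (cf o4 k H s t a (value O H M kind a) M D) := by
  obtain ⟨a0, a1, a2, a3, a4, a5, a6, a7, a8, a9, a10, a11, a12, -⟩ := h.bd
  have qu : ∀ {o : ℕ} {i : Instr 12} (b : Bool), L[o]? = some i → toO i = .query b 10 11 →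
      Rch (stp L O w ρ) 1 (cf o k H s t a 0 M D) (cf (o + 1) k H s t a
        (O b (Finset.univ.filter fun j : Fin n => M (a + j.val) ≠ 0)) M D) := by
    intro o i b h1 h2
    have hf : (Finset.univ.filter fun j : Fin n => mem H M s (put k H s t a 0 10 + j.val) ≠ 0) =
        Finset.univ.filter fun j : Fin n => M (a + j.val) ≠ 0 :=
      Finset.filter_congr fun j _ => by rw [put10, mem_low (by omega)]
    refine (r_query h1 h2 (hO b)).congr ?_
    rw [hf, wr_put11]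
    rfl
  have jz : ∀ {o z : ℕ}, L[o]? = some (.jumpIfZero 11 z) →
      Rch (stp L O w ρ) 1 (cf o k H s t a 0 M D) (cf z k H s t a 0 M D) :=
    fun h => (r_jz h).congr (by simp [cf])
  have dec : ∀ {o z v : ℕ}, L[o]? = some (.jumpIfZero 11 z) → L[o + 1]? = some (.sub 11 11 2) →
      Rch (stp L O w ρ) (1 + 1) (cf o k H s t a (v + 1) M D) (cf (o + 1 + 1) k H s t a v M D) := by
    intro o z v h1 h2
    have r : Rch (stp L O w ρ) 1 (cf o k H s t a (v + 1) M D)
        (cf (o + 1) k H s t a (v + 1) M D) := (r_jz h1).congr (by simp [cf])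
    exact (r.trans (r_sub h2)).congr (by simp [cf])
  rcases kind with _ | _ | _ | kind
  · refine (((jz a0).trans ((r_load a7).trans (r_jump a8))).congr ?_).mono (by omega)
    simp only [put10, wr_put11, mem_low (show a < H by omega), cf, value, if_true]
  · refine ((((dec a0 a1).trans (jz a2)).trans ((qu false a9 rfl).trans
      (r_jump' a10))).congr ?_).mono (by omega)
    rw [value, if_neg (by omega), if_pos (by omega)]
  · refine (((((dec a0 a1).trans (dec a2 a3)).trans (jz a4)).trans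
      ((qu true a11 rfl).trans (r_jump' a12))).congr ?_).mono (by omega)
    rw [value, if_neg (by omega), if_neg (by omega), if_pos (by omega)]
  · have r : Rch (stp L O w ρ) 1 (cf (od + 1 + 1 + 1 + 1) k H s t a (kind + 1) M D)
        (cf (od + 1 + 1 + 1 + 1 + 1) k H s t a (kind + 1) M D) := (r_jz a4).congr (by simp [cf])
    refine (((((dec a0 a1).trans (dec a2 a3)).trans r).trans
      ((r_copy a5).trans (r_jump a6))).congr ?_).mono (by omega)
    simp [cf, value]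

theorem Layout.iter (h : Layout L p0 p1 p2 p3 p4 p5 p6 o1 o2 o3 od o4 o5 o6)
    (hH : 2 * H = 2 ^ w) (hw : 1 < w) (hO : ∀ b A, O b A < 2 ^ w)
    {s s' : List Bool} {T kind ra wa wv : ℕ}
    (e1 : Exec p1 ⟨s, [], [], []⟩ ⟨s, (0 : ℕ).bits.reverse, [], []⟩ T)
    (e2 : Exec p2 ⟨s, [], [], []⟩ ⟨s, ra.bits.reverse, [], []⟩ T)
    (e3 : Exec p3 ⟨s, [], [], []⟩ ⟨s, kind.bits.reverse, [], []⟩ T)
    (e4 : Exec p4 ⟨s, (ρ D % 2 ^ w).bodd :: (value O H M kind ra).bits.reverse, [], []⟩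
      ⟨s', [], [], []⟩ T)
    (e5 : Exec p5 ⟨s', [], [], []⟩ ⟨s', wa.bits.reverse, [], []⟩ T)
    (e6 : Exec p6 ⟨s', [], [], []⟩ ⟨s', wv.bits.reverse, [], []⟩ T)
    (hra : ra + n < H) (hk : kind < 2 ^ w) (hv : value O H M kind ra < 2 ^ w) (hwa : wa < H)
    (hwv : wv < 2 ^ w) (hb : 4 * (s.length + (w + 1) + T + 1) ≤ H)
    (hb' : 4 * (s'.length + T + 1) ≤ H) (t X Y : ℕ) :
    ∃ t' X' Y', Rch (stp L O w ρ) (81 * T + 7 * w + 37)
      (cf o1 k H ⟨s, [], [], []⟩ t X Y M D)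
      (cf o1 k H ⟨s', [], [], []⟩ t' X' Y' (Function.update M wa wv) (D + 1)) := by
  obtain ⟨q1, ⟨a1, -⟩, r1⟩ :=
    rch_qcall (O := O) (ρ := ρ) hH e1 (by omega) h.b1 (by omega) k t X Y M D
  have r1' : Rch (stp L O w ρ) 1 (cf q1 k H ⟨s, [], [], []⟩ 0 X 0 M D)
      (cf o2 k H ⟨s, [], [], []⟩ 0 X 0 M D) := (r_jz a1).congr (by simp [cf])
  obtain ⟨q2, ⟨b1, b2, -⟩, r2⟩ :=
    rch_qcall (O := O) (ρ := ρ) hH e2 (by omega) h.b2 (by omega) k 0 X 0 M D
  have r2' : Rch (stp L O w ρ) (1 + 1) (cf q2 k H ⟨s, [], [], []⟩ 0 X ra M D)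
      (cf o3 k H ⟨s, [], [], []⟩ 0 ra ra M D) :=
    ((r_copy b1).trans (r_jump b2)).congr (by simp [cf])
  obtain ⟨q3, ⟨c1, -⟩, r3⟩ :=
    rch_qcall (O := O) (ρ := ρ) hH e3 hk h.b3 (by omega) k 0 ra ra M D
  have r3' := (r_jump' (O := O) (w := w) (ρ := ρ) c1).trans
    (h.dispatch (ρ := ρ) (k := k) (D := D) (M := M) hO (s := ⟨s, [], [], []⟩) (kind := kind)
      (t := 0) hra)
  generalize value O H M kind ra = v at *
  have hb4 := h.b4
  rw [at_append, at_append, at_append, at_append, length_pushNum, length_rcode] at hb4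
  obtain ⟨d0, ⟨d1, d2, d3, -⟩, d4, d5, d6, -⟩ := hb4
  have hl : v.bits.length ≤ w := by rw [Nat.size_eq_bits_len]; exact Nat.size_le.2 hv
  obtain ⟨t4, r4⟩ := rch_pushNum (O := O) (ρ := ρ) (k := k) (X := ra) (D := D) (M := M) hH hw d0
    s v [] 0 (by simp only [List.length_nil]; omega)
  rw [List.append_nil] at r4
  have hbit : ρ D % 2 ^ w &&& 1 = (ρ D % 2 ^ w).bodd.toNat := by
    rw [Nat.and_one_is_mod, Nat.mod_two_of_bodd]
  have hb1 : (ρ D % 2 ^ w).bodd.toNat ≤ 1 := Bool.toNat_le _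
  have r4a : Rch (stp L O w ρ) (1 + 1 + 1)
      (cf (o4 + 7) k H ⟨s, v.bits.reverse, [], []⟩ t4 ra 0 M D)
      (cf (o4 + 7 + 3) k H ⟨s, v.bits.reverse, [], []⟩ ((ρ D % 2 ^ w).bodd.toNat + 1) ra 0 M
        (D + 1)) := by
    refine (((r_rand d1).trans (r_and d2)).trans (r_add d3 ?_)).congr ?_
    · simp only [wr_put7, put7, put2, hbit]; omega
    · simp only [wr_put7, put7, put2, hbit, cf]
  have r4b := r_pushT (O := O) (ρ := ρ) (k := k) (X := ra) (Y := 0) (D := D + 1) (M := M)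
    (s := ⟨s, v.bits.reverse, [], []⟩) (x := (ρ D % 2 ^ w).bodd) hH d4
    (by simp only [St.get_a, List.length_reverse]; omega)
  obtain ⟨t5, r4c⟩ := rch_of_exec (O := O) (ρ := ρ) (M := M) (D := D + 1) (k := k) (X := ra)
    (Y := 0) hH e4 _ ((ρ D % 2 ^ w).bodd.toNat + 1) d5
    (by simp only [St.tot, List.length_cons, List.length_reverse, List.length_nil]; omega)
  obtain ⟨q5, ⟨f1, f2, -⟩, r5⟩ :=
    rch_qcall (O := O) (ρ := ρ) hH e5 (by omega) h.b5 hb' k t5 ra 0 M (D + 1)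
  have r5' : Rch (stp L O w ρ) (1 + 1) (cf q5 k H ⟨s', [], [], []⟩ 0 ra wa M (D + 1))
      (cf o6 k H ⟨s', [], [], []⟩ 0 wa wa M (D + 1)) :=
    ((r_copy f1).trans (r_jump f2)).congr (by simp [cf])
  obtain ⟨q6, ⟨g1, g2, -⟩, r6⟩ :=
    rch_qcall (O := O) (ρ := ρ) hH e6 hwv h.b6 hb' k 0 wa wa M (D + 1)
  have r6' : Rch (stp L O w ρ) (1 + 1) (cf q6 k H ⟨s', [], [], []⟩ 0 wa wv M (D + 1))
      (cf o1 k H ⟨s', [], [], []⟩ 0 wa wv (Function.update M wa wv) (D + 1)) :=
    ((r_store g1).trans (r_jump g2)).congr (by simp only [put10, put11, mem_update_low hwa, cf])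
  exact ⟨_, _, _, (((((((((((((((r1.trans r1').trans r2).trans r2').trans r3).trans r3').trans
    r4).trans r4a).trans r4b).trans r4c).trans (r_jump' d6)).trans r5).trans r5').trans
    r6).trans r6')).mono (by omega)⟩

end main

end Crest.Agent.R302.RamAux
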