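import Crest.Agent.R302.OMac
import Crest.Agent.R309.RamAux2
import Crest.Agent.R302.RamAux2

/-!
# R302/Ram: macro machines on the oracle word RAM with short words (TASK, the biggest of the machine layer)

Compare `R309/Ram.lean`, `RamAux1`, `RamAux2` (same plan, copy freely into new files `R302/RamAux*.lean`).  The difference: the
words have only `w = O(log)` bits, so the four bit stacks of `Lib.PT.Machine` live in the upper half of the MEMORY.
* First compute `H = 2 ^ (w-1)` (double a register until the next doubling gives `0`; `w - 1` rounds).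
* Stack number `j < 5` with content `l` (head = top) occupies the cells `H + 8 i + j`, `i < l.length` (bottom at `i = 0`), one bit per cell; a
  register holds the address `H + 8 * l.length + j` of the first free cell; emptiness is tested by comparing with `H + j`
  (registers for these constants, or recompute).  Represent by a relation
  `Rep H s mem` ("for each `r`, `i < length`, `mem (H + 8 i + j r) = bit`") and a frame statement (cells below `H` are unchanged).
  Compile a `Prog` as in `rcode` and prove by induction on `Exec p s s' n` that the machine goes from `pc = o` to `pc = o + len p` within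
  `C * n` steps provided `8 * (s.tot + n + 1) ≤ 2 ^ (w-1)` (`Exec.tot_le`).
* A fifth stack (or the part of the main stack below the working copy, `Run.frame`, `run_dup`) keeps `toBits s`.
  One convenient way: ONE polynomial-time function
  `F (bits of value and random bit, s) = ((flag, k, write address, write value, kind, read address as bit lists), s')`, whose result is decoded on the main stack;
  or five calls as in R309 (`exists_call`) where the state is first copied from the fifth stack by a small loop.
* A word is pushed on stack `a` by a loop over its bits (at most `w` rounds: `and 1`, `shr 1`), a number is read from a stack by a loop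
  (`v := 2 v + bit`, most significant bit first; reversals are absorbed in the polynomial-time function).
* `ostep` executes base instructions by `WordRAM.step (baseProgram P)`; `(baseProgram P).code[i]? = (P.code[i]?).map toBase`.
  State the reachability relation `Rch` for `ostep` on `OCfg` (ignore `calls`), with one lemma per instruction used.
The program draws exactly one word per macro step, so step `i` sees the bit `(ρ i % 2 ^ w).bodd`.
-/

set_option autoImplicit false

namespace Crest.Agent.R302

open Crest.Agent.Lib.PT Crest.OracleRAM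

theorem RamAux.exists_poly {f : ℕ → ℕ} (h : PB fun u : Un => f u.n) :
    ∃ c d, ∀ B, f B ≤ c * (B + 1) ^ d := by
  obtain ⟨c, d, h⟩ := h
  refine ⟨c * 2 ^ d, d, fun B => (h ⟨B⟩).trans ?_⟩
  rw [sz_un, mul_assoc, ← mul_pow]
  exact Nat.mul_le_mul_left _ (Nat.pow_le_pow_left (by simp only []; omega) _)

theorem RamAux.lowBits_succ (w : ℕ) (ρ : ℕ → ℕ) (j : ℕ) :
    lowBits w ρ (j + 1) = lowBits w ρ j ++ [(ρ j % 2 ^ w).bodd] := by
  rw [lowBits, List.range_succ, List.map_append]
  rfl

open RamAux in
theorem OMac.ram {σ : Type} [Enc σ] (m : OMac σ)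
    (hnx : PT fun p : σ × ℕ × Bool => m.nx p.1 p.2.1 p.2.2) (hrd : PT m.rd) (hwr : PT m.wr)
    (hfin : PT m.fin) :
    ∃ (P : OProgram) (c d : ℕ), ∀ (n : ℕ) (O : Bool → Finset (Fin n) → ℕ) (inp : List ℕ)
      (B T w : ℕ) (ρ : ℕ → ℕ), (∀ a ∈ inp, a < 2 ^ w) → inp.length < 2 ^ (w - 1) →
      (∀ b A, O b A < 2 ^ w) → w ≤ B → c * (B + 1) ^ d ≤ 2 ^ (w - 1) →
      (∀ k ≤ T, m.Small n w B (m.go n O w (m.init inp) (lowBits w ρ k)).1) →
      ∀ out, m.Out (m.go n O w (m.init inp) (lowBits w ρ T)) out →
        (orun P n O w ρ inp (c * (B + 1) ^ d * (T + 1))).cfg.halted = true ∧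
        (orun P n O w ρ inp (c * (B + 1) ^ d * (T + 1))).cfg.output = out := by
  have g1 : PT fun s : σ => (m.fin s).elim 0 (· + 1) := by fun_prop
  have g2 : PT fun s : σ => (m.rd s).2 := by fun_prop
  have g3 : PT fun s : σ => min (m.rd s).1 3 := by fun_prop
  have g4 : PT fun x : List Bool × σ =>
      toBits (m.nx x.2 (ofBits x.1.tail.reverse) (x.1.headD false)) :=
    PT.toBits (hnx.comp (f := fun x : List Bool × σ =>
      (x.2, ofBits x.1.tail.reverse, x.1.headD false)) (by fun_prop))
  have g5 : PT fun s : σ => (m.wr s).1 := by fun_prop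
  have g6 : PT fun s : σ => (m.wr s).2 := by fun_prop
  obtain ⟨p1, c1, k1, e1⟩ := exists_qcall g1
  obtain ⟨p2, c2, k2, e2⟩ := exists_qcall g2
  obtain ⟨p3, c3, k3, e3⟩ := exists_qcall g3
  obtain ⟨p4, c4, k4, e4⟩ := R309.RamAux.exists_call g4
  obtain ⟨p5, c5, k5, e5⟩ := exists_qcall g5
  obtain ⟨p6, c6, k6, e6⟩ := exists_qcall g6
  obtain ⟨L, o1, o2, o3, od, o4, o5, o6, hL⟩ :=
    exists_layout (pushL (toBits m.s0)) p1 p2 p3 p4 p5 p6
  let Z : ℕ → ℕ := fun B => 5 * B + 6
  let Tm : ℕ → ℕ := fun B => c1 * Z B ^ k1 + c2 * Z B ^ k2 + c3 * Z B ^ k3 + c4 * Z B ^ k4 +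
    c5 * Z B ^ k5 + c6 * Z B ^ k6
  obtain ⟨c, d, hcd⟩ := exists_poly (f := fun B => 81 * Tm B + 10 * B + 37) (by
    simp only [Tm, Z]
    fun_prop)
  refine ⟨prog L, c, d, fun n O inp B T w ρ hinp hlen hO hwB hw hS out ⟨q, hq, hout⟩ => ?_⟩
  have hN := hcd B
  have hZ : Z B = 5 * B + 6 := rfl
  have hT : Tm B = c1 * Z B ^ k1 + c2 * Z B ^ k2 + c3 * Z B ^ k3 + c4 * Z B ^ k4 +
    c5 * Z B ^ k5 + c6 * Z B ^ k6 := rfl
  generalize c * (B + 1) ^ d = N at hN hw ⊢
  have hw1 : 1 < w := by
    by_contra h
    rw [show w - 1 = 0 by omega] at hw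
    omega
  obtain ⟨H, hH⟩ : ∃ H, H = 2 ^ (w - 1) := ⟨_, rfl⟩
  have hH' : 2 * H = 2 ^ w := by
    rw [hH, ← pow_succ', Nat.sub_add_cancel hw1.le]
  have hle : ∀ (x c k : ℕ), x ≤ Z B → c * x ^ k ≤ c * Z B ^ k := fun x c k h =>
    Nat.mul_le_mul_left _ (Nat.pow_le_pow_left h _)
  have key : ∀ i ≤ T, (∀ a, (m.go n O w (m.init inp) (lowBits w ρ i)).2 a < 2 ^ w) ∧
      ∃ j ≤ i, (j = i ∨ m.fin (m.go n O w (m.init inp) (lowBits w ρ i)).1 ≠ none) ∧ ∃ t X Y,
      Rch (stp L O w ρ) (10 * B + 16 + N * j) (WordRAM.init ⟨12, []⟩ w inp)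
        (cf o1 (inp.length % 2 ^ w) H
          ⟨toBits (m.go n O w (m.init inp) (lowBits w ρ i)).1, [], [], []⟩ t X Y
          (m.go n O w (m.init inp) (lowBits w ρ i)).2 j) := by
    intro i
    induction i with
    | zero =>
      intro h0
      have h1 : sz m.s0 ≤ B := (hS 0 h0).1
      have e0 := run_pushL (toBits m.s0) [] []
      simp only [List.append_nil, length_toBits] at e0
      obtain ⟨t, r⟩ := hL.start (O := O) (ρ := ρ) hH hw1.le e0 (by omega) inp hinp (by omega)
      refine ⟨fun a => ?_, 0, le_rfl, Or.inl rfl, t, 0, 0, r.mono (by omega)⟩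
      show inp.getD a 0 < 2 ^ w
      rw [List.getD_eq_getElem?_getD]
      cases h : inp[a]? with
      | none => exact Nat.two_pow_pos w
      | some x => exact hinp x (List.mem_of_getElem? h)
    | succ i ih =>
      intro hi
      obtain ⟨hm, j, hj, hj', t, X, Y, r⟩ := ih (by omega)
      have hs := hS i (by omega)
      have hs' := hS (i + 1) hi
      rw [lowBits_succ, OMac.go_append, OMac.go_cons, OMac.go_nil] at hs' ⊢
      generalize m.go n O w (m.init inp) (lowBits w ρ i) = g at hj' r hs hs' hm ⊢
      by_cases hf : m.fin g.1 = none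
      · obtain rfl : j = i := hj'.resolve_right fun h => h hf
        have hval : m.val n O w g = value O H g.2 (min (m.rd g.1).1 3) (m.rd g.1).2 := by
          unfold OMac.val value
          rw [hH]
          generalize (m.rd g.1).1 = kind
          rcases kind with _ | _ | _ | kind
          · rfl
          · rfl
          · rfl
          · rw [show min (kind + 1 + 1 + 1) 3 = 3 by omega]
            simp
        have hv : m.val n O w g < 2 ^ w := by
          unfold OMac.val
          split_ifs
          · exact hm _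
          · exact hO _ _
          · exact hO _ _
          · omega
        have hst : m.step n O w g (ρ j % 2 ^ w).bodd =
            (m.nx g.1 (m.val n O w g) (ρ j % 2 ^ w).bodd, Function.update g.2
              (m.wr (m.nx g.1 (m.val n O w g) (ρ j % 2 ^ w).bodd)).1
              (m.wr (m.nx g.1 (m.val n O w g) (ρ j % 2 ^ w).bodd)).2) := by
          unfold OMac.step
          rw [if_neg (by simp [hf])]
        rw [hst] at hs' ⊢
        obtain ⟨s1, -, -, s4, -⟩ := hs
        obtain ⟨u1, u2, u3, -, -⟩ := hs'
        have hl : (m.val n O w g).bits.length ≤ w := by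
          rw [Nat.size_eq_bits_len]; exact Nat.size_le.2 hv
        have x1 := (e1 g.1).mono (hle _ _ _ (by omega))
        have x2 := (e2 g.1).mono (hle _ _ _ (by omega))
        have x3 := (e3 g.1).mono (hle _ _ _ (by omega))
        have x4 := (e4 ((ρ j % 2 ^ w).bodd :: (m.val n O w g).bits.reverse, g.1)).mono
          (hle _ _ _ (by
            have := sz_boolList_le ((ρ j % 2 ^ w).bodd :: (m.val n O w g).bits.reverse)
            rw [List.length_cons, List.length_reverse] at this
            rw [sz_mk]; omega))
        have x5 := (e5 _).mono (hle _ _ _ (u1.trans (by omega)))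
        have x6 := (e6 _).mono (hle _ _ _ (u1.trans (by omega)))
        simp only [hf, Option.elim_none, List.tail_cons, List.headD_cons, List.reverse_reverse,
          ofBits_bits] at x1 x4 x5 x6 u1 u2 u3 ⊢
        generalize m.nx g.1 (m.val n O w g) (ρ j % 2 ^ w).bodd = s' at x4 x5 x6 u1 u2 u3 ⊢
        rw [hval] at x4 hv
        obtain ⟨t', X', Y', r'⟩ := hL.iter (O := O) (ρ := ρ) (T := Tm B) (D := j) (M := g.2)
          (k := inp.length % 2 ^ w) hH' hw1 hO (x1.mono (by omega)) (x2.mono (by omega))
          (x3.mono (by omega)) (x4.mono (by omega)) (x5.mono (by omega)) (x6.mono (by omega))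
          (by omega) (by omega) hv (by omega) u3
          (by rw [length_toBits]; omega) (by rw [length_toBits]; omega) t X Y
        refine ⟨fun a => ?_, j + 1, le_rfl, Or.inl rfl, t', X', Y',
          (r.trans r').mono (by rw [Nat.mul_succ]; omega)⟩
        rw [Function.update_apply]
        split_ifs
        · exact u3
        · exact hm a
      · rw [m.step_of_fin n O w hf]
        exact ⟨hm, j, by omega, Or.inr hf, t, X, Y, r⟩
  obtain ⟨-, j, hj, -, t, X, Y, r⟩ := key T le_rfl
  obtain ⟨s1, -, -, -, s5⟩ := hS T le_rfl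
  generalize m.go n O w (m.init inp) (lowBits w ρ T) = g at r s1 s5 hq hout
  have x1 := (e1 g.1).mono (hle _ _ _ (by omega))
  simp only [hq, Option.elim_some] at x1
  obtain ⟨cc, h1, h2, r'⟩ := hL.stop (O := O) (ρ := ρ) (T := Tm B) hH' (x1.mono (by omega))
    (hH ▸ s5 q hq) (by rw [length_toBits]; omega) (inp.length % 2 ^ w) t X Y g.2 j
  have h3 : N * j ≤ N * T := Nat.mul_le_mul_left _ hj
  have h4 : (orun (prog L) n O w ρ inp (N * (T + 1))).cfg = cc := by
    rw [orun_cfg]
    exact (r.trans r').iterate_eq (stp_halted h1) (by rw [Nat.mul_succ]; omega)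
  exact ⟨by rw [h4]; exact h1, by rw [h4, hout]; exact h2⟩

end Crest.Agent.R302
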