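import Crest.Agent.R302.OMac
import Crest.Agent.R309.RamAux2

/-!
# R302: four-stack programs on the oracle word RAM, stacks in the upper half of the memory
-/

set_option autoImplicit false

namespace Crest.Agent.R302.RamAux

open Crest.Agent.Lib.PT Crest.WordRAM Crest.OracleRAM
open Crest.Agent.R309.RamAux (vec reg At at_cons at_append at_self get_set set_set length_get_le
  tot_pop)

/-! ### The memory image of four stacks -/

/-- The cells of one stack: cell `0` is a sentinel, a bit `x` is stored as `x + 1`. -/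
def cell : List Bool → ℕ → ℕ
  | [], _ => 0
  | x :: l, i => if i = l.length + 1 then x.toNat + 1 else cell l i

theorem cell_of_lt (l : List Bool) {i : ℕ} (h : l.length < i) : cell l i = 0 := by
  induction l with
  | nil => rfl
  | cons x l ih =>
    rw [List.length_cons] at h
    rw [cell, if_neg (by omega), ih (by omega)]

/-- The number of a stack. -/
def idx : R → ℕ
  | .m => 0
  | .a => 1
  | .b => 2
  | .c => 3

/-- The stack with a given number. -/
def rOf (j : ℕ) : R := if j = 0 then .m else if j = 1 then .a else if j = 2 then .b else .c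

theorem idx_lt (r : R) : idx r < 4 := by cases r <;> decide

theorem rOf_idx (r : R) : rOf (idx r) = r := by cases r <;> rfl

theorem idx_rOf {j : ℕ} (h : j < 4) : idx (rOf j) = j := by
  interval_cases j <;> rfl

theorem get_set_ne (s : St) {r r' : R} (h : r' ≠ r) (l : List Bool) :
    (s.set r l).get r' = s.get r' := by
  cases r <;> cases r' <;> first | rfl | exact absurd rfl h

theorem set_get (s : St) (r : R) : s.set r (s.get r) = s := by cases r <;> rfl

/-- The memory: `M` below `H`, the stacks above. -/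
def mem (H : ℕ) (M : ℕ → ℕ) (s : St) : ℕ → ℕ :=
  fun i => if i < H then M i else cell (s.get (rOf ((i - H) % 4))) ((i - H) / 4)

/-- The address of the top of a stack. -/
def ptr (H : ℕ) (l : List Bool) (r : R) : ℕ := H + 4 * l.length + idx r

section mem
variable {H : ℕ} {M : ℕ → ℕ} {s : St}

theorem mem_low {a : ℕ} (h : a < H) : mem H M s a = M a := if_pos h

theorem mem_update_low {a : ℕ} (h : a < H) (v : ℕ) :
    Function.update (mem H M s) a v = mem H (Function.update M a v) s := by
  funext i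
  by_cases hi : i = a
  · subst hi; rw [Function.update_self, mem_low h, Function.update_self]
  · rw [Function.update_of_ne hi, mem, mem, Function.update_of_ne hi]

theorem mem_at (q : ℕ) (r : R) : mem H M s (H + 4 * q + idx r) = cell (s.get r) q := by
  have := idx_lt r
  rw [mem, if_neg (by omega), show (H + 4 * q + idx r - H) % 4 = idx r by omega,
    show (H + 4 * q + idx r - H) / 4 = q by omega, rOf_idx]

theorem mem_push (r : R) (x : Bool) :
    Function.update (mem H M s) (ptr H (x :: s.get r) r) (x.toNat + 1) =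
      mem H M (s.set r (x :: s.get r)) := by
  funext i
  by_cases hi : i = ptr H (x :: s.get r) r
  · subst hi
    rw [Function.update_self, ptr, mem_at, get_set, cell, if_pos (List.length_cons ..)]
  · rw [Function.update_of_ne hi, mem, mem]
    split_ifs with h
    · rfl
    · by_cases hr : rOf ((i - H) % 4) = r
      · have h1 := idx_rOf (Nat.mod_lt (i - H) (by omega : 0 < 4))
        rw [hr] at h1
        rw [hr, get_set, cell, if_neg]
        rw [ptr, List.length_cons] at hi
        omega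
      · rw [get_set_ne _ hr]

theorem mem_pop {r : R} {x : Bool} {l : List Bool} (hs : s.get r = x :: l) :
    Function.update (mem H M s) (ptr H (x :: l) r) 0 = mem H M (s.set r l) := by
  have h := mem_push (H := H) (M := M) (s := s.set r l) r x
  rw [get_set, set_set, ← hs, set_get, hs] at h
  rw [← h, Function.update_idem, Function.update_eq_self_iff, ptr, mem_at, get_set,
    cell_of_lt _ (by simp)]

theorem mem_ptr_nil {r : R} (hs : s.get r = []) : mem H M s (ptr H [] r) = 0 := by
  rw [ptr, mem_at, hs]; rfl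

theorem mem_ptr_cons {r : R} {x : Bool} {l : List Bool} (hs : s.get r = x :: l) :
    mem H M s (ptr H (x :: l) r) = x.toNat + 1 := by
  rw [ptr, mem_at, hs, cell, if_pos (List.length_cons ..)]

end mem

/-- The register file: `0` output length, `1` zero, `2` one, `3`-`6` the stack pointers,
`7` scratch, `8` four, `9` the number `H`, `10` address, `11` value. -/
def put (k H : ℕ) (s : St) (t X Y : ℕ) : Fin 12 → ℕ :=
  vec k (ptr H s.m .m) (ptr H s.a .a) (ptr H s.b .b) (ptr H s.c .c) t 4 H X Y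

section put
variable (k H : ℕ) (s : St) (t X Y : ℕ)

@[simp] theorem put_reg (r : R) : put k H s t X Y (reg r) = ptr H (s.get r) r := by
  cases r <;> rfl
@[simp] theorem put0 : put k H s t X Y 0 = k := rfl
@[simp] theorem put1 : put k H s t X Y 1 = 0 := rfl
@[simp] theorem put2 : put k H s t X Y 2 = 1 := rfl
@[simp] theorem put7 : put k H s t X Y 7 = t := rfl
@[simp] theorem put8 : put k H s t X Y 8 = 4 := rfl
@[simp] theorem put9 : put k H s t X Y 9 = H := rfl
@[simp] theorem put10 : put k H s t X Y 10 = X := rfl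
@[simp] theorem put11 : put k H s t X Y 11 = Y := rfl
@[simp] theorem wr_put0 (v : ℕ) : writeReg (put k H s t X Y) 0 v = put v H s t X Y :=
  R309.RamAux.wr0 ..
@[simp] theorem wr_put7 (v : ℕ) : writeReg (put k H s t X Y) 7 v = put k H s v X Y :=
  R309.RamAux.wr7 ..
@[simp] theorem wr_put10 (v : ℕ) : writeReg (put k H s t X Y) 10 v = put k H s t v Y :=
  R309.RamAux.wr10 ..
@[simp] theorem wr_put11 (v : ℕ) : writeReg (put k H s t X Y) 11 v = put k H s t X v :=
  R309.RamAux.wr11 ..

theorem wr_put (r : R) (l : List Bool) :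
    writeReg (put k H s t X Y) (reg r) (ptr H l r) = put k H (s.set r l) t X Y := by
  cases r <;> simp [put, reg]

end put

theorem ptr_cons (H : ℕ) (x : Bool) (l : List Bool) (r : R) :
    ptr H (x :: l) r = ptr H l r + 4 := by
  simp only [ptr, List.length_cons]; omega

/-! ### The compiled code -/

/-- Push the bit whose code is in the scratch register. -/
def pushT (r : R) : List (Instr 12) := [.add (reg r) (reg r) 8, .store 7 (reg r)]

/-- Pop a bit; jump to `e` if there is none and to `z` if it is `false`. -/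
def popI (r : R) (e z : ℕ) : List (Instr 12) :=
  [.load 7 (reg r), .jumpIfZero 7 e, .store 1 (reg r), .sub (reg r) (reg r) 8, .jumpIfEq 7 2 z]

/-- Length of the compiled code. -/
def len : Prog → ℕ
  | .skip => 0
  | .push _ _ => 3
  | .seq p q => len p + len q
  | .case _ pe pf pt => 5 + len pt + 1 + len pf + 1 + len pe
  | .loop _ pf pt => 5 + len pt + 1 + len pf + 1
  | .wh _ p => 5 + len p + 1

/-- The compiled code, placed at offset `o`. -/
def rcode : Prog → ℕ → List (Instr 12)
  | .skip, _ => []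
  | .push r x, _ => .const 7 (x.toNat + 1) :: pushT r
  | .seq p q, o => rcode p o ++ rcode q (o + len p)
  | .case r pe pf pt, o =>
      popI r (o + 5 + len pt + 1 + len pf + 1) (o + 5 + len pt + 1) ++ (rcode pt (o + 5) ++
          (.jump (o + 5 + len pt + 1 + len pf + 1 + len pe) :: (rcode pf (o + 5 + len pt + 1) ++
            (.jump (o + 5 + len pt + 1 + len pf + 1 + len pe) ::
              rcode pe (o + 5 + len pt + 1 + len pf + 1)))))
  | .loop r pf pt, o =>
      popI r (o + 5 + len pt + 1 + len pf + 1) (o + 5 + len pt + 1) ++ (rcode pt (o + 5) ++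
          (.jump o :: (rcode pf (o + 5 + len pt + 1) ++ [.jump o])))
  | .wh r p, o =>
      popI r (o + 5 + len p + 1) (o + 5 + len p + 1) ++ (rcode p (o + 5) ++ [.jump o])

@[simp] theorem length_popI (r : R) (e z : ℕ) : (popI r e z).length = 5 := rfl

@[simp] theorem length_pushT (r : R) : (pushT r).length = 2 := rfl

@[simp] theorem length_rcode (p : Prog) : ∀ o, (rcode p o).length = len p := by
  induction p with
  | skip => intro o; rfl
  | push r x => intro o; rfl
  | seq p q ihp ihq => intro o; simp [rcode, len, ihp, ihq]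
  | case r pe pf pt h1 h2 h3 => intro o; simp [rcode, len, h1, h2, h3]; omega
  | loop r pf pt h2 h3 => intro o; simp [rcode, len, h2, h3]; omega
  | wh r p h => intro o; simp [rcode, len, h]; omega

/-! ### Reachability -/

/-- `mul` and `quot` stand for the two queries. -/
def toO : Instr 12 → OInstr 12
  | .mul d a _ => .query false a d
  | .quot d a _ => .query true a d
  | i => .base i

/-- The oracle program of a list of instructions. -/
abbrev prog (L : List (Instr 12)) : OProgram := ⟨12, L.map toO⟩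

/-- `c'` is reached from `c` within `n` steps. -/
def Rch (f : Cfg 12 → Cfg 12) (n : ℕ) (c c' : Cfg 12) : Prop := ∃ k ≤ n, f^[k] c = c'

section rch
variable {f : Cfg 12 → Cfg 12}

theorem Rch.refl (c : Cfg 12) : Rch f 0 c c := ⟨0, le_rfl, rfl⟩

theorem Rch.mono {n n' : ℕ} {c c' : Cfg 12} (h : Rch f n c c') (hn : n ≤ n') :
    Rch f n' c c' := by
  obtain ⟨k, hk, e⟩ := h
  exact ⟨k, hk.trans hn, e⟩

theorem Rch.trans {n n' : ℕ} {c c' c'' : Cfg 12} (h : Rch f n c c')
    (h' : Rch f n' c' c'') : Rch f (n + n') c c'' := by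
  obtain ⟨k, hk, e⟩ := h
  obtain ⟨k', hk', e'⟩ := h'
  exact ⟨k' + k, by omega, by rw [Function.iterate_add_apply, e, e']⟩

theorem Rch.one {c c' : Cfg 12} (h : f c = c') : Rch f 1 c c' := ⟨1, le_rfl, h⟩

theorem Rch.congr {n : ℕ} {c c' d : Cfg 12} (h : Rch f n c c') (e : c' = d) :
    Rch f n c d := e ▸ h

theorem Rch.iterate_eq {n T : ℕ} {c c' : Cfg 12} (h : Rch f n c c') (hc : f c' = c')
    (hT : n ≤ T) : f^[T] c = c' := by
  obtain ⟨k, hk, e⟩ := h
  obtain ⟨j, rfl⟩ : ∃ j, T = j + k := ⟨T - k, by omega⟩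
  rw [Function.iterate_add_apply, e, Function.iterate_fixed hc]

end rch

theorem ostep_cfg (P : OProgram) {n : ℕ} (O : Bool → Finset (Fin n) → ℕ) (w : ℕ) (ρ : ℕ → ℕ)
    (c : OCfg P.numRegs) : (ostep P n O w ρ c).cfg = (ostep P n O w ρ ⟨c.cfg, 0⟩).cfg := by
  unfold ostep
  dsimp only
  split_ifs
  · rfl
  · split <;> rfl

theorem iterate_cfg (P : OProgram) {n : ℕ} (O : Bool → Finset (Fin n) → ℕ) (w : ℕ) (ρ : ℕ → ℕ)
    (k : ℕ) (c : OCfg P.numRegs) : ((ostep P n O w ρ)^[k] c).cfg =
      (fun c => (ostep P n O w ρ ⟨c, 0⟩).cfg)^[k] c.cfg := by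
  induction k with
  | zero => rfl
  | succ k ih =>
    rw [Function.iterate_succ_apply', Function.iterate_succ_apply', ← ih]
    exact ostep_cfg P O w ρ _

theorem step_congr {r : ℕ} {L L' : List (Instr r)} (w : ℕ) (ρ : ℕ → ℕ) (c : Cfg r)
    (h : L[c.pc]? = L'[c.pc]?) : step ⟨r, L⟩ w ρ c = step ⟨r, L'⟩ w ρ c := by
  unfold step
  simp only [h]
  generalize L'[c.pc]? = x
  rcases x with _ | i
  · rfl
  · cases i <;> rfl

section run
variable (L : List (Instr 12)) {n : ℕ} (O : Bool → Finset (Fin n) → ℕ) (w : ℕ) (ρ : ℕ → ℕ)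

/-- One step, forgetting the number of queries. -/
def stp (c : Cfg 12) : Cfg 12 := (ostep (prog L) n O w ρ ⟨c, 0⟩).cfg

theorem orun_cfg (inp : List ℕ) (T : ℕ) :
    (orun (prog L) n O w ρ inp T).cfg = (stp L O w ρ)^[T] (init ⟨12, []⟩ w inp) :=
  iterate_cfg (prog L) O w ρ T _

variable {L O w ρ}

theorem stp_halted {c : Cfg 12} (h : c.halted = true) : stp L O w ρ c = c := by
  unfold stp ostep
  rw [if_pos h]

variable {o : ℕ} {Rg : Fin 12 → ℕ} {M : ℕ → ℕ} {D : ℕ}

theorem stp_base {i : Instr 12} (h : L[o]? = some i) (hi : toO i = .base i) :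
    stp L O w ρ ⟨o, false, Rg, M, D⟩ = step ⟨12, L⟩ w ρ ⟨o, false, Rg, M, D⟩ := by
  have h1 : (L.map toO)[o]? = some (.base i) := by
    rw [List.getElem?_map, h, Option.map_some, hi]
  have h2 : ((L.map toO).map OInstr.toBase)[o]? = L[o]? := by
    rw [List.getElem?_map, h1, h]
    rfl
  rw [← step_congr w ρ ⟨o, false, Rg, M, D⟩ h2]
  unfold stp ostep
  rw [if_neg (by simp)]
  simp only [h1]
  rfl

theorem stp_query {i : Instr 12} {b : Bool} {a d : Fin 12} (h : L[o]? = some i)
    (hi : toO i = .query b a d) :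
    stp L O w ρ ⟨o, false, Rg, M, D⟩ = ⟨o + 1, false, writeReg Rg d
      (O b (Finset.univ.filter fun j : Fin n => M (Rg a + j.val) ≠ 0) % 2 ^ w), M, D⟩ := by
  have h1 : (L.map toO)[o]? = some (.query b a d) := by
    rw [List.getElem?_map, h, Option.map_some, hi]
  unfold stp ostep
  rw [if_neg (by simp)]
  simp only [h1]

theorem r_const {d : Fin 12} {v : ℕ} (h : L[o]? = some (.const d v)) (hv : v < 2 ^ w) :
    Rch (stp L O w ρ) 1 ⟨o, false, Rg, M, D⟩ ⟨o + 1, false, writeReg Rg d v, M, D⟩ :=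
  Rch.one (by rw [stp_base h rfl]; simp [step, h, Nat.mod_eq_of_lt hv])

theorem r_copy {d s : Fin 12} (h : L[o]? = some (.copy d s)) :
    Rch (stp L O w ρ) 1 ⟨o, false, Rg, M, D⟩ ⟨o + 1, false, writeReg Rg d (Rg s), M, D⟩ :=
  Rch.one (by rw [stp_base h rfl]; simp [step, h])

theorem r_add' {d a b : Fin 12} (h : L[o]? = some (.add d a b)) :
    Rch (stp L O w ρ) 1 ⟨o, false, Rg, M, D⟩
      ⟨o + 1, false, writeReg Rg d ((Rg a + Rg b) % 2 ^ w), M, D⟩ :=
  Rch.one (by rw [stp_base h rfl]; simp [step, h])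

theorem r_add {d a b : Fin 12} (h : L[o]? = some (.add d a b)) (hv : Rg a + Rg b < 2 ^ w) :
    Rch (stp L O w ρ) 1 ⟨o, false, Rg, M, D⟩
      ⟨o + 1, false, writeReg Rg d (Rg a + Rg b), M, D⟩ :=
  (r_add' h).congr (by rw [Nat.mod_eq_of_lt hv])

theorem r_sub {d a b : Fin 12} (h : L[o]? = some (.sub d a b)) :
    Rch (stp L O w ρ) 1 ⟨o, false, Rg, M, D⟩
      ⟨o + 1, false, writeReg Rg d (Rg a - Rg b), M, D⟩ :=
  Rch.one (by rw [stp_base h rfl]; simp [step, h])

theorem r_and {d a b : Fin 12} (h : L[o]? = some (.and d a b)) :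
    Rch (stp L O w ρ) 1 ⟨o, false, Rg, M, D⟩
      ⟨o + 1, false, writeReg Rg d (Rg a &&& Rg b), M, D⟩ :=
  Rch.one (by rw [stp_base h rfl]; simp [step, h])

theorem r_shr {d a b : Fin 12} (h : L[o]? = some (.shr d a b)) (hv : Rg b < w) :
    Rch (stp L O w ρ) 1 ⟨o, false, Rg, M, D⟩
      ⟨o + 1, false, writeReg Rg d (Rg a >>> Rg b), M, D⟩ :=
  Rch.one (by rw [stp_base h rfl]; simp [step, h, hv])

theorem r_load {d a : Fin 12} (h : L[o]? = some (.load d a)) :
    Rch (stp L O w ρ) 1 ⟨o, false, Rg, M, D⟩ ⟨o + 1, false, writeReg Rg d (M (Rg a)), M, D⟩ :=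
  Rch.one (by rw [stp_base h rfl]; simp [step, h])

theorem r_store {s a : Fin 12} (h : L[o]? = some (.store s a)) :
    Rch (stp L O w ρ) 1 ⟨o, false, Rg, M, D⟩
      ⟨o + 1, false, Rg, Function.update M (Rg a) (Rg s), D⟩ := by
  have : writeMem M (Rg a) (Rg s) = Function.update M (Rg a) (Rg s) := by
    funext i
    simp [writeMem, Function.update_apply]
  exact Rch.one (by rw [stp_base h rfl]; simp [step, h, this])

theorem r_jump {z : ℕ} (h : L[o]? = some (.jump z)) :
    Rch (stp L O w ρ) 1 ⟨o, false, Rg, M, D⟩ ⟨z, false, Rg, M, D⟩ :=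
  Rch.one (by rw [stp_base h rfl]; simp [step, h])

theorem r_jz {a : Fin 12} {z : ℕ} (h : L[o]? = some (.jumpIfZero a z)) :
    Rch (stp L O w ρ) 1 ⟨o, false, Rg, M, D⟩
      ⟨if Rg a = 0 then z else o + 1, false, Rg, M, D⟩ :=
  Rch.one (by rw [stp_base h rfl]; simp [step, h])

theorem r_jeq {a b : Fin 12} {z : ℕ} (h : L[o]? = some (.jumpIfEq a b z)) :
    Rch (stp L O w ρ) 1 ⟨o, false, Rg, M, D⟩
      ⟨if Rg a = Rg b then z else o + 1, false, Rg, M, D⟩ :=
  Rch.one (by rw [stp_base h rfl]; simp [step, h])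

theorem r_rand {d : Fin 12} (h : L[o]? = some (.rand d)) :
    Rch (stp L O w ρ) 1 ⟨o, false, Rg, M, D⟩
      ⟨o + 1, false, writeReg Rg d (ρ D % 2 ^ w), M, D + 1⟩ :=
  Rch.one (by rw [stp_base h rfl]; simp [step, h])

theorem r_halt (h : L[o]? = some .halt) :
    Rch (stp L O w ρ) 1 ⟨o, false, Rg, M, D⟩ ⟨o, true, Rg, M, D⟩ :=
  Rch.one (by rw [stp_base h rfl]; simp [step, h])

theorem r_query {i : Instr 12} {b : Bool} {a d : Fin 12} (h : L[o]? = some i)
    (hi : toO i = .query b a d) (hO : ∀ A, O b A < 2 ^ w) :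
    Rch (stp L O w ρ) 1 ⟨o, false, Rg, M, D⟩ ⟨o + 1, false, writeReg Rg d
      (O b (Finset.univ.filter fun j : Fin n => M (Rg a + j.val) ≠ 0)), M, D⟩ :=
  Rch.one (by rw [stp_query h hi, Nat.mod_eq_of_lt (hO _)])

/-! ### Simulation of four-stack programs -/

/-- A configuration holding four stacks. -/
def cf (o k H : ℕ) (s : St) (t X Y : ℕ) (M : ℕ → ℕ) (D : ℕ) : Cfg 12 :=
  ⟨o, false, put k H s t X Y, mem H M s, D⟩

variable {k H t X Y : ℕ}

theorem r_pushT {r : R} {s : St} {x : Bool} (hH : 2 * H = 2 ^ w) (h : At L o (pushT r))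
    (hb : 4 * ((s.get r).length + 2) ≤ H) :
    Rch (stp L O w ρ) 2 (cf o k H s (x.toNat + 1) X Y M D)
      (cf (o + 2) k H (s.set r (x :: s.get r)) (x.toNat + 1) X Y M D) := by
  obtain ⟨h1, h2, -⟩ := h
  have := idx_lt r
  refine ((r_add h1 ?_).trans (r_store h2)).congr ?_
  · simp only [put_reg, put8, ptr]; omega
  · simp only [put_reg, put8, ← ptr_cons H x, wr_put, get_set, put7, mem_push, cf]

theorem r_popE {r : R} {e z : ℕ} {s : St} (h : At L o (popI r e z)) (hs : s.get r = []) :
    Rch (stp L O w ρ) 2 (cf o k H s t X Y M D) (cf e k H s 0 X Y M D) := by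
  obtain ⟨h1, h2, -⟩ := h
  refine ((r_load h1).trans (r_jz h2)).congr ?_
  simp only [put_reg, hs, mem_ptr_nil hs, wr_put7, put7, if_true, cf]

theorem r_pop {r : R} {e z : ℕ} {s : St} {x : Bool} {l : List Bool}
    (h : At L o (popI r e z)) (hs : s.get r = x :: l) :
    Rch (stp L O w ρ) 5 (cf o k H s t X Y M D)
      (cf (if x then o + 5 else z) k H (s.set r l) (x.toNat + 1) X Y M D) := by
  obtain ⟨h1, h2, h3, h4, h5, -⟩ := h
  have r1 : Rch (stp L O w ρ) (1 + 1) (cf o k H s t X Y M D)
      (cf (o + 1 + 1) k H s (x.toNat + 1) X Y M D) := by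
    refine ((r_load h1).trans (r_jz h2)).congr ?_
    simp only [put_reg, hs, mem_ptr_cons hs, wr_put7, put7, cf, Nat.add_eq_zero_iff, one_ne_zero,
      and_false, if_false]
  refine (r1.trans (((r_store h3).trans (r_sub h4)).trans (r_jeq h5))).congr ?_
  have e1 : ptr H (x :: l) r - 4 = ptr H l r := by rw [ptr_cons]; omega
  simp only [put_reg, hs, put1, put8, mem_pop hs, e1, wr_put, put7, put2, cf]
  cases x <;> simp

theorem r_jump' {z : ℕ} {s : St} (h : L[o]? = some (.jump z)) :
    Rch (stp L O w ρ) 1 (cf o k H s t X Y M D) (cf z k H s t X Y M D) := r_jump h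

/-- Simulation of four-stack programs. -/
theorem rch_of_exec (hH : 2 * H = 2 ^ w) {p : Prog} {s s' : St} {m : ℕ} (h : Exec p s s' m) :
    ∀ (o t : ℕ), At L o (rcode p o) → 4 * (s.tot + m + 1) ≤ H →
      ∃ t', Rch (stp L O w ρ) (6 * m) (cf o k H s t X Y M D) (cf (o + len p) k H s' t' X Y M D) := by
  induction h with
  | mono _ hn ih =>
    intro o t hA hb
    obtain ⟨t', h⟩ := ih o t hA (by omega)
    exact ⟨t', h.mono (by omega)⟩
  | skip s => exact fun o t _ _ => ⟨t, (Rch.refl _).mono (by omega)⟩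
  | push r x s =>
    intro o t hA hb
    have h2 := length_get_le s r
    have h3 : x.toNat ≤ 1 := Bool.toNat_le x
    have r1 : Rch (stp L O w ρ) 1 (cf o k H s t X Y M D)
        (cf (o + 1) k H s (x.toNat + 1) X Y M D) :=
      (r_const hA.1 (by omega)).congr (by simp only [wr_put7, cf])
    exact ⟨_, (r1.trans (r_pushT hH hA.2 (by omega))).mono (by omega)⟩
  | seq h1 _ ih1 ih2 =>
    intro o t hA hb
    rw [rcode, at_append, length_rcode] at hA
    have := h1.tot_le
    obtain ⟨t1, r1⟩ := ih1 o t hA.1 (by omega)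
    obtain ⟨t2, r2⟩ := ih2 _ t1 hA.2 (by omega)
    exact ⟨t2, ((r1.trans r2).congr (by simp only [len, Nat.add_assoc])).mono (by omega)⟩
  | caseE hs _ ih =>
    intro o t hA hb
    simp only [rcode, at_cons, at_append, length_rcode, length_popI] at hA
    obtain ⟨a0, -, -, -, -, a6⟩ := hA
    obtain ⟨t1, r1⟩ := ih _ 0 a6 (by omega)
    exact ⟨t1, (((r_popE a0 hs).trans r1).congr (by simp only [len, ← Nat.add_assoc])).mono
      (by omega)⟩
  | caseF hs _ ih =>
    intro o t hA hb
    simp only [rcode, at_cons, at_append, length_rcode, length_popI] at hA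
    obtain ⟨a1, -, -, a4, a5, -⟩ := hA
    have := tot_pop hs
    obtain ⟨t1, r1⟩ := ih _ _ a4 (by omega)
    exact ⟨t1, ((((r_pop a1 hs).trans r1).trans (r_jump' a5)).congr
      (by simp only [len, Nat.add_assoc])).mono (by omega)⟩
  | caseT hs _ ih =>
    intro o t hA hb
    simp only [rcode, at_cons, at_append, length_rcode, length_popI] at hA
    obtain ⟨a1, a2, a3, -⟩ := hA
    have := tot_pop hs
    obtain ⟨t1, r1⟩ := ih _ _ a2 (by omega)
    exact ⟨t1, ((((r_pop a1 hs).trans r1).trans (r_jump' a3)).congr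
      (by simp only [len, Nat.add_assoc])).mono (by omega)⟩
  | loopE hs =>
    intro o t hA hb
    rw [rcode, at_append] at hA
    exact ⟨0, ((r_popE hA.1 hs).congr (by simp only [len, Nat.add_assoc])).mono (by omega)⟩
  | loopF hs h1 _ ih1 ih2 =>
    intro o t hA hb
    have hA' := hA
    simp only [rcode, at_cons, at_append, length_rcode, length_popI] at hA'
    obtain ⟨a1, -, -, a4, a5, -⟩ := hA'
    have := tot_pop hs
    have := h1.tot_le
    obtain ⟨t1, r1⟩ := ih1 _ _ a4 (by omega)
    obtain ⟨t2, r2⟩ := ih2 o t1 hA (by omega)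
    exact ⟨t2, ((((r_pop a1 hs).trans r1).trans (r_jump' a5)).trans r2).mono (by omega)⟩
  | loopT hs h1 _ ih1 ih2 =>
    intro o t hA hb
    have hA' := hA
    simp only [rcode, at_cons, at_append, length_rcode, length_popI] at hA'
    obtain ⟨a1, a2, a3, -⟩ := hA'
    have := tot_pop hs
    have := h1.tot_le
    obtain ⟨t1, r1⟩ := ih1 _ _ a2 (by omega)
    obtain ⟨t2, r2⟩ := ih2 o t1 hA (by omega)
    exact ⟨t2, ((((r_pop a1 hs).trans r1).trans (r_jump' a3)).trans r2).mono (by omega)⟩
  | whF hs =>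
    intro o t hA hb
    rw [rcode, at_append] at hA
    exact ⟨_, ((r_pop hA.1 hs).congr (by simp only [len, Nat.add_assoc]; rfl)).mono (by omega)⟩
  | whT hs h1 _ ih1 ih2 =>
    intro o t hA hb
    have hA' := hA
    simp only [rcode, at_cons, at_append, length_rcode, length_popI] at hA'
    obtain ⟨a1, a2, a3, -⟩ := hA'
    have := tot_pop hs
    have := h1.tot_le
    obtain ⟨t1, r1⟩ := ih1 _ _ a2 (by omega)
    obtain ⟨t2, r2⟩ := ih2 o t1 hA (by omega)
    exact ⟨t2, ((((r_pop a1 hs).trans r1).trans (r_jump' a3)).trans r2).mono (by omega)⟩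

end run

end Crest.Agent.R302.RamAux
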