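import Crest.Agent.R302.SfmAux4

/-!
# R302/Sfm: submodular function minimisation (TASK, big: split into `SfmAux*.lean`)

The weakly polynomial algorithm of Iwata and Orlin, with integer weights.  Let `M = 2 ^ K`, `D = 64 m² M`, `m ≥ 1` (for `m = 0` anything works).

**State**: a set `W` (a `List Bool`) and a list `Ls` of entries `(λ, d, ρ) : ℕ × List ℕ × List ℕ` (weight, labels, ranks).  Nothing else is stored:
`y ρ v = f {u ∈ W | ρ u ≤ ρ v} - f {u ∈ W | ρ u < ρ v}` for `v ∈ W` (this is `gre (fun A => f (A ∩ W)) ρ`, which vanishes off `W`; `gre_below`, `gre_prefix`, `Submod.comp`)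
and `x = ∑ λ • y ρ` are recomputed by calls to `h`.  Start: `W = univ`, `Ls = [(D, 0, id)]`.  Let `dmin v` be the least label of `v`.

**Invariant**: `∑ λ = D`; each `ρ` is injective with values `< m`; labels `≤ m`; for `u, v ∈ W`:
(I1) `x v ≤ 0 → ` all labels of `v` are `0`; (I2) in each entry `d u < d v → ρ u < ρ v`; (I3) two labels of `v` differ by at most `1`;
(I4) `∀ B, ∃ B' ⊆ W, f B' ≤ f B`; (I5) `Φ ≤ (1 - 1 / (64 m³)) ^ (Ls.length - 1) * m (2 M D)²` for `Φ = ∑_{v ∈ W} (max 0 (x v))²`.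
Always `x A ≤ D (f A - f ∅)` for `A ⊆ W`, with equality for `A = W` and for every `A` that is an initial segment of `W` in all entries.

**Step**.  Let `η = max_{v ∈ W} x v` (`0` if `W = ∅`).
* *Stop* (state unchanged) if `m η < D`.  Then `W` is a minimiser: for `B ⊆ W`, `D (f B - f ∅) ≥ x B = x W - x (W \ B) > D (f W - f ∅) - D`.
* *Gap*: if for some `j < m` no `v ∈ W` has `dmin v = j` but some has `dmin v > j`, put `W' = {v ∈ W | dmin v < j}`.  By (I2), (I3) `W'` is an initial segment in all entries, so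
  `y`, `x` do not change on `W'`; the removed elements have `x > 0` (I1), so for `B ⊆ W`:
  `D (f B - f (B ∩ W')) ≥ D (f (B ∪ W') - f W') ≥ x (B \ W') ≥ 0`.
* *Push* otherwise.  `δ = η / (4 m) ≥ 16 M`.  Take `j ≤ m` such that no `x v`, `v ∈ W`, lies in the open interval `(2 j δ, (2 j + 2) δ)` (pigeonhole), `μ = (2 j + 1) δ`;
  `μ + δ ≤ η`.  Let `ℓ` be the least label among the `v ∈ W` with `x v > μ` (`ℓ ≤ m - 1` as there is no gap: the values `0, …, ℓ` are all taken by `dmin`), `(λ, d, ρ)` an entry with such a `v` of label `ℓ`,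
  `R = {v ∈ W | d v = ℓ, x v > μ} ≠ ∅`, `d' v = d v + [v ∈ R]`, `key v = (2 d v + [v ∈ R]) m + ρ v` (injective), `ρ' v = #{u < m | key u < key v}`.
  Then `y' v = y v` if `d v ≠ ℓ`, `y' v ≤ y v` on `R` (where `x v ≥ μ + δ`), `y' v ≥ y v` on the other `v` of label `ℓ` (where `x v ≤ μ - δ`), `∑ y' = ∑ y`; `β = max |y' - y| ≤ 4 M`.
  If `λ β ≤ δ` (saturating) replace the entry by `(λ, d', ρ')`; else let `α = δ / β` (`1 ≤ α < λ`, `α β ≥ δ / 2`) and replace it by `(λ - α, d, ρ)` and `(α, d', ρ')`.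
  Each `x v` moves by at most `δ`; if `θ` is the total amount moved, `Φ` drops by at least `θ (2 μ + δ) - θ (2 μ - δ) = 2 δ θ`; in the second case `θ ≥ δ / 2` and `Φ ≤ m η² ≤ 64 m³ δ²`.

**Termination**: while not stopped `Φ ≥ η² ≥ (D / m)²`, so `Ls.length - 1 ≤ N₁ = 64 m³ (2 K + 3 m + 2)`.  The number
`(m² + 1) (N₁ + 1 - Ls.length) + ∑_{entries} ∑_{v < m} (m - d v) + |W|` drops in each step that does not stop, so `T = (m² + 1) (N₁ + 2) + m` steps suffice.

**Polynomial time**: `intro α _ h hh`, then `OPT.iterC` (size clamp `B` polynomial in `m, K`; `iterC_eq` on valid inputs, where `λ ≤ D`, labels and ranks `≤ m`, `Ls.length ≤ N₁ + 2`).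
Implementation note: `SfmAux1`–`SfmAux4` use `η = ∑ (x v)⁺`, `δ = η / (4 m²)`, `β = ∑_{v ∈ R} (y v - y' v)`, `D = 32 m³ M` (no maxima needed).
A clean organisation: abstract states over `Fin m` (or a generic `U`) with a step *relation* and the invariant (`SfmAux1/2`), then the list program and the proof that it refines the relation.
-/

set_option autoImplicit false

namespace Crest.Agent.R302

open Finset Crest.Agent.Lib.PT Crest.Agent.R309

theorem exists_sfm : ∃ sfm : (List Bool → ℤ) → Un × Un → List Bool, HOPT sfm ∧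
    ∀ (m K : ℕ) (f : Finset (Fin m) → ℤ) (h : List Bool → ℤ), Calls h f → Submod f →
      (∀ A, |f A| ≤ 2 ^ K) → ∀ B, f (sOf m (sfm h (⟨m⟩, ⟨K⟩))) ≤ f B :=
  ⟨Sfm.sfm, Sfm.sfm_opt, fun _ _ _ _ hh hf hb B => Sfm.sfm_spec hh hf hb B⟩

end Crest.Agent.R302
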