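import Crest.Agent.R302.Sub

/-!
# R302/SfmAux1: the Iwata–Orlin algorithm, invariant, stop and gap steps
-/

set_option autoImplicit false

namespace Crest.Agent.R302.Sfm

open Finset

/-- entries: weight, labels, ranks -/
abbrev CE : Type := ℕ × List ℕ × List ℕ

/-- a list as a function -/
def fn (m : ℕ) (l : List ℕ) (v : Fin m) : ℕ := l.getD v.val 0

variable {m : ℕ}

/-- greedy vertex of `f` restricted to `W` -/
def yy (f : Finset (Fin m) → ℤ) (W : Finset (Fin m)) (ρ : Fin m → ℕ) : Fin m → ℤ :=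
  gre (fun A => f (A ∩ W)) ρ

/-- the weighted sum of the greedy vertices -/
def xx (f : Finset (Fin m) → ℤ) (W : Finset (Fin m)) (s : List CE) (v : Fin m) : ℤ :=
  (s.map fun e => (e.1 : ℤ) * yy f W (fn m e.2.2) v).sum

/-- the total excess -/
def eta (f : Finset (Fin m) → ℤ) (W : Finset (Fin m)) (s : List CE) : ℤ :=
  ∑ v ∈ W, max 0 (xx f W s v)

/-- the potential -/
def Phi (f : Finset (Fin m) → ℤ) (W : Finset (Fin m)) (s : List CE) : ℤ :=
  ∑ v ∈ W, max 0 (xx f W s v) ^ 2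

/-- the total weight -/
def DD (m K : ℕ) : ℕ := 32 * m ^ 3 * 2 ^ K

/-- the bound for the number of entries -/
def NN (m K : ℕ) : ℕ := 64 * m ^ 4 * (2 * K + 3 * m + 2)

structure Inv (f : Finset (Fin m) → ℤ) (K : ℕ) (W : Finset (Fin m)) (s : List CE) : Prop where
  sum : (s.map (·.1)).sum = DD m K
  ln : ∀ e ∈ s, e.2.1.length = m ∧ e.2.2.length = m
  inj : ∀ e ∈ s, Function.Injective (fn m e.2.2)
  rk : ∀ e ∈ s, ∀ v, fn m e.2.2 v < m
  lab : ∀ e ∈ s, ∀ v, fn m e.2.1 v ≤ m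
  i1 : ∀ v ∈ W, xx f W s v ≤ 0 → ∀ e ∈ s, fn m e.2.1 v = 0
  i2 : ∀ e ∈ s, ∀ u v, fn m e.2.1 u < fn m e.2.1 v → fn m e.2.2 u < fn m e.2.2 v
  i3 : ∀ v, ∀ e ∈ s, ∀ e' ∈ s, fn m e.2.1 v ≤ fn m e'.2.1 v + 1
  i4 : ∀ B, ∃ B' ⊆ W, f B' ≤ f B
  i5 : (Phi f W s : ℝ) ≤
    (1 - 1 / (64 * (m : ℝ) ^ 4)) ^ (s.length - 1) * (m * (2 * 2 ^ K * DD m K) ^ 2)
  len : s.length ≤ NN m K + 1

/-- the measure that decreases -/
def meas (K : ℕ) (W : Finset (Fin m)) (s : List CE) : ℕ :=
  (m ^ 2 + 1) * (NN m K + 1 - s.length) + (s.map fun e => ∑ v, (m - fn m e.2.1 v)).sum + W.card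

variable {f : Finset (Fin m) → ℤ} {K : ℕ} {W : Finset (Fin m)} {s : List CE} {ρ ρ' : Fin m → ℕ}

theorem submod_res (hf : Submod f) (W : Finset (Fin m)) : Submod fun A => f (A ∩ W) :=
  hf.comp (fun A => A ∩ W) (fun _ _ => union_inter_distrib_right ..)
    (fun _ _ => inter_inter_distrib_right ..)

theorem yy_zero (hρ : Function.Injective ρ) {v : Fin m} (hv : v ∉ W) : yy f W ρ v = 0 := by
  unfold yy gre
  rw [sub_eq_zero]
  refine congrArg f ?_
  ext u
  simp only [mem_inter, mem_filter, mem_univ, true_and, and_congr_left_iff]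
  refine fun hu => ⟨fun h => lt_of_le_of_ne h fun h' => hv (hρ h' ▸ hu), le_of_lt⟩

theorem yy_total (hρ : Function.Injective ρ) (hm : ∀ v, ρ v < m) :
    ∑ v ∈ W, yy f W ρ v = f W - f ∅ := by
  have h := gre_prefix hρ (fun A => f (A ∩ W)) m
  rw [filter_true_of_mem fun v _ => hm v, univ_inter, empty_inter] at h
  rw [← h]
  exact sum_subset (subset_univ _) fun v _ hv => yy_zero hρ hv

theorem yy_le (hf : Submod f) (hρ : Function.Injective ρ) {A : Finset (Fin m)} (hA : A ⊆ W) :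
    ∑ v ∈ A, yy f W ρ v ≤ f A - f ∅ := by
  have h := gre_below (submod_res hf W) hρ A
  rwa [inter_eq_left.2 hA, empty_inter] at h

theorem yy_abs (hb : ∀ A, |f A| ≤ 2 ^ K) (v : Fin m) : |yy f W ρ v| ≤ 2 * 2 ^ K := by
  unfold yy gre
  refine (abs_sub _ _).trans ?_
  linarith [hb ((univ.filter fun u => ρ u ≤ ρ v) ∩ W), hb ((univ.filter fun u => ρ u < ρ v) ∩ W)]

theorem yy_congr {W' : Finset (Fin m)} (hW : W' ⊆ W) {v : Fin m}
    (h : ∀ u ∈ W, ρ u ≤ ρ v → u ∈ W') : yy f W' ρ v = yy f W ρ v := by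
  unfold yy gre
  refine congrArg₂ (· - ·) (congrArg f ?_) (congrArg f ?_) <;> ext u <;>
    simp only [mem_inter, mem_filter, mem_univ, true_and, and_congr_right_iff]
  · exact fun h' => ⟨fun h'' => hW h'', fun h'' => h u h'' h'⟩
  · exact fun h' => ⟨fun h'' => hW h'', fun h'' => h u h'' h'.le⟩

theorem yy_mono (hf : Submod f) (hρ : Function.Injective ρ) (hρ' : Function.Injective ρ') {v : Fin m}
    (h : ∀ u, ρ u < ρ v → ρ' u < ρ' v) : yy f W ρ' v ≤ yy f W ρ v := by
  unfold yy gre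
  have h1 := submod_res hf W (univ.filter fun u => ρ u ≤ ρ v) (univ.filter fun u => ρ' u < ρ' v)
  have e1 : (univ.filter fun u => ρ u ≤ ρ v) ∪ (univ.filter fun u => ρ' u < ρ' v) =
      univ.filter fun u => ρ' u ≤ ρ' v := by
    ext u
    simp only [mem_union, mem_filter, mem_univ, true_and]
    constructor
    · rintro (h2 | h2)
      · rcases h2.lt_or_eq with h3 | h3
        · exact (h u h3).le
        · rw [hρ h3]
      · exact h2.le
    · intro h2
      rcases h2.lt_or_eq with h3 | h3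
      · exact Or.inr h3
      · rw [hρ' h3]; exact Or.inl le_rfl
  have e2 : (univ.filter fun u => ρ u ≤ ρ v) ∩ (univ.filter fun u => ρ' u < ρ' v) =
      univ.filter fun u => ρ u < ρ v := by
    ext u
    simp only [mem_inter, mem_filter, mem_univ, true_and]
    exact ⟨fun h2 => lt_of_le_of_ne h2.1 fun h3 => by rw [hρ h3] at h2; exact lt_irrefl _ h2.2,
      fun h2 => ⟨h2.le, h u h2⟩⟩
  rw [e1, e2] at h1
  linarith

theorem sum_xx (A : Finset (Fin m)) :
    ∑ v ∈ A, xx f W s v = (s.map fun e => (e.1 : ℤ) * ∑ v ∈ A, yy f W (fn m e.2.2) v).sum := by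
  unfold xx
  induction s with
  | nil => simp
  | cons e s ih => simp only [List.map_cons, List.sum_cons, sum_add_distrib, ih, mul_sum]

theorem sum_wt (s : List CE) (c : ℤ) :
    (s.map fun e => (e.1 : ℤ) * c).sum = ((s.map (·.1)).sum : ℕ) * c := by
  induction s with
  | nil => simp
  | cons e s ih => simp only [List.map_cons, List.sum_cons, ih]; push_cast; ring

theorem xx_total (h1 : ∀ e ∈ s, Function.Injective (fn m e.2.2)) (h2 : ∀ e ∈ s, ∀ v, fn m e.2.2 v < m) :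
    ∑ v ∈ W, xx f W s v = ((s.map (·.1)).sum : ℕ) * (f W - f ∅) := by
  rw [sum_xx, ← sum_wt]
  exact congrArg List.sum (List.map_congr_left fun e he => by rw [yy_total (h1 e he) (h2 e he)])

theorem xx_le (hf : Submod f) (h1 : ∀ e ∈ s, Function.Injective (fn m e.2.2)) {A : Finset (Fin m)}
    (hA : A ⊆ W) : ∑ v ∈ A, xx f W s v ≤ ((s.map (·.1)).sum : ℕ) * (f A - f ∅) := by
  rw [sum_xx, ← sum_wt]
  exact List.sum_le_sum fun e he =>
    mul_le_mul_of_nonneg_left (yy_le hf (h1 e he) hA) (Int.natCast_nonneg _)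

theorem DD_pos (hm : 0 < m) (K : ℕ) : 0 < DD m K := by unfold DD; positivity

theorem Inv.ne_nil (hI : Inv f K W s) (hm : 0 < m) : s ≠ [] := by
  rintro rfl
  have := hI.sum
  have := DD_pos hm K
  simp only [List.map_nil, List.sum_nil] at *
  omega

/-- at a stop, `W` is a minimiser -/
theorem Inv.stop (hI : Inv f K W s) (hf : Submod f) (h : eta f W s < DD m K) (B : Finset (Fin m)) :
    f W ≤ f B := by
  obtain ⟨B', hB, h1⟩ := hI.i4 B
  refine le_trans ?_ h1
  have h2 := xx_le hf hI.inj hB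
  have h3 := xx_total (f := f) (W := W) hI.inj hI.rk
  rw [hI.sum] at h2 h3
  have h4 := sum_sdiff (f := xx f W s) hB
  have h5 : ∑ v ∈ W \ B', xx f W s v ≤ eta f W s :=
    (sum_le_sum fun v _ => le_max_right _ _).trans
      (sum_le_sum_of_subset_of_nonneg sdiff_subset fun v _ _ => le_max_left _ _)
  by_contra hc
  have h6 : f B' + 1 ≤ f W := by omega
  have h7 : (0 : ℤ) ≤ DD m K := Int.natCast_nonneg _
  nlinarith

/-- the gap step -/
theorem Inv.gap (hI : Inv f K W s) (hf : Submod f) (hm : 0 < m) (j : ℕ) (W' : Finset (Fin m))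
    (hW' : ∀ v, v ∈ W' ↔ v ∈ W ∧ ∃ e ∈ s, fn m e.2.1 v < j)
    (h1 : ∀ v ∈ W, (∃ e ∈ s, fn m e.2.1 v < j) ∨ ∀ e ∈ s, j < fn m e.2.1 v)
    (h2 : ∃ v ∈ W, ∀ e ∈ s, j < fn m e.2.1 v) :
    Inv f K W' s ∧ meas K W' s < meas K W s := by
  have hsub : W' ⊆ W := fun v hv => ((hW' v).1 hv).1
  have hx : ∀ v ∈ W', xx f W' s v = xx f W s v := by
    intro v hv
    unfold xx
    refine congrArg List.sum (List.map_congr_left fun e he => ?_)
    rw [yy_congr hsub]
    intro u hu huv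
    rcases h1 u hu with h | h
    · exact (hW' u).2 ⟨hu, h⟩
    · obtain ⟨-, e', he', h3⟩ := (hW' v).1 hv
      have h4 := hI.i3 v e he e' he'
      have h5 := h e he
      have h6 := hI.i2 e he v u (by omega)
      omega
  have hpos : ∀ v ∈ W, v ∉ W' → 0 ≤ xx f W s v := by
    intro v hv hv'
    by_contra hc
    obtain ⟨e, he⟩ := List.exists_mem_of_ne_nil s (hI.ne_nil hm)
    have h3 := hI.i1 v hv (by omega) e he
    rcases h1 v hv with h | h
    · exact hv' ((hW' v).2 ⟨hv, h⟩)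
    · have := h e he
      omega
  refine ⟨⟨hI.sum, hI.ln, hI.inj, hI.rk, hI.lab, fun v hv h => hI.i1 v (hsub hv) (hx v hv ▸ h), hI.i2,
    hI.i3, fun B => ?_, le_trans ?_ hI.i5, hI.len⟩, ?_⟩
  · obtain ⟨B', hB, h3⟩ := hI.i4 B
    refine ⟨B' ∩ W', inter_subset_right, le_trans ?_ h3⟩
    have h4 := hf B' W'
    have h5 := xx_le hf hI.inj (union_subset hB hsub)
    have h6 := xx_total (f := f) (W := W') hI.inj hI.rk
    rw [sum_congr rfl hx] at h6
    have h7 : ∑ v ∈ W', xx f W s v ≤ ∑ v ∈ B' ∪ W', xx f W s v :=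
      sum_le_sum_of_subset_of_nonneg subset_union_right fun v hv hv' =>
        hpos v (union_subset hB hsub hv) hv'
    rw [hI.sum] at h5 h6
    have h8 : (0 : ℤ) < DD m K := by exact_mod_cast DD_pos hm K
    have h9 : f W' ≤ f (B' ∪ W') := by
      by_contra hc
      nlinarith
    linarith
  · refine Int.cast_le.2 ?_
    unfold Phi
    rw [sum_congr rfl fun v hv => by rw [hx v hv]]
    exact sum_le_sum_of_subset_of_nonneg hsub fun v _ _ => sq_nonneg _
  · obtain ⟨v, hv, h3⟩ := h2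
    have : W'.card < W.card := card_lt_card ⟨hsub, fun h => by
      obtain ⟨-, e, he, h4⟩ := (hW' v).1 (h hv)
      have := h3 e he
      omega⟩
    unfold meas
    omega

/-- without gap, the least label of an element of `W` is less than `m` -/
theorem nogap (h : ∀ j < m, (∃ v ∈ W, ∀ e ∈ s, j < fn m e.2.1 v) →
    ∃ v ∈ W, (∀ e ∈ s, j ≤ fn m e.2.1 v) ∧ ∃ e ∈ s, fn m e.2.1 v ≤ j) {v : Fin m} (hv : v ∈ W) {l : ℕ}
    (hl : ∀ e ∈ s, l ≤ fn m e.2.1 v) : l < m := by
  classical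
  by_contra hc
  have key : ∀ j ≤ m, j ≤ (univ.filter fun u => ∃ e ∈ s, fn m e.2.1 u < j).card := by
    intro j
    induction j with
    | zero => exact fun _ => Nat.zero_le _
    | succ j ih =>
      intro hj
      obtain ⟨u, -, h1, e, he, h2⟩ := h j (by omega) ⟨v, hv, fun e he => by have := hl e he; omega⟩
      refine (Nat.succ_le_succ (ih (by omega))).trans (card_lt_card ⟨fun w hw => ?_, fun h3 => ?_⟩)
      · obtain ⟨-, e', he', h4⟩ := mem_filter.1 hw
        exact mem_filter.2 ⟨mem_univ _, e', he', by omega⟩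
      · obtain ⟨-, e', he', h4⟩ := mem_filter.1 (h3 (mem_filter.2 ⟨mem_univ u, e, he, by omega⟩))
        have := h1 e' he'
        omega
  have h1 := key m le_rfl
  have h2 : (univ.filter fun u => ∃ e ∈ s, fn m e.2.1 u < m).card < (univ : Finset (Fin m)).card :=
    card_lt_card ⟨filter_subset _ _, fun h3 => by
      obtain ⟨-, e, he, h4⟩ := mem_filter.1 (h3 (mem_univ v))
      have := hl e he
      omega⟩
  rw [card_univ, Fintype.card_fin] at h2
  omega

theorem exists_free (x : Fin m → ℤ) {δ : ℤ} (hδ : 0 < δ) :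
    ∃ j : ℕ, j < m + 1 ∧ ∀ v, x v ≤ 2 * j * δ ∨ (2 * j + 2) * δ ≤ x v := by
  by_contra hc
  push Not at hc
  choose g hg using fun j : Fin (m + 1) => hc j j.2
  obtain ⟨i, j, hij, h⟩ := Fintype.exists_ne_map_eq_of_card_lt g (by simp)
  have h1 := hg i
  have h2 := hg j
  rw [h] at h1
  have h3 : (2 * (i : ℕ) : ℤ) < 2 * (j : ℕ) + 2 := lt_of_mul_lt_mul_right (h1.1.trans h2.2) hδ.le
  have h4 : (2 * (j : ℕ) : ℤ) < 2 * (i : ℕ) + 2 := lt_of_mul_lt_mul_right (h2.1.trans h1.2) hδ.le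
  exact hij (Fin.ext (by omega))

theorem exists_big (h : 0 < eta f W s) : ∃ v ∈ W, eta f W s ≤ m * xx f W s v := by
  by_contra hc
  push Not at hc
  have hW : W.Nonempty := by
    rw [nonempty_iff_ne_empty]
    rintro rfl
    simp [eta] at h
  have h1 : ∑ v ∈ W, (m : ℤ) * max 0 (xx f W s v) < ∑ _v ∈ W, eta f W s := by
    refine sum_lt_sum_of_nonempty hW fun v hv => ?_
    rcases le_total 0 (xx f W s v) with h2 | h2
    · rw [max_eq_right h2]; exact hc v hv
    · rw [max_eq_left h2, mul_zero]; exact h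
  rw [← mul_sum, sum_const, nsmul_eq_mul] at h1
  have h2 : (W.card : ℤ) ≤ m := by exact_mod_cast (card_le_univ W).trans_eq (Fintype.card_fin m)
  change (m : ℤ) * eta f W s < _ at h1
  nlinarith

end Crest.Agent.R302.Sfm
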