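import Crest.Agent.R302.SfmAux1

/-!
# R302/SfmAux2: the Iwata–Orlin algorithm, push step
-/

set_option autoImplicit false

namespace Crest.Agent.R302.Sfm

open Finset

variable {m : ℕ}

/-- the data of a push -/
structure Push (f : Finset (Fin m) → ℤ) (W : Finset (Fin m)) (s : List CE) (e : CE) (δ μ : ℤ) (l : ℕ)
    (R : Finset (Fin m)) (d' r' : List ℕ) : Prop where
  mem : e ∈ s
  pos : 0 < δ
  le : δ ≤ μ
  free : ∀ v, xx f W s v ≤ μ - δ ∨ μ + δ ≤ xx f W s v
  lt : l < m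
  least : ∀ v ∈ W, μ < xx f W s v → ∀ e' ∈ s, l ≤ fn m e'.2.1 v
  memR : ∀ v, v ∈ R ↔ v ∈ W ∧ fn m e.2.1 v = l ∧ μ < xx f W s v
  ne : R.Nonempty
  len1 : d'.length = m
  len2 : r'.length = m
  hd : ∀ v, fn m d' v = fn m e.2.1 v + if v ∈ R then 1 else 0
  hr : ∀ u v, fn m r' u < fn m r' v ↔ fn m e.2.1 u + fn m d' u < fn m e.2.1 v + fn m d' v ∨
    fn m e.2.1 u + fn m d' u = fn m e.2.1 v + fn m d' v ∧ fn m e.2.2 u < fn m e.2.2 v
  rk : ∀ v, fn m r' v < m

/-- the amount moved per unit of weight -/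
def bet (f : Finset (Fin m) → ℤ) (W R : Finset (Fin m)) (r r' : List ℕ) : ℤ :=
  ∑ v ∈ R, (yy f W (fn m r) v - yy f W (fn m r') v)

variable {f : Finset (Fin m) → ℤ} {K : ℕ} {W : Finset (Fin m)} {s : List CE} {e : CE} {δ μ : ℤ} {l : ℕ}
  {R : Finset (Fin m)} {d' r' : List ℕ}

theorem Push.inj (P : Push f W s e δ μ l R d' r') (hI : Inv f K W s) : Function.Injective (fn m r') := by
  intro u v h
  have h1 := (P.hr u v).not.1 (by omega)
  have h2 := (P.hr v u).not.1 (by omega)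
  exact hI.inj e P.mem (by omega)

theorem Push.lab (P : Push f W s e δ μ l R d' r') (v : Fin m) :
    v ∈ R ∧ fn m e.2.1 v = l ∧ fn m d' v = l + 1 ∨ v ∉ R ∧ fn m d' v = fn m e.2.1 v := by
  have h := P.hd v
  by_cases hv : v ∈ R
  · rw [if_pos hv] at h
    have := ((P.memR v).1 hv).2.1
    exact Or.inl ⟨hv, this, by omega⟩
  · rw [if_neg hv] at h
    exact Or.inr ⟨hv, h⟩

theorem Push.down (P : Push f W s e δ μ l R d' r') (hI : Inv f K W s) (hf : Submod f) {v : Fin m}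
    (hv : v ∈ R ∨ fn m e.2.1 v ≠ l) : yy f W (fn m r') v ≤ yy f W (fn m e.2.2) v := by
  refine yy_mono hf (hI.inj e P.mem) (P.inj hI) fun u hu => (P.hr u v).2 ?_
  have h1 := hI.i2 e P.mem v u
  have h2 := P.lab u
  rcases P.lab v with ⟨h3, h4⟩ | ⟨h3, h4⟩
  · omega
  · have := hv.resolve_left h3
    omega

theorem Push.up (P : Push f W s e δ μ l R d' r') (hI : Inv f K W s) (hf : Submod f) {v : Fin m}
    (hv : v ∉ R) : yy f W (fn m e.2.2) v ≤ yy f W (fn m r') v := by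
  refine yy_mono hf (P.inj hI) (hI.inj e P.mem) fun u hu => ?_
  have h0 := (P.hr u v).1 hu
  have h1 := hI.i2 e P.mem u v
  have h2 := P.lab u
  rcases P.lab v with ⟨h3, -⟩ | ⟨-, h4⟩
  · exact absurd h3 hv
  · omega

theorem Push.sub (P : Push f W s e δ μ l R d' r') : R ⊆ W := fun v hv => ((P.memR v).1 hv).1

theorem Push.bet_eq (P : Push f W s e δ μ l R d' r') (hI : Inv f K W s) :
    ∑ v ∈ W \ R, (yy f W (fn m r') v - yy f W (fn m e.2.2) v) = bet f W R e.2.2 r' := by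
  have h1 := yy_total (f := f) (W := W) (hI.inj e P.mem) (hI.rk e P.mem)
  have h2 := yy_total (f := f) (W := W) (P.inj hI) P.rk
  rw [← sum_sdiff P.sub] at h1 h2
  unfold bet
  rw [sum_sub_distrib, sum_sub_distrib]
  linarith

theorem Push.bet_nonneg (P : Push f W s e δ μ l R d' r') (hI : Inv f K W s) (hf : Submod f) :
    0 ≤ bet f W R e.2.2 r' := sum_nonneg fun _ hv => sub_nonneg.2 (P.down hI hf (Or.inl hv))

theorem bet_le (hb : ∀ A, |f A| ≤ 2 ^ K) (r : List ℕ) : bet f W R r r' ≤ 4 * m * 2 ^ K := by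
  refine (sum_le_card_nsmul _ _ (4 * 2 ^ K) fun v _ => ?_).trans ?_
  · have h1 := abs_le.1 (yy_abs (W := W) (ρ := fn m r) hb v)
    have h2 := abs_le.1 (yy_abs (W := W) (ρ := fn m r') hb v)
    linarith [h1.2, h2.1]
  · have h2 : (R.card : ℤ) ≤ m := by exact_mod_cast (card_le_univ R).trans_eq (Fintype.card_fin m)
    rw [nsmul_eq_mul]
    have : (0 : ℤ) ≤ 2 ^ K := by positivity
    nlinarith

theorem sq_down {x t δ μ : ℤ} (h0 : 0 ≤ t) (h1 : t ≤ δ) (h2 : δ ≤ μ) (h3 : μ + δ ≤ x) :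
    max 0 (x - t) ^ 2 ≤ max 0 x ^ 2 - t * (2 * μ + δ) := by
  rw [max_eq_right (by omega), max_eq_right (by omega)]
  nlinarith

theorem sq_up {x t δ μ : ℤ} (h0 : 0 ≤ t) (h1 : t ≤ δ) (h2 : δ ≤ μ) (h3 : t = 0 ∨ x ≤ μ - δ) :
    max 0 (x + t) ^ 2 ≤ max 0 x ^ 2 + t * (2 * μ - δ) := by
  rcases h3 with rfl | h3
  · simp
  rcases le_total 0 x with h | h
  · rw [max_eq_right (by omega), max_eq_right h]
    nlinarith
  · rw [max_eq_left h]
    rcases le_total 0 (x + t) with h' | h'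
    · rw [max_eq_right h']
      nlinarith
    · rw [max_eq_left h']
      nlinarith

theorem Push.core (P : Push f W s e δ μ l R d' r') (hI : Inv f K W s) (hf : Submod f) (a : ℕ)
    (s' : List CE) (ha : a * bet f W R e.2.2 r' ≤ δ)
    (hx : ∀ v, xx f W s' v = xx f W s v + a * (yy f W (fn m r') v - yy f W (fn m e.2.2) v))
    (hmem : ∀ e' ∈ s', (∃ e'' ∈ s, e'.2 = e''.2) ∨ e'.2 = (d', r'))
    (hsum : (s'.map (·.1)).sum = DD m K) (hlen : s'.length ≤ NN m K + 1)
    (h5 : Phi f W s' ≤ Phi f W s - 2 * δ * (a * bet f W R e.2.2 r') → (Phi f W s' : ℝ) ≤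
      (1 - 1 / (64 * (m : ℝ) ^ 4)) ^ (s'.length - 1) * (m * (2 * 2 ^ K * DD m K) ^ 2)) :
    Inv f K W s' := by
  have ha0 : (0 : ℤ) ≤ a := Int.natCast_nonneg _
  have hdn : ∀ v ∈ R, 0 ≤ a * (yy f W (fn m e.2.2) v - yy f W (fn m r') v) ∧
      a * (yy f W (fn m e.2.2) v - yy f W (fn m r') v) ≤ δ ∧ μ + δ ≤ xx f W s v := by
    intro v hv
    refine ⟨mul_nonneg ha0 (sub_nonneg.2 (P.down hI hf (Or.inl hv))),
      le_trans (mul_le_mul_of_nonneg_left ?_ ha0) ha, ?_⟩
    · exact single_le_sum (f := fun v => yy f W (fn m e.2.2) v - yy f W (fn m r') v)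
        (fun _ hv => sub_nonneg.2 (P.down hI hf (Or.inl hv))) hv
    · have h1 := ((P.memR v).1 hv).2.2
      have h2 := P.free v
      have h3 := P.pos
      omega
  have hup : ∀ v ∈ W \ R, 0 ≤ a * (yy f W (fn m r') v - yy f W (fn m e.2.2) v) ∧
      a * (yy f W (fn m r') v - yy f W (fn m e.2.2) v) ≤ δ ∧
      (a * (yy f W (fn m r') v - yy f W (fn m e.2.2) v) = 0 ∨ xx f W s v ≤ μ - δ) := by
    intro v hv
    obtain ⟨hv1, hv2⟩ := mem_sdiff.1 hv
    refine ⟨mul_nonneg ha0 (sub_nonneg.2 (P.up hI hf hv2)),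
      le_trans (mul_le_mul_of_nonneg_left ?_ ha0) ha, ?_⟩
    · rw [← P.bet_eq hI]
      exact single_le_sum (f := fun v => yy f W (fn m r') v - yy f W (fn m e.2.2) v)
        (fun _ hv => sub_nonneg.2 (P.up hI hf (mem_sdiff.1 hv).2)) hv
    · by_cases hl : fn m e.2.1 v = l
      · have h1 := (P.memR v).not.1 hv2
        have h2 := P.free v
        have h3 := P.pos
        have h4 : ¬ μ < xx f W s v := fun h => h1 ⟨hv1, hl, h⟩
        omega
      · rw [le_antisymm (P.down hI hf (Or.inr hl)) (P.up hI hf hv2), sub_self, mul_zero]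
        exact Or.inl rfl
  refine ⟨hsum, fun e' he' => ?_, fun e' he' => ?_, fun e' he' => ?_, fun e' he' v => ?_,
    fun v hv h e' he' => ?_, fun e' he' u v => ?_, fun v e₁ h₁ e₂ h₂ => ?_, hI.i4, h5 ?_, hlen⟩
  · rcases hmem e' he' with ⟨e'', h1, h2⟩ | h2 <;> rw [h2]
    exacts [hI.ln e'' h1, ⟨P.len1, P.len2⟩]
  · rcases hmem e' he' with ⟨e'', h1, h2⟩ | h2 <;> rw [h2]
    exacts [hI.inj e'' h1, P.inj hI]
  · rcases hmem e' he' with ⟨e'', h1, h2⟩ | h2 <;> rw [h2]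
    exacts [hI.rk e'' h1, P.rk]
  · rcases hmem e' he' with ⟨e'', h1, h2⟩ | h2 <;> rw [h2]
    · exact hI.lab e'' h1 v
    · have h3 := P.lab v
      have h4 := hI.lab e P.mem v
      have h5 := P.lt
      dsimp only
      omega
  · have h1 := hx v
    have h2 := P.pos
    have h3 := P.le
    have hv' : v ∉ R := fun hv' => by
      have h4 := hdn v hv'
      linarith [h4.2.1, h4.2.2]
    have h4 := hI.i1 v hv (by linarith [(hup v (mem_sdiff.2 ⟨hv, hv'⟩)).1])
    rcases hmem e' he' with ⟨e'', h5, h6⟩ | h6 <;> rw [h6]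
    · exact h4 e'' h5
    · exact ((P.lab v).resolve_left fun h => hv' h.1).2.trans (h4 e P.mem)
  · rcases hmem e' he' with ⟨e'', h1, h2⟩ | h2 <;> rw [h2]
    · exact hI.i2 e'' h1 u v
    · refine fun h => (P.hr u v).2 ?_
      have h3 := P.lab u
      have h4 := P.lab v
      dsimp only at h
      omega
  · have h3 := P.lab v
    rcases hmem e₁ h₁ with ⟨a₁, h1, h2⟩ | h2 <;> rcases hmem e₂ h₂ with ⟨a₂, h1', h2'⟩ | h2' <;>
      rw [h2, h2']
    · exact hI.i3 v a₁ h1 a₂ h1'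
    · have := hI.i3 v a₁ h1 e P.mem
      dsimp only
      omega
    · have := hI.i3 v e P.mem a₂ h1'
      dsimp only
      rcases h3 with ⟨h4, -, h5⟩ | ⟨-, h5⟩
      · have h6 := (P.memR v).1 h4
        have := P.least v h6.1 h6.2.2 a₂ h1'
        omega
      · omega
    · omega
  · unfold Phi
    rw [← sum_sdiff P.sub, ← sum_sdiff P.sub]
    have h1 : ∑ v ∈ R, max 0 (xx f W s' v) ^ 2 ≤ ∑ v ∈ R, (max 0 (xx f W s v) ^ 2 -
        a * (yy f W (fn m e.2.2) v - yy f W (fn m r') v) * (2 * μ + δ)) :=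
      sum_le_sum fun v hv => by
        rw [hx v, ← neg_sub (yy f W (fn m e.2.2) v), mul_neg, ← sub_eq_add_neg]
        exact sq_down (hdn v hv).1 (hdn v hv).2.1 P.le (hdn v hv).2.2
    have h2 : ∑ v ∈ W \ R, max 0 (xx f W s' v) ^ 2 ≤ ∑ v ∈ W \ R, (max 0 (xx f W s v) ^ 2 +
        a * (yy f W (fn m r') v - yy f W (fn m e.2.2) v) * (2 * μ - δ)) :=
      sum_le_sum fun v hv => by
        rw [hx v]
        exact sq_up (hup v hv).1 (hup v hv).2.1 P.le (hup v hv).2.2
    rw [sum_sub_distrib, ← sum_mul, ← mul_sum] at h1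
    rw [sum_add_distrib, ← sum_mul, ← mul_sum, P.bet_eq hI] at h2
    change _ ≤ _ - a * bet f W R e.2.2 r' * _ at h1
    linarith

theorem sum_map_erase {M : Type} [AddCommMonoid M] (he : e ∈ s) (g : CE → M) :
    (s.map g).sum = g e + ((s.erase e).map g).sum := by
  rw [((List.perm_cons_erase he).map g).sum_eq, List.map_cons, List.sum_cons]

/-- the saturating push -/
theorem Push.sat (P : Push f W s e δ μ l R d' r') (hI : Inv f K W s) (hf : Submod f)
    (h : e.1 * bet f W R e.2.2 r' ≤ δ) : Inv f K W ((e.1, d', r') :: s.erase e) ∧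
    meas K W ((e.1, d', r') :: s.erase e) < meas K W s := by
  have hlen : ((e.1, d', r') :: s.erase e).length = s.length :=
    (List.perm_cons_erase P.mem).length_eq.symm
  refine ⟨P.core hI hf e.1 _ h (fun v => ?_) (fun e' he' => ?_) ?_ (hlen ▸ hI.len) fun h5 => ?_, ?_⟩
  · unfold xx
    rw [sum_map_erase P.mem, List.map_cons, List.sum_cons]
    ring
  · rcases List.mem_cons.1 he' with rfl | h1
    · exact Or.inr rfl
    · exact Or.inl ⟨e', List.mem_of_mem_erase h1, rfl⟩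
  · rw [← hI.sum, sum_map_erase P.mem, List.map_cons, List.sum_cons]
  · rw [hlen]
    refine le_trans (Int.cast_le.2 (h5.trans (sub_le_self _ ?_))) hI.i5
    have := P.pos
    have := P.bet_nonneg hI hf
    positivity
  · unfold meas
    rw [hlen, sum_map_erase P.mem, List.map_cons, List.sum_cons]
    have : ∑ v, (m - fn m d' v) < ∑ v, (m - fn m e.2.1 v) := by
      obtain ⟨v, hv⟩ := P.ne
      refine sum_lt_sum (fun u _ => ?_) ⟨v, mem_univ _, ?_⟩
      · have := P.lab u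
        omega
      · have h1 := (P.lab v).resolve_right fun h => h.1 hv
        have := P.lt
        omega
    dsimp only
    omega

theorem pow_small (hm : 0 < m) (K : ℕ) {n : ℕ} (hn : NN m K ≤ n) :
    (1 - 1 / (64 * (m : ℝ) ^ 4)) ^ n * (4 * m ^ 3 * (2 ^ K) ^ 2) < 1 := by
  have hm1 : (1 : ℝ) ≤ m := by exact_mod_cast hm
  have ha : (1 : ℝ) ≤ 64 * (m : ℝ) ^ 4 := by nlinarith [one_le_pow₀ (n := 4) hm1]
  have h0 : (0 : ℝ) ≤ 1 - 1 / (64 * (m : ℝ) ^ 4) := by
    rw [sub_nonneg, div_le_one (by positivity)]; exact ha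
  have h1 : (1 - 1 / (64 * (m : ℝ) ^ 4)) ^ n ≤ Real.exp (-(2 * K + 3 * m + 2 : ℕ)) := by
    refine (pow_le_pow_of_le_one h0 (sub_le_self _ (by positivity)) hn).trans ?_
    refine (pow_le_pow_left₀ h0 (Real.one_sub_le_exp_neg _) _).trans_eq ?_
    rw [← Real.exp_nat_mul, NN]
    congr 1
    push_cast
    field_simp
  have h2 : (4 * (m : ℝ) ^ 3 * (2 ^ K) ^ 2) ≤ 2 ^ (2 * K + 3 * m + 2) := by
    have : (m : ℝ) ≤ 2 ^ m := by exact_mod_cast Nat.lt_two_pow_self.le
    calc (4 * (m : ℝ) ^ 3 * (2 ^ K) ^ 2) ≤ 4 * (2 ^ m) ^ 3 * (2 ^ K) ^ 2 := by gcongr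
      _ = _ := by ring
  have h3 : (2 : ℝ) ^ (2 * K + 3 * m + 2) < Real.exp (2 * K + 3 * m + 2 : ℕ) := by
    rw [← Real.exp_one_pow]
    exact pow_lt_pow_left₀ Real.exp_one_gt_two (by norm_num) (by omega)
  calc _ ≤ Real.exp (-(2 * K + 3 * m + 2 : ℕ)) * 2 ^ (2 * K + 3 * m + 2) := by gcongr
    _ < Real.exp (-(2 * K + 3 * m + 2 : ℕ)) * Real.exp (2 * K + 3 * m + 2 : ℕ) := by gcongr
    _ = 1 := by rw [← Real.exp_add, neg_add_cancel, Real.exp_zero]

theorem Inv.len_le (hI : Inv f K W s) (hm : 0 < m) (h : (DD m K : ℤ) ≤ eta f W s) :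
    s.length ≤ NN m K := by
  by_contra hc
  have h1 := pow_small hm K (n := s.length - 1) (by omega)
  have hD : (0 : ℤ) < DD m K := by exact_mod_cast DD_pos hm K
  obtain ⟨v, hv, h2⟩ := exists_big (hD.trans_le h)
  have hm' : (0 : ℤ) < m := by exact_mod_cast hm
  have h3 : max 0 (xx f W s v) ^ 2 ≤ Phi f W s :=
    single_le_sum (f := fun v => max 0 (xx f W s v) ^ 2) (fun _ _ => sq_nonneg _) hv
  have h4 : (DD m K : ℤ) ^ 2 ≤ m ^ 2 * Phi f W s := by
    refine le_trans ?_ (mul_le_mul_of_nonneg_left h3 (by positivity))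
    rw [← mul_pow]
    exact pow_le_pow_left₀ hD.le ((h.trans h2).trans
      (mul_le_mul_of_nonneg_left (le_max_right _ _) hm'.le)) 2
  have h5 : (DD m K : ℝ) ^ 2 ≤ m ^ 2 * Phi f W s := by exact_mod_cast h4
  have h6 := mul_le_mul_of_nonneg_left hI.i5 (by positivity : (0 : ℝ) ≤ (m : ℝ) ^ 2)
  have hD' : (0 : ℝ) < (DD m K : ℝ) ^ 2 := by
    have : (0 : ℝ) < DD m K := by exact_mod_cast DD_pos hm K
    positivity
  nlinarith

/-- the non-saturating push -/
theorem Push.nonsat (P : Push f W s e δ μ l R d' r') (hI : Inv f K W s) (hf : Submod f)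
    (hb : ∀ A, |f A| ≤ 2 ^ K) (hη : (DD m K : ℤ) ≤ eta f W s) (hδ : δ = eta f W s / (4 * m ^ 2))
    (h : δ < e.1 * bet f W R e.2.2 r') (a : ℕ) (ha : a = (δ / bet f W R e.2.2 r').toNat) :
    Inv f K W ((e.1 - a, e.2) :: (a, d', r') :: s.erase e) ∧
    meas K W ((e.1 - a, e.2) :: (a, d', r') :: s.erase e) < meas K W s := by
  have hm : 0 < m := by have := P.lt; omega
  have hm' : (0 : ℤ) < m := by exact_mod_cast hm
  have hlen : ((e.1 - a, e.2) :: (a, d', r') :: s.erase e).length = s.length + 1 :=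
    congrArg (· + 1) (List.perm_cons_erase P.mem).length_eq.symm
  have hL := hI.len_le hm hη
  have hp := P.pos
  have hβ0 := P.bet_nonneg hI hf
  have hβ : 0 < bet f W R e.2.2 r' := hβ0.lt_of_ne fun h0 => by rw [← h0] at h; omega
  have ha' : (a : ℤ) = δ / bet f W R e.2.2 r' := by
    rw [ha, Int.toNat_of_nonneg (Int.ediv_nonneg hp.le hβ0)]
  have h1 : a * bet f W R e.2.2 r' ≤ δ := by rw [ha']; exact Int.ediv_mul_le _ hβ.ne'
  have h2 : δ < (a + 1) * bet f W R e.2.2 r' := by rw [ha']; exact Int.lt_ediv_add_one_mul_self _ hβ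
  have h3 : a ≤ e.1 := by
    have : (a : ℤ) < e.1 := lt_of_mul_lt_mul_right (h1.trans_lt h) hβ0
    omega
  have h4 : 2 * bet f W R e.2.2 r' ≤ δ := by
    have h5 := bet_le (W := W) (R := R) (r' := r') hb e.2.2
    rw [hδ, Int.le_ediv_iff_mul_le (by positivity)]
    refine le_trans ?_ hη
    unfold DD
    push_cast
    nlinarith [mul_le_mul_of_nonneg_right h5 (by positivity : (0 : ℤ) ≤ m ^ 2)]
  refine ⟨P.core hI hf a _ h1 (fun v => ?_) (fun e' he' => ?_) ?_ (by omega) fun h5 => ?_, ?_⟩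
  · unfold xx
    rw [sum_map_erase P.mem, List.map_cons, List.sum_cons, List.map_cons, List.sum_cons]
    push_cast [h3]
    ring
  · rcases List.mem_cons.1 he' with rfl | h1
    · exact Or.inl ⟨e, P.mem, rfl⟩
    rcases List.mem_cons.1 h1 with rfl | h1
    · exact Or.inr rfl
    · exact Or.inl ⟨e', List.mem_of_mem_erase h1, rfl⟩
  · rw [← hI.sum, sum_map_erase P.mem, List.map_cons, List.sum_cons, List.map_cons, List.sum_cons]
    dsimp only
    omega
  · have h6 : Phi f W s ≤ 64 * m ^ 4 * δ ^ 2 := by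
      have h7 : Phi f W s ≤ eta f W s ^ 2 := sum_sq_le_sq_sum_of_nonneg fun _ _ => le_max_left _ _
      have h8 : eta f W s < (δ + 1) * (4 * m ^ 2) := by
        rw [hδ]; exact Int.lt_ediv_add_one_mul_self _ (by positivity)
      have h9 : eta f W s ≤ 8 * m ^ 2 * δ := by nlinarith [sq_nonneg (m : ℤ)]
      refine h7.trans ((pow_le_pow_left₀ (sum_nonneg fun _ _ => le_max_left _ _) h9 2).trans_eq ?_)
      ring
    have h7 : 64 * m ^ 4 * Phi f W ((e.1 - a, e.2) :: (a, d', r') :: s.erase e) ≤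
        (64 * m ^ 4 - 1) * Phi f W s := by
      have h8 : Phi f W ((e.1 - a, e.2) :: (a, d', r') :: s.erase e) ≤ Phi f W s - δ ^ 2 := by
        nlinarith
      nlinarith [mul_le_mul_of_nonneg_left h8 (by positivity : (0 : ℤ) ≤ 64 * m ^ 4)]
    have h8 : 64 * (m : ℝ) ^ 4 * Phi f W ((e.1 - a, e.2) :: (a, d', r') :: s.erase e) ≤
        (64 * m ^ 4 - 1) * Phi f W s := by exact_mod_cast h7
    have hm1 : (1 : ℝ) ≤ m := by exact_mod_cast hm
    have hq : (1 : ℝ) ≤ 64 * (m : ℝ) ^ 4 := by nlinarith [one_le_pow₀ (n := 4) hm1]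
    have hs : 0 < s.length := List.length_pos_of_mem P.mem
    rw [hlen, show s.length + 1 - 1 = (s.length - 1) + 1 by omega, pow_succ', mul_assoc]
    refine le_trans ?_ (mul_le_mul_of_nonneg_left hI.i5 ?_)
    · rw [one_sub_div (by positivity), div_mul_eq_mul_div, le_div_iff₀' (by positivity)]
      exact h8
    · rw [sub_nonneg, div_le_one (by positivity)]; exact hq
  · unfold meas
    rw [hlen, sum_map_erase P.mem, List.map_cons, List.sum_cons, List.map_cons, List.sum_cons]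
    have h5 : ∑ v, (m - fn m d' v) ≤ m ^ 2 := by
      refine (sum_le_card_nsmul _ _ m fun v _ => Nat.sub_le _ _).trans_eq ?_
      rw [card_univ, Fintype.card_fin, smul_eq_mul, sq]
    have h6 : NN m K + 1 - s.length = NN m K + 1 - (s.length + 1) + 1 := by omega
    rw [h6, mul_add_one]
    dsimp only
    omega

end Crest.Agent.R302.Sfm
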