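import Crest.Agent.R302.SfmAux2

/-!
# R302/SfmAux3: the Iwata–Orlin algorithm as a list program, polynomial time
-/

set_option autoImplicit false

namespace Crest.Agent.R302.Sfm

open Crest.Agent.Lib.PT Crest.Agent.R309

/-- states -/
abbrev CS : Type := List Bool × List CE

def cy (h : List Bool → ℤ) (m : ℕ) (W : List Bool) (r : List ℕ) (v : ℕ) : ℤ :=
  h ((List.range m).map fun u => decide (r.getD u 0 ≤ r.getD v 0) && W.getD u false) -
    h ((List.range m).map fun u => decide (r.getD u 0 < r.getD v 0) && W.getD u false)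

def cx (h : List Bool → ℤ) (m : ℕ) (s : CS) : List ℤ :=
  (List.range m).map fun v => (s.2.map fun e => (e.1 : ℤ) * cy h m s.1 e.2.2 v).sum

def cB (h : List Bool → ℤ) (m : ℕ) (W R : List Bool) (r r' : List ℕ) : ℤ :=
  ((List.range m).map fun v => if R.getD v false = true then cy h m W r v - cy h m W r' v else 0).sum

def cEta (m : ℕ) (s : CS) (x : List ℤ) : ℤ :=
  ((List.range m).map fun v => if s.1.getD v false = true then max 0 (x.getD v 0) else 0).sum

def cLo (s : CS) (j v : ℕ) : Bool := s.2.any fun e => decide (e.2.1.getD v 0 < j)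

def cGap (m : ℕ) (s : CS) (j : ℕ) : Bool :=
  ((List.range m).all fun v => !s.1.getD v false || cLo s j v || !cLo s (j + 1) v) &&
    (List.range m).any fun v => s.1.getD v false && !cLo s (j + 1) v

def cG (m : ℕ) (s : CS) : ℕ := (List.range m).findIdx fun j => cGap m s j

def cDel (m : ℕ) (s : CS) (x : List ℤ) : ℤ := cEta m s x / (4 * (m : ℤ) ^ 2)

def cJ (m : ℕ) (s : CS) (x : List ℤ) : ℕ :=
  (List.range (m + 1)).findIdx fun j : ℕ => (List.range m).all fun v =>
    decide (x.getD v 0 ≤ 2 * (j : ℤ) * cDel m s x) || decide ((2 * (j : ℤ) + 2) * cDel m s x ≤ x.getD v 0)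

def cIn (m : ℕ) (s : CS) (x : List ℤ) (l : ℕ) (e : CE) (v : ℕ) : Bool :=
  s.1.getD v false && decide (e.2.1.getD v 0 = l) &&
    decide ((2 * (cJ m s x : ℤ) + 1) * cDel m s x < x.getD v 0)

def cL (m : ℕ) (s : CS) (x : List ℤ) : ℕ :=
  (List.range (m + 1)).findIdx fun l => s.2.any fun e => (List.range m).any fun v => cIn m s x l e v

def cE (m : ℕ) (s : CS) (x : List ℤ) : CE :=
  (s.2.find? fun e => (List.range m).any fun v => cIn m s x (cL m s x) e v).getD (0, [], [])

def cR (m : ℕ) (s : CS) (x : List ℤ) : List Bool :=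
  (List.range m).map fun v => cIn m s x (cL m s x) (cE m s x) v

def cD (m : ℕ) (s : CS) (x : List ℤ) : List ℕ :=
  (List.range m).map fun v => (cE m s x).2.1.getD v 0 + ((cR m s x).getD v false).toNat

def cRank (m : ℕ) (d d' r : List ℕ) : List ℕ :=
  (List.range m).map fun v => (List.range m).countP fun u =>
    decide (d.getD u 0 + d'.getD u 0 < d.getD v 0 + d'.getD v 0) ||
      decide (d.getD u 0 + d'.getD u 0 = d.getD v 0 + d'.getD v 0) && decide (r.getD u 0 < r.getD v 0)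

def cK (m : ℕ) (s : CS) (x : List ℤ) : List ℕ :=
  cRank m (cE m s x).2.1 (cD m s x) (cE m s x).2.2

def out (m D : ℕ) (s : CS) (x : List ℤ) (β : ℤ) : CS :=
  if cEta m s x < D then s else
  if cG m s < m then ((List.range m).map fun v => s.1.getD v false && cLo s (cG m s) v, s.2) else
  if (cE m s x).1 * β ≤ cDel m s x then
    (s.1, ((cE m s x).1, cD m s x, cK m s x) :: s.2.erase (cE m s x))
  else (s.1, ((cE m s x).1 - (cDel m s x / β).toNat, (cE m s x).2) ::
    ((cDel m s x / β).toNat, cD m s x, cK m s x) :: s.2.erase (cE m s x))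

def step (h : List Bool → ℤ) (m D : ℕ) (s : CS) : CS :=
  out m D s (cx h m s)
    (cB h m s.1 (cR m s (cx h m s)) (cE m s (cx h m s)).2.2 (cK m s (cx h m s)))

def init (m D : ℕ) : CS :=
  ((List.range m).map fun _ => true, [(D, (List.range m).map fun _ => 0, List.range m)])

/-- size bound -/
def BB (m K : ℕ) : ℕ :=
  4 * m + 1 + ((NN m K + 1) * (4 * (K + 3 * m + 6) + 1 + 2 * (m * (4 * m + 2) + 1) + 3) + 1) + 1

/-- number of steps -/
def TT (m K : ℕ) : ℕ := (m ^ 2 + 1) * (NN m K + 1) + m + 1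

def sfm (h : List Bool → ℤ) (p : Un × Un) : List Bool :=
  (iterC (BB p.1.n p.2.n) (step h p.1.n (DD p.1.n p.2.n)) (TT p.1.n p.2.n)
    (init p.1.n (DD p.1.n p.2.n))).1

section pt

variable {α : Type} [Enc α] {m : α → ℕ} {s : α → CS} {x : α → List ℤ}

@[fun_prop] theorem cEta_pt (hm : PT m) (hb : PB m) (hs : PT s) (hx : PT x) :
    PT fun a => cEta (m a) (s a) (x a) := by unfold cEta; fun_prop

@[fun_prop] theorem cLo_pt {j v : α → ℕ} (hs : PT s) (hj : PT j) (hv : PT v) :
    PT fun a => cLo (s a) (j a) (v a) := by unfold cLo; fun_prop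

@[fun_prop] theorem cGap_pt {j : α → ℕ} (hm : PT m) (hb : PB m) (hs : PT s) (hj : PT j) :
    PT fun a => cGap (m a) (s a) (j a) := by unfold cGap; fun_prop

@[fun_prop] theorem cG_pt (hm : PT m) (hb : PB m) (hs : PT s) :
    PT fun a => cG (m a) (s a) := by unfold cG; fun_prop

@[fun_prop] theorem cDel_pt (hm : PT m) (hb : PB m) (hs : PT s) (hx : PT x) :
    PT fun a => cDel (m a) (s a) (x a) := by unfold cDel; fun_prop

@[fun_prop] theorem cJ_pt (hm : PT m) (hb : PB m) (hs : PT s) (hx : PT x) :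
    PT fun a => cJ (m a) (s a) (x a) := by unfold cJ; fun_prop

@[fun_prop] theorem cIn_pt {l v : α → ℕ} {e : α → CE} (hm : PT m) (hb : PB m) (hs : PT s) (hx : PT x)
    (hl : PT l) (he : PT e) (hv : PT v) :
    PT fun a => cIn (m a) (s a) (x a) (l a) (e a) (v a) := by unfold cIn; fun_prop

@[fun_prop] theorem cL_pt (hm : PT m) (hb : PB m) (hs : PT s) (hx : PT x) :
    PT fun a => cL (m a) (s a) (x a) := by unfold cL; fun_prop

@[fun_prop] theorem cE_pt (hm : PT m) (hb : PB m) (hs : PT s) (hx : PT x) :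
    PT fun a => cE (m a) (s a) (x a) := by unfold cE; fun_prop

attribute [local irreducible] cE

@[fun_prop] theorem cR_pt (hm : PT m) (hb : PB m) (hs : PT s) (hx : PT x) :
    PT fun a => cR (m a) (s a) (x a) := by unfold cR; fun_prop

@[fun_prop] theorem cD_pt (hm : PT m) (hb : PB m) (hs : PT s) (hx : PT x) :
    PT fun a => cD (m a) (s a) (x a) := by unfold cD; fun_prop

@[fun_prop] theorem cRank_pt {d d' r : α → List ℕ} (hm : PT m) (hb : PB m) (hd : PT d) (hd' : PT d')
    (hr : PT r) : PT fun a => cRank (m a) (d a) (d' a) (r a) := by unfold cRank; fun_prop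

@[fun_prop] theorem cK_pt (hm : PT m) (hb : PB m) (hs : PT s) (hx : PT x) :
    PT fun a => cK (m a) (s a) (x a) := by unfold cK; fun_prop

theorem out_pt {D : α → ℕ} {β : α → ℤ} (hm : PT m) (hb : PB m) (hD : PT D) (hs : PT s) (hx : PT x)
    (hβ : PT β) : PT fun a => out (m a) (D a) (s a) (x a) (β a) := by unfold out; fun_prop

theorem cy_opt : HOPT fun (h : List Bool → ℤ) (p : Un × List Bool × List ℕ × ℕ) =>
    cy h p.1.n p.2.1 p.2.2.1 p.2.2.2 := by
  intro α _ h hh
  unfold cy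
  exact OPT.cont₂ (g := fun _ a b => a - b)
    (OPT.call hh (e := fun p : α × Un × List Bool × List ℕ × ℕ => p.1) (by fun_prop) (by fun_prop))
    (OPT.call hh (e := fun p : α × Un × List Bool × List ℕ × ℕ => p.1) (by fun_prop) (by fun_prop))
    (by fun_prop)

theorem cx_opt : HOPT fun (h : List Bool → ℤ) (p : Un × CS) => cx h p.1.n p.2 := by
  intro α _ h hh
  unfold cx
  refine OPT.map (OPT.pure (by fun_prop)) (OPT.post (g := List.sum) (by fun_prop) ?_)
  refine OPT.map (OPT.pure (by fun_prop)) ?_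
  refine OPT.cont (g := fun (p : ((α × Un × CS) × ℕ) × CE) (y : ℤ) => (p.2.1 : ℤ) * y) ?_ (by fun_prop)
  exact (cy_opt α h hh).pre (f := fun p : ((α × Un × CS) × ℕ) × CE =>
    (p.1.1.1, p.1.1.2.1, p.1.1.2.2.1, p.2.2.2, p.1.2)) (by fun_prop)

theorem cB_opt : HOPT fun (h : List Bool → ℤ) (p : Un × List Bool × List Bool × List ℕ × List ℕ) =>
    cB h p.1.n p.2.1 p.2.2.1 p.2.2.2.1 p.2.2.2.2 := by
  intro α _ h hh
  unfold cB
  refine OPT.post (g := List.sum) (by fun_prop) (OPT.map (OPT.pure (by fun_prop)) ?_)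
  exact OPT.cont₂ (g := fun (p : (α × Un × List Bool × List Bool × List ℕ × List ℕ) × ℕ) (a b : ℤ) =>
      if p.1.2.2.2.1.getD p.2 false = true then a - b else 0)
    ((cy_opt α h hh).pre (f := fun p : (α × Un × List Bool × List Bool × List ℕ × List ℕ) × ℕ =>
      (p.1.1, p.1.2.1, p.1.2.2.1, p.1.2.2.2.2.1, p.2)) (by fun_prop))
    ((cy_opt α h hh).pre (f := fun p : (α × Un × List Bool × List Bool × List ℕ × List ℕ) × ℕ =>
      (p.1.1, p.1.2.1, p.1.2.2.1, p.1.2.2.2.2.2, p.2)) (by fun_prop)) (by fun_prop)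

theorem step_opt : HOPT fun (h : List Bool → ℤ) (p : Un × ℕ × CS) => step h p.1.n p.2.1 p.2.2 := by
  intro α _ h hh
  unfold step
  refine OPT.bind (g := fun O (p : α × Un × ℕ × CS) (x : List ℤ) => out p.2.1.n p.2.2.1 p.2.2.2 x
      (cB (h O p.1) p.2.1.n p.2.2.2.1 (cR p.2.1.n p.2.2.2 x) (cE p.2.1.n p.2.2.2 x).2.2
        (cK p.2.1.n p.2.2.2 x)))
    ((cx_opt α h hh).pre (f := fun p : α × Un × ℕ × CS => (p.1, p.2.1, p.2.2.2)) (by fun_prop)) ?_
  exact OPT.cont (g := fun (p : (α × Un × ℕ × CS) × List ℤ) (b : ℤ) =>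
      out p.1.2.1.n p.1.2.2.1 p.1.2.2.2 p.2 b)
    ((cB_opt α h hh).pre (f := fun p : (α × Un × ℕ × CS) × List ℤ =>
      (p.1.1, p.1.2.1, p.1.2.2.2.1, cR p.1.2.1.n p.1.2.2.2 p.2, (cE p.1.2.1.n p.1.2.2.2 p.2).2.2,
        cK p.1.2.1.n p.1.2.2.2 p.2)) (by fun_prop))
    (out_pt (by fun_prop) (by fun_prop) (by fun_prop) (by fun_prop) (by fun_prop) (by fun_prop))

theorem sfm_opt : HOPT sfm := by
  intro α _ h hh
  unfold sfm
  refine OPT.post (g := Prod.fst) (by fun_prop) (OPT.iterC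
    (f := fun O (p : α × Un × Un) => step (h O p.1) p.2.1.n (DD p.2.1.n p.2.2.n))
    (by unfold TT NN; fun_prop) (by unfold TT NN; fun_prop) (by unfold BB NN; fun_prop)
    (by unfold BB NN; fun_prop) (OPT.pure (by unfold init DD; fun_prop)) ?_)
  exact (step_opt α h hh).pre (f := fun p : (α × Un × Un) × CS =>
    (p.1.1, p.1.2.1, DD p.1.2.1.n p.1.2.2.n, p.2)) (by unfold DD; fun_prop)

end pt

end Crest.Agent.R302.Sfm
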