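import Crest.Agent.R302.SfmAux3

/-!
# R302/SfmAux4: the list program refines the abstract steps
-/

set_option autoImplicit false

namespace Crest.Agent.R302.Sfm

open Finset Crest.Agent.Lib.PT Crest.Agent.R309

variable {m : ℕ}

theorem all_range {p : ℕ → Bool} : (List.range m).all p = true ↔ ∀ v : Fin m, p v = true := by
  simp only [List.all_eq_true, List.mem_range]
  exact ⟨fun h v => h v v.2, fun h v hv => h ⟨v, hv⟩⟩

theorem any_range {p : ℕ → Bool} : (List.range m).any p = true ↔ ∃ v : Fin m, p v = true := by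
  simp only [List.any_eq_true, List.mem_range]
  exact ⟨fun ⟨v, hv, h⟩ => ⟨⟨v, hv⟩, h⟩, fun ⟨v, h⟩ => ⟨v, v.2, h⟩⟩

theorem sum_range_map {M : Type} [AddCommMonoid M] (g : ℕ → M) :
    ((List.range m).map g).sum = ∑ v : Fin m, g v := by
  rw [← Finset.sum_range, Finset.sum_eq_multiset_sum, Finset.range_val, Multiset.range,
    Multiset.map_coe, Multiset.sum_coe]

theorem countP_range (p : ℕ → Bool) :
    (List.range m).countP p = (univ.filter fun v : Fin m => p v = true).card := by
  rw [card_filter, ← sum_range_map (fun v => if p v = true then 1 else 0)]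
  induction List.range m with
  | nil => rfl
  | cons a l ih => rw [List.countP_cons, List.map_cons, List.sum_cons, ih, add_comm]

theorem fnd_lt {n : ℕ} {p : ℕ → Bool} (h : (List.range n).findIdx p < n) :
    p ((List.range n).findIdx p) = true := by
  have := List.findIdx_getElem (xs := List.range n) (p := p) (w := by simpa using h)
  rwa [List.getElem_range] at this

theorem fnd_le {n : ℕ} {p : ℕ → Bool} {j : ℕ} (_hj : j < n) (h : p j = true) :
    (List.range n).findIdx p ≤ j := by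
  by_contra hc
  have := List.not_of_lt_findIdx (not_le.1 hc)
  rw [List.getElem_range, h] at this
  exact Bool.noConfusion this

variable {f : Finset (Fin m) → ℤ} {h : List Bool → ℤ} {K : ℕ} {s : CS} {x : List ℤ}

theorem cy_eq (hh : Calls h f) (W : List Bool) (r : List ℕ) (v : Fin m) :
    cy h m W r v = yy f (sOf m W) (fn m r) v := by
  unfold cy yy gre
  rw [hh, hh]
  refine congrArg₂ (· - ·) (congrArg f ?_) (congrArg f ?_) <;> ext u <;>
    rw [mem_sOf_map_range] <;> simp [fn]

theorem cx_eq (hh : Calls h f) (s : CS) (v : Fin m) :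
    (cx h m s).getD v 0 = xx f (sOf m s.1) s.2 v := by
  unfold cx xx
  rw [getD_map_range _ _ v.2]
  simp only [cy_eq hh]

theorem cB_eq (hh : Calls h f) (W R : List Bool) (r r' : List ℕ) :
    cB h m W R r r' = bet f (sOf m W) (sOf m R) r r' := by
  unfold cB bet
  rw [sum_range_map, sOf, sum_filter]
  simp only [cy_eq hh]

theorem cEta_eq (hx : ∀ v : Fin m, x.getD v 0 = xx f (sOf m s.1) s.2 v) :
    cEta m s x = eta f (sOf m s.1) s.2 := by
  unfold cEta eta
  rw [sum_range_map]
  simp only [hx]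
  rw [← sum_filter]
  rfl

theorem cLo_iff (j : ℕ) (v : Fin m) : cLo s j v = true ↔ ∃ e ∈ s.2, fn m e.2.1 v < j := by
  simp only [cLo, List.any_eq_true, decide_eq_true_eq, fn]

theorem cLo_false (j : ℕ) (v : Fin m) : cLo s j v = false ↔ ∀ e ∈ s.2, j ≤ fn m e.2.1 v := by
  rw [← Bool.not_eq_true, cLo_iff]
  simp only [not_exists, not_and, not_lt]

theorem cGap_iff (j : ℕ) : cGap m s j = true ↔
    (∀ v ∈ sOf m s.1, (∃ e ∈ s.2, fn m e.2.1 v < j) ∨ ∀ e ∈ s.2, j < fn m e.2.1 v) ∧
      ∃ v ∈ sOf m s.1, ∀ e ∈ s.2, j < fn m e.2.1 v := by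
  simp only [cGap, Bool.and_eq_true, all_range, any_range, Bool.or_eq_true, Bool.not_eq_true',
    cLo_iff, cLo_false, mem_sOf, Nat.succ_le_iff, or_assoc]
  refine and_congr_left' (forall_congr' fun v => ?_)
  rw [← Bool.not_eq_true, ← imp_iff_not_or]

theorem cIn_iff (hx : ∀ v : Fin m, x.getD v 0 = xx f (sOf m s.1) s.2 v) (l : ℕ) (e : CE) (v : Fin m) :
    cIn m s x l e v = true ↔ v ∈ sOf m s.1 ∧ fn m e.2.1 v = l ∧
      (2 * (cJ m s x : ℤ) + 1) * cDel m s x < xx f (sOf m s.1) s.2 v := by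
  simp only [cIn, Bool.and_eq_true, decide_eq_true_eq, hx, mem_sOf, fn, and_assoc]

theorem cRank_spec (d d' r : List ℕ) :
    (∀ u v, fn m (cRank m d d' r) u < fn m (cRank m d d' r) v ↔
      fn m d u + fn m d' u < fn m d v + fn m d' v ∨
        fn m d u + fn m d' u = fn m d v + fn m d' v ∧ fn m r u < fn m r v) ∧
    ∀ v, fn m (cRank m d d' r) v < m := by
  have e : ∀ v, fn m (cRank m d d' r) v = (univ.filter fun u : Fin m =>
      fn m d u + fn m d' u < fn m d v + fn m d' v ∨
        fn m d u + fn m d' u = fn m d v + fn m d' v ∧ fn m r u < fn m r v).card := by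
    intro v
    unfold cRank
    rw [fn, getD_map_range _ _ v.2, countP_range]
    refine congrArg card (filter_congr fun u _ => ?_)
    simp only [Bool.or_eq_true, Bool.and_eq_true, decide_eq_true_eq, fn]
  refine ⟨fun u v => ?_, fun v => ?_⟩
  · rw [e, e]
    refine ⟨fun h1 => ?_, fun h1 => card_lt_card ⟨fun w hw => ?_, fun h2 => ?_⟩⟩
    · by_contra h2
      refine absurd (card_le_card fun w hw => ?_) (not_le.2 h1)
      simp only [mem_filter, mem_univ, true_and] at hw ⊢
      omega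
    · simp only [mem_filter, mem_univ, true_and] at hw ⊢
      omega
    · have := (mem_filter.1 (h2 (mem_filter.2 ⟨mem_univ u, h1⟩))).2
      omega
  · rw [e]
    refine (card_lt_card ⟨filter_subset _ _, fun h2 => ?_⟩).trans_eq (by simp)
    have := (mem_filter.1 (h2 (mem_univ v))).2
    omega

theorem push_spec (hm : 0 < m) (hI : Inv f K (sOf m s.1) s.2)
    (hx : ∀ v : Fin m, x.getD v 0 = xx f (sOf m s.1) s.2 v)
    (hη : (DD m K : ℤ) ≤ eta f (sOf m s.1) s.2) (hg : ¬ cG m s < m) :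
    Push f (sOf m s.1) s.2 (cE m s x) (cDel m s x) ((2 * (cJ m s x : ℤ) + 1) * cDel m s x) (cL m s x)
      (sOf m (cR m s x)) (cD m s x) (cK m s x) := by
  have hm' : (1 : ℤ) ≤ m := by exact_mod_cast hm
  have hδ : cDel m s x = eta f (sOf m s.1) s.2 / (4 * m ^ 2) := by rw [cDel, cEta_eq hx]
  have hpos : 0 < cDel m s x := by
    rw [hδ, ← Int.add_one_le_iff, zero_add, Int.le_ediv_iff_mul_le (by positivity)]
    refine le_trans ?_ hη
    unfold DD
    push_cast
    have : (1 : ℤ) ≤ 2 ^ K := one_le_pow₀ (by norm_num)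
    nlinarith [mul_le_mul hm' this zero_le_one (by positivity), sq_nonneg (m : ℤ)]
  have hJ : cJ m s x < m + 1 := by
    obtain ⟨j, hj, h1⟩ := exists_free (xx f (sOf m s.1) s.2) hpos
    refine lt_of_le_of_lt (fnd_le hj ?_) hj
    simp only [all_range, Bool.or_eq_true, decide_eq_true_eq, hx]
    exact h1
  have hJ' := fnd_lt hJ
  rw [all_range] at hJ'
  simp only [Bool.or_eq_true, decide_eq_true_eq, hx] at hJ'
  change ∀ v, _ ≤ 2 * (cJ m s x : ℤ) * _ ∨ (2 * (cJ m s x : ℤ) + 2) * _ ≤ _ at hJ'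
  have hleast : ∀ v ∈ sOf m s.1, (2 * (cJ m s x : ℤ) + 1) * cDel m s x < xx f (sOf m s.1) s.2 v →
      ∀ e' ∈ s.2, cL m s x ≤ fn m e'.2.1 v := fun v hv h1 e' he' =>
    fnd_le (Nat.lt_succ_of_le (hI.lab e' he' v))
      (List.any_eq_true.2 ⟨e', he', any_range.2 ⟨v, (cIn_iff hx _ _ _).2 ⟨hv, rfl, h1⟩⟩⟩)
  obtain ⟨v, hv, h1⟩ := exists_big ((Int.natCast_pos.2 (DD_pos hm K)).trans_le hη)
  have h2 : (2 * (cJ m s x : ℤ) + 1) * cDel m s x < xx f (sOf m s.1) s.2 v := by
    have h3 : cDel m s x * (4 * m ^ 2) ≤ eta f (sOf m s.1) s.2 := by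
      rw [hδ]; exact Int.ediv_mul_le _ (by positivity)
    have h4 : (cJ m s x : ℤ) ≤ m := by exact_mod_cast Nat.le_of_lt_succ hJ
    have h5 : 4 * m * cDel m s x ≤ xx f (sOf m s.1) s.2 v :=
      le_of_mul_le_mul_left (a := (m : ℤ)) (by nlinarith) (by omega)
    nlinarith
  have hL : cL m s x < m := by
    refine nogap (W := sOf m s.1) (s := s.2) (fun j hj h3 => ?_) hv (hleast v hv h2)
    by_contra h4
    refine hg (lt_of_le_of_lt (fnd_le hj ((cGap_iff j).2 ⟨fun u hu => ?_, h3⟩)) hj)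
    by_contra h5
    push Not at h5
    exact h4 ⟨u, hu, h5⟩
  have hL' := fnd_lt (hL.trans (Nat.lt_succ_self m))
  change (s.2.any fun e => (List.range m).any fun v => cIn m s x (cL m s x) e v) = true at hL'
  have hE : s.2.find? (fun e => (List.range m).any fun v => cIn m s x (cL m s x) e v) =
      some (cE m s x) := by
    unfold cE
    rw [← List.isSome_find?] at hL'
    obtain ⟨e, he⟩ := Option.isSome_iff_exists.1 hL'
    rw [he, Option.getD_some]
  have hR : ∀ v, v ∈ sOf m (cR m s x) ↔ cIn m s x (cL m s x) (cE m s x) v = true := fun v =>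
    mem_sOf_map_range _ v
  refine ⟨List.mem_of_find?_eq_some hE, hpos, by nlinarith [Int.natCast_nonneg (cJ m s x)],
    fun v => (hJ' v).imp (fun h => by linarith) fun h => by linarith, hL, hleast,
    fun v => (hR v).trans (cIn_iff hx _ _ _), ?_, by simp [cD], by simp [cK, cRank], fun v => ?_,
    (cRank_spec _ _ _).1, (cRank_spec _ _ _).2⟩
  · have hE' := List.find?_some hE
    obtain ⟨u, hu⟩ := any_range.1 hE'
    exact ⟨u, (hR u).2 hu⟩
  · unfold cD
    rw [fn, getD_map_range _ _ v.2, fn]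
    simp only [mem_sOf]
    cases (cR m s x).getD v false <;> rfl

theorem step_spec (hm : 0 < m) (hh : Calls h f) (hf : Submod f) (hb : ∀ A, |f A| ≤ 2 ^ K)
    (hl : s.1.length = m) (hI : Inv f K (sOf m s.1) s.2) :
    (step h m (DD m K) s).1.length = m ∧
    Inv f K (sOf m (step h m (DD m K) s).1) (step h m (DD m K) s).2 ∧
    (eta f (sOf m s.1) s.2 < DD m K ∧ step h m (DD m K) s = s ∨
      meas K (sOf m (step h m (DD m K) s).1) (step h m (DD m K) s).2 < meas K (sOf m s.1) s.2) := by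
  have hx := cx_eq hh s
  unfold step out
  rw [cEta_eq hx, cB_eq hh]
  split_ifs with h1 h2 h3
  · exact ⟨hl, hI, Or.inl ⟨h1, rfl⟩⟩
  · obtain ⟨h3, h4⟩ := (cGap_iff _).1 (fnd_lt h2)
    have := hI.gap hf hm (cG m s)
      (sOf m ((List.range m).map fun v => s.1.getD v false && cLo s (cG m s) v))
      (fun v => by rw [mem_sOf_map_range, Bool.and_eq_true, cLo_iff, mem_sOf]) h3 h4
    exact ⟨by simp, this.1, Or.inr this.2⟩
  · have := (push_spec hm hI hx (not_lt.1 h1) h2).sat hI hf h3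
    exact ⟨hl, this.1, Or.inr this.2⟩
  · have := (push_spec hm hI hx (not_lt.1 h1) h2).nonsat hI hf hb (not_lt.1 h1)
      (by rw [cDel, cEta_eq hx]) (not_le.1 h3) _ rfl
    exact ⟨hl, this.1, Or.inr this.2⟩

theorem step_stop (hh : Calls h f) (h1 : eta f (sOf m s.1) s.2 < DD m K) :
    step h m (DD m K) s = s := by
  unfold step out
  rw [cEta_eq (cx_eq hh s), if_pos h1]

theorem init_spec (hb : ∀ A, |f A| ≤ 2 ^ K) :
    Inv f K (sOf m (init m (DD m K)).1) (init m (DD m K)).2 ∧
      meas K (sOf m (init m (DD m K)).1) (init m (DD m K)).2 < TT m K := by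
  have h1 : ∀ v, fn m ((List.range m).map fun _ => 0) v = 0 := fun v => getD_map_range _ _ v.2
  have h2 : ∀ v, fn m (List.range m) v = v := fun v => by simp [fn]
  have h3 : sOf m ((List.range m).map fun _ => true) = univ :=
    eq_univ_of_forall fun v => (mem_sOf_map_range _ v).2 rfl
  unfold init
  simp only [h3]
  refine ⟨⟨by simp, ?_, ?_, ?_, ?_, ?_, ?_, ?_, fun B => ⟨B, subset_univ _, le_rfl⟩, ?_, by simp⟩, ?_⟩
  · simp
  · simp only [List.mem_singleton, forall_eq]
    exact fun u v h => Fin.ext (by rwa [h2, h2] at h)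
  · simp [h2]
  · simp only [List.mem_singleton, forall_eq, h1]
    simp
  · simp only [List.mem_singleton, forall_eq, h1]
    simp
  · simp only [List.mem_singleton, forall_eq, h1]
    simp
  · simp only [List.mem_singleton, forall_eq, h1]
    simp
  · rw [List.length_singleton, Nat.sub_self, pow_zero, one_mul]
    have : Phi f univ [(DD m K, (List.range m).map fun _ => 0, List.range m)] ≤
        m * (2 * 2 ^ K * DD m K) ^ 2 := by
      refine (sum_le_card_nsmul _ _ ((2 * 2 ^ K * (DD m K : ℤ)) ^ 2) fun v _ => ?_).trans_eq (by simp)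
      refine pow_le_pow_left₀ (le_max_left _ _) (max_le (by positivity) ?_) 2
      unfold xx
      rw [List.map_singleton, List.sum_singleton, mul_comm]
      exact mul_le_mul_of_nonneg_right (le_of_abs_le (yy_abs hb v)) (Int.natCast_nonneg _)
    exact_mod_cast this
  · unfold meas TT
    simp only [List.length_singleton, List.map_singleton, List.sum_singleton, h1, Nat.sub_zero,
      sum_const, card_univ, Fintype.card_fin, smul_eq_mul, Nat.add_sub_cancel, mul_add_one, sq]
    omega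

theorem sz_fn_le {l : List ℕ} (h1 : l.length = m) (h2 : ∀ v, fn m l v ≤ m) :
    sz l ≤ m * (4 * m + 2) + 1 := by
  refine (sz_list_le (B := 4 * m + 1) fun a ha => ?_).trans_eq (by rw [h1])
  obtain ⟨i, hi, rfl⟩ := List.getElem_of_mem ha
  have := h2 ⟨i, h1 ▸ hi⟩
  rw [fn, List.getD_eq_getElem _ _ hi] at this
  have := sz_nat_le_self l[i]
  omega

theorem sz_state (hl : s.1.length = m) (hI : Inv f K (sOf m s.1) s.2) : sz s ≤ BB m K := by
  have h1 := sz_boolList_le s.1
  have h2 : sz s.2 ≤ s.2.length * (4 * (K + 3 * m + 6) + 1 + 2 * (m * (4 * m + 2) + 1) + 3) + 1 := by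
    refine sz_list_le (B := 4 * (K + 3 * m + 6) + 1 + 2 * (m * (4 * m + 2) + 1) + 2) fun e he => ?_
    have h3 := sz_fn_le (hI.ln e he).1 (hI.lab e he)
    have h4 := sz_fn_le (hI.ln e he).2 fun v => (hI.rk e he v).le
    have h5 : e.1 ≤ DD m K := hI.sum ▸ List.le_sum_of_mem (List.mem_map_of_mem he)
    have h6 : DD m K < 2 ^ (K + 3 * m + 6) := by
      unfold DD
      calc 32 * m ^ 3 * 2 ^ K ≤ 32 * (2 ^ m) ^ 3 * 2 ^ K := by gcongr; exact Nat.lt_two_pow_self.le
        _ < 64 * (2 ^ m) ^ 3 * 2 ^ K := by gcongr; norm_num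
        _ = _ := by ring
    have h7 := sz_nat_le_of_lt (h5.trans_lt h6)
    rw [sz_prod, sz_prod]
    omega
  have h3 := Nat.mul_le_mul_right (4 * (K + 3 * m + 6) + 1 + 2 * (m * (4 * m + 2) + 1) + 3) hI.len
  rw [sz_prod, BB]
  omega

theorem iter_spec (hm : 0 < m) (hh : Calls h f) (hf : Submod f) (hb : ∀ A, |f A| ≤ 2 ^ K) (k : ℕ) :
    ∀ s, s = (step h m (DD m K))^[k] (init m (DD m K)) → s.1.length = m ∧ Inv f K (sOf m s.1) s.2 ∧
      (eta f (sOf m s.1) s.2 < DD m K ∨ meas K (sOf m s.1) s.2 + k < TT m K) := by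
  induction k with
  | zero =>
    rintro s rfl
    exact ⟨by simp [init], (init_spec hb).1, Or.inr (init_spec hb).2⟩
  | succ k ih =>
    rintro s rfl
    rw [Function.iterate_succ_apply']
    obtain ⟨h1, h2, h3⟩ := ih _ rfl
    obtain ⟨h4, h5, h6⟩ := step_spec hm hh hf hb h1 h2
    refine ⟨h4, h5, ?_⟩
    rcases h6 with ⟨h6, h7⟩ | h6
    · rw [h7]; exact Or.inl h6
    · rcases h3 with h3 | h3
      · rw [step_stop hh h3]; exact Or.inl h3
      · right; omega

theorem sfm_spec (hh : Calls h f) (hf : Submod f) (hb : ∀ A, |f A| ≤ 2 ^ K) (B : Finset (Fin m)) :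
    f (sOf m (sfm h (⟨m⟩, ⟨K⟩))) ≤ f B := by
  rcases Nat.eq_zero_or_pos m with rfl | hm
  · exact (congrArg f (Subsingleton.elim _ _)).le
  unfold sfm
  rw [iterC_eq fun k _ => sz_state (iter_spec hm hh hf hb _ _ rfl).1 (iter_spec hm hh hf hb _ _ rfl).2.1]
  obtain ⟨-, h1, h2⟩ := iter_spec hm hh hf hb (TT m K) _ rfl
  exact h1.stop hf (h2.resolve_right (by omega)) B

end Crest.Agent.R302.Sfm
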