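import Crest.Agent.R302.Bas

/-!
# R302/Sub: elementary facts on submodular functions (TASK)
-/

set_option autoImplicit false
set_option linter.unusedSectionVars false

namespace Crest.Agent.R302

open Finset Crest.Agent.R309

variable {U E : Type} [Fintype U] [DecidableEq U] [Fintype E] [DecidableEq E]
  {f : Finset U → ℤ} {x y : U → ℤ}

/-- `sum_union_inter` -/
theorem Submod.slack (hf : Submod f) (x : U → ℤ) : Submod (slack f x) := by
  intro A B
  have h1 := hf A B
  have h2 := sum_union_inter (s₁ := A) (s₂ := B) (f := x)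
  unfold R302.slack
  omega

private theorem sub_nonneg (hx : Below f x) (A : Finset U) : 0 ≤ slack f x A := by
  have := hx A
  unfold slack; omega

private theorem sub_ind (A : Finset U) (g : U → ℤ) :
    ∑ u ∈ A, g u = ∑ u, if u ∈ A then g u else 0 := by
  rw [sum_ite_mem, univ_inter]

theorem slack_union_le (hf : Submod f) (hx : Below f x) (A B : Finset U) :
    slack f x (A ∪ B) ≤ slack f x A + slack f x B := by
  have h1 := hf.slack x A B
  have h2 := sub_nonneg hx (A ∩ B)
  omega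

theorem slack_inter_le (hf : Submod f) (hx : Below f x) (A B : Finset U) :
    slack f x (A ∩ B) ≤ slack f x A + slack f x B := by
  have h1 := hf.slack x A B
  have h2 := sub_nonneg hx (A ∪ B)
  omega

/-- induction on `s`; the empty union has slack `0` -/
theorem slack_sup_le {ι : Type} (hf : Nice f) (hx : Below f x) (s : Finset ι) (A : ι → Finset U) :
    slack f x (s.sup A) ≤ ∑ i ∈ s, slack f x (A i) := by
  classical
  induction s using Finset.induction_on with
  | empty => simp [slack, hf.emp]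
  | insert i s hi ih =>
    rw [sup_insert, sum_insert hi]
    have := slack_union_le hf.sub hx (A i) (s.sup A)
    rw [sup_eq_union]
    omega

/-- induction on `s`; the empty intersection `univ` has slack `0` -/
theorem slack_inf_le {ι : Type} (hf : Nice f) (hx : Below f x) (h0 : ∑ u, x u = 0) (s : Finset ι)
    (A : ι → Finset U) : slack f x (s.inf A) ≤ ∑ i ∈ s, slack f x (A i) := by
  classical
  induction s using Finset.induction_on with
  | empty => simp [slack, hf.top, h0]
  | insert i s hi ih =>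
    rw [inf_insert, sum_insert hi]
    have := slack_inter_le hf.sub hx (A i) (s.inf A)
    rw [inf_eq_inter]
    omega

/-- For `v ∈ P`, `u ∉ P` choose `A v u ∋ v`, `∌ u` of slack `< τ`; then `P = ⋃_v ⋂_u A v u`. -/
theorem slack_of_closed (hf : Nice f) (hx : Below f x) (h0 : ∑ u, x u = 0) {τ : ℤ} (hτ : 0 ≤ τ)
    (P : Finset U) (hP : ∀ v ∈ P, ∀ u ∉ P, ¬ CapGe f x v u τ) :
    slack f x P ≤ (Fintype.card U : ℤ) ^ 2 * τ := by
  have h1 : ∀ v u, ∃ A : Finset U, v ∈ P → u ∉ P → v ∈ A ∧ u ∉ A ∧ slack f x A ≤ τ := by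
    intro v u
    by_cases h : v ∈ P ∧ u ∉ P
    · have h2 := hP v h.1 u h.2
      unfold CapGe at h2
      push Not at h2
      obtain ⟨A, h3, h4, h5⟩ := h2
      exact ⟨A, fun _ _ => ⟨h3, h4, h5.le⟩⟩
    · exact ⟨∅, fun hv hu => absurd ⟨hv, hu⟩ h⟩
  choose A hA using h1
  have e : P = P.sup fun v => Pᶜ.inf (A v) := by
    ext w
    simp only [mem_sup, mem_inf, mem_compl]
    refine ⟨fun hw => ⟨w, hw, fun u hu => (hA w u hw hu).1⟩, ?_⟩
    rintro ⟨v, hv, h⟩
    by_contra hw
    exact (hA v w hv hw).2.1 (h w hw)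
  have hc : ∀ S : Finset U, (S.card : ℤ) ≤ Fintype.card U := fun S => by
    exact_mod_cast card_le_univ S
  calc slack f x P = slack f x (P.sup fun v => Pᶜ.inf (A v)) := by rw [← e]
    _ ≤ ∑ v ∈ P, slack f x (Pᶜ.inf (A v)) := slack_sup_le hf hx _ _
    _ ≤ ∑ v ∈ P, ∑ u ∈ Pᶜ, τ := sum_le_sum fun v hv => (slack_inf_le hf hx h0 _ _).trans
        (sum_le_sum fun u hu => (hA v u hv (mem_compl.1 hu)).2.2)
    _ = P.card * (Pᶜ.card * τ) := by simp only [sum_const, nsmul_eq_mul]
    _ ≤ Fintype.card U * (Fintype.card U * τ) :=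
        mul_le_mul (hc P) (mul_le_mul_of_nonneg_right (hc Pᶜ) hτ)
          (mul_nonneg (Int.natCast_nonneg _) hτ) (Int.natCast_nonneg _)
    _ = _ := by ring

theorem abs_sum_le_of_below (hx : Below f x) (h0 : ∑ u, x u = 0) {B : ℤ} (hB : ∀ A, |f A| ≤ B)
    (A : Finset U) : |∑ u ∈ A, x u| ≤ B := by
  have h1 := hx A
  have h2 := hx Aᶜ
  have h3 := sum_add_sum_compl A x
  have h4 := abs_le.1 (hB A)
  have h5 := abs_le.1 (hB Aᶜ)
  rw [abs_le]
  omega

private theorem sub_class {ι : Type} [DecidableEq ι] (hf : Nice f) (hx : Below f x)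
    (h0 : ∑ u, x u = 0) {I S : Finset ι} (hS : S ⊆ I) (A : ι → Finset U) {B : ℤ} (hB : 0 ≤ B)
    (h : ∀ i ∈ I, slack f x (A i) ≤ B) :
    slack f x (S.inf A ∪ (I \ S).sup A) ≤ I.card * B ∧ slack f x ((I \ S).sup A) ≤ I.card * B := by
  have h1 := slack_union_le hf.sub hx (S.inf A) ((I \ S).sup A)
  have h2 := slack_inf_le hf hx h0 S A
  have h3 := slack_sup_le hf hx (I \ S) A
  have h4 := sum_sdiff (f := fun i => slack f x (A i)) hS
  have h5 := sum_le_card_nsmul I (fun i => slack f x (A i)) B h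
  have h6 : 0 ≤ ∑ i ∈ S, slack f x (A i) := sum_nonneg fun i _ => sub_nonneg hx _
  rw [nsmul_eq_mul] at h5
  constructor <;> omega

/-- Choose for each pair `a ∈ D`, `b ∉ D` a separating set; this is a family `𝒜` of at most `m ^ 2` sets (`m = card U`).
Call `u ∼ v` if they lie in the same members of `𝒜`.  `D` is a union of at most `m` classes.  A class is `X \ Y` with
`X` an intersection and `Y` a union of members, in total at most `m ^ 2`; `(y - x) (X \ Y) = (y - x) (X ∪ Y) - (y - x) Y`, and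
`|(y - x) Z| = |slack x Z - slack y Z| ≤ m ^ 2 B` for `Z = X ∪ Y` and `Z = Y` (both slacks lie in `[0, m ^ 2 B]`). -/
theorem range_le (hf : Nice f) (hx : Below f x) (hx0 : ∑ u, x u = 0) (hy : Below f y)
    (hy0 : ∑ u, y u = 0) (D : Finset U) {B : ℤ} (hB : 0 ≤ B)
    (h : ∀ a ∈ D, ∀ b ∉ D, ∃ A : Finset U, ¬ (a ∈ A ↔ b ∈ A) ∧ slack f x A ≤ B ∧ slack f y A ≤ B) :
    |∑ u ∈ D, (y u - x u)| ≤ 2 * (Fintype.card U : ℤ) ^ 3 * B := by
  have h1 : ∀ i : U × U, ∃ A : Finset U, i ∈ D ×ˢ Dᶜ →
      ¬ (i.1 ∈ A ↔ i.2 ∈ A) ∧ slack f x A ≤ B ∧ slack f y A ≤ B := by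
    intro i
    by_cases hi : i ∈ D ×ˢ Dᶜ
    · obtain ⟨A, hA⟩ := h i.1 (mem_product.1 hi).1 i.2 (mem_compl.1 (mem_product.1 hi).2)
      exact ⟨A, fun _ => hA⟩
    · exact ⟨∅, fun h => absurd h hi⟩
  choose A hA using h1
  set I := D ×ˢ Dᶜ with hI
  let sig : U → Finset (U × U) := fun u => I.filter fun i => u ∈ A i
  have hc : ∀ S : Finset U, (S.card : ℤ) ≤ Fintype.card U := fun S => by
    exact_mod_cast card_le_univ S
  have hIc : (I.card : ℤ) * B ≤ (Fintype.card U : ℤ) ^ 2 * B := by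
    rw [hI, card_product, sq]
    have := hc D
    have := hc Dᶜ
    push_cast
    gcongr
  have hcl : ∀ S ∈ D.image sig,
      |∑ u ∈ D.filter (fun u => sig u = S), (y u - x u)| ≤ 2 * ((Fintype.card U : ℤ) ^ 2 * B) := by
    intro S hS
    obtain ⟨w, hw, rfl⟩ := mem_image.1 hS
    have hsub : sig w ⊆ I := filter_subset _ _
    have e : D.filter (fun u => sig u = sig w) =
        ((sig w).inf A ∪ (I \ sig w).sup A) \ (I \ sig w).sup A := by
      rw [union_sdiff_right]
      ext u
      simp only [mem_filter, mem_sdiff, mem_inf, mem_sup, not_exists, not_and]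
      constructor
      · rintro ⟨-, h2⟩
        rw [← h2]
        exact ⟨fun i hi => (mem_filter.1 hi).2,
          fun i hi hu => hi.2 (mem_filter.2 ⟨hi.1, hu⟩)⟩
      · rintro ⟨h2, h3⟩
        have h4 : sig u = sig w := by
          ext i
          refine ⟨fun hi => ?_, fun hi => mem_filter.2 ⟨hsub hi, h2 i hi⟩⟩
          by_contra hn
          exact h3 i ⟨(mem_filter.1 hi).1, hn⟩ (mem_filter.1 hi).2
        refine ⟨?_, h4⟩
        by_contra hu
        have h5 : (w, u) ∈ I := mem_product.2 ⟨hw, mem_compl.2 hu⟩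
        refine (hA _ h5).1 ⟨fun h6 => ?_, fun h6 => ?_⟩
        · have : (w, u) ∈ sig u := h4 ▸ mem_filter.2 ⟨h5, h6⟩
          exact (mem_filter.1 this).2
        · have : (w, u) ∈ sig w := h4 ▸ mem_filter.2 ⟨h5, h6⟩
          exact (mem_filter.1 this).2
    have hz : ∀ Z : Finset U, ∑ u ∈ Z, (y u - x u) = slack f x Z - slack f y Z := by
      intro Z
      rw [sum_sub_distrib]; unfold slack; omega
    rw [e, sum_sdiff_eq_sub subset_union_right, hz, hz]
    obtain ⟨a1, a2⟩ := sub_class hf hx hx0 hsub A hB fun i hi => (hA i hi).2.1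
    obtain ⟨b1, b2⟩ := sub_class hf hy hy0 hsub A hB fun i hi => (hA i hi).2.2
    have c1 := sub_nonneg hx ((sig w).inf A ∪ (I \ sig w).sup A)
    have c2 := sub_nonneg hy ((sig w).inf A ∪ (I \ sig w).sup A)
    have c3 := sub_nonneg hx ((I \ sig w).sup A)
    have c4 := sub_nonneg hy ((I \ sig w).sup A)
    rw [abs_le]
    constructor <;> omega
  rw [← sum_fiberwise_of_maps_to (t := D.image sig) (g := sig) fun u hu => mem_image_of_mem _ hu]
  refine (abs_sum_le_sum_abs _ _).trans ((sum_le_card_nsmul _ _ _ hcl).trans ?_)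
  have h2 : ((D.image sig).card : ℤ) ≤ Fintype.card U :=
    le_trans (by exact_mod_cast card_image_le) (hc D)
  rw [nsmul_eq_mul]
  calc _ ≤ (Fintype.card U : ℤ) * (2 * ((Fintype.card U : ℤ) ^ 2 * B)) := by gcongr
    _ = _ := by ring

/-- telescoping; initial segments of the order are tight -/
theorem gre_prefix {ρ : U → ℕ} (hρ : Function.Injective ρ) (f : Finset U → ℤ) (k : ℕ) :
    ∑ u ∈ univ.filter (fun u => ρ u < k), gre f ρ u = f (univ.filter fun u => ρ u < k) - f ∅ := by
  induction k with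
  | zero => simp
  | succ k ih =>
    by_cases h : ∃ w, ρ w = k
    · obtain ⟨w, rfl⟩ := h
      have e : (univ.filter fun u => ρ u < ρ w + 1) = insert w (univ.filter fun u => ρ u < ρ w) := by
        ext u
        simp only [mem_filter, mem_univ, true_and, mem_insert]
        refine ⟨fun hu => ?_, ?_⟩
        · rcases (Nat.le_of_lt_succ hu).eq_or_lt with h | h
          · exact Or.inl (hρ h)
          · exact Or.inr h
        · rintro (rfl | h) <;> omega
      conv_lhs => rw [e]
      rw [sum_insert (by simp), ih, gre]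
      simp only [Nat.lt_succ_iff]
      omega
    · have e : (univ.filter fun u => ρ u < k + 1) = univ.filter fun u => ρ u < k := by
        refine filter_congr fun u _ => ?_
        have : ρ u ≠ k := fun h' => h ⟨u, h'⟩
        omega
      rw [e, ih]

/-- Induction on `A`, removing the element `u` of largest rank: submodularity for `A` and `{v | ρ v < ρ u}`. -/
theorem gre_below (hf : Submod f) {ρ : U → ℕ} (hρ : Function.Injective ρ) (A : Finset U) :
    ∑ u ∈ A, gre f ρ u ≤ f A - f ∅ := by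
  induction A using Finset.induction_on_max_value ρ with
  | empty => simp
  | insert a s ha hmax ih =>
    have hlt : ∀ u ∈ s, ρ u < ρ a := fun u hu =>
      lt_of_le_of_ne (hmax u hu) fun h => ha (hρ h ▸ hu)
    have h1 := hf (insert a s) (univ.filter fun v => ρ v < ρ a)
    have e1 : insert a s ∪ (univ.filter fun v => ρ v < ρ a) = univ.filter fun v => ρ v ≤ ρ a := by
      ext u
      simp only [mem_union, mem_insert, mem_filter, mem_univ, true_and]
      constructor
      · rintro ((rfl | h) | h)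
        · exact le_rfl
        · exact hmax u h
        · exact h.le
      · intro h
        rcases h.eq_or_lt with h | h
        · exact Or.inl (Or.inl (hρ h))
        · exact Or.inr h
    have e2 : insert a s ∩ (univ.filter fun v => ρ v < ρ a) = s := by
      ext u
      simp only [mem_inter, mem_insert, mem_filter, mem_univ, true_and]
      constructor
      · rintro ⟨rfl | h, h'⟩
        · exact absurd h' (lt_irrefl _)
        · exact h
      · exact fun h => ⟨Or.inr h, hlt u h⟩
    rw [e1, e2] at h1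
    rw [sum_insert ha, gre]
    omega

/-- composition with a lattice homomorphism -/
theorem Submod.comp {V : Type} [DecidableEq V] (hf : Submod f) (φ : Finset V → Finset U)
    (h1 : ∀ A B, φ (A ∪ B) = φ A ∪ φ B) (h2 : ∀ A B, φ (A ∩ B) = φ A ∩ φ B) :
    Submod fun A => f (φ A) := by
  intro A B
  simp only [h1, h2]
  exact hf _ _

/-- composition with a lattice anti-homomorphism -/
theorem Submod.comp' {V : Type} [DecidableEq V] (hf : Submod f) (φ : Finset V → Finset U)
    (h1 : ∀ A B, φ (A ∪ B) = φ A ∩ φ B) (h2 : ∀ A B, φ (A ∩ B) = φ A ∪ φ B) :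
    Submod fun A => f (φ A) := by
  intro A B
  simp only [h1, h2]
  rw [add_comm]
  exact hf _ _

theorem Submod.add {g : Finset U → ℤ} (hf : Submod f) (hg : Submod g) :
    Submod fun A => f A + g A := by
  intro A B
  have h1 := hf A B
  have h2 := hg A B
  simp only []
  omega

/-- modular functions -/
theorem submod_sum (x : U → ℤ) (c : ℤ) : Submod fun A => ∑ u ∈ A, x u + c := by
  intro A B
  have h2 := sum_union_inter (s₁ := A) (s₂ := B) (f := x)
  simp only []
  omega

/-- the cut function of an edge -/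
theorem submod_cut (a b : U) {h : ℤ} (hh : 0 ≤ h) :
    Submod fun A => if (a ∈ A ↔ b ∈ A) then 0 else h := by
  intro A B
  by_cases h1 : a ∈ A <;> by_cases h2 : b ∈ A <;> by_cases h3 : a ∈ B <;> by_cases h4 : b ∈ B <;>
    simp [h1, h2, h3, h4, hh]

/-- `r` intersected with the box `[lo, hi]` -/
def fbox (r : Finset U → ℤ) (lo hi : U → ℤ) (A : Finset U) : ℤ :=
  (univ : Finset (Finset U)).inf' univ_nonempty
    fun X => r X + ∑ u ∈ A \ X, hi u - ∑ u ∈ X \ A, lo u

/-- For minimisers `X` (for `A`) and `Y` (for `B`) use `X ∪ Y` and `X ∩ Y`; element by element the only nontrivial case is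
`hi u - lo u ≥ 0`. -/
theorem fbox_submod {r : Finset U → ℤ} (hr : Submod r) {lo hi : U → ℤ} (h : ∀ u, lo u ≤ hi u) :
    Submod (fbox r lo hi) := by
  intro A B
  obtain ⟨X, -, hX⟩ := exists_mem_eq_inf' (univ_nonempty (α := Finset U))
    fun X => r X + ∑ u ∈ A \ X, hi u - ∑ u ∈ X \ A, lo u
  obtain ⟨Y, -, hY⟩ := exists_mem_eq_inf' (univ_nonempty (α := Finset U))
    fun X => r X + ∑ u ∈ B \ X, hi u - ∑ u ∈ X \ B, lo u
  have h1 : fbox r lo hi (A ∪ B) ≤ _ := inf'_le _ (mem_univ (X ∪ Y))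
  have h2 : fbox r lo hi (A ∩ B) ≤ _ := inf'_le _ (mem_univ (X ∩ Y))
  have h3 := hr X Y
  have h4 : (∑ u ∈ (A ∪ B) \ (X ∪ Y), hi u - ∑ u ∈ (X ∪ Y) \ (A ∪ B), lo u) +
      (∑ u ∈ (A ∩ B) \ (X ∩ Y), hi u - ∑ u ∈ (X ∩ Y) \ (A ∩ B), lo u) ≤
      (∑ u ∈ A \ X, hi u - ∑ u ∈ X \ A, lo u) + (∑ u ∈ B \ Y, hi u - ∑ u ∈ Y \ B, lo u) := by
    simp only [sub_ind (_ \ _), ← sum_sub_distrib, ← sum_add_distrib]
    refine sum_le_sum fun u _ => ?_
    have := h u
    by_cases h1 : u ∈ A <;> by_cases h2 : u ∈ B <;> by_cases h3 : u ∈ X <;>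
      by_cases h4 : u ∈ Y <;> simp [h1, h2, h3, h4] <;> omega
  unfold fbox at h1 h2 ⊢
  rw [hX, hY]
  omega

/-- `x A = x X + x (A \ X) - x (X \ A)` -/
theorem below_fbox {r : Finset U → ℤ} {lo hi : U → ℤ} (hx : Below r x)
    (h : ∀ u, lo u ≤ x u ∧ x u ≤ hi u) : Below (fbox r lo hi) x := by
  intro A
  refine le_inf' _ _ fun X _ => ?_
  have h1 := hx X
  have h2 : ∑ u ∈ A \ X, x u ≤ ∑ u ∈ A \ X, hi u := sum_le_sum fun u _ => (h u).2
  have h3 : ∑ u ∈ X \ A, lo u ≤ ∑ u ∈ X \ A, x u := sum_le_sum fun u _ => (h u).1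
  have h4 := sum_sdiff_sub_sum_sdiff (s₁ := X) (s₂ := A) (f := x)
  omega

/-- take `X = A` -/
theorem fbox_le (r : Finset U → ℤ) (lo hi : U → ℤ) (A : Finset U) : fbox r lo hi A ≤ r A := by
  have h : fbox r lo hi A ≤ _ := inf'_le _ (mem_univ A)
  simpa using h

/-- `A = {u}`, `X = ∅` and `A = univ.erase u`, `X = univ` -/
theorem box_of_below_fbox {r : Finset U → ℤ} {lo hi : U → ℤ} (h0 : r ∅ = 0)
    (hx : Below (fbox r lo hi) x) (ht : ∑ u, x u = r univ) (u : U) : lo u ≤ x u ∧ x u ≤ hi u := by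
  have h1 : fbox r lo hi {u} ≤ _ := inf'_le _ (mem_univ ∅)
  have h2 : fbox r lo hi (univ.erase u) ≤ _ := inf'_le _ (mem_univ univ)
  have h3 := hx {u}
  have h4 := hx (univ.erase u)
  have h5 := add_sum_erase univ x (mem_univ u)
  have e : (univ : Finset U) \ univ.erase u = {u} := by
    ext v; simp
  rw [e] at h2
  simp only [sdiff_empty, sum_singleton, empty_sdiff, sum_empty, h0,
    sdiff_eq_empty_iff_subset.2 (subset_univ _)] at h1 h2 h3
  omega

end Crest.Agent.R302
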