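import Crest.Agent.R302.Nu
import Crest.Agent.R302.Coarse

/-!
# R302/Sys: the system and its energy (definitions, finished file)

`K = KK f pr` is to be sampled.  `x0 ∈ K` is a balanced centre, `F` a forest on `U` with widths `wd`, `F'` a forest on the fibres `E` whose edges are
witnessed by edges `pc e` of `F`.  A configuration `σ : U → ℤ` has the coordinates `y σ u` (sums over descendants in `F`) and `z σ e` (sums over descendants in `F'`).
In real terms, with `κ = ell * L ∈ [1, 2]`, the energy is (`Er_eq`)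
`κ (nu / Dn + ∑ y² / (2 G^31 wd²) + ∑_{e not a root} G^44 z² / (2 wd (pc e)²) + ∑_{e root} (4 g |z| + z² / 2)) + ell ∑_{e root} φ e z e`.
-/

set_option autoImplicit false
set_option linter.unusedSectionVars false

namespace Crest.Agent.R302

open Finset Crest.Agent.R309

/-- The data. -/
structure Sys (U E : Type) where
  /-- size parameter -/
  G : ℕ
  /-- the submodular function -/
  f : Finset U → ℤ
  /-- the fibres -/
  pr : U → E
  /-- the centre -/
  x0 : U → ℤ
  /-- the forest on `U` -/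
  F : Forest U
  /-- widths -/
  wd : U → ℕ
  /-- the forest on `E` -/
  F' : Forest E
  /-- the edge of `F` that witnesses an edge of `F'` -/
  pc : E → U

namespace Sys

variable {U E : Type} [Fintype U] [DecidableEq U] [Fintype E] [DecidableEq E] (S : Sys U E)

/-- The hypotheses. -/
structure Good : Prop where
  pow : S.G = 2 ^ Nat.log 2 S.G
  big : 20 ≤ Nat.log 2 S.G
  cardU : Fintype.card U ≤ S.G
  cardE : Fintype.card E ≤ S.G
  nice : Nice S.f
  bd : ∀ A, |S.f A| ≤ 2 ^ S.G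
  x0 : InK S.f S.pr S.x0
  wd_pow : ∀ u, ∃ j, S.wd u = 2 ^ j
  wd_ge : ∀ u, S.G ^ 72 ≤ S.wd u
  wd_le : ∀ u, S.wd u ≤ 2 ^ (S.G + 1)
  wd_root : ∀ u, S.F.par u = none → S.wd u = S.G ^ 72
  sep : ∀ u p, S.F.par u = some p → ∀ A, ¬ (u ∈ A ↔ p ∈ A) → (S.wd u : ℤ) ≤ slack S.f S.x0 A
  range : ∀ x, InK S.f S.pr x → ∀ r, |S.F.sumD (x - S.x0) r| ≤ (S.G : ℤ) ^ 14 * S.wd r
  pc_spec : ∀ e e', S.F'.par e = some e' → ∃ p, S.F.par (S.pc e) = some p ∧
    ((S.pr (S.pc e) = e ∧ S.pr p = e') ∨ (S.pr (S.pc e) = e' ∧ S.pr p = e))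
  cut : ∀ u p, S.F.par u = some p → ∀ e,
    ¬ (S.F'.A (S.pr u) e = true ↔ S.F'.A (S.pr p) e = true) →
      S.F'.par e ≠ none ∧ S.wd u ≤ S.wd (S.pc e)

/-- `G = 2 ^ g` -/
def g : ℕ := Nat.log 2 S.G
/-- the resolution of the energy -/
def L : ℕ := S.G ^ 200
/-- a common multiple of the widths -/
def Dn : ℕ := 2 ^ (S.G + 1)
/-- `Dn / wd` -/
def cu (u : U) : ℕ := S.Dn / S.wd u
/-- the bounds on price differences -/
def lam (u : U) : ℕ := if S.F.par u = none then S.G ^ 14 * S.Dn else S.G ^ 18 * S.cu u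
/-- the penalty for leaving the base polyhedron -/
noncomputable def nu (σ : U → ℤ) : ℤ := S.F.nu S.f S.lam σ
/-- coordinates along `F` -/
def y (σ : U → ℤ) : U → ℤ := S.F.sumD (σ - S.x0)
/-- the elements below `e` -/
def SE (e : E) : Finset U := univ.filter fun u => S.F'.A (S.pr u) e = true
/-- coordinates along `F'` -/
def z (σ : U → ℤ) (e : E) : ℤ := ∑ u ∈ S.SE e, σ u
/-- the common denominator -/
def den : ℕ := 2 * S.G ^ 31 * S.Dn ^ 2
/-- the penalty at a vertex of `F'` that is not a root -/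
def zt (e : E) (t : ℤ) : ℤ := (S.G : ℤ) ^ 75 * (S.cu (S.pc e) * t) ^ 2
/-- the second part of the numerator; `c` shifts the absolute values -/
def num2 (σ : U → ℤ) (c : E → ℤ) : ℤ :=
  ∑ u, (S.cu u * S.y σ u) ^ 2 + ∑ e, if S.F'.par e = none then
    (S.G : ℤ) ^ 31 * (S.Dn : ℤ) ^ 2 * (8 * S.g * |S.z σ e - c e| + S.z σ e ^ 2) else S.zt e (S.z σ e)
/-- the numerator -/
noncomputable def num (σ : U → ℤ) : ℤ := 2 * (S.G : ℤ) ^ 31 * S.Dn * S.nu σ + S.num2 σ 0
/-- the field term -/
def fld (φ : E → ℤ) (σ : U → ℤ) : ℤ := ∑ e ∈ S.F'.roots, φ e * S.z σ e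
/-- the integer energy -/
noncomputable def En (φ : E → ℤ) (σ : U → ℤ) : ℤ := S.L * S.num σ / S.den + S.fld φ σ
/-- the base of the weights -/
noncomputable def q : ℝ := 1 - 1 / (S.L : ℝ)
/-- `q = exp (- ell)` -/
noncomputable def ell : ℝ := - Real.log S.q
/-- the real energy -/
noncomputable def Er (φ : E → ℤ) (σ : U → ℤ) : ℝ :=
  S.ell * ((S.L : ℝ) * S.num σ / S.den + S.fld φ σ)
/-- the energy on count vectors: `nu` sees the `X` counts, the rest sees the `Y` counts and the terminals -/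
noncomputable def Phi (φ : E → ℤ) (c : El U (Option E) → ℤ) : ℝ :=
  S.ell * ((S.L : ℝ) * ((2 * (S.G : ℤ) ^ 31 * S.Dn * S.nu (fun u => c (eX u)) +
    S.num2 (fun u => - c (eY u)) (fun e => c (Sum.inr (some e))) : ℤ) : ℝ) / S.den +
    S.fld φ fun u => - c (eY u))
/-- admissible fields -/
def Adm (φ : E → ℤ) : Prop := ∀ e, |φ e| ≤ (S.G : ℤ) ^ 206
/-- the truncation level -/
def NL : ℤ := (S.G : ℤ) ^ 3 * S.L
/-- configurations of low energy -/
def Gd (φ : E → ℤ) (σ : U → ℤ) : Prop := S.En φ σ < S.NL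
/-- the truncated energy, extended to the level `-1` -/
noncomputable def Ent (φ : E → ℤ) (σ : U → ℤ) : ℤ :=
  S.F.roots.fold min (min S.NL (S.En φ σ)) fun C => S.En φ (σ + dl C)
/-- block lengths -/
def s (u : U) : ℕ := S.wd u / S.G ^ 72
/-- the number of blocks -/
def M : ℕ := 2 * S.G ^ 95
/-- lower corner of the fine box -/
def loF (u : U) : ℤ := - ((S.G : ℤ) ^ 95 * S.s u)
/-- upper corner of the fine box -/
def hiF (u : U) : ℤ := S.loF u + S.s u * S.M - 1
/-- the configuration with given coordinates -/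
def pt (y : U → ℤ) : U → ℤ := S.x0 + S.F.unD y
/-- the corner of a block -/
def cor (a : U → ℤ) : U → ℤ := fun u => S.loF u + S.s u * a u
/-- the energy of a block -/
noncomputable def enC (φ : E → ℤ) (a : U → ℤ) : ℤ := S.Ent φ (S.pt (S.cor a))
/-- fine weights -/
noncomputable def piF (φ : E → ℤ) (y : U → ℤ) : ℝ := S.q ^ S.Ent φ (S.pt y)
/-- coarse weights -/
noncomputable def piC (φ : E → ℤ) (a : U → ℤ) : ℝ := S.q ^ S.enC φ a
/-- the fine box -/
noncomputable def fbx : Finset (U → ℤ) := box S.loF S.hiF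
/-- the coarse box -/
noncomputable def cbox : Finset (U → ℤ) := box 0 fun _ => (S.M : ℤ) - 1
/-- the offsets -/
noncomputable def obox : Finset (U → ℤ) := box 0 fun u => (S.s u : ℤ) - 1
/-- the big box of configurations -/
noncomputable def big : Finset (U → ℤ) := box (fun _ => - 2 ^ (2 * S.G)) fun _ => 2 ^ (2 * S.G)
/-- the starting block -/
def a0 : U → ℤ := fun _ => (S.G : ℤ) ^ 95
/-- the volume of a block -/
def vol : ℕ := ∏ u, S.s u
/-- the coarse partition function -/
noncomputable def ZC (φ : E → ℤ) : ℝ := ∑ a ∈ S.cbox, S.piC φ a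
/-- the statistic that is learnt -/
def stat (a : U → ℤ) (e : E) : ℤ :=
  if S.F'.par e = none ∧ ∑ u, S.pt (S.cor a) u = 0 then S.z (S.pt (S.cor a)) e else 0
/-- its mean -/
noncomputable def mean (φ : E → ℤ) (e : E) : ℝ := (∑ a ∈ S.cbox, S.piC φ a * S.stat a e) / S.ZC φ
/-- the potential of the learning loop -/
noncomputable def Zp (φ : E → ℤ) : ℝ :=
  ∑ a ∈ S.cbox.filter (fun a => ∑ u, S.pt (S.cor a) u = 0), S.q ^ S.En φ (S.pt (S.cor a))
/-- the weight of the blocks with all root sums zero -/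
noncomputable def Z00 (φ : E → ℤ) : ℝ :=
  ∑ a ∈ S.cbox.filter (fun a => ∀ e ∈ S.F'.roots, S.z (S.pt (S.cor a)) e = 0), S.piC φ a
/-- the accepted range of `z` -/
def gz (e : E) : ℕ := if S.F'.par e = none then 0 else S.wd (S.pc e) / S.G ^ 20
/-- the accepted values of `z` -/
noncomputable def zbox : Finset (E → ℤ) := box (fun e => - (S.gz e : ℤ)) fun e => S.gz e
/-- the move that changes only `z e` -/
def pe (e : E) : U → ℤ :=
  if S.F'.par e = none then 0 else (if S.pr (S.pc e) = e then (1 : ℤ) else -1) • S.F.ed (S.pc e)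
/-- the projection -/
def out (σ : U → ℤ) : U → ℤ := σ - ∑ e, S.z σ e • S.pe e
/-- the energy of `z` -/
def Ez (t : E → ℤ) : ℤ := S.L * (∑ e, if S.F'.par e = none then 0 else S.zt e (t e)) / S.den
/-- the test of the output map -/
def okO (σ : U → ℤ) : Prop := (∀ e, |S.z σ e| ≤ S.gz e) ∧ Below S.f (S.out σ)
/-- a point of the block `a` -/
def fine (a o : U → ℤ) : U → ℤ := S.pt fun u => S.cor a u + o u
/-- the exponent of the acceptance probability -/
def accE (k : ℤ) (σ : U → ℤ) : ℕ := min (2 * S.L + S.Ez (S.z σ) - k).toNat (S.G ^ 214)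
/-- the probability of an output with the property `P` from the block `a` of energy `k` -/
noncomputable def outP (k : ℤ) (a : U → ℤ) (P : (U → ℤ) → Prop) : ℝ :=
  (∑ o ∈ S.obox, ind (S.okO (S.fine a o) ∧ P (S.out (S.fine a o))) * S.q ^ S.accE k (S.fine a o)) /
    S.vol
/-- the sum over the accepted values of `z` -/
noncomputable def SZ : ℝ := ∑ t ∈ S.zbox, S.q ^ (2 * S.L + S.Ez t : ℤ)
/-- the limiting probability of each point of `K` -/
noncomputable def cst (φ : E → ℤ) : ℝ := S.SZ / (S.ZC φ * S.vol)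

theorem piC_eq (φ : E → ℤ) (a : U → ℤ) : S.piC φ a = S.piF φ (S.cor a) := rfl

end Sys

end Crest.Agent.R302
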