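import Crest.Agent.R302.Ifc
import Crest.Agent.R302.Feas

/-!
# R302/Unify: two polymatroids as one submodular function (TASK)

A common base `x` in the box corresponds to the vector `(x, -x)` on `Fin (n + n)`.
-/

set_option autoImplicit false

namespace Crest.Agent.R302

open Finset Crest.Agent.Lib.PT Crest.Agent.R309

variable {n R : ℕ} {r₁ r₂ : Finset (Fin n) → ℤ} {lo hi : Fin n → ℤ}

/-- `A ↦ b (A₁) + r₂ (A₂ᶜ) - R` -/
def uni (R : ℕ) (b r₂ : Finset (Fin n) → ℤ) (A : Finset (Fin (n + n))) : ℤ :=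
  b (univ.filter fun j => Fin.castAdd n j ∈ A) + r₂ (univ.filter fun j => Fin.natAdd n j ∉ A) - R

/-- the pairing `u ↦ u % n` -/
def prn (n : ℕ) (u : Fin (n + n)) : Fin (n + n) :=
  ⟨u.val % n, lt_of_le_of_lt (Nat.mod_le _ _) u.2⟩

theorem un_below {x : Fin n → ℤ} (hx : x ∈ CB R r₁ r₂ lo hi) : Below (fbox r₁ lo hi) x :=
  below_fbox (mem_CB.1 hx).2.1 (mem_CB.1 hx).1

theorem un_emp (h : PM R r₁ r₂) (hne : (CB R r₁ r₂ lo hi).Nonempty) : fbox r₁ lo hi ∅ = 0 := by
  obtain ⟨x, hx⟩ := hne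
  have h1 := un_below hx ∅
  have h2 := fbox_le r₁ lo hi ∅
  rw [sum_empty] at h1
  rw [h.emp₁] at h2
  omega

theorem un_top (h : PM R r₁ r₂) (hne : (CB R r₁ r₂ lo hi).Nonempty) : fbox r₁ lo hi univ = R := by
  obtain ⟨x, hx⟩ := hne
  have h1 := un_below hx univ
  have h2 := fbox_le r₁ lo hi univ
  rw [(mem_CB.1 hx).2.2.2] at h1
  rw [h.top₁] at h2
  omega

theorem un_le (hne : (CB R r₁ r₂ lo hi).Nonempty) (j : Fin n) : lo j ≤ hi j := by
  obtain ⟨x, hx⟩ := hne
  exact ((mem_CB.1 hx).1 j).1.trans ((mem_CB.1 hx).1 j).2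

theorem un_bd (h : PM R r₁ r₂) (h0 : ∀ j, 0 ≤ lo j) (hne : (CB R r₁ r₂ lo hi).Nonempty)
    (A : Finset (Fin n)) : 0 ≤ fbox r₁ lo hi A ∧ fbox r₁ lo hi A ≤ R := by
  obtain ⟨x, hx⟩ := hne
  exact ⟨(sum_nonneg fun j _ => (h0 j).trans ((mem_CB.1 hx).1 j).1).trans (un_below hx A),
    (fbox_le r₁ lo hi A).trans (h.bd A).1.2⟩

/-- If the box contains a common base `x`, then `0 ≤ x A ≤ fbox r₁ lo hi A ≤ r₁ A ≤ R`, with equality at `∅` and `univ`. -/
theorem fits_uni {G : ℕ} (hG : Fits₂ G n R) (h : PM R r₁ r₂) (h0 : ∀ j, 0 ≤ lo j)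
    (hne : (CB R r₁ r₂ lo hi).Nonempty) : Fits G (uni R (fbox r₁ lo hi) r₂) := by
  refine ⟨hG.pow, hG.big, hG.card, ⟨fun A B => ?_, ?_, ?_⟩, fun A => ?_⟩
  · have h1 := fbox_submod h.sub₁ (un_le hne) (univ.filter fun j => Fin.castAdd n j ∈ A)
      (univ.filter fun j => Fin.castAdd n j ∈ B)
    have h2 := h.sub₂ (univ.filter fun j => Fin.natAdd n j ∉ A)
      (univ.filter fun j => Fin.natAdd n j ∉ B)
    rw [← filter_or, ← filter_and] at h1 h2
    simp only [uni, mem_union, mem_inter, not_or, not_and_or]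
    omega
  · simp [uni, un_emp h hne, h.top₂]
  · simp [uni, un_top h hne, h.emp₂]
  · have h1 := un_bd h h0 hne (univ.filter fun j => Fin.castAdd n j ∈ A)
    have h2 := (h.bd (univ.filter fun j => Fin.natAdd n j ∉ A)).2
    have h3 : (R : ℤ) < 2 ^ G := by exact_mod_cast hG.bd
    rw [uni, abs_le]
    omega

theorem un_prn_cast (j : Fin n) : prn n (Fin.castAdd n j) = Fin.castAdd n j :=
  Fin.ext (Nat.mod_eq_of_lt j.2)

theorem un_prn_nat (j : Fin n) : prn n (Fin.natAdd n j) = Fin.castAdd n j :=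
  Fin.ext ((Nat.add_mod_left n j.val).trans (Nat.mod_eq_of_lt j.2))

theorem un_pz (σ : Fin (n + n) → ℤ) :
    PZ (prn n) σ ↔ ∀ j, σ (Fin.natAdd n j) = - σ (Fin.castAdd n j) := by
  have key : ∀ e, ∑ u ∈ univ.filter (fun u => prn n u = e), σ u =
      ∑ j, if Fin.castAdd n j = e then σ (Fin.castAdd n j) + σ (Fin.natAdd n j) else 0 := by
    intro e
    rw [sum_filter, Fin.sum_univ_add, ← sum_add_distrib]
    refine sum_congr rfl fun j _ => ?_
    rw [un_prn_cast, un_prn_nat]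
    split_ifs <;> simp
  refine ⟨fun h j => ?_, fun h e => ?_⟩
  · have h1 := h (Fin.castAdd n j)
    rw [key] at h1
    simp only [Fin.castAdd_inj, sum_ite_eq', mem_univ, if_true] at h1
    omega
  · rw [key]
    exact sum_eq_zero fun j _ => by rw [h j]; simp

theorem un_sum {σ : Fin (n + n) → ℤ} (h : ∀ j, σ (Fin.natAdd n j) = - σ (Fin.castAdd n j))
    (A : Finset (Fin (n + n))) :
    ∑ u ∈ A, σ u = ∑ j ∈ univ.filter (fun j => Fin.castAdd n j ∈ A), σ (Fin.castAdd n j) +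
      ∑ j ∈ univ.filter (fun j => Fin.natAdd n j ∉ A), σ (Fin.castAdd n j) -
        ∑ j, σ (Fin.castAdd n j) := by
  rw [← sum_ite_mem_eq A, Fin.sum_univ_add, sum_filter, sum_filter, add_sub_assoc,
    ← sum_sub_distrib]
  congr 1
  refine sum_congr rfl fun j _ => ?_
  rw [h j]
  split_ifs <;> simp

theorem un_exists (S T : Finset (Fin n)) : ∃ A : Finset (Fin (n + n)),
    (univ.filter fun j => Fin.castAdd n j ∈ A) = S ∧
      (univ.filter fun j => Fin.natAdd n j ∉ A) = T := by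
  refine ⟨univ.filter fun u => Fin.addCases (motive := fun _ => Bool) (fun j => decide (j ∈ S))
    (fun j => decide (j ∉ T)) u = true, ?_, ?_⟩
  · ext j
    simp only [mem_filter, mem_univ, true_and, Fin.addCases_left, decide_eq_true_iff]
  · ext j
    simp only [mem_filter, mem_univ, true_and, Fin.addCases_right, decide_eq_true_iff, not_not]

/-- `σ ∈ K` iff `σ (natAdd j) = - σ (castAdd j)` and `x = σ ∘ castAdd` is a common base in the box (`below_fbox`, `fbox_le`, `box_of_below_fbox`) -/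
theorem inK_uni (h : PM R r₁ r₂) (hne : (CB R r₁ r₂ lo hi).Nonempty) (σ : Fin (n + n) → ℤ) :
    InK (uni R (fbox r₁ lo hi) r₂) (prn n) σ ↔ (∀ j, σ (Fin.natAdd n j) = - σ (Fin.castAdd n j)) ∧
      (fun j => σ (Fin.castAdd n j)) ∈ CB R r₁ r₂ lo hi := by
  rw [InK, un_pz, and_comm]
  refine and_congr_right fun hσ => ⟨fun hb => ?_, fun hx A => ?_⟩
  · have key : ∀ S T : Finset (Fin n), ∑ j ∈ S, σ (Fin.castAdd n j) + ∑ j ∈ T, σ (Fin.castAdd n j) -
        ∑ j, σ (Fin.castAdd n j) ≤ fbox r₁ lo hi S + r₂ T - R := by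
      intro S T
      obtain ⟨A, rfl, rfl⟩ := un_exists S T
      rw [← un_sum hσ]
      exact hb A
    have h1 := key univ univ
    have h2 := key ∅ ∅
    rw [un_top h hne, h.top₂] at h1
    rw [un_emp h hne, h.emp₂, sum_empty] at h2
    have h3 : ∑ j, σ (Fin.castAdd n j) = R := by omega
    have h4 : Below (fbox r₁ lo hi) fun j => σ (Fin.castAdd n j) := fun S => by
      have := key S ∅
      rw [h.emp₂, sum_empty] at this
      beta_reduce
      omega
    refine mem_CB.2 ⟨box_of_below_fbox h.emp₁ h4 (h3.trans h.top₁.symm),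
      fun S => (h4 S).trans (fbox_le _ _ _ _), fun T => ?_, h3⟩
    have := key ∅ T
    rw [un_emp h hne, sum_empty] at this
    beta_reduce
    omega
  · have h1 := un_below hx (univ.filter fun j => Fin.castAdd n j ∈ A)
    have h2 := (mem_CB.1 hx).2.2.1 (univ.filter fun j => Fin.natAdd n j ∉ A)
    have h3 := (mem_CB.1 hx).2.2.2
    rw [un_sum hσ, uni]
    beta_reduce at h1 h2 h3
    omega

theorem cnt_uni (h : PM R r₁ r₂) (hne : (CB R r₁ r₂ lo hi).Nonempty) (P : (Fin n → ℤ) → Prop) :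
    cnt (KK (uni R (fbox r₁ lo hi) r₂) (prn n)) (fun σ => P fun j => σ (Fin.castAdd n j)) =
      cnt (CB R r₁ r₂ lo hi) P := by
  classical
  rw [cnt_eq, cnt_eq]
  refine card_nbij' (fun σ j => σ (Fin.castAdd n j)) (fun x => Fin.addCases x fun j => - x j)
    (fun σ hσ => ?_) (fun x hx => ?_) (fun σ hσ => ?_) (fun x _ => ?_)
  · rw [mem_coe, mem_filter, mem_KK, inK_uni h hne] at hσ
    exact mem_coe.2 (mem_filter.2 ⟨hσ.1.2, hσ.2⟩)
  · rw [mem_coe, mem_filter] at hx
    rw [mem_coe, mem_filter, mem_KK, inK_uni h hne]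
    simpa only [Fin.addCases_left, Fin.addCases_right, implies_true, true_and] using hx
  · rw [mem_coe, mem_filter, mem_KK, inK_uni h hne] at hσ
    funext u
    induction u using Fin.addCases with
    | left j => simp only [Fin.addCases_left]
    | right j => simp only [Fin.addCases_right, hσ.1.1 j]
  · funext j
    simp only [Fin.addCases_left]

/-- the list of the complement of a shifted set -/
def unCpl (n s : ℕ) (l : List Bool) : List Bool :=
  (List.range n).map fun j => decide (¬ l.getD (s + j) false = true)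

@[fun_prop] theorem unCpl_pt {α : Type} [Enc α] {n s : α → ℕ} {l : α → List Bool} (hn : PT n)
    (hb : PB n) (hs : PT s) (hl : PT l) : PT fun a => unCpl (n a) (s a) (l a) := by
  unfold unCpl
  refine PT.map (hn.range hb) (PT.decide ?_)
  have h1 : PT fun p : α × ℕ => (l p.1).getD (s p.1 + p.2) false = true := PT.eq_true (by fun_prop)
  fun_prop

theorem sOf_unCpl_zero (l : List Bool) : sOf n (unCpl n 0 l) = (sOf n l)ᶜ := by
  ext j
  rw [unCpl, mem_sOf_map_range, decide_eq_true_iff, mem_compl, mem_sOf, Nat.zero_add]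

theorem sOf_unCpl (l : List Bool) :
    sOf n (unCpl n n l) = univ.filter fun j => Fin.natAdd n j ∉ sOf (n + n) l := by
  ext j
  rw [unCpl, mem_sOf_map_range, decide_eq_true_iff, mem_filter, mem_sOf, Fin.val_natAdd]
  simp only [mem_univ, true_and]

theorem sOf_cast (l : List Bool) :
    sOf n l = univ.filter fun j => Fin.castAdd n j ∈ sOf (n + n) l := by
  ext j
  rw [mem_filter, mem_sOf, mem_sOf, Fin.val_castAdd]
  simp only [mem_univ, true_and]

theorem un_calls {fb : (List Bool → ℤ) → Un × Un × List ℤ × List ℤ × List Bool → ℤ}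
    (hfb : ∀ (m K : ℕ) (r : Finset (Fin m) → ℤ) (h : List Bool → ℤ) (lo hi : List ℤ), Calls h r →
      Submod r → (∀ A, |r A| ≤ 2 ^ K) → (∀ u, |vec m lo u| ≤ 2 ^ K ∧ |vec m hi u| ≤ 2 ^ K) →
      Calls (fun l => fb h (⟨m⟩, ⟨K⟩, lo, hi, l)) (fbox r (vec m lo) (vec m hi)))
    {G : ℕ} {h : Bool × List Bool → ℤ} {lo hi : List ℤ} (hR : R < 2 ^ G) (hp : PM R r₁ r₂)
    (hc : Calls₂ h r₁ r₂) (hb : ∀ j, 0 ≤ vec n lo j ∧ vec n hi j ≤ R)
    (hne : (CB R r₁ r₂ (vec n lo) (vec n hi)).Nonempty) :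
    Calls (fun l => fb (fun l => h (false, l)) (⟨n⟩, ⟨G⟩, lo, hi, l))
      (fbox r₁ (vec n lo) (vec n hi)) := by
  have h3 : (R : ℤ) < 2 ^ G := by exact_mod_cast hR
  refine hfb n G r₁ _ lo hi hc.1 hp.sub₁ (fun A => ?_) fun u => ?_
  · have := (hp.bd A).1
    rw [abs_le]
    omega
  · have h1 := hb u
    have h2 := un_le hne u
    rw [abs_le, abs_le]
    omega

/-- `exists_feas` for `b = fbox r₁ lo hi` (`exists_fbox`) and `p A = R - r₂ Aᶜ` -/
theorem exists_point : ∃ alg : (Bool × List Bool → ℤ) → (Un × Un × ℕ) × List ℤ × List ℤ → List ℤ,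
    HOPT alg ∧ ∀ (n G R : ℕ) (r₁ r₂ : Finset (Fin n) → ℤ) (h : Bool × List Bool → ℤ)
      (lo hi : List ℤ), R < 2 ^ G → PM R r₁ r₂ → Calls₂ h r₁ r₂ →
      (∀ j, 0 ≤ vec n lo j ∧ vec n hi j ≤ R) → (CB R r₁ r₂ (vec n lo) (vec n hi)).Nonempty →
      vec n (alg h ((⟨n⟩, ⟨G⟩, R), lo, hi)) ∈ CB R r₁ r₂ (vec n lo) (vec n hi) := by
  obtain ⟨fb, Hb, hfb⟩ := exists_fbox
  obtain ⟨fe, He, hfe⟩ := exists_feas
  refine ⟨fun h p => fe (fun q => if q.1 = true then (p.1.2.2 : ℤ) - h (true, unCpl p.1.1.n 0 q.2)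
      else fb (fun l => h (false, l)) (p.1.1, p.1.2.1, p.2.1, p.2.2, q.2)) (p.1.1, p.1.2.1),
    fun α _ h hh => ?_, fun n G R r₁ r₂ h lo hi hR hp hc hb hne => ?_⟩
  · refine He.app (h := fun O (c : α × (Un × Un × ℕ) × List ℤ × List ℤ) q =>
      if q.1 = true then (c.2.1.2.2 : ℤ) - h O c.1 (true, unCpl c.2.1.1.n 0 q.2)
      else fb (fun l => h O c.1 (false, l)) (c.2.1.1, c.2.1.2.1, c.2.2.1, c.2.2.2, q.2))
      (OPT.ite (PT.eq_true (by fun_prop)) ?_ ?_) (OPT.pure (by fun_prop))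
    · exact OPT.cont
        (g := fun (c : (α × (Un × Un × ℕ) × List ℤ × List ℤ) × Bool × List Bool) z =>
          (c.1.2.1.2.2 : ℤ) - z) (OPT.call hh (by fun_prop) (by fun_prop)) (by fun_prop)
    · exact Hb.app
        (h := fun O (c : (α × (Un × Un × ℕ) × List ℤ × List ℤ) × Bool × List Bool) l =>
          h O c.1.1 (false, l)) (OPT.call hh (by fun_prop) (by fun_prop)) (OPT.pure (by fun_prop))
  · have h3 : (R : ℤ) < 2 ^ G := by exact_mod_cast hR
    have key := hfe n G (fbox r₁ (vec n lo) (vec n hi)) (fun A => R - r₂ Aᶜ)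
      (fun q => if q.1 = true then (R : ℤ) - h (true, unCpl n 0 q.2)
        else fb (fun l => h (false, l)) (⟨n⟩, ⟨G⟩, lo, hi, q.2))
      (un_calls hfb hR hp hc hb hne)
      (fun l => by
        have := hc.2 (unCpl n 0 l)
        rw [sOf_unCpl_zero] at this
        simp only [if_true, ← this])
      (fbox_submod hp.sub₁ (un_le hne))
      (fun A B => by
        have := hp.sub₂ Aᶜ Bᶜ
        simp only [compl_union, compl_inter]
        omega)
      (un_emp hp hne) (by simp [hp.top₂])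
      (fun A => by
        have h1 := un_bd hp (fun j => (hb j).1) hne A
        have h2 := (hp.bd Aᶜ).2
        rw [abs_le, abs_le]
        omega)
      (fun A => by
        obtain ⟨x, hx⟩ := hne
        have h1 := un_below hx A
        have h2 := (mem_CB.1 hx).2.2.1 Aᶜ
        have h4 := (mem_CB.1 hx).2.2.2
        have h5 := sum_add_sum_compl A x
        omega)
    change vec n (fe (fun q => if q.1 = true then (R : ℤ) - h (true, unCpl n 0 q.2)
      else fb (fun l => h (false, l)) (⟨n⟩, ⟨G⟩, lo, hi, q.2)) (⟨n⟩, ⟨G⟩)) ∈ _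
    generalize vec n (fe (fun q => if q.1 = true then (R : ℤ) - h (true, unCpl n 0 q.2)
      else fb (fun l => h (false, l)) (⟨n⟩, ⟨G⟩, lo, hi, q.2)) (⟨n⟩, ⟨G⟩)) = y at key ⊢
    have h4 : ∑ j, y j = R := by
      have := key univ
      rw [un_top hp hne, compl_univ, hp.emp₂] at this
      omega
    refine mem_CB.2 ⟨box_of_below_fbox hp.emp₁ (fun A => (key A).2) (h4.trans hp.top₁.symm),
      fun A => (key A).2.trans (fbox_le _ _ _ _), fun A => ?_, h4⟩
    have h5 := (key Aᶜ).1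
    have h6 := sum_add_sum_compl A y
    rw [compl_compl] at h5
    omega

/-- the test of the box `[0, R]` and of the sum -/
def unBox (n R : ℕ) (y : List ℤ) : Bool :=
  ((List.range n).all fun j => decide (0 ≤ y.getD j 0 ∧ y.getD j 0 ≤ (R : ℤ))) &&
    decide (((List.range n).map fun j => y.getD j 0).sum = (R : ℤ))

@[fun_prop] theorem unBox_pt {α : Type} [Enc α] {n R : α → ℕ} {y : α → List ℤ} (hn : PT n)
    (hb : PB n) (hR : PT R) (hy : PT y) : PT fun a => unBox (n a) (R a) (y a) := by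
  unfold unBox
  fun_prop

theorem unBox_iff (y : List ℤ) :
    unBox n R y = true ↔ (∀ j, 0 ≤ vec n y j ∧ vec n y j ≤ R) ∧ ∑ j, vec n y j = R := by
  rw [unBox, Bool.and_eq_true, decide_eq_true_iff, tl_sum_range, List.all_eq_true]
  refine and_congr_left' ⟨fun h j => ?_, fun h j hj => ?_⟩
  · exact of_decide_eq_true (h j.val (List.mem_range.2 j.2))
  · exact decide_eq_true (h ⟨j, List.mem_range.1 hj⟩)

/-- compute a candidate by `exists_point` and verify it (`exists_mem`; test the box first) -/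
theorem exists_nonempty : ∃ alg : (Bool × List Bool → ℤ) → Un × Un × ℕ → Bool,
    HOPT alg ∧ ∀ (n G R : ℕ) (r₁ r₂ : Finset (Fin n) → ℤ) (h : Bool × List Bool → ℤ),
      R < 2 ^ G → PM R r₁ r₂ → Calls₂ h r₁ r₂ →
      (alg h (⟨n⟩, ⟨G⟩, R) = true ↔ (CB R r₁ r₂ 0 fun _ => R).Nonempty) := by
  obtain ⟨pt, Hp, hpt⟩ := exists_point
  obtain ⟨mm, Hm, hmm⟩ := exists_mem
  refine ⟨fun h p => (fun y : List ℤ => unBox p.1.n p.2.2 y &&
      (mm (fun l => h (false, l)) (p.1, p.2.1, y) && mm (fun l => h (true, l)) (p.1, p.2.1, y)))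
      (pt h (p, [], (List.range p.1.n).map fun _ => (p.2.2 : ℤ))),
    fun α _ h hh => ?_, fun n G R r₁ r₂ h hR hp hc => ?_⟩
  · refine OPT.bind (g := fun O (c : α × Un × Un × ℕ) (y : List ℤ) => unBox c.2.1.n c.2.2.2 y &&
      (mm (fun l => h O c.1 (false, l)) (c.2.1, c.2.2.1, y) &&
        mm (fun l => h O c.1 (true, l)) (c.2.1, c.2.2.1, y)))
      (Hp.app (h := fun O (c : α × Un × Un × ℕ) q => h O c.1 q)
        (OPT.call hh (by fun_prop) (by fun_prop)) (OPT.pure (by fun_prop))) ?_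
    exact OPT.cont₂ (g := fun (c : (α × Un × Un × ℕ) × List ℤ) (b b' : Bool) =>
        unBox c.1.2.1.n c.1.2.2.2 c.2 && (b && b'))
      (Hm.app (h := fun O (c : (α × Un × Un × ℕ) × List ℤ) l => h O c.1.1 (false, l))
        (OPT.call hh (by fun_prop) (by fun_prop)) (OPT.pure (by fun_prop)))
      (Hm.app (h := fun O (c : (α × Un × Un × ℕ) × List ℤ) l => h O c.1.1 (true, l))
        (OPT.call hh (by fun_prop) (by fun_prop)) (OPT.pure (by fun_prop))) (by fun_prop)
  · have h3 : (R : ℤ) < 2 ^ G := by exact_mod_cast hR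
    have key : ∀ y : List ℤ, (unBox n R y && (mm (fun l => h (false, l)) (⟨n⟩, ⟨G⟩, y) &&
        mm (fun l => h (true, l)) (⟨n⟩, ⟨G⟩, y))) = true ↔
        vec n y ∈ CB R r₁ r₂ 0 fun _ => R := by
      intro y
      rw [Bool.and_eq_true, Bool.and_eq_true, unBox_iff, mem_CB, and_assoc]
      refine and_congr_right fun hb => ?_
      have hy : ∀ u, |vec n y u| ≤ 2 ^ G := fun u => by
        have := hb u
        rw [abs_le]
        omega
      rw [hmm n G r₁ _ y hc.1 hp.sub₁ (fun A => by have := (hp.bd A).1; rw [abs_le]; omega) hy,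
        hmm n G r₂ _ y hc.2 hp.sub₂ (fun A => by have := (hp.bd A).2; rw [abs_le]; omega) hy]
      tauto
    refine (key _).trans ⟨fun hy => ⟨_, hy⟩, fun hne => ?_⟩
    have e1 : vec n [] = 0 := funext fun j => by simp [vec]
    have e2 : vec n ((List.range n).map fun _ => (R : ℤ)) = fun _ => (R : ℤ) :=
      funext fun j => vec_map_range _ j
    have := hpt n G R r₁ r₂ h [] ((List.range n).map fun _ => (R : ℤ)) hR hp hc
      (fun j => by rw [e1, e2]; exact ⟨le_rfl, le_rfl⟩) (by rwa [e1, e2])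
    rwa [e1, e2] at this

/-- the list of the vector `(y, -y)` -/
def unDbl (n : ℕ) (y : List ℤ) : List ℤ :=
  (List.range (n + n)).map fun i => if i < n then y.getD i 0 else - y.getD (i - n) 0

@[fun_prop] theorem unDbl_pt {α : Type} [Enc α] {n : α → ℕ} {y : α → List ℤ} (hn : PT n)
    (hb : PB n) (hy : PT y) : PT fun a => unDbl (n a) (y a) := by
  unfold unDbl
  fun_prop

theorem unDbl_cast (y : List ℤ) (j : Fin n) :
    vec (n + n) (unDbl n y) (Fin.castAdd n j) = vec n y j := by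
  rw [unDbl, vec_map_range, Fin.val_castAdd, if_pos j.2]
  rfl

theorem unDbl_nat (y : List ℤ) (j : Fin n) :
    vec (n + n) (unDbl n y) (Fin.natAdd n j) = - vec n y j := by
  rw [unDbl, vec_map_range, Fin.val_natAdd, if_neg (by omega), Nat.add_sub_cancel_left]
  rfl

/-- Run `frac` with the subroutine for `uni R (fbox r₁ lo hi) r₂`, `pl = (range (n + n)).map (· % n)`, the point `(x, -x)` and the coordinate `castAdd u`. -/
theorem exists_half
    {frac : (List Bool → ℤ) → (Un × List ℕ × List ℤ) × (ℕ × ℤ) × List Bool → ℕ × ℕ} {e : ℕ}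
    (h : FracSpec frac e) : ∃ half, HalfSpec half e := by
  obtain ⟨pt, Hp, hpt⟩ := exists_point
  obtain ⟨fb, Hb, hfb⟩ := exists_fbox
  refine ⟨fun k p => frac (fun L => fb (fun l => k (false, l)) (p.1.1, p.1.2.1, p.2.1.1, p.2.1.2, L) +
      k (true, unCpl p.1.1.n p.1.1.n L) - (p.1.2.2 : ℤ))
      ((p.1.2.1, (List.range (p.1.1.n + p.1.1.n)).map (fun i => i % p.1.1.n),
        unDbl p.1.1.n (pt k (p.1, p.2.1))), p.2.2),
    fun α _ k hk => ?_, fun k a => h.le _ _, fun n G R r₁ r₂ k lo hi u t hG hp hc hb hne => ?_⟩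
  · refine h.pt.app (h := fun O
        (c : α × (Un × Un × ℕ) × (List ℤ × List ℤ) × (ℕ × ℤ) × List Bool) L =>
      fb (fun l => k O c.1 (false, l)) (c.2.1.1, c.2.1.2.1, c.2.2.1.1, c.2.2.1.2, L) +
        k O c.1 (true, unCpl c.2.1.1.n c.2.1.1.n L) - (c.2.1.2.2 : ℤ)) ?_ ?_
    · exact OPT.cont₂ (g := fun
          (c : (α × (Un × Un × ℕ) × (List ℤ × List ℤ) × (ℕ × ℤ) × List Bool) × List Bool)
          (y z : ℤ) => y + z - (c.1.2.1.2.2 : ℤ))
        (Hb.app (h := fun O
          (c : (α × (Un × Un × ℕ) × (List ℤ × List ℤ) × (ℕ × ℤ) × List Bool) × List Bool) l =>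
            k O c.1.1 (false, l)) (OPT.call hk (by fun_prop) (by fun_prop)) (OPT.pure (by fun_prop)))
        (OPT.call hk (by fun_prop) (by fun_prop)) (by fun_prop)
    · exact OPT.cont (g := fun
          (c : α × (Un × Un × ℕ) × (List ℤ × List ℤ) × (ℕ × ℤ) × List Bool) (y : List ℤ) =>
          ((c.2.1.2.1, (List.range (c.2.1.1.n + c.2.1.1.n)).map (fun i => i % c.2.1.1.n),
            unDbl c.2.1.1.n y), c.2.2.2))
        (Hp.app (h := fun O
          (c : α × (Un × Un × ℕ) × (List ℤ × List ℤ) × (ℕ × ℤ) × List Bool) q => k O c.1 q)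
          (OPT.call hk (by fun_prop) (by fun_prop)) (OPT.pure (by fun_prop))) (by fun_prop)
  · have key := h.good (n + n) G (uni R (fbox r₁ (vec n lo) (vec n hi)) r₂) (prn n)
      (fun L => fb (fun l => k (false, l)) (⟨n⟩, ⟨G⟩, lo, hi, L) + k (true, unCpl n n L) - (R : ℤ))
      ((List.range (n + n)).map fun i => i % n) (unDbl n (pt k ((⟨n⟩, ⟨G⟩, R), lo, hi)))
      (Fin.castAdd n u) t (fits_uni hG hp (fun j => (hb j).1) hne)
      (fun L => by
        have h1 := un_calls hfb hG.bd hp hc hb hne L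
        have h2 := hc.2 (unCpl n n L)
        rw [sOf_cast] at h1
        rw [sOf_unCpl] at h2
        simp only [uni, ← h1, ← h2])
      ⟨by simp, fun v => getD_map_range _ 0 v.2⟩
      ((inK_uni hp hne _).2 ⟨fun j => by rw [unDbl_cast, unDbl_nat], by
        simpa only [unDbl_cast] using hpt n G R r₁ r₂ k lo hi hG.bd hp hc hb hne⟩)
    rw [cnt_uni hp hne fun x => x u ≤ t, ← cnt_true (KK _ _), cnt_uni hp hne fun _ => True,
      cnt_true] at key
    exact key

end Crest.Agent.R302
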